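import Crest.Agent.R160.Defs

/-!
Row 160, subtask E: real-variable lemmas.
-/

set_option autoImplicit false
set_option linter.unusedSectionVars false
set_option linter.unusedVariables false
set_option maxHeartbeats 400000

open MeasureTheory ProbabilityTheory Filter Topology
open scoped ENNReal

namespace Crest.Agent.R160

universe u

namespace FinE

lemma sum_choose_le {ρ : ℝ} (h0 : 0 ≤ ρ) (h1 : ρ < 1) (k M : ℕ) :
    ∑ m ∈ Finset.range M, (((m + k).choose k : ℕ) : ℝ) * ρ ^ m ≤ 1 / (1 - ρ) ^ (k + 1) := by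
  have h := hasSum_choose_mul_geometric_of_norm_lt_one (𝕜 := ℝ) k (r := ρ)
    (by rw [Real.norm_eq_abs, abs_of_nonneg h0]; exact h1)
  exact sum_le_hasSum _ (fun m _ => by positivity) h

lemma iter (δ a b : ℕ → ℝ) (h : ∀ t, δ t ≤ Real.exp (a t) * (δ (t + 1) + b t)) (n : ℕ) :
    δ 0 ≤ Real.exp (∑ t ∈ Finset.range n, a t) * δ n +
      ∑ t ∈ Finset.range n, Real.exp (∑ s ∈ Finset.range (t + 1), a s) * b t := by
  induction n with
  | zero => simp
  | succ n ih =>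
    rw [Finset.sum_range_succ (fun t => Real.exp (∑ s ∈ Finset.range (t + 1), a s) * b t),
      Finset.sum_range_succ a n, Real.exp_add]
    have h1 := mul_le_mul_of_nonneg_left (h n) (Real.exp_pos (∑ t ∈ Finset.range n, a t)).le
    nlinarith

/-- The limiting form of `iter`: exponential weights `exp (∑ a) ≤ M lam^n`, `δ n ≤ D x^n`,
`b t ≤ B y^t` with `lam x < 1`, `lam y ≤ 2/3`. -/
lemma iter_lim (δ a b : ℕ → ℝ) (h : ∀ t, δ t ≤ Real.exp (a t) * (δ (t + 1) + b t))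
    (h0 : ∀ t, 0 ≤ δ t) {M lam D x B y : ℝ} (hM : 0 ≤ M) (hlam : 0 ≤ lam) (hx : 0 ≤ x) (hy : 0 ≤ y)
    (hB : 0 ≤ B)
    (ha : ∀ n, Real.exp (∑ t ∈ Finset.range n, a t) ≤ M * lam ^ n)
    (hδ : ∀ n, δ n ≤ D * x ^ n) (hb : ∀ t, b t ≤ B * y ^ t)
    (hlx : lam * x < 1) (hly : lam * y ≤ 2 / 3) : δ 0 ≤ 3 * (M * lam * B) := by
  have hD : 0 ≤ D := by have := (h0 0).trans (hδ 0); simpa using this
  have key : ∀ n, δ 0 ≤ M * D * (lam * x) ^ n + 3 * (M * lam * B) := by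
    intro n
    refine (iter δ a b h n).trans (add_le_add ?_ ?_)
    · calc Real.exp (∑ t ∈ Finset.range n, a t) * δ n ≤ (M * lam ^ n) * (D * x ^ n) :=
            mul_le_mul (ha n) (hδ n) (h0 n) (by positivity)
        _ = M * D * (lam * x) ^ n := by rw [mul_pow]; ring
    · calc ∑ t ∈ Finset.range n, Real.exp (∑ s ∈ Finset.range (t + 1), a s) * b t
          ≤ ∑ t ∈ Finset.range n, (M * lam * B) * (2 / 3 : ℝ) ^ t := by
            refine Finset.sum_le_sum fun t _ => ?_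
            calc Real.exp (∑ s ∈ Finset.range (t + 1), a s) * b t
                ≤ Real.exp (∑ s ∈ Finset.range (t + 1), a s) * (B * y ^ t) :=
                  mul_le_mul_of_nonneg_left (hb t) (Real.exp_pos _).le
              _ ≤ (M * lam ^ (t + 1)) * (B * y ^ t) :=
                  mul_le_mul_of_nonneg_right (ha _) (by positivity)
              _ = (M * lam * B) * (lam * y) ^ t := by rw [mul_pow]; ring
              _ ≤ (M * lam * B) * (2 / 3 : ℝ) ^ t := by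
                  gcongr
        _ = (M * lam * B) * ∑ t ∈ Finset.range n, (2 / 3 : ℝ) ^ t := by rw [Finset.mul_sum]
        _ ≤ (M * lam * B) * 3 := by
            refine mul_le_mul_of_nonneg_left ?_ (by positivity)
            have := sum_choose_le (ρ := 2 / 3) (by norm_num) (by norm_num) 0 n
            simp only [add_zero, Nat.choose_zero_right, Nat.cast_one, one_mul, zero_add,
              pow_one] at this
            norm_num at this ⊢
            exact this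
        _ = 3 * (M * lam * B) := by ring
  have ht : Tendsto (fun n => M * D * (lam * x) ^ n + 3 * (M * lam * B)) atTop
      (𝓝 (M * D * 0 + 3 * (M * lam * B))) :=
    ((tendsto_pow_atTop_nhds_zero_of_lt_one (by positivity) hlx).const_mul _).add_const _
  have := ge_of_tendsto' ht key
  simpa using this

lemma hasDerivAt_tanh (x : ℝ) : HasDerivAt Real.tanh (1 - Real.tanh x ^ 2) x := by
  have h := (Real.hasDerivAt_sinh x).div (Real.hasDerivAt_cosh x) (Real.cosh_pos x).ne'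
  have h2 : Real.tanh = Real.sinh / Real.cosh := by
    funext y; simp [Real.tanh_eq_sinh_div_cosh]
  have h3 : 1 - Real.tanh x ^ 2 =
      (Real.cosh x * Real.cosh x - Real.sinh x * Real.sinh x) / Real.cosh x ^ 2 := by
    have := (Real.cosh_pos x).ne'
    rw [Real.tanh_eq_sinh_div_cosh]
    field_simp
  rw [h3, h2]
  exact h

lemma tanh_mono : Monotone Real.tanh :=
  monotone_of_deriv_nonneg (fun x => (hasDerivAt_tanh x).differentiableAt) fun x => by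
    rw [(hasDerivAt_tanh x).deriv]
    linarith [Real.tanh_sq_lt_one x]

lemma tanh_nonneg {x : ℝ} (hx : 0 ≤ x) : 0 ≤ Real.tanh x := by
  simpa using tanh_mono hx

lemma sub_tanh_mono : Monotone fun x => x - Real.tanh x :=
  monotone_of_deriv_nonneg
    (fun x => ((hasDerivAt_id x).sub (hasDerivAt_tanh x)).differentiableAt) fun x => by
    rw [((hasDerivAt_id' x).fun_sub (hasDerivAt_tanh x)).deriv]
    nlinarith [sq_nonneg (Real.tanh x)]

lemma tanh_le_self {x : ℝ} (hx : 0 ≤ x) : Real.tanh x ≤ x := by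
  have := sub_tanh_mono hx
  simp only [Real.tanh_zero, sub_zero] at this
  linarith

lemma abs_prod_sub_prod_le (z z' : ℕ → ℝ) (hz : ∀ j, 0 ≤ z j ∧ z j ≤ 1)
    (hz' : ∀ j, 0 ≤ z' j ∧ z' j ≤ 1) (m : ℕ) :
    |∏ j ∈ Finset.range m, z j - ∏ j ∈ Finset.range m, z' j| ≤
      ∑ j ∈ Finset.range m, |z j - z' j| := by
  induction m with
  | zero => simp
  | succ m ih =>
    rw [Finset.prod_range_succ, Finset.prod_range_succ, Finset.sum_range_succ]
    set P := ∏ j ∈ Finset.range m, z j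
    set P' := ∏ j ∈ Finset.range m, z' j
    have hP0 : 0 ≤ P' := Finset.prod_nonneg fun j _ => (hz' j).1
    have hP1 : P' ≤ 1 := Finset.prod_le_one (fun j _ => (hz' j).1) fun j _ => (hz' j).2
    have : P * z m - P' * z' m = (P - P') * z m + P' * (z m - z' m) := by ring
    rw [this]
    refine (abs_add_le _ _).trans (add_le_add ?_ ?_)
    · rw [abs_mul, abs_of_nonneg (hz m).1]
      exact (mul_le_of_le_one_right (abs_nonneg _) (hz m).2).trans ih
    · rw [abs_mul, abs_of_nonneg hP0]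
      exact mul_le_of_le_one_left (abs_nonneg _) hP1

end FinE

theorem sum_geom_sq_le {ρ : ℝ} (h0 : 0 ≤ ρ) (h1 : ρ < 1) (M : ℕ) :
    ∑ m ∈ Finset.range M, ρ ^ m * ((m : ℝ) + 1) ^ 2 ≤ 2 / (1 - ρ) ^ 3 := by
  have h := FinE.sum_choose_le h0 h1 2 M
  calc ∑ m ∈ Finset.range M, ρ ^ m * ((m : ℝ) + 1) ^ 2
      ≤ ∑ m ∈ Finset.range M, 2 * ((((m + 2).choose 2 : ℕ) : ℝ) * ρ ^ m) := by
        refine Finset.sum_le_sum fun m _ => ?_
        rw [Nat.cast_choose_two]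
        have hp : 0 ≤ ρ ^ m := by positivity
        have hm : (0 : ℝ) ≤ m := Nat.cast_nonneg m
        push_cast
        nlinarith [mul_nonneg hp hm]
    _ = 2 * ∑ m ∈ Finset.range M, (((m + 2).choose 2 : ℕ) : ℝ) * ρ ^ m := by
        rw [Finset.mul_sum]
    _ ≤ 2 * (1 / (1 - ρ) ^ (2 + 1)) := by gcongr
    _ = 2 / (1 - ρ) ^ 3 := by ring

theorem sum_geom_lin_le {ρ : ℝ} (h0 : 0 ≤ ρ) (h1 : ρ < 1) (M : ℕ) :
    ∑ m ∈ Finset.range M, ρ ^ m * ((m : ℝ) + 1) ≤ 1 / (1 - ρ) ^ 2 := by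
  have h := FinE.sum_choose_le h0 h1 1 M
  simp only [Nat.choose_one_right] at h
  refine le_trans (le_of_eq (Finset.sum_congr rfl fun m _ => ?_)) h
  push_cast
  ring

theorem sum_geom_le {ρ : ℝ} (h0 : 0 ≤ ρ) (h1 : ρ < 1) (M : ℕ) :
    ∑ m ∈ Finset.range M, ρ ^ m ≤ 1 / (1 - ρ) := by
  have h := FinE.sum_choose_le h0 h1 0 M
  simpa using h

theorem finish_sub (δ : ℕ → ℝ) (h0 : ∀ i, 0 ≤ δ i) (C : ℝ) (hC : 0 ≤ C)
    (hbase : ∀ i, δ i ≤ C * (3 / 4) ^ i)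
    (h : ∀ i, δ i ≤ Real.exp (C / 2 ^ i) * δ (i + 1)) : δ 0 = 0 := by
  have := FinE.iter_lim δ (fun i => C / 2 ^ i) (fun _ => 0) (by simpa using h) h0
    (M := Real.exp (2 * C)) (lam := 1) (D := C) (x := 3 / 4) (B := 0) (y := 0) (by positivity)
    (by norm_num) (by norm_num) le_rfl le_rfl (fun n => ?_) hbase (by simp) (by norm_num)
    (by norm_num)
  · exact le_antisymm (by simpa using this) (h0 0)
  · rw [one_pow, mul_one, Real.exp_le_exp]
    have h2 := sum_geom_le (ρ := 1 / 2) (by norm_num) (by norm_num) n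
    calc ∑ t ∈ Finset.range n, C / 2 ^ t = C * ∑ t ∈ Finset.range n, (1 / 2 : ℝ) ^ t := by
          rw [Finset.mul_sum]
          exact Finset.sum_congr rfl fun t _ => by rw [one_div, inv_pow, div_eq_mul_inv]
      _ ≤ C * (1 / (1 - 1 / 2)) := by gcongr
      _ = 2 * C := by ring

theorem tanh_lip (x y : ℝ) : |Real.tanh x - Real.tanh y| ≤ |x - y| := by
  rcases le_total x y with h | h
  · have h1 := FinE.tanh_mono h
    have h2 := FinE.sub_tanh_mono h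
    simp only at h2
    rw [abs_of_nonpos (by linarith), abs_of_nonpos (by linarith)]
    linarith
  · have h1 := FinE.tanh_mono h
    have h2 := FinE.sub_tanh_mono h
    simp only at h2
    rw [abs_of_nonneg (by linarith), abs_of_nonneg (by linarith)]
    linarith

/-- Concavity of `tanh` on the half-line. -/
theorem tanh_mul_ge {β t : ℝ} (hβ : 0 ≤ β) (ht0 : 0 ≤ t) (ht1 : t ≤ 1) :
    (1 - t) * Real.tanh β ≤ Real.tanh (β * (1 - t)) := by
  have hc : ConcaveOn ℝ (Set.Ici 0) Real.tanh := by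
    refine AntitoneOn.concaveOn_of_deriv (convex_Ici 0)
      (fun x _ => (FinE.hasDerivAt_tanh x).continuousAt.continuousWithinAt)
      (fun x _ => (FinE.hasDerivAt_tanh x).differentiableAt.differentiableWithinAt) ?_
    intro x hx y hy hxy
    rw [(FinE.hasDerivAt_tanh x).deriv, (FinE.hasDerivAt_tanh y).deriv]
    have hx0 : 0 ≤ x := interior_subset hx
    have h1 := FinE.tanh_nonneg hx0
    have h2 := FinE.tanh_mono hxy
    nlinarith
  have := hc.2 (Set.mem_Ici.2 hβ) (Set.mem_Ici.2 le_rfl) (by linarith : 0 ≤ 1 - t) ht0 (by ring)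
  simp only [smul_eq_mul, Real.tanh_zero, mul_zero, add_zero] at this
  rwa [mul_comm β]

theorem tanh_mul_le {β t : ℝ} (hβ : 0 ≤ β) (hθ : Real.tanh β ^ 2 ≤ 1 / 2) (ht0 : 0 ≤ t)
    (ht1 : t ≤ 1) : Real.tanh (β * (1 - t)) ≤ (1 - t / 2) * Real.tanh β := by
  have hm : MonotoneOn (fun y => Real.tanh y - y / 2) (Set.Icc 0 β) := by
    have hd : ∀ y, HasDerivAt (fun y => Real.tanh y - y / 2) (1 - Real.tanh y ^ 2 - 1 / 2) y :=
      fun y => (FinE.hasDerivAt_tanh y).fun_sub ((hasDerivAt_id' y).div_const 2)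
    refine monotoneOn_of_deriv_nonneg (convex_Icc 0 β)
      (fun x _ => (hd x).continuousAt.continuousWithinAt)
      (fun x _ => (hd x).differentiableAt.differentiableWithinAt) fun x hx => ?_
    rw [(hd x).deriv]
    have hx' := interior_subset hx
    have h1 := FinE.tanh_nonneg hx'.1
    have h2 := FinE.tanh_mono hx'.2
    nlinarith
  have h1 : β * (1 - t) ≤ β := by nlinarith
  have h2 := hm ⟨mul_nonneg hβ (by linarith), h1⟩ ⟨hβ, le_rfl⟩ h1
  simp only at h2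
  have h3 := FinE.tanh_le_self hβ
  nlinarith

theorem le_one_of_tanh_sq {β : ℝ} (hθ : Real.tanh β ^ 2 ≤ 1 / 2) : β ≤ 1 := by
  by_contra hβ
  push Not at hβ
  have h1 := FinE.tanh_mono hβ.le
  have h2 : 3 / 4 ≤ Real.tanh 1 := by
    rw [Real.tanh_eq, le_div_iff₀ (by positivity), Real.exp_neg]
    have he := Real.exp_one_gt_d9
    have hi : (Real.exp 1)⁻¹ ≤ 0.37 := by
      rw [inv_le_comm₀ (Real.exp_pos _) (by norm_num)]
      refine le_trans ?_ he.le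
      norm_num
    linarith
  nlinarith

/-- Discrete Gronwall inequality. -/
theorem gronwall (u : ℕ → ℝ) (a c : ℝ) (ha : 0 ≤ a) (hc : 0 ≤ c) (k₀ N : ℕ) (hu : 0 ≤ u k₀)
    (h : ∀ k, k₀ ≤ k → k < k₀ + N → u (k + 1) ≤ (1 + a) * u k + c) :
    u (k₀ + N) ≤ Real.exp (a * N) * (u k₀ + c * N) := by
  induction N with
  | zero => simp
  | succ N ih =>
    have ih' := ih fun k hk hk' => h k hk (by omega)
    have h1 := h (k₀ + N) (by omega) (by omega)
    have h2 : 1 + a ≤ Real.exp a := by linarith [Real.add_one_le_exp a]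
    have h3 : 1 ≤ Real.exp (a * N) := Real.one_le_exp (by positivity)
    have h4 : Real.exp (a * ((N + 1 : ℕ) : ℝ)) = Real.exp a * Real.exp (a * N) := by
      rw [← Real.exp_add]; push_cast; ring_nf
    rw [← add_assoc, h4]
    have hN : (0 : ℝ) ≤ c * N := by positivity
    have h5 : (1 + a) * u (k₀ + N) ≤ Real.exp a * (Real.exp (a * N) * (u k₀ + c * N)) :=
      (mul_le_mul_of_nonneg_left ih' (by linarith)).trans
        (mul_le_mul_of_nonneg_right h2 (by positivity))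
    have h6 : 1 ≤ Real.exp a * Real.exp (a * N) := one_le_mul_of_one_le_of_one_le (by linarith) h3
    push_cast
    nlinarith

theorem rho_nonneg {θ x : ℝ} (hθ : θ ^ 2 ≤ 1 / 2) (hx0 : 0 ≤ x) (hx1 : x ≤ 1) : 0 ≤ rho θ x := by
  unfold rho
  exact div_nonneg (by linarith) (by nlinarith [sq_nonneg θ])

theorem rho_le_one {θ x : ℝ} (hθ : θ ^ 2 ≤ 1 / 2) (hx0 : 0 ≤ x) (hx1 : x ≤ 1) : rho θ x ≤ 1 := by
  unfold rho
  rw [div_le_one (by nlinarith [sq_nonneg θ])]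
  nlinarith [sq_nonneg θ]

theorem abs_gg_le {θ μ m : ℝ} (hθ0 : 0 ≤ θ) (hθ : θ ^ 2 ≤ 1 / 2) (hμ : |μ| ≤ 1) :
    |gg θ μ m| ≤ |μ| + θ * |m| := by
  have hμ2 : μ ^ 2 ≤ 1 := by rw [← sq_abs]; nlinarith [abs_nonneg μ]
  have hd : 0 < 1 - θ ^ 2 * μ ^ 2 := by nlinarith [sq_nonneg θ, sq_nonneg μ]
  unfold gg
  rw [abs_div, abs_of_pos hd, div_le_iff₀ hd]
  refine (abs_add_le _ _).trans ?_
  rw [abs_mul, abs_mul, abs_mul, abs_of_nonneg hθ0, abs_of_nonneg (by linarith : 0 ≤ 1 - θ ^ 2),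
    abs_of_nonneg (by linarith : 0 ≤ 1 - μ ^ 2), add_mul]
  refine add_le_add (mul_le_mul_of_nonneg_left (by nlinarith [sq_nonneg θ]) (abs_nonneg _)) ?_
  rw [mul_comm |m| θ]
  exact mul_le_mul_of_nonneg_left (by nlinarith [sq_nonneg μ]) (by positivity)


theorem finish_crit (δ : ℕ → ℝ) (h0 : ∀ i, 0 ≤ δ i) (C : ℝ) (hC : 0 ≤ C)
    (hbase : ∀ i, δ i ≤ C * (3 / 4) ^ i)
    (h3 : ∀ i, δ i ≤ Real.exp (C * 2 ^ i) * δ (i + 1))
    (h12 : ∀ r : ℝ, 0 < r → ∃ (A : ℝ) (i₀ : ℕ),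
      (∀ i ≥ i₀, ∀ K : ℕ,
        δ i ≤ Real.exp (A + C * (K + 1) ^ 2 / 2 ^ i) * (δ (i + 1) + C * r ^ K)) ∧
      ∀ η : ℝ, 0 < η → ∀ q : ℕ, ∃ (D : ℝ) (i₁ : ℕ), ∀ i ≥ i₁, ∀ K : ℕ,
        δ i ≤ Real.exp (η + C * (K + 1) ^ 2 / 2 ^ i) *
          (δ (i + 1) + D / 2 ^ (q * i) + C * r ^ K)) :
    δ 0 = 0 := by
  set r : ℝ := Real.exp (-(17 * C + 1)) with hr
  have hr0 : 0 < r := Real.exp_pos _
  have hr2 : r ≤ 1 / 2 := by
    have h1 : r ≤ Real.exp (-1) := Real.exp_le_exp.2 (by linarith)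
    refine h1.trans ?_
    rw [Real.exp_neg, one_div]
    exact inv_anti₀ (by norm_num) (by linarith [Real.exp_one_gt_d9])
  obtain ⟨A, i₀, hA, hη⟩ := h12 r hr0
  obtain ⟨q, hq⟩ : ∃ q : ℕ, 2 * (Real.exp A + 1) < (2 : ℝ) ^ q :=
    pow_unbounded_of_one_lt _ (by norm_num)
  have hq1 : 1 ≤ q := by
    rcases Nat.eq_zero_or_pos q with rfl | h
    · have := Real.exp_pos A
      simp only [pow_zero] at hq
      linarith
    · exact h
  set y : ℝ := (1 / 2) ^ q with hy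
  have hy0 : 0 < y := by positivity
  have hy2 : y ≤ 1 / 2 := by
    have := pow_le_pow_of_le_one (a := (1 / 2 : ℝ)) (by norm_num) (by norm_num) hq1
    simpa [hy] using this
  have hAy : Real.exp A * y ≤ 1 / 2 := by
    rw [hy, one_div, inv_pow, ← div_eq_mul_inv, div_le_iff₀ (by positivity)]
    linarith
  have hrq : r ^ q ≤ y := pow_le_pow_left₀ hr0.le hr2 q
  obtain ⟨D, i₁, hD⟩ := hη (1 / 10) (by norm_num) q
  -- stage 1
  obtain ⟨i₂, hi₂⟩ : ∃ i₂ : ℕ, ∀ i ≥ i₂, C * ((q * i : ℕ) + 1 : ℝ) ^ 2 / 2 ^ i ≤ 1 / 10 := by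
    have ht := (tendsto_pow_const_div_const_pow_of_one_lt 2 (r := (2 : ℝ)) (by norm_num)).const_mul
      (C * (q + 1) ^ 2)
    rw [mul_zero] at ht
    obtain ⟨N, hN⟩ := eventually_atTop.1 (ht.eventually (ge_mem_nhds (by norm_num : (0 : ℝ) < 1 / 10)))
    refine ⟨max N 1, fun i hi => le_trans ?_ (hN i (le_of_max_le_left hi))⟩
    have hi1 : (1 : ℝ) ≤ i := by exact_mod_cast le_of_max_le_right hi
    rw [← mul_div_assoc]
    refine div_le_div_of_nonneg_right ?_ (by positivity)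
    rw [mul_assoc, ← mul_pow]
    push_cast
    gcongr
    nlinarith
  have hlam : Real.exp (1 / 5) ≤ 5 / 4 := by
    have h1 : 1 - 1 / 5 ≤ Real.exp (-(1 / 5)) := by linarith [Real.add_one_le_exp (-(1 / 5 : ℝ))]
    rw [Real.exp_neg, le_inv_comm₀ (by norm_num) (Real.exp_pos _)] at h1
    refine h1.trans (by norm_num)
  set D₁ : ℝ := 3 * (5 / 4 * (|D| + C)) with hD₁
  have hD₁0 : 0 ≤ D₁ := by positivity
  have st1 : ∀ i ≥ max i₁ i₂, δ i ≤ D₁ * y ^ i := by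
    intro i hi
    have := FinE.iter_lim (fun t => δ (i + t)) (fun _ => 1 / 5) (fun t => (|D| + C) * y ^ (i + t))
      (fun t => ?_) (fun t => h0 _) (M := 1) (lam := 5 / 4) (D := C * (3 / 4) ^ i) (x := 3 / 4)
      (B := (|D| + C) * y ^ i) (y := y) (by norm_num) (by norm_num) (by norm_num) hy0.le
      (by positivity) (fun n => ?_) (fun n => ?_) (fun t => ?_) (by norm_num) (by linarith)
    · simp only [add_zero] at this
      refine this.trans (le_of_eq ?_)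
      rw [hD₁]; ring
    · have hit : i + t ≥ i₁ := by have := le_of_max_le_left hi; omega
      have hit2 : i + t ≥ i₂ := by have := le_of_max_le_right hi; omega
      refine (hD (i + t) hit (q * (i + t))).trans ?_
      have e1 : D / 2 ^ (q * (i + t)) ≤ |D| * y ^ (i + t) := by
        rw [hy, ← pow_mul, one_div, inv_pow, ← div_eq_mul_inv]
        exact div_le_div_of_nonneg_right (le_abs_self D) (by positivity)
      have e2 : C * r ^ (q * (i + t)) ≤ C * y ^ (i + t) := by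
        rw [pow_mul]
        gcongr
      have e3 := hi₂ (i + t) hit2
      have e4 : 0 ≤ δ (i + t + 1) + (|D| + C) * y ^ (i + t) := by
        have := h0 (i + t + 1)
        positivity
      calc Real.exp (1 / 10 + C * (((q * (i + t) : ℕ) : ℝ) + 1) ^ 2 / 2 ^ (i + t)) *
            (δ (i + t + 1) + D / 2 ^ (q * (i + t)) + C * r ^ (q * (i + t)))
          ≤ Real.exp (1 / 10 + C * (((q * (i + t) : ℕ) : ℝ) + 1) ^ 2 / 2 ^ (i + t)) *
            (δ (i + t + 1) + (|D| + C) * y ^ (i + t)) :=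
            mul_le_mul_of_nonneg_left (by linarith) (Real.exp_pos _).le
        _ ≤ Real.exp (1 / 5) * (δ (i + t + 1) + (|D| + C) * y ^ (i + t)) :=
            mul_le_mul_of_nonneg_right (Real.exp_le_exp.2 (by linarith)) e4
    · rw [Finset.sum_const, Finset.card_range, nsmul_eq_mul, Real.exp_nat_mul, one_mul]
      exact pow_le_pow_left₀ (Real.exp_pos _).le hlam n
    · refine (hbase _).trans (le_of_eq ?_)
      rw [pow_add]; ring
    · rw [pow_add]; ring_nf; rfl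
  -- stage 2
  set D₂ : ℝ := 3 * (Real.exp (32 * C * q ^ 2) * Real.exp A * C) with hD₂
  have st2 : ∀ i ≥ max i₀ (max i₁ i₂), δ i ≤ D₂ * (Real.exp (16 * C * 2 ^ i) * r ^ (2 ^ i)) := by
    intro i hi
    have := FinE.iter_lim (fun t => δ (i + t))
      (fun t => A + C * (((2 ^ i + q * t : ℕ) : ℝ) + 1) ^ 2 / 2 ^ (i + t))
      (fun t => C * r ^ (2 ^ i + q * t))
      (fun t => hA (i + t) (by have := le_of_max_le_left hi; omega) _) (fun t => h0 _)
      (M := Real.exp (C * (16 * 2 ^ i + 32 * q ^ 2))) (lam := Real.exp A) (D := D₁ * y ^ i) (x := y)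
      (B := C * r ^ (2 ^ i)) (y := y) (by positivity) (by positivity) hy0.le hy0.le
      (by positivity) (fun n => ?_) (fun n => ?_) (fun t => ?_) (by linarith) (by linarith)
    · simp only [add_zero] at this
      refine this.trans (le_of_eq ?_)
      rw [hD₂, show C * (16 * 2 ^ i + 32 * q ^ 2) = 32 * C * q ^ 2 + 16 * C * 2 ^ i by ring,
        Real.exp_add]
      ring
    · rw [← Real.exp_nat_mul, ← Real.exp_add, Real.exp_le_exp, Finset.sum_add_distrib,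
        Finset.sum_const, Finset.card_range, nsmul_eq_mul, add_comm]
      refine add_le_add ?_ le_rfl
      have g1 := sum_geom_le (ρ := 1 / 2) (by norm_num) (by norm_num) n
      have g2 := sum_geom_sq_le (ρ := 1 / 2) (by norm_num) (by norm_num) n
      calc ∑ t ∈ Finset.range n, C * (((2 ^ i + q * t : ℕ) : ℝ) + 1) ^ 2 / 2 ^ (i + t)
          ≤ ∑ t ∈ Finset.range n, C * (8 * 2 ^ i * (1 / 2 : ℝ) ^ t +
              2 * q ^ 2 * ((1 / 2 : ℝ) ^ t * ((t : ℝ) + 1) ^ 2)) := by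
            refine Finset.sum_le_sum fun t _ => ?_
            rw [mul_div_assoc]
            refine mul_le_mul_of_nonneg_left ?_ hC
            rw [div_le_iff₀ (by positivity), pow_add]
            have e1 : (1 / 2 : ℝ) ^ t * 2 ^ t = 1 := by rw [← mul_pow]; norm_num
            have e2 : (1 : ℝ) ≤ 2 ^ i := one_le_pow₀ (by norm_num)
            have e3 : (8 * 2 ^ i * (1 / 2 : ℝ) ^ t +
                2 * q ^ 2 * ((1 / 2 : ℝ) ^ t * ((t : ℝ) + 1) ^ 2)) * (2 ^ i * 2 ^ t) =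
                (8 * 2 ^ i * 2 ^ i + 2 * q ^ 2 * ((t : ℝ) + 1) ^ 2 * 2 ^ i) *
                  ((1 / 2 : ℝ) ^ t * 2 ^ t) := by ring
            rw [e3, e1, mul_one]
            push_cast
            set u : ℝ := 2 ^ i
            have hq0 : (0 : ℝ) ≤ q := Nat.cast_nonneg q
            have ht0 : (0 : ℝ) ≤ t := Nat.cast_nonneg t
            have e4 : (q * t : ℝ) ^ 2 ≤ q ^ 2 * ((t : ℝ) + 1) ^ 2 := by
              rw [mul_pow]; gcongr; linarith
            have e5 : q ^ 2 * ((t : ℝ) + 1) ^ 2 ≤ q ^ 2 * ((t : ℝ) + 1) ^ 2 * u :=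
              le_mul_of_one_le_right (by positivity) e2
            nlinarith [sq_nonneg (u + 1 - q * t)]
        _ = C * (8 * 2 ^ i * ∑ t ∈ Finset.range n, (1 / 2 : ℝ) ^ t +
              2 * q ^ 2 * ∑ t ∈ Finset.range n, (1 / 2 : ℝ) ^ t * ((t : ℝ) + 1) ^ 2) := by
            rw [← Finset.mul_sum, Finset.sum_add_distrib, ← Finset.mul_sum, ← Finset.mul_sum]
        _ ≤ C * (8 * 2 ^ i * (1 / (1 - 1 / 2)) + 2 * q ^ 2 * (2 / (1 - 1 / 2) ^ 3)) := by
            gcongr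
        _ = C * (16 * 2 ^ i + 32 * q ^ 2) := by ring
    · refine (st1 (i + n) (by have := le_of_max_le_right hi; omega)).trans (le_of_eq ?_)
      rw [pow_add]; ring
    · rw [pow_add, pow_mul, ← mul_assoc]
      gcongr
  -- conclusion
  have st3 : ∀ i, δ 0 ≤ Real.exp (C * (2 ^ i - 1)) * δ i := by
    intro i
    induction i with
    | zero => simp
    | succ i ih =>
      refine ih.trans ?_
      rw [show C * (2 ^ (i + 1) - 1) = C * (2 ^ i - 1) + C * 2 ^ i by ring, Real.exp_add, mul_assoc]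
      exact mul_le_mul_of_nonneg_left (h3 i) (Real.exp_pos _).le
  have hD₂0 : 0 ≤ D₂ := by positivity
  have st4 : ∀ i ≥ max i₀ (max i₁ i₂), δ 0 ≤ D₂ * (1 / 2 : ℝ) ^ i := by
    intro i hi
    refine (st3 i).trans ((mul_le_mul_of_nonneg_left (st2 i hi) (Real.exp_pos _).le).trans ?_)
    rw [mul_left_comm]
    refine mul_le_mul_of_nonneg_left ?_ hD₂0
    rw [hr, ← Real.exp_nat_mul, ← Real.exp_add, ← Real.exp_add]
    have e1 : (2 : ℝ) ^ i ≤ Real.exp (2 ^ i) := by linarith [Real.add_one_le_exp ((2 : ℝ) ^ i)]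
    calc Real.exp (C * (2 ^ i - 1) + (16 * C * 2 ^ i + ((2 ^ i : ℕ) : ℝ) * -(17 * C + 1)))
        ≤ Real.exp (-(2 ^ i)) := by
          rw [Real.exp_le_exp]; push_cast; nlinarith
      _ ≤ (1 / 2 : ℝ) ^ i := by
          rw [Real.exp_neg, one_div, inv_pow]
          exact inv_anti₀ (by positivity) e1
  have ht : Tendsto (fun i : ℕ => D₂ * (1 / 2 : ℝ) ^ i) atTop (𝓝 (D₂ * 0)) :=
    (tendsto_pow_atTop_nhds_zero_of_lt_one (by norm_num) (by norm_num)).const_mul _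
  have := ge_of_tendsto ht (eventually_atTop.2 ⟨_, st4⟩)
  exact le_antisymm (by simpa using this) (h0 0)


namespace FinE

lemma rho_le_exp {θ x : ℝ} (hθ : θ ^ 2 ≤ 1 / 2) (hx0 : 0 ≤ x) (hx1 : x ≤ 1) :
    rho θ x ≤ Real.exp (-((1 - θ ^ 2) * x)) := by
  have hd : 0 < 1 - θ ^ 2 * x := by nlinarith [sq_nonneg θ]
  refine le_trans ?_ (Real.add_one_le_exp _)
  unfold rho
  rw [div_le_iff₀ hd]
  have : 0 ≤ (1 - θ ^ 2) * x * (θ ^ 2 * x) := by
    have : 0 ≤ 1 - θ ^ 2 := by linarith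
    positivity
  nlinarith

/-- The damping factor with its exponential part removed. -/
noncomputable def zz (θ x : ℝ) : ℝ := Real.exp ((1 - θ ^ 2) * x) * rho θ x

lemma zz_mem {θ x : ℝ} (hθ : θ ^ 2 ≤ 1 / 2) (hx0 : 0 ≤ x) (hx1 : x ≤ 1) :
    0 ≤ zz θ x ∧ zz θ x ≤ 1 := by
  refine ⟨mul_nonneg (Real.exp_pos _).le (rho_nonneg hθ hx0 hx1), ?_⟩
  calc zz θ x ≤ Real.exp ((1 - θ ^ 2) * x) * Real.exp (-((1 - θ ^ 2) * x)) :=
        mul_le_mul_of_nonneg_left (rho_le_exp hθ hx0 hx1) (Real.exp_pos _).le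
    _ = 1 := by rw [← Real.exp_add]; simp

lemma hasDerivAt_zz {θ x : ℝ} (hd : 1 - θ ^ 2 * x ≠ 0) :
    HasDerivAt (zz θ) (-(Real.exp ((1 - θ ^ 2) * x) * ((1 - θ ^ 2) * x * (1 + θ ^ 2 - θ ^ 2 * x)) /
      (1 - θ ^ 2 * x) ^ 2)) x := by
  have h1 : HasDerivAt (fun x => Real.exp ((1 - θ ^ 2) * x))
      (Real.exp ((1 - θ ^ 2) * x) * ((1 - θ ^ 2) * 1)) x :=
    ((hasDerivAt_id' x).const_mul _).exp
  have h2 : HasDerivAt (fun x => (1 - x) / (1 - θ ^ 2 * x))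
      ((-1 * (1 - θ ^ 2 * x) - (1 - x) * -(θ ^ 2 * 1)) / (1 - θ ^ 2 * x) ^ 2) x :=
    ((hasDerivAt_id' x).const_sub 1).fun_div (((hasDerivAt_id' x).const_mul _).const_sub 1) hd
  have h3 := h1.fun_mul h2
  have h4 : zz θ = fun x => Real.exp ((1 - θ ^ 2) * x) * ((1 - x) / (1 - θ ^ 2 * x)) := rfl
  rw [h4]
  refine h3.congr_deriv ?_
  field_simp
  ring

lemma zz_lip {θ x x' : ℝ} (hθ : θ ^ 2 ≤ 1 / 2) (hx : 0 ≤ x ∧ x ≤ 1) (hx' : 0 ≤ x' ∧ x' ≤ 1) :
    |zz θ x - zz θ x'| ≤ 18 * ((x + x') * |x - x'|) := by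
  have hθ0 := sq_nonneg θ
  set M := max x x' with hM
  have hM1 : M ≤ 1 := max_le hx.2 hx'.2
  have hM2 : M ≤ x + x' := max_le (by linarith [hx'.1]) (by linarith [hx.1])
  have key := Convex.norm_image_sub_le_of_norm_hasDerivWithin_le (f := zz θ) (s := Set.Icc 0 M)
    (C := 18 * (x + x')) (x := x') (y := x)
    (fun t ht => (hasDerivAt_zz (θ := θ) (x := t)
      (by have := ht.1; have := ht.2; nlinarith)).hasDerivWithinAt)
    (fun t ht => ?_) (convex_Icc 0 M) ⟨hx'.1, le_max_right _ _⟩ ⟨hx.1, le_max_left _ _⟩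
  · simpa only [Real.norm_eq_abs, mul_assoc] using key
  · have ht0 := ht.1
    have ht1 := ht.2.trans hM1
    have ht2 := ht.2.trans hM2
    have hd : 1 / 2 ≤ 1 - θ ^ 2 * t := by nlinarith
    have ha : 0 ≤ 1 - θ ^ 2 := by linarith
    have hb : 0 ≤ 1 + θ ^ 2 - θ ^ 2 * t := by linarith
    rw [norm_neg, Real.norm_eq_abs, abs_of_nonneg (by positivity), div_le_iff₀ (by positivity)]
    have he : Real.exp ((1 - θ ^ 2) * t) ≤ 3 := by
      have : Real.exp ((1 - θ ^ 2) * t) ≤ Real.exp 1 := Real.exp_le_exp.2 (by nlinarith)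
      linarith [Real.exp_one_lt_d9]
    have h1 : (1 - θ ^ 2) * t * (1 + θ ^ 2 - θ ^ 2 * t) ≤ 1 * t * (3 / 2) := by
      gcongr
      · linarith
      · nlinarith
    have h2 : Real.exp ((1 - θ ^ 2) * t) * ((1 - θ ^ 2) * t * (1 + θ ^ 2 - θ ^ 2 * t)) ≤
        3 * (1 * t * (3 / 2)) := mul_le_mul he h1 (by positivity) (by norm_num)
    have h3 : 1 / 4 ≤ (1 - θ ^ 2 * t) ^ 2 := by nlinarith
    have h4 : 18 * (x + x') * (1 / 4) ≤ 18 * (x + x') * (1 - θ ^ 2 * t) ^ 2 :=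
      mul_le_mul_of_nonneg_left h3 (by linarith)
    linarith

lemma prod_rho_eq (θ : ℝ) (m : ℕ) (x : ℕ → ℝ) :
    ∏ j ∈ Finset.range m, rho θ (x j) =
      Real.exp (-((1 - θ ^ 2) * ∑ j ∈ Finset.range m, x j)) * ∏ j ∈ Finset.range m, zz θ (x j) := by
  rw [Finset.mul_sum, ← Finset.sum_neg_distrib, Real.exp_sum, ← Finset.prod_mul_distrib]
  refine Finset.prod_congr rfl fun j _ => ?_
  rw [zz, ← mul_assoc, ← Real.exp_add]
  simp

lemma prod_diff {θ : ℝ} (hθ : θ ^ 2 ≤ 1 / 2) (m : ℕ) (x x' : ℕ → ℝ) (W : ℝ)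
    (hx : ∀ j, 0 ≤ x j ∧ x j ≤ 1) (hx' : ∀ j, 0 ≤ x' j ∧ x' j ≤ 1)
    (hW : Real.exp (-(1 / 2) * ∑ j ∈ Finset.range m, x j) ≤ W)
    (hle : ∑ j ∈ Finset.range m, x j ≤ ∑ j ∈ Finset.range m, x' j) :
    (∏ j ∈ Finset.range m, rho θ (x j) - ∏ j ∈ Finset.range m, rho θ (x' j)) ^ 2 ≤
      6000 * W * ((∑ j ∈ Finset.range m, (x j - x' j)) ^ 2 +
        ∑ j ∈ Finset.range m, (x j - x' j) ^ 2) := by
  have hθ0 := sq_nonneg θ
  rw [prod_rho_eq, prod_rho_eq, Finset.sum_sub_distrib]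
  have hZ := abs_prod_sub_prod_le (fun j => zz θ (x j)) (fun j => zz θ (x' j))
    (fun j => zz_mem hθ (hx j).1 (hx j).2) (fun j => zz_mem hθ (hx' j).1 (hx' j).2) m
  have hZ0 : 0 ≤ ∏ j ∈ Finset.range m, zz θ (x j) :=
    Finset.prod_nonneg fun j _ => (zz_mem hθ (hx j).1 (hx j).2).1
  have hZ1 : ∏ j ∈ Finset.range m, zz θ (x j) ≤ 1 :=
    Finset.prod_le_one (fun j _ => (zz_mem hθ (hx j).1 (hx j).2).1)
      fun j _ => (zz_mem hθ (hx j).1 (hx j).2).2
  have hZ2 : ∑ j ∈ Finset.range m, |zz θ (x j) - zz θ (x' j)| ≤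
      18 * ∑ j ∈ Finset.range m, (x j + x' j) * |x j - x' j| := by
    rw [Finset.mul_sum]
    exact Finset.sum_le_sum fun j _ => zz_lip hθ (hx j) (hx' j)
  have hCS := Finset.sum_mul_sq_le_sq_mul_sq (Finset.range m) (fun j => x j + x' j)
    fun j => |x j - x' j|
  simp only [sq_abs] at hCS
  have hS : ∑ j ∈ Finset.range m, (x j + x' j) ^ 2 ≤
      2 * (∑ j ∈ Finset.range m, x j + ∑ j ∈ Finset.range m, x' j) := by
    rw [← Finset.sum_add_distrib, Finset.mul_sum]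
    refine Finset.sum_le_sum fun j _ => ?_
    nlinarith [(hx j).1, (hx j).2, (hx' j).1, (hx' j).2]
  have hQ0 : 0 ≤ ∑ j ∈ Finset.range m, (x j - x' j) ^ 2 :=
    Finset.sum_nonneg fun j _ => sq_nonneg _
  have hX0 : 0 ≤ ∑ j ∈ Finset.range m, x j := Finset.sum_nonneg fun j _ => (hx j).1
  have hT0 : 0 ≤ ∑ j ∈ Finset.range m, (x j + x' j) * |x j - x' j| :=
    Finset.sum_nonneg fun j _ => mul_nonneg (by linarith [(hx j).1, (hx' j).1]) (abs_nonneg _)
  set X := ∑ j ∈ Finset.range m, x j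
  set X' := ∑ j ∈ Finset.range m, x' j
  set Q := ∑ j ∈ Finset.range m, (x j - x' j) ^ 2
  set T := ∑ j ∈ Finset.range m, (x j + x' j) * |x j - x' j|
  set Z := ∏ j ∈ Finset.range m, zz θ (x j)
  set Z' := ∏ j ∈ Finset.range m, zz θ (x' j)
  set a := 1 - θ ^ 2 with ha
  have ha0 : 1 / 2 ≤ a := by linarith
  have ha1 : a ≤ 1 := by linarith
  set E := Real.exp (-(a * X)) with hE
  set E' := Real.exp (-(a * X')) with hE'
  have hE0 : 0 < E := Real.exp_pos _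
  have hE0' : 0 < E' := Real.exp_pos _
  have hEW : E ≤ W := le_trans (Real.exp_le_exp.2 (by nlinarith)) hW
  have hE1 : E ≤ 1 := Real.exp_le_one_iff.2 (by nlinarith)
  have hEE : E' ≤ E := Real.exp_le_exp.2 (by nlinarith)
  have hEd : E - E' ≤ E * (X' - X) := by
    have h1 : E' = E * Real.exp (-(a * (X' - X))) := by
      rw [hE, hE', ← Real.exp_add]; ring_nf
    have h2 := Real.add_one_le_exp (-(a * (X' - X)))
    have h3 : 1 - (X' - X) ≤ Real.exp (-(a * (X' - X))) := by nlinarith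
    have h4 := mul_le_mul_of_nonneg_left h3 hE0.le
    linarith
  have hEX : E' * X' ≤ 2 := by
    have h1 : E' ≤ Real.exp (-(X' / 2)) := Real.exp_le_exp.2 (by nlinarith)
    have h2 : X' / 2 ≤ Real.exp (X' / 2) := by linarith [Real.add_one_le_exp (X' / 2)]
    have h3 : Real.exp (-(X' / 2)) * Real.exp (X' / 2) = 1 := by rw [← Real.exp_add]; simp
    have h4 := mul_le_mul h1 h2 (by linarith) (Real.exp_pos _).le
    linarith
  have hZZ : (Z - Z') ^ 2 ≤ 1296 * (X' * Q) := by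
    have h1 : |Z - Z'| ≤ 18 * T := hZ.trans hZ2
    have h2 : (Z - Z') ^ 2 ≤ (18 * T) ^ 2 := by
      rw [← sq_abs]
      exact pow_le_pow_left₀ (abs_nonneg _) h1 2
    have h3 : T ^ 2 ≤ 4 * X' * Q :=
      hCS.trans (mul_le_mul_of_nonneg_right (by linarith) hQ0)
    linarith
  have t1 : ((E - E') * Z) ^ 2 ≤ W * (X - X') ^ 2 := by
    have h1 : (E - E') * Z ≤ E * (X' - X) :=
      (mul_le_of_le_one_right (by linarith) hZ1).trans hEd
    have h2 := pow_le_pow_left₀ (mul_nonneg (by linarith) hZ0) h1 2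
    have h3 : E ^ 2 ≤ W := by nlinarith
    calc ((E - E') * Z) ^ 2 ≤ (E * (X' - X)) ^ 2 := h2
      _ = E ^ 2 * (X - X') ^ 2 := by ring
      _ ≤ W * (X - X') ^ 2 := mul_le_mul_of_nonneg_right h3 (sq_nonneg _)
  have t2 : (E' * (Z - Z')) ^ 2 ≤ 2592 * (W * Q) := by
    calc (E' * (Z - Z')) ^ 2 = E' * E' * (Z - Z') ^ 2 := by ring
      _ ≤ E' * E' * (1296 * (X' * Q)) := mul_le_mul_of_nonneg_left hZZ (by positivity)
      _ = 1296 * (E' * (E' * X') * Q) := by ring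
      _ ≤ 1296 * (W * 2 * Q) := by
          gcongr
          · exact mul_nonneg hE0'.le (hX0.trans hle)
          · exact hE0.le.trans hEW
          · exact hEE.trans hEW
      _ = 2592 * (W * Q) := by ring
  have hW0 : 0 ≤ W := hE0.le.trans hEW
  have t3 : 0 ≤ W * (X - X') ^ 2 := by positivity
  have t4 : 0 ≤ W * Q := by positivity
  have t5 : (E * Z - E' * Z') ^ 2 ≤ 2 * ((E - E') * Z) ^ 2 + 2 * (E' * (Z - Z')) ^ 2 := by
    have : E * Z - E' * Z' = (E - E') * Z + E' * (Z - Z') := by ring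
    rw [this]
    nlinarith [sq_nonneg ((E - E') * Z - E' * (Z - Z'))]
  have : 6000 * W * ((X - X') ^ 2 + Q) = 6000 * (W * (X - X') ^ 2) + 6000 * (W * Q) := by ring
  rw [this]
  linarith

lemma mob_sub {θ μ μ' : ℝ} (h : 1 + θ * μ ≠ 0) (h' : 1 + θ * μ' ≠ 0) :
    (μ + θ) / (1 + θ * μ) - (μ' + θ) / (1 + θ * μ') =
      (μ - μ') * ((1 - θ ^ 2) / ((1 + θ * μ) * (1 + θ * μ'))) := by
  rw [div_sub_div _ _ h h', ← mul_div_assoc]
  congr 1
  ring

lemma abs_le_of_sq {θ : ℝ} (hθ : θ ^ 2 ≤ 1 / 2) : |θ| ≤ 0.71 := by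
  rw [← sq_abs] at hθ
  by_contra h
  push Not at h
  nlinarith

lemma den_bounds {θ μ : ℝ} (hμ : |μ| ≤ 1) : 1 - |θ| ≤ 1 + θ * μ ∧ 1 + θ * μ ≤ 1 + |θ| := by
  have h : |θ * μ| ≤ |θ| := by
    rw [abs_mul]; exact mul_le_of_le_one_right (abs_nonneg _) hμ
  have := abs_le.1 h
  constructor <;> linarith

lemma slope_ge {θ μ μ' : ℝ} (hθ : θ ^ 2 ≤ 1 / 2) (hμ : |μ| ≤ 1) (hμ' : |μ'| ≤ 1) :
    1 / 7 ≤ (1 - θ ^ 2) / ((1 + θ * μ) * (1 + θ * μ')) := by
  have h1 := abs_le_of_sq hθ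
  have h2 := den_bounds (θ := θ) hμ
  have h3 := den_bounds (θ := θ) hμ'
  have h4 : 0 < 1 + θ * μ := by linarith
  have h5 : 0 < 1 + θ * μ' := by linarith
  rw [le_div_iff₀ (by positivity)]
  have h6 : (1 + θ * μ) * (1 + θ * μ') ≤ 1.71 * 1.71 :=
    mul_le_mul (by linarith) (by linarith) h5.le (by norm_num)
  linarith

lemma mob_lip {θ θ' μ : ℝ} (hθ : θ ^ 2 ≤ 1 / 2) (hθ' : θ' ^ 2 ≤ 1 / 2) (hμ : |μ| ≤ 1) :
    |(μ + θ) / (1 + θ * μ) - (μ + θ') / (1 + θ' * μ)| ≤ 16 * |θ - θ'| := by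
  have h1 := abs_le_of_sq hθ
  have h1' := abs_le_of_sq hθ'
  have h2 := den_bounds (θ := θ) hμ
  have h3 := den_bounds (θ := θ') hμ
  have h4 : 0 < 1 + θ * μ := by linarith
  have h5 : 0 < 1 + θ' * μ := by linarith
  have hμ2 : μ ^ 2 ≤ 1 := by rw [← sq_abs]; nlinarith [abs_nonneg μ]
  have e : (μ + θ) / (1 + θ * μ) - (μ + θ') / (1 + θ' * μ) =
      ((1 - μ ^ 2) / ((1 + θ * μ) * (1 + θ' * μ))) * (θ - θ') := by
    rw [div_sub_div _ _ h4.ne' h5.ne', div_mul_eq_mul_div]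
    congr 1
    ring
  rw [e, abs_mul]
  refine mul_le_mul_of_nonneg_right ?_ (abs_nonneg _)
  rw [abs_of_nonneg (div_nonneg (by linarith) (by positivity)), div_le_iff₀ (by positivity)]
  have h6 : 0.29 * 0.29 ≤ (1 + θ * μ) * (1 + θ' * μ) :=
    mul_le_mul (by linarith) (by linarith) (by norm_num) h4.le
  nlinarith [sq_nonneg μ]

lemma gg_eq {θ μ : ℝ} (m : ℝ) (hθ : θ ^ 2 ≤ 1 / 2) (hμ : |μ| ≤ 1) :
    gg θ μ m = (1 + m) / 2 * ((μ + θ) / (1 + θ * μ)) +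
      (1 - m) / 2 * ((μ + -θ) / (1 + -θ * μ)) := by
  have h1 := abs_le_of_sq hθ
  have h2 := den_bounds (θ := θ) hμ
  have h3 := den_bounds (θ := -θ) hμ
  rw [abs_neg] at h3
  have h4 : 1 + θ * μ ≠ 0 := by linarith
  have h5 : 1 + -θ * μ ≠ 0 := by linarith
  have h6 : 1 - θ ^ 2 * μ ^ 2 = (1 + θ * μ) * (1 + -θ * μ) := by ring
  unfold gg
  rw [h6, ← mul_div_assoc, ← mul_div_assoc, div_add_div _ _ h4 h5]
  congr 1
  ring

end FinE

/-- The difference of two covariance products. -/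
theorem prod_ineq : ∃ C : ℝ, 0 ≤ C ∧ ∀ (θ : ℝ), 0 ≤ θ → θ ^ 2 ≤ 1 / 2 → ∀ (m : ℕ) (x x' : ℕ → ℝ)
    (v v' W : ℝ), (∀ j, 0 ≤ x j ∧ x j ≤ 1) → (∀ j, 0 ≤ x' j ∧ x' j ≤ 1) →
    (0 ≤ v ∧ v ≤ 1) → (0 ≤ v' ∧ v' ≤ 1) →
    Real.exp (-(1 / 2) * ∑ j ∈ Finset.range m, x j) ≤ W →
    Real.exp (-(1 / 2) * ∑ j ∈ Finset.range m, x' j) ≤ W →
    (v * ∏ j ∈ Finset.range m, θ * rho θ (x j) -
        v' * ∏ j ∈ Finset.range m, θ * rho θ (x' j)) ^ 2 ≤
      C * (θ ^ 2) ^ m * W * ((v - v') ^ 2 + (∑ j ∈ Finset.range m, (x j - x' j)) ^ 2 +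
        ∑ j ∈ Finset.range m, (x j - x' j) ^ 2) := by
  refine ⟨12000, by norm_num, fun θ hθ0 hθ m x x' v v' W hx hx' hv hv' hW hW' => ?_⟩
  have hd : (∏ j ∈ Finset.range m, rho θ (x j) - ∏ j ∈ Finset.range m, rho θ (x' j)) ^ 2 ≤
      6000 * W * ((∑ j ∈ Finset.range m, (x j - x' j)) ^ 2 +
        ∑ j ∈ Finset.range m, (x j - x' j) ^ 2) := by
    rcases le_total (∑ j ∈ Finset.range m, x j) (∑ j ∈ Finset.range m, x' j) with h | h
    · exact FinE.prod_diff hθ m x x' W hx hx' hW h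
    · have := FinE.prod_diff hθ m x' x W hx' hx hW' h
      have e1 : (∑ j ∈ Finset.range m, (x' j - x j)) ^ 2 =
          (∑ j ∈ Finset.range m, (x j - x' j)) ^ 2 := by
        rw [Finset.sum_sub_distrib, Finset.sum_sub_distrib]; ring
      have e2 : ∑ j ∈ Finset.range m, (x' j - x j) ^ 2 = ∑ j ∈ Finset.range m, (x j - x' j) ^ 2 :=
        Finset.sum_congr rfl fun j _ => by ring
      rw [e1, e2] at this
      refine le_trans (le_of_eq (by ring)) this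
  have hP0 : 0 ≤ ∏ j ∈ Finset.range m, rho θ (x j) :=
    Finset.prod_nonneg fun j _ => rho_nonneg hθ (hx j).1 (hx j).2
  have hP1 : ∏ j ∈ Finset.range m, rho θ (x j) ≤ 1 :=
    Finset.prod_le_one (fun j _ => rho_nonneg hθ (hx j).1 (hx j).2)
      fun j _ => rho_le_one hθ (hx j).1 (hx j).2
  have hPW : ∏ j ∈ Finset.range m, rho θ (x j) ≤ W := by
    refine le_trans ?_ hW
    rw [Finset.mul_sum, Real.exp_sum]
    refine Finset.prod_le_prod (fun j _ => rho_nonneg hθ (hx j).1 (hx j).2) fun j _ => ?_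
    refine (FinE.rho_le_exp hθ (hx j).1 (hx j).2).trans (Real.exp_le_exp.2 ?_)
    nlinarith [(hx j).1]
  have hQ0 : 0 ≤ ∑ j ∈ Finset.range m, (x j - x' j) ^ 2 :=
    Finset.sum_nonneg fun j _ => sq_nonneg _
  rw [Finset.prod_mul_distrib, Finset.prod_mul_distrib, Finset.prod_const, Finset.card_range]
  set P := ∏ j ∈ Finset.range m, rho θ (x j)
  set P' := ∏ j ∈ Finset.range m, rho θ (x' j)
  set Q := ∑ j ∈ Finset.range m, (x j - x' j) ^ 2
  set S := ∑ j ∈ Finset.range m, (x j - x' j)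
  have hW0 : 0 ≤ W := hP0.trans hPW
  have t1 : ((v - v') * P) ^ 2 ≤ W * (v - v') ^ 2 := by
    rw [mul_pow, mul_comm]
    exact mul_le_mul_of_nonneg_right (by nlinarith) (sq_nonneg _)
  have t2 : (v' * (P - P')) ^ 2 ≤ 6000 * W * (S ^ 2 + Q) := by
    rw [mul_pow]
    refine le_trans (mul_le_of_le_one_left (sq_nonneg _) ?_) hd
    nlinarith [hv'.1, hv'.2]
  have t3 : (v * P - v' * P') ^ 2 ≤ 12000 * W * ((v - v') ^ 2 + S ^ 2 + Q) := by
    have e : v * P - v' * P' = (v - v') * P + v' * (P - P') := by ring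
    have t4 : 0 ≤ W * (v - v') ^ 2 := by positivity
    have t5 : ((v - v') * P + v' * (P - P')) ^ 2 ≤
        2 * ((v - v') * P) ^ 2 + 2 * (v' * (P - P')) ^ 2 := by
      nlinarith [sq_nonneg ((v - v') * P - v' * (P - P'))]
    have e2 : 12000 * W * ((v - v') ^ 2 + S ^ 2 + Q) =
        12000 * (W * (v - v') ^ 2) + 2 * (6000 * W * (S ^ 2 + Q)) := by ring
    rw [e, e2]
    linarith
  calc (v * (θ ^ m * P) - v' * (θ ^ m * P')) ^ 2 = (θ ^ 2) ^ m * (v * P - v' * P') ^ 2 := by ring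
    _ ≤ (θ ^ 2) ^ m * (12000 * W * ((v - v') ^ 2 + S ^ 2 + Q)) :=
        mul_le_mul_of_nonneg_left t3 (by positivity)
    _ = 12000 * (θ ^ 2) ^ m * W * ((v - v') ^ 2 + S ^ 2 + Q) := by ring

/-- The cavity magnetisation is a Lipschitz function of the two magnetisations. -/
theorem mu_lip {θ θ' μ μ' m m' : ℝ} (hθ0 : 0 ≤ θ) (hθ : θ ^ 2 ≤ 1 / 2) (hθ0' : 0 ≤ θ')
    (hθ' : θ' ^ 2 ≤ 1 / 2) (hμ : |μ| ≤ 1) (hμ' : |μ'| ≤ 1) (hm : |m| ≤ 1) (hm' : |m'| ≤ 1) :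
    |μ - μ'| ≤ 7 * (|gg θ μ m - gg θ' μ' m'| + |m - m'| + 16 * |θ - θ'|) := by
  have hb := FinE.abs_le_of_sq hθ
  have hm1 := abs_le.1 hm
  have hm1' := abs_le.1 hm'
  have s1 : |μ - μ'| ≤ 7 * |gg θ μ m - gg θ μ' m| := by
    have d1 := FinE.den_bounds (θ := θ) hμ
    have d2 := FinE.den_bounds (θ := θ) hμ'
    have d3 := FinE.den_bounds (θ := -θ) hμ
    have d4 := FinE.den_bounds (θ := -θ) hμ'
    rw [abs_neg] at d3 d4
    have e1 := FinE.mob_sub (θ := θ) (μ := μ) (μ' := μ') (by linarith) (by linarith)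
    have e2 := FinE.mob_sub (θ := -θ) (μ := μ) (μ' := μ') (by linarith) (by linarith)
    have k1 := FinE.slope_ge hθ hμ hμ'
    have k2 := FinE.slope_ge (θ := -θ) (by rwa [neg_sq]) hμ hμ'
    set κ₁ := (1 - θ ^ 2) / ((1 + θ * μ) * (1 + θ * μ'))
    set κ₂ := (1 - (-θ) ^ 2) / ((1 + -θ * μ) * (1 + -θ * μ'))
    have e3 : gg θ μ m - gg θ μ' m = (μ - μ') * ((1 + m) / 2 * κ₁ + (1 - m) / 2 * κ₂) := by
      rw [FinE.gg_eq m hθ hμ, FinE.gg_eq m hθ hμ']
      linear_combination (1 + m) / 2 * e1 + (1 - m) / 2 * e2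
    have k3 : 1 / 7 ≤ (1 + m) / 2 * κ₁ + (1 - m) / 2 * κ₂ := by
      have a1 := mul_le_mul_of_nonneg_left k1 (by linarith : 0 ≤ (1 + m) / 2)
      have a2 := mul_le_mul_of_nonneg_left k2 (by linarith : 0 ≤ (1 - m) / 2)
      linarith
    rw [e3, abs_mul, abs_of_nonneg (by linarith : 0 ≤ (1 + m) / 2 * κ₁ + (1 - m) / 2 * κ₂)]
    have := mul_le_mul_of_nonneg_left k3 (abs_nonneg (μ - μ'))
    linarith
  have s2 : |gg θ μ' m - gg θ μ' m'| ≤ |m - m'| := by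
    have hμ2 : μ' ^ 2 ≤ 1 := by rw [← sq_abs]; nlinarith [abs_nonneg μ']
    have hd : 0 < 1 - θ ^ 2 * μ' ^ 2 := by nlinarith [sq_nonneg θ, sq_nonneg μ']
    have e : gg θ μ' m - gg θ μ' m' = (m - m') * (θ * (1 - μ' ^ 2) / (1 - θ ^ 2 * μ' ^ 2)) := by
      unfold gg
      field_simp
      ring
    rw [e, abs_mul]
    refine mul_le_of_le_one_right (abs_nonneg _) ?_
    rw [abs_of_nonneg (div_nonneg (mul_nonneg hθ0 (by linarith)) hd.le), div_le_one hd]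
    have h1 : θ ≤ 1 := by have := le_abs_self θ; linarith
    have h2 : θ * (1 - μ' ^ 2) ≤ 1 - μ' ^ 2 := mul_le_of_le_one_left (by linarith) h1
    nlinarith [sq_nonneg μ']
  have s3 : |gg θ μ' m' - gg θ' μ' m'| ≤ 16 * |θ - θ'| := by
    have k1 := FinE.mob_lip hθ hθ' hμ'
    have k2 := FinE.mob_lip (θ := -θ) (θ' := -θ') (by rwa [neg_sq]) (by rwa [neg_sq]) hμ'
    rw [show -θ - -θ' = -(θ - θ') by ring, abs_neg] at k2
    rw [FinE.gg_eq m' hθ hμ', FinE.gg_eq m' hθ' hμ']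
    set u := (μ' + θ) / (1 + θ * μ')
    set u' := (μ' + θ') / (1 + θ' * μ')
    set w := (μ' + -θ) / (1 + -θ * μ')
    set w' := (μ' + -θ') / (1 + -θ' * μ')
    have e : (1 + m') / 2 * u + (1 - m') / 2 * w - ((1 + m') / 2 * u' + (1 - m') / 2 * w') =
        (1 + m') / 2 * (u - u') + (1 - m') / 2 * (w - w') := by ring
    rw [e]
    refine (abs_add_le _ _).trans ?_
    rw [abs_mul, abs_mul, abs_of_nonneg (by linarith : 0 ≤ (1 + m') / 2),
      abs_of_nonneg (by linarith : 0 ≤ (1 - m') / 2)]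
    have a1 := mul_le_mul_of_nonneg_left k1 (by linarith : 0 ≤ (1 + m') / 2)
    have a2 := mul_le_mul_of_nonneg_left k2 (by linarith : 0 ≤ (1 - m') / 2)
    linarith
  have s4 : |gg θ μ m - gg θ μ' m| ≤ |gg θ μ m - gg θ' μ' m'| + |gg θ μ' m - gg θ μ' m'| +
      |gg θ μ' m' - gg θ' μ' m'| := by
    have e : gg θ μ m - gg θ μ' m = (gg θ μ m - gg θ' μ' m') - (gg θ μ' m - gg θ μ' m') -
        (gg θ μ' m' - gg θ' μ' m') := by ring
    rw [e]
    exact (abs_sub _ _).trans (add_le_add (abs_sub _ _) le_rfl)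
  linarith

/-- Along a subsequence, asymptotically equicontinuous functions on dyadic grids are uniformly
Cauchy.  `g n t` is only controlled at the points of a fine grid that depends on `n`. -/
theorem exists_subseq_cauchy (g : ℕ → ℝ → ℝ) (hg : ∀ n t, |g n t| ≤ 1)
    (heq : ∀ (i : ℕ) (ε : ℝ), 0 < ε → ∃ (i₀ N : ℕ), ∀ n ≥ N, ∃ p₀ : ℕ, ∀ p ≥ p₀, ∀ k k' : ℕ,
      2 ^ p ≤ k' * 2 ^ i → k' ≤ k → k ≤ 2 ^ p → (k - k') * 2 ^ i₀ ≤ 2 ^ p →
        |g n (k / 2 ^ p) - g n (k' / 2 ^ p)| ≤ ε) :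
    ∃ φ : ℕ → ℕ, StrictMono φ ∧ ∀ (i : ℕ) (ε : ℝ), 0 < ε → ∃ N : ℕ, ∀ n ≥ N, ∀ n' ≥ N,
      ∃ p₀ : ℕ, ∀ p ≥ p₀, ∀ k : ℕ, 2 ^ p ≤ k * 2 ^ i → k ≤ 2 ^ p →
        |g (φ n) (k / 2 ^ p) - g (φ n') (k / 2 ^ p)| ≤ ε := by
  have hc : IsCompact (Set.pi Set.univ fun _ : ℕ × ℕ => Set.Icc (-1 : ℝ) 1) :=
    isCompact_univ_pi fun _ => isCompact_Icc
  obtain ⟨a, -, φ, hφ, hlim⟩ := hc.tendsto_subseq
    (x := fun n (pk : ℕ × ℕ) => g n (pk.2 / 2 ^ pk.1)) fun n pk _ => abs_le.1 (hg n _)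
  refine ⟨φ, hφ, fun i ε hε => ?_⟩
  obtain ⟨i₀, N, hN⟩ := heq i (ε / 4) (by positivity)
  set P := max i i₀ with hP
  have hev : ∀ᶠ n in atTop, ∀ k ∈ Finset.range (2 ^ P + 1),
      |g (φ n) (k / 2 ^ P) - a (P, k)| ≤ ε / 4 := by
    rw [eventually_all_finset]
    intro k _
    have h1 := tendsto_pi_nhds.1 hlim (P, k)
    have h2 := Metric.tendsto_nhds.1 h1 (ε / 4) (by positivity)
    exact h2.mono fun n hn => le_of_lt (by simpa [Real.dist_eq] using hn)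
  obtain ⟨N₂, hN₂⟩ := eventually_atTop.1 hev
  refine ⟨max N N₂, fun n hn n' hn' => ?_⟩
  obtain ⟨p₁, hp₁⟩ := hN (φ n) ((le_of_max_le_left hn).trans (hφ.id_le n))
  obtain ⟨p₂, hp₂⟩ := hN (φ n') ((le_of_max_le_left hn').trans (hφ.id_le n'))
  refine ⟨max (max p₁ p₂) P, fun p hp k hk1 hk2 => ?_⟩
  have hpP : P ≤ p := le_of_max_le_right hp
  obtain ⟨d, rfl⟩ := Nat.exists_eq_add_of_le hpP
  set s := 2 ^ d with hs
  have hs0 : 0 < s := by positivity
  set k₀ := k / s with hk₀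
  have hk₀1 : k₀ ≤ 2 ^ P := by
    rw [hk₀]
    refine Nat.div_le_of_le_mul ?_
    rwa [pow_add, mul_comm] at hk2
  have c1 : 2 ^ (P + d) ≤ k₀ * s * 2 ^ i := by
    obtain ⟨e, he⟩ : ∃ e, P = i + e := Nat.exists_eq_add_of_le (le_max_left i i₀)
    have h1 : 2 ^ e * s ≤ k := by
      refine Nat.le_of_mul_le_mul_right (c := 2 ^ i) ?_ (by positivity)
      refine le_trans (le_of_eq ?_) hk1
      rw [he, hs]; ring
    have h2 : 2 ^ e ≤ k₀ := (Nat.le_div_iff_mul_le hs0).2 h1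
    calc 2 ^ (P + d) = 2 ^ e * s * 2 ^ i := by rw [he, hs]; ring
      _ ≤ k₀ * s * 2 ^ i := by gcongr
  have c2 : k₀ * s ≤ k := Nat.div_mul_le_self k s
  have c3 : (k - k₀ * s) * 2 ^ i₀ ≤ 2 ^ (P + d) := by
    have h1 : k - k₀ * s ≤ s := by
      have := Nat.lt_div_mul_add (a := k) hs0
      rw [← hk₀] at this
      omega
    calc (k - k₀ * s) * 2 ^ i₀ ≤ s * 2 ^ P :=
          Nat.mul_le_mul h1 (Nat.pow_le_pow_right (by norm_num) (le_max_right i i₀))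
      _ = 2 ^ (P + d) := by rw [hs]; ring
  have e1 : ((k₀ * s : ℕ) : ℝ) / 2 ^ (P + d) = (k₀ : ℝ) / 2 ^ P := by
    rw [hs]; push_cast; rw [pow_add]; field_simp
  have b1 := hp₁ (P + d) ((le_max_left _ _).trans (le_of_max_le_left hp)) k (k₀ * s) c1 c2 hk2 c3
  have b2 := hp₂ (P + d) ((le_max_right _ _).trans (le_of_max_le_left hp)) k (k₀ * s) c1 c2 hk2 c3
  rw [e1] at b1 b2
  have b3 := hN₂ n (le_of_max_le_right hn) k₀ (Finset.mem_range.2 (by omega))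
  have b4 := hN₂ n' (le_of_max_le_right hn') k₀ (Finset.mem_range.2 (by omega))
  rw [abs_le] at b1 b2 b3 b4 ⊢
  constructor <;> linarith [b1.1, b1.2, b2.1, b2.2, b3.1, b3.2, b4.1, b4.2]

end Crest.Agent.R160
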