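import Crest.Agent.R160.Defs

/-!
Row 160: elementary properties of finite Gibbs averages.
-/

set_option autoImplicit false
set_option linter.unusedSectionVars false
set_option linter.unusedVariables false
set_option maxHeartbeats 400000

open MeasureTheory ProbabilityTheory Filter Topology
open scoped ENNReal

namespace Crest.Agent.R160

universe u

section avg
variable {α : Type*} {S : Finset α} {H U g g' : α → ℝ}

lemma sum_exp_pos (hS : S.Nonempty) (H : α → ℝ) : 0 < ∑ A ∈ S, Real.exp (H A) :=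
  Finset.sum_pos (fun _ _ => Real.exp_pos _) hS

lemma avg_const (hS : S.Nonempty) (H : α → ℝ) (c : ℝ) : avg S H (fun _ => c) = c := by
  rw [avg, ← Finset.sum_mul, mul_div_cancel_left₀ _ (sum_exp_pos hS H).ne']

lemma avg_add (S : Finset α) (H g g' : α → ℝ) :
    avg S H (fun A => g A + g' A) = avg S H g + avg S H g' := by
  simp only [avg, mul_add, Finset.sum_add_distrib, add_div]

lemma avg_sub (S : Finset α) (H g g' : α → ℝ) :
    avg S H (fun A => g A - g' A) = avg S H g - avg S H g' := by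
  simp only [avg, mul_sub, Finset.sum_sub_distrib, sub_div]

lemma avg_const_mul (S : Finset α) (H g : α → ℝ) (c : ℝ) :
    avg S H (fun A => c * g A) = c * avg S H g := by
  simp only [avg, mul_left_comm _ c, ← Finset.mul_sum, mul_div_assoc]

lemma avg_mul_const (S : Finset α) (H g : α → ℝ) (c : ℝ) :
    avg S H (fun A => g A * c) = avg S H g * c := by
  simp only [mul_comm _ c, avg_const_mul]

lemma avg_neg (S : Finset α) (H g : α → ℝ) : avg S H (fun A => -g A) = -avg S H g := by
  simp only [avg, mul_neg, Finset.sum_neg_distrib, neg_div]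

lemma avg_sum {ι : Type*} (S : Finset α) (H : α → ℝ) (T : Finset ι) (g : ι → α → ℝ) :
    avg S H (fun A => ∑ i ∈ T, g i A) = ∑ i ∈ T, avg S H (g i) := by
  simp only [avg, Finset.mul_sum, ← Finset.sum_div]
  rw [Finset.sum_comm]

lemma avg_congr (h : ∀ A ∈ S, g A = g' A) : avg S H g = avg S H g' := by
  unfold avg
  rw [Finset.sum_congr rfl fun A hA => by rw [h A hA]]

lemma avg_congr_H {H' : α → ℝ} (h : ∀ A ∈ S, H A = H' A) : avg S H g = avg S H' g := by
  unfold avg
  rw [Finset.sum_congr rfl fun A hA => by rw [h A hA],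
    Finset.sum_congr (f := fun A => Real.exp (H A)) rfl fun A hA => by rw [h A hA]]

lemma avg_mono (h : ∀ A ∈ S, g A ≤ g' A) : avg S H g ≤ avg S H g' := by
  unfold avg
  refine div_le_div_of_nonneg_right (Finset.sum_le_sum fun A hA => ?_)
    (Finset.sum_nonneg fun _ _ => (Real.exp_pos _).le)
  exact mul_le_mul_of_nonneg_left (h A hA) (Real.exp_pos _).le

lemma avg_nonneg (h : ∀ A ∈ S, 0 ≤ g A) : 0 ≤ avg S H g :=
  div_nonneg (Finset.sum_nonneg fun A hA => mul_nonneg (Real.exp_pos _).le (h A hA))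
    (Finset.sum_nonneg fun _ _ => (Real.exp_pos _).le)

lemma avg_le (hS : S.Nonempty) {c : ℝ} (h : ∀ A ∈ S, g A ≤ c) : avg S H g ≤ c :=
  (avg_mono h).trans (avg_const hS H c).le

lemma le_avg (hS : S.Nonempty) {c : ℝ} (h : ∀ A ∈ S, c ≤ g A) : c ≤ avg S H g :=
  (avg_const hS H c).ge.trans (avg_mono h)

lemma abs_avg_le (hS : S.Nonempty) {c : ℝ} (h : ∀ A ∈ S, |g A| ≤ c) : |avg S H g| ≤ c :=
  abs_le.2 ⟨le_avg hS fun A hA => (abs_le.1 (h A hA)).1, avg_le hS fun A hA => (abs_le.1 (h A hA)).2⟩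

/-- The average as a sum against the normalised weights. -/
lemma avg_eq_sum (S : Finset α) (H g : α → ℝ) :
    avg S H g = ∑ A ∈ S, Real.exp (H A) / (∑ B ∈ S, Real.exp (H B)) * g A := by
  rw [avg, Finset.sum_div]
  exact Finset.sum_congr rfl fun A _ => by ring

lemma avg_tilt (hS : S.Nonempty) (H U g : α → ℝ) :
    avg S (fun A => H A + U A) g =
      avg S H (fun A => Real.exp (U A) * g A) / avg S H fun A => Real.exp (U A) := by
  have := (sum_exp_pos hS H).ne'
  simp only [avg, Real.exp_add, mul_assoc]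
  field_simp

lemma avg_add_const_H (hS : S.Nonempty) (H g : α → ℝ) (c : ℝ) :
    avg S (fun A => H A + c) g = avg S H g := by
  rw [avg_tilt hS, avg_const_mul, avg_const hS, mul_div_cancel_left₀ _ (Real.exp_pos _).ne']

lemma avg_taylor_small (hS : S.Nonempty) {u : ℝ} (hu1 : u ≤ 1) (hg : ∀ A ∈ S, |g A| ≤ 1)
    (hU : ∀ A ∈ S, |U A| ≤ u) :
    |avg S (fun A => H A + U A) g - avg S H g -
      (avg S H (fun A => g A * U A) - avg S H g * avg S H U)| ≤ 20 * u ^ 2 := by
  obtain ⟨A₀, hA₀⟩ := hS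
  have hS : S.Nonempty := ⟨A₀, hA₀⟩
  have hu0 : 0 ≤ u := (abs_nonneg _).trans (hU A₀ hA₀)
  set m := avg S H g with hm
  have hm1 : |m| ≤ 1 := abs_avg_le hS hg
  set Z := avg S H fun A => Real.exp (U A) with hZ
  have hZ1 : |Z - 1| ≤ 2 * u := by
    have : Z - 1 = avg S H fun A => Real.exp (U A) - 1 := by rw [avg_sub, avg_const hS]
    rw [this]
    refine abs_avg_le hS fun A hA => ?_
    exact (Real.abs_exp_sub_one_le ((hU A hA).trans hu1)).trans (by linarith [hU A hA])
  have hZ3 : 1 / 3 ≤ Z := by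
    refine le_avg hS fun A hA => ?_
    have h1 : -1 ≤ U A := by linarith [(abs_le.1 (hU A hA)).1]
    have h2 := Real.exp_le_exp.2 h1
    have h3 : 1 / 3 ≤ Real.exp (-1) := by
      rw [Real.exp_neg, one_div]
      exact inv_anti₀ (Real.exp_pos _) (by linarith [Real.exp_one_lt_d9])
    linarith
  have hZ0 : 0 < Z := by linarith
  set cov := avg S H (fun A => g A * U A) - m * avg S H U with hcov
  have hcov' : cov = avg S H fun A => (g A - m) * U A := by
    simp only [sub_mul, avg_sub, avg_const_mul, hcov]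
  have hg2 : ∀ A ∈ S, |g A - m| ≤ 2 := fun A hA =>
    (abs_sub _ _).trans (by linarith [hg A hA])
  have hcov2 : |cov| ≤ 2 * u := by
    rw [hcov']
    refine abs_avg_le hS fun A hA => ?_
    rw [abs_mul]
    exact mul_le_mul (hg2 A hA) (hU A hA) (abs_nonneg _) (by norm_num)
  set r := avg S H fun A => (g A - m) * (Real.exp (U A) - 1 - U A) with hr
  have hr2 : |r| ≤ 2 * u ^ 2 := by
    refine abs_avg_le hS fun A hA => ?_
    rw [abs_mul]
    refine mul_le_mul (hg2 A hA) ?_ (abs_nonneg _) (by norm_num)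
    refine (Real.abs_exp_sub_one_sub_id_le ((hU A hA).trans hu1)).trans ?_
    rw [← sq_abs]
    exact pow_le_pow_left₀ (abs_nonneg _) (hU A hA) 2
  have key : avg S H (fun A => Real.exp (U A) * g A) = m * Z + cov + r := by
    have h1 : r = avg S H (fun A => Real.exp (U A) * g A) - m * Z - (m - m) - cov := by
      rw [hr, hcov', hZ, ← avg_const_mul, ← avg_sub]
      nth_rewrite 2 [hm]
      nth_rewrite 3 [← avg_const hS H m]
      rw [← avg_sub, ← avg_sub, ← avg_sub]
      exact avg_congr fun A _ => by ring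
    rw [h1]
    ring
  rw [avg_tilt hS, key, ← hZ]
  have h2 : (m * Z + cov + r) / Z - m - cov = (r - cov * (Z - 1)) / Z := by
    field_simp
    ring
  rw [h2, abs_div, abs_of_pos hZ0, div_le_iff₀ hZ0]
  have h3 : |r - cov * (Z - 1)| ≤ 6 * u ^ 2 := by
    refine (abs_sub _ _).trans ?_
    rw [abs_mul]
    have := mul_le_mul hcov2 hZ1 (abs_nonneg _) (by positivity)
    nlinarith
  nlinarith [sq_nonneg u]

/-- Second-order expansion of a tilted average. -/
lemma avg_taylor (hS : S.Nonempty) {u : ℝ} (hg : ∀ A ∈ S, |g A| ≤ 1) (hU : ∀ A ∈ S, |U A| ≤ u) :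
    |avg S (fun A => H A + U A) g - avg S H g -
      (avg S H (fun A => g A * U A) - avg S H g * avg S H U)| ≤ 20 * u ^ 2 := by
  rcases le_total u 1 with hu1 | hu1
  · exact avg_taylor_small hS hu1 hg hU
  · have h1 : |avg S (fun A => H A + U A) g| ≤ 1 := abs_avg_le hS hg
    have h2 : |avg S H g| ≤ 1 := abs_avg_le hS hg
    have h3 : |avg S H (fun A => g A * U A)| ≤ u := abs_avg_le hS fun A hA => by
      rw [abs_mul]
      exact (mul_le_mul (hg A hA) (hU A hA) (abs_nonneg _) zero_le_one).trans (by linarith)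
    have h4 : |avg S H U| ≤ u := abs_avg_le hS hU
    have h5 : |avg S H g * avg S H U| ≤ u := by
      rw [abs_mul]
      exact (mul_le_mul h2 h4 (abs_nonneg _) zero_le_one).trans (by linarith)
    rw [abs_le] at *
    constructor <;> nlinarith

/-- Averages are Lipschitz in the Hamiltonian. -/
lemma avg_lip (hS : S.Nonempty) {H' : α → ℝ} {u : ℝ} (hg : ∀ A ∈ S, |g A| ≤ 1)
    (hU : ∀ A ∈ S, |H' A - H A| ≤ u) : |avg S H' g - avg S H g| ≤ 22 * u := by
  obtain ⟨A₀, hA₀⟩ := hS
  have hS : S.Nonempty := ⟨A₀, hA₀⟩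
  have hu0 : 0 ≤ u := (abs_nonneg _).trans (hU A₀ hA₀)
  have h1 : |avg S H' g| ≤ 1 := abs_avg_le hS hg
  have h2 : |avg S H g| ≤ 1 := abs_avg_le hS hg
  rcases le_total u 1 with hu1 | hu1
  · have h0 := avg_taylor (H := H) (U := fun A => H' A - H A) hS hg hU
    simp only [add_sub_cancel] at h0
    have h3 : |avg S H (fun A => g A * (H' A - H A))| ≤ u := abs_avg_le hS fun A hA => by
      rw [abs_mul]
      exact (mul_le_mul (hg A hA) (hU A hA) (abs_nonneg _) zero_le_one).trans (by linarith)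
    have h4 : |avg S H fun A => H' A - H A| ≤ u := abs_avg_le hS hU
    have h5 : |avg S H g * avg S H fun A => H' A - H A| ≤ u := by
      rw [abs_mul]
      exact (mul_le_mul h2 h4 (abs_nonneg _) zero_le_one).trans (by linarith)
    rw [abs_le] at *
    constructor <;> nlinarith
  · rw [abs_le] at *
    constructor <;> nlinarith

lemma measurable_avg {Ω : Type*} [MeasurableSpace Ω] (S : Finset α) {H g : Ω → α → ℝ}
    (hH : ∀ A, Measurable fun ω => H ω A) (hg : ∀ A, Measurable fun ω => g ω A) :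
    Measurable fun ω => avg S (H ω) (g ω) := by
  unfold avg
  exact (Finset.measurable_fun_sum _ fun A _ => (hH A).exp.mul (hg A)).div
    (Finset.measurable_fun_sum _ fun A _ => (hH A).exp)

end avg

variable {V : Type u} {G : SimpleGraph V}

lemma powerset_ne (Λ : Finset V) : Λ.powerset.Nonempty := ⟨∅, Finset.empty_mem_powerset _⟩

lemma spin_eq (A : Finset V) (v : V) : spin A v = 1 ∨ spin A v = -1 := by
  unfold spin
  split_ifs <;> simp

lemma abs_spin (A : Finset V) (v : V) : |spin A v| = 1 := by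
  rcases spin_eq A v with h | h <;> simp [h]

lemma spin_mul_self (A : Finset V) (v : V) : spin A v * spin A v = 1 := by
  rcases spin_eq A v with h | h <;> simp [h]

lemma sx_eq (A : Finset V) (e : Sym2 V) : sx A e = 1 ∨ sx A e = -1 := by
  induction e with
  | _ u v => rcases spin_eq A u with h | h <;> rcases spin_eq A v with h' | h' <;> simp [h, h']

lemma abs_sx (A : Finset V) (e : Sym2 V) : |sx A e| = 1 := by
  rcases sx_eq A e with h | h <;> simp [h]

lemma abs_sp_le (A : Finset V) (e : Sym2 V) : |sp A e| ≤ 2 := by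
  induction e with
  | _ u v =>
    rw [sp_mk]
    exact (abs_add_le _ _).trans (by rw [abs_spin, abs_spin]; norm_num)

lemma sp_sq (A : Finset V) (e : Sym2 V) : sp A e ^ 2 = 2 + 2 * sx A e := by
  induction e with
  | _ u v =>
    rw [sp_mk, sx_mk]
    nlinarith [spin_mul_self A u, spin_mul_self A v]

lemma abs_drift_le (Λ A : Finset V) (e : G.edgeSet) : |drift G Λ A e| ≤ 2 := by
  unfold drift
  split_ifs
  · exact abs_sp_le _ _
  · simp

lemma drift_of_mem {Λ : Finset V} {e : G.edgeSet} (he : e ∈ EF G Λ) (A : Finset V) :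
    drift G Λ A e = sp A e.1 := if_pos he

lemma drift_of_not_mem {Λ : Finset V} {e : G.edgeSet} (he : e ∉ EF G Λ) (A : Finset V) :
    drift G Λ A e = 0 := if_neg he

lemma abs_gm_le {Λ : Finset V} {J : ℝ} {y : G.edgeSet → ℝ} {g : Finset V → ℝ} {c : ℝ}
    (h : ∀ A, |g A| ≤ c) : |gm G Λ J y g| ≤ c :=
  abs_avg_le (powerset_ne Λ) fun A _ => h A

lemma abs_mag_le (Λ : Finset V) (J : ℝ) (y : G.edgeSet → ℝ) (x : V) : |mag G Λ J y x| ≤ 1 :=
  abs_gm_le fun A => (abs_spin A x).le

lemma abs_cav_le (Λ : Finset V) (J : ℝ) (y : G.edgeSet → ℝ) (D : G.Dart) : |cav Λ J y D| ≤ 1 :=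
  abs_avg_le (powerset_ne Λ) fun A _ => (abs_spin A _).le

lemma abs_mdrift_le (Λ : Finset V) (J : ℝ) (y : G.edgeSet → ℝ) (e : G.edgeSet) :
    |mdrift G Λ J y e| ≤ 2 :=
  abs_gm_le fun A => abs_drift_le Λ A e

lemma cv_self (Λ : Finset V) (J : ℝ) (y : G.edgeSet → ℝ) (x : V) :
    cv G Λ J y x x = 1 - mag G Λ J y x ^ 2 := by
  simp only [cv, spin_mul_self, gm, avg_const (powerset_ne Λ), sq]

lemma measurable_ham {Ω : Type*} [MeasurableSpace Ω] (F : Finset G.edgeSet) (J : ℝ)
    {y : Ω → G.edgeSet → ℝ} (hy : Measurable y) (A : Finset V) :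
    Measurable fun ω => ham F J (y ω) A := by
  unfold ham
  exact Finset.measurable_fun_sum _ fun e _ =>
    measurable_const.add (((measurable_pi_apply e).comp hy).mul_const _)

lemma measurable_gm {Ω : Type*} [MeasurableSpace Ω] (Λ : Finset V) (J : ℝ)
    {y : Ω → G.edgeSet → ℝ} (hy : Measurable y) {g : Ω → Finset V → ℝ}
    (hg : ∀ A, Measurable fun ω => g ω A) : Measurable fun ω => gm G Λ J (y ω) (g ω) :=
  measurable_avg _ (measurable_ham _ J hy) hg

lemma measurable_mag (Λ : Finset V) (J : ℝ) (x : V) : Measurable fun y => mag G Λ J y x :=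
  measurable_gm Λ J measurable_id fun _ => measurable_const

lemma measurable_cv (Λ : Finset V) (J : ℝ) (x w : V) : Measurable fun y => cv G Λ J y x w := by
  have h1 : Measurable fun y => gm G Λ J y fun A => spin A x * spin A w :=
    measurable_gm Λ J measurable_id fun _ => measurable_const
  have h2 := measurable_mag (G := G) Λ J x
  have h3 := measurable_mag (G := G) Λ J w
  unfold cv
  fun_prop

lemma measurable_mdrift (Λ : Finset V) (J : ℝ) (e : G.edgeSet) :
    Measurable fun y => mdrift G Λ J y e :=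
  measurable_gm Λ J measurable_id fun _ => measurable_const

lemma measurable_cav (Λ : Finset V) (J : ℝ) (D : G.Dart) : Measurable fun y => cav Λ J y D := by
  refine measurable_avg (H := fun y A => ham (EFin Λ D) J y A + y (ed D) * spin A D.fst)
    (g := fun _ A => spin A D.fst) _ (fun A => ?_) fun _ => measurable_const
  have h1 := measurable_ham (EFin Λ D) J measurable_id A
  have h2 : Measurable fun y : G.edgeSet → ℝ => y (ed D) * spin A D.fst :=
    (measurable_pi_apply _).mul_const _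
  exact h1.add h2

lemma abs_ham_sub_le (F : Finset G.edgeSet) (J J' : ℝ) (y y' : G.edgeSet → ℝ) (A : Finset V) :
    |ham F J' y' A - ham F J y A| ≤ F.card * |J' - J| + 2 * ∑ e ∈ F, |y' e - y e| := by
  unfold ham
  rw [← Finset.sum_sub_distrib, Finset.mul_sum, ← nsmul_eq_mul, ← Finset.sum_const,
    ← Finset.sum_add_distrib]
  refine (Finset.abs_sum_le_sum_abs _ _).trans (Finset.sum_le_sum fun e _ => ?_)
  have : J' * sx A e.1 + y' e * sp A e.1 - (J * sx A e.1 + y e * sp A e.1) =
      (J' - J) * sx A e.1 + (y' e - y e) * sp A e.1 := by ring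
  rw [this]
  refine (abs_add_le _ _).trans ?_
  rw [abs_mul, abs_mul, abs_sx]
  nlinarith [abs_sp_le A e.1, abs_nonneg (y' e - y e)]

lemma gm_lip (Λ : Finset V) (J J' : ℝ) (y y' : G.edgeSet → ℝ) {g : Finset V → ℝ}
    (hg : ∀ A, |g A| ≤ 1) :
    |gm G Λ J' y' g - gm G Λ J y g| ≤
      22 * ((EF G Λ).card * |J' - J| + 2 * ∑ e ∈ EF G Λ, |y' e - y e|) :=
  avg_lip (powerset_ne Λ) (fun A _ => hg A) fun A _ => abs_ham_sub_le _ _ _ _ _ _

lemma ham_congr {F : Finset G.edgeSet} (J : ℝ) {y y' : G.edgeSet → ℝ} (h : ∀ e ∈ F, y e = y' e) :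
    ham F J y = ham F J y' := by
  funext A
  exact Finset.sum_congr rfl fun e he => by rw [h e he]

lemma gm_congr_y {Λ : Finset V} (J : ℝ) {y y' : G.edgeSet → ℝ} (h : ∀ e ∈ EF G Λ, y e = y' e)
    (g : Finset V → ℝ) : gm G Λ J y g = gm G Λ J y' g := by
  rw [gm, ham_congr J h, gm]

lemma EFin_subset (Λ : Finset V) (D : G.Dart) : EFin Λ D ⊆ EF G Λ := by
  classical
  exact Finset.filter_subset _ _

lemma mem_EFin {Λ : Finset V} {D : G.Dart} {e : G.edgeSet} :
    e ∈ EFin Λ D ↔ e ∈ EF G Λ ∧ ∀ v ∈ e.1, v ∈ side D := by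
  classical
  exact Finset.mem_filter

lemma cav_congr_y {Λ : Finset V} (J : ℝ) {y y' : G.edgeSet → ℝ} (h : ∀ e ∈ EF G Λ, y e = y' e)
    {D : G.Dart} (hD : ed D ∈ EF G Λ) : cav Λ J y D = cav Λ J y' D := by
  rw [cav, ham_congr J fun e he => h e (EFin_subset Λ D he), h _ hD, cav]

lemma cav_lip (Λ : Finset V) (J : ℝ) (y y' : G.edgeSet → ℝ) {D : G.Dart} (hD : ed D ∈ EF G Λ) :
    |cav Λ J y' D - cav Λ J y D| ≤ 66 * ∑ e ∈ EF G Λ, |y' e - y e| := by
  have h1 : ∑ e ∈ EFin Λ D, |y' e - y e| ≤ ∑ e ∈ EF G Λ, |y' e - y e| :=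
    Finset.sum_le_sum_of_subset_of_nonneg (EFin_subset Λ D) fun _ _ _ => abs_nonneg _
  have h2 : |y' (ed D) - y (ed D)| ≤ ∑ e ∈ EF G Λ, |y' e - y e| :=
    Finset.single_le_sum (f := fun e => |y' e - y e|) (fun _ _ => abs_nonneg _) hD
  refine (avg_lip (u := 3 * ∑ e ∈ EF G Λ, |y' e - y e|) (powerset_ne Λ)
    (fun A _ => (abs_spin A _).le) fun A _ => ?_).trans (le_of_eq (by ring))
  have h3 := abs_ham_sub_le (EFin Λ D) J J y y' A
  have h4 : ham (EFin Λ D) J y' A + y' (ed D) * spin A D.fst -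
      (ham (EFin Λ D) J y A + y (ed D) * spin A D.fst) =
      (ham (EFin Λ D) J y' A - ham (EFin Λ D) J y A) + (y' (ed D) - y (ed D)) * spin A D.fst := by
    ring
  rw [h4]
  refine (abs_add_le _ _).trans ?_
  rw [abs_mul, abs_spin]
  simp only [sub_self, abs_zero, mul_zero, zero_add] at h3
  linarith

end Crest.Agent.R160
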