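import Crest.Agent.R160.Tree
import Crest.Agent.R160.Avg

/-!
Row 160, subtask F1: the zero-field measure, the product measure at zero coupling, equivariance.
-/

set_option autoImplicit false
set_option linter.unusedSectionVars false
set_option linter.unusedVariables false
set_option maxHeartbeats 400000

open MeasureTheory ProbabilityTheory Filter Topology
open scoped ENNReal

namespace Crest.Agent.R160

universe u
variable {V : Type u} {G : SimpleGraph V} [G.LocallyFinite] {b : ℕ}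

namespace Flip

open Classical in
/-- Flip the spins of `Λ ∩ U`. -/
noncomputable def fl (Λ : Finset V) (U : Set V) (A : Finset V) : Finset V :=
  symmDiff A (Λ.filter (· ∈ U))

lemma mem_fl {Λ : Finset V} {U : Set V} {A : Finset V} {v : V} :
    v ∈ fl Λ U A ↔ (v ∈ A ↔ ¬ (v ∈ Λ ∧ v ∈ U)) := by
  classical
  simp only [fl, Finset.mem_symmDiff, Finset.mem_filter]
  tauto

lemma fl_fl (Λ : Finset V) (U : Set V) (A : Finset V) : fl Λ U (fl Λ U A) = A := by
  ext v
  rw [mem_fl, mem_fl]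
  tauto

lemma fl_mem {Λ : Finset V} {U : Set V} {A : Finset V} (h : A ∈ Λ.powerset) :
    fl Λ U A ∈ Λ.powerset := by
  rw [Finset.mem_powerset] at *
  intro v hv
  rw [mem_fl] at hv
  by_contra h'
  exact h' (h (hv.2 fun h'' => h' h''.1))

lemma spin_fl_of_mem {Λ : Finset V} {U : Set V} (A : Finset V) {v : V} (h1 : v ∈ Λ) (h2 : v ∈ U) :
    spin (fl Λ U A) v = -spin A v := by
  have : v ∈ fl Λ U A ↔ v ∉ A := by rw [mem_fl]; tauto
  unfold spin
  by_cases h : v ∈ A <;> simp [this, h]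

lemma spin_fl_of_not_mem {Λ : Finset V} {U : Set V} (A : Finset V) {v : V} (h2 : v ∉ U) :
    spin (fl Λ U A) v = spin A v := by
  have : v ∈ fl Λ U A ↔ v ∈ A := by rw [mem_fl]; tauto
  unfold spin
  by_cases h : v ∈ A <;> simp [this, h]

lemma sum_fl (Λ : Finset V) (U : Set V) (F : Finset V → ℝ) :
    ∑ A ∈ Λ.powerset, F (fl Λ U A) = ∑ A ∈ Λ.powerset, F A :=
  Finset.sum_nbij' (fl Λ U) (fl Λ U) (fun _ h => fl_mem h) (fun _ h => fl_mem h)
    (fun A _ => fl_fl Λ U A) (fun A _ => fl_fl Λ U A) fun _ _ => rfl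

lemma sum_flip (Λ : Finset V) (U : Set V) (σ R : Finset V → ℝ) (f : ℝ → ℝ)
    (hσ : ∀ A, σ A = 1 ∨ σ A = -1) (h1 : ∀ A, σ (fl Λ U A) = -σ A)
    (h2 : ∀ A, R (fl Λ U A) = R A) :
    ∑ A ∈ Λ.powerset, f (σ A) * R A = (f 1 + f (-1)) / 2 * ∑ A ∈ Λ.powerset, R A := by
  have h := sum_fl Λ U fun A => f (σ A) * R A
  simp only [h1, h2] at h
  have h3 : ∑ A ∈ Λ.powerset, f (σ A) * R A + ∑ A ∈ Λ.powerset, f (-σ A) * R A =
      (f 1 + f (-1)) * ∑ A ∈ Λ.powerset, R A := by
    rw [← Finset.sum_add_distrib, Finset.mul_sum]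
    refine Finset.sum_congr rfl fun A _ => ?_
    rcases hσ A with h | h
    · rw [h]; ring
    · rw [h, neg_neg]; ring
  linarith

omit [G.LocallyFinite] in
lemma exists_dart (e : G.edgeSet) : ∃ D : G.Dart, ed D = e := by
  obtain ⟨e, he⟩ := e
  induction e using Sym2.ind with
  | _ u v => exact ⟨⟨(u, v), he⟩, rfl⟩

omit [G.LocallyFinite] in
lemma ed_symm (D : G.Dart) : ed D.symm = ed D := Subtype.ext D.edge_symm

lemma FI (hT : G.IsTree) (Λ : Finset V) {p : V} (hp : p ∈ Λ) (φ₀ : ℝ → ℝ)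
    (φ : G.edgeSet → ℝ → ℝ) (T : Finset G.edgeSet) (hTΛ : T ⊆ EF G Λ) :
    ∑ A ∈ Λ.powerset, φ₀ (spin A p) * ∏ e ∈ T, φ e (sx A e.1) =
      (2 : ℝ) ^ Λ.card * ((φ₀ 1 + φ₀ (-1)) / 2 * ∏ e ∈ T, (φ e 1 + φ e (-1)) / 2) := by
  classical
  induction T using Finset.induction_on with
  | empty =>
    have := sum_flip Λ {p} (fun A => spin A p) (fun _ => 1) φ₀ (fun A => spin_eq A p)
      (fun A => spin_fl_of_mem A hp rfl) fun _ => rfl
    simp only [Finset.prod_empty]
    rw [this]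
    simp [mul_comm]
  | insert e T he ih =>
    have hT' : T ⊆ EF G Λ := (Finset.subset_insert _ _).trans hTΛ
    have heΛ : e ∈ EF G Λ := hTΛ (Finset.mem_insert_self _ _)
    obtain ⟨D, hD, hpD⟩ : ∃ D : G.Dart, ed D = e ∧ p ∉ side D := by
      obtain ⟨D, hD⟩ := exists_dart e
      by_cases h : p ∈ side D
      · exact ⟨D.symm, (ed_symm D).trans hD, fun h' => (mem_side_symm hT D p).1 h' h⟩
      · exact ⟨D, hD, h⟩
    subst hD
    obtain ⟨h1, h2⟩ := ed_mem_EF.1 heΛ
    have key := sum_flip Λ (side D) (fun A => sx A (ed D).1)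
      (fun A => φ₀ (spin A p) * ∏ e ∈ T, φ e (sx A e.1)) (φ (ed D)) (fun A => sx_eq A _)
      (fun A => by
        rw [sx_ed, sx_ed, spin_fl_of_mem A h1 (fst_mem_side hT D),
          spin_fl_of_not_mem A (snd_not_mem_side hT D), neg_mul])
      (fun A => by
        rw [spin_fl_of_not_mem A hpD]
        congr 1
        refine Finset.prod_congr rfl fun e' he' => ?_
        congr 1
        obtain ⟨D', rfl⟩ := exists_dart e'
        obtain ⟨h3, h4⟩ := ed_mem_EF.1 (hT' he')
        have hne : s(D'.fst, D'.snd) ≠ D.edge := fun h => he (by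
          have : ed D' = ed D := Subtype.ext h
          rwa [← this])
        have hiff := side_adj_iff hT D D'.adj hne
        rw [sx_ed, sx_ed]
        by_cases h5 : D'.fst ∈ side D
        · rw [spin_fl_of_mem A h3 h5, spin_fl_of_mem A h4 (hiff.1 h5), neg_mul_neg]
        · rw [spin_fl_of_not_mem A h5, spin_fl_of_not_mem A fun h => h5 (hiff.2 h)])
    simp only [Finset.prod_insert he]
    rw [ih hT'] at key
    rw [show (2 : ℝ) ^ Λ.card * ((φ₀ 1 + φ₀ (-1)) / 2 * ((φ (ed D) 1 + φ (ed D) (-1)) / 2 *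
      ∏ e ∈ T, (φ e 1 + φ e (-1)) / 2)) = (φ (ed D) 1 + φ (ed D) (-1)) / 2 *
      ((2 : ℝ) ^ Λ.card * ((φ₀ 1 + φ₀ (-1)) / 2 * ∏ e ∈ T, (φ e 1 + φ e (-1)) / 2)) by ring,
      ← key]
    exact Finset.sum_congr rfl fun A _ => by ring

lemma exp_tanh (J x y : ℝ) : (Real.exp (J * 1) * x + Real.exp (J * -1) * y) / 2 =
    Real.cosh J * ((1 + Real.tanh J) / 2 * x + (1 - Real.tanh J) / 2 * y) := by
  have h := (Real.cosh_pos J).ne'
  rw [Real.tanh_eq_sinh_div_cosh, mul_one, mul_neg_one, ← Real.cosh_add_sinh,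
    ← Real.cosh_sub_sinh]
  field_simp

lemma sum_powerset_prod (Λ : Finset V) (f : V → ℝ → ℝ) :
    ∑ A ∈ Λ.powerset, ∏ v ∈ Λ, f v (spin A v) = ∏ v ∈ Λ, (f v 1 + f v (-1)) := by
  classical
  rw [Finset.prod_add]
  refine Finset.sum_congr rfl fun A hA => ?_
  rw [Finset.mem_powerset] at hA
  rw [← Finset.prod_sdiff hA, mul_comm]
  congr 1
  · exact Finset.prod_congr rfl fun v hv => by simp [spin, hv]
  · exact Finset.prod_congr rfl fun v hv => by simp [spin, (Finset.mem_sdiff.1 hv).2]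

omit [G.LocallyFinite] in
lemma exists_field (Λ : Finset V) (y : G.edgeSet → ℝ) :
    ∃ h : V → ℝ, ∀ A, ham (EF G Λ) 0 y A = ∑ v ∈ Λ, h v * spin A v := by
  classical
  refine ⟨fun v => ∑ e ∈ EF G Λ, if v ∈ e.1 then y e else 0, fun A => ?_⟩
  simp only [ham, zero_mul, zero_add, Finset.sum_mul]
  rw [Finset.sum_comm]
  refine Finset.sum_congr rfl fun e he => ?_
  obtain ⟨D, rfl⟩ := exists_dart e
  obtain ⟨h1, h2⟩ := ed_mem_EF.1 he
  have hne : D.fst ≠ D.snd := D.adj.ne
  have hm : ∀ v, v ∈ (ed D).1 ↔ v = D.fst ∨ v = D.snd := fun v => Sym2.mem_iff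
  rw [sp_ed, ← Finset.sum_subset (s₁ := {D.fst, D.snd})]
  · rw [Finset.sum_pair hne, if_pos ((hm _).2 (Or.inl rfl)), if_pos ((hm _).2 (Or.inr rfl))]
    ring
  · intro v hv
    rcases Finset.mem_insert.1 hv with rfl | hv
    · exact h1
    · rw [Finset.mem_singleton.1 hv]; exact h2
  · intro v _ hv
    rw [if_neg, zero_mul]
    rw [hm]
    simpa using hv

omit [G.LocallyFinite] in
lemma gm_prod_aux (Λ : Finset V) (y : G.edgeSet → ℝ) {h : V → ℝ}
    (hh : ∀ A, ham (EF G Λ) 0 y A = ∑ v ∈ Λ, h v * spin A v) (g : V → ℝ → ℝ) :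
    gm G Λ 0 y (fun A => ∏ v ∈ Λ, g v (spin A v)) =
      ∏ v ∈ Λ, (Real.exp (h v * 1) * g v 1 + Real.exp (h v * -1) * g v (-1)) /
        (Real.exp (h v * 1) + Real.exp (h v * -1)) := by
  unfold gm avg
  simp only [hh, Real.exp_sum, ← Finset.prod_mul_distrib]
  rw [sum_powerset_prod Λ fun v t => Real.exp (h v * t) * g v t,
    sum_powerset_prod Λ fun v t => Real.exp (h v * t), Finset.prod_div_distrib]

omit [G.LocallyFinite] in
lemma sum_powerset_map (f : V ↪ V) (Λ : Finset V) (F : Finset V → ℝ) :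
    ∑ A ∈ (Λ.map f).powerset, F A = ∑ A ∈ Λ.powerset, F (A.map f) := by
  classical
  symm
  refine Finset.sum_nbij (fun A => A.map f) (fun A hA => ?_) (fun A _ B _ h => ?_)
    (fun B hB => ?_) fun _ _ => rfl
  · exact Finset.mem_powerset.2 (Finset.map_subset_map.2 (Finset.mem_powerset.1 hA))
  · exact Finset.map_injective f h
  · obtain ⟨A, hA, rfl⟩ := Finset.subset_map_iff.1 (Finset.mem_powerset.1 hB)
    exact ⟨A, Finset.mem_coe.2 (Finset.mem_powerset.2 hA), rfl⟩

omit [G.LocallyFinite] in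
lemma avg_map (f : V ↪ V) (Λ : Finset V) (H g : Finset V → ℝ) :
    avg (Λ.map f).powerset H g = avg Λ.powerset (fun A => H (A.map f)) fun A => g (A.map f) := by
  unfold avg
  rw [sum_powerset_map, sum_powerset_map]

omit [G.LocallyFinite] in
lemma spin_map (g : G ≃g G) (A : Finset V) (v : V) :
    spin (A.map g.toEquiv.toEmbedding) (g v) = spin A v := by
  have : g v ∈ A.map g.toEquiv.toEmbedding ↔ v ∈ A :=
    Finset.mem_map' g.toEquiv.toEmbedding
  unfold spin
  by_cases h : v ∈ A <;> simp only [this, h]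

omit [G.LocallyFinite] in
lemma mapEdgeSet_ed (g : G ≃g G) (D : G.Dart) : g.mapEdgeSet (ed D) = ed (mapD g D) :=
  (ed_mapD g D).symm

omit [G.LocallyFinite] in
lemma sx_map (g : G ≃g G) (A : Finset V) (e : G.edgeSet) :
    sx (A.map g.toEquiv.toEmbedding) (g.mapEdgeSet e).1 = sx A e.1 := by
  obtain ⟨D, rfl⟩ := exists_dart e
  rw [mapEdgeSet_ed, sx_ed, sx_ed, mapD_fst, mapD_snd, spin_map, spin_map]

omit [G.LocallyFinite] in
lemma sp_map (g : G ≃g G) (A : Finset V) (e : G.edgeSet) :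
    sp (A.map g.toEquiv.toEmbedding) (g.mapEdgeSet e).1 = sp A e.1 := by
  obtain ⟨D, rfl⟩ := exists_dart e
  rw [mapEdgeSet_ed, sp_ed, sp_ed, mapD_fst, mapD_snd, spin_map, spin_map]

omit [G.LocallyFinite] in
lemma mem_EF_map (g : G ≃g G) (Λ : Finset V) (e : G.edgeSet) :
    g.mapEdgeSet e ∈ EF G (Λ.map g.toEquiv.toEmbedding) ↔ e ∈ EF G Λ := by
  obtain ⟨D, rfl⟩ := exists_dart e
  rw [mapEdgeSet_ed, ed_mem_EF, ed_mem_EF, mapD_fst, mapD_snd]
  exact and_congr (Finset.mem_map' g.toEquiv.toEmbedding) (Finset.mem_map' g.toEquiv.toEmbedding)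

omit [G.LocallyFinite] in
lemma ham_map (g : G ≃g G) {F F' : Finset G.edgeSet} (hF : ∀ e, g.mapEdgeSet e ∈ F' ↔ e ∈ F)
    (J : ℝ) (y : G.edgeSet → ℝ) (A : Finset V) :
    ham F' J y (A.map g.toEquiv.toEmbedding) = ham F J (y ∘ g.mapEdgeSet) A := by
  unfold ham
  symm
  refine Finset.sum_equiv g.mapEdgeSet (fun e => (hF e).symm) fun e _ => ?_
  rw [sx_map, sp_map, Function.comp_apply]

omit [G.LocallyFinite] in
lemma gm_map (g : G ≃g G) (Λ : Finset V) (J : ℝ) (y : G.edgeSet → ℝ) (F : Finset V → ℝ) :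
    gm G (Λ.map g.toEquiv.toEmbedding) J y F =
      gm G Λ J (y ∘ g.mapEdgeSet) fun A => F (A.map g.toEquiv.toEmbedding) := by
  unfold gm
  rw [avg_map]
  simp only [ham_map g (mem_EF_map g Λ)]

end Flip

open Flip

/-- Under the zero-field measure one spin and the edge products are independent. -/
theorem gm_zero_prod (hT : G.IsTree) (Λ : Finset V) (J : ℝ) {p : V} (hp : p ∈ Λ) (φ₀ : ℝ → ℝ)
    (φ : G.edgeSet → ℝ → ℝ) {T : Finset G.edgeSet} (hTΛ : T ⊆ EF G Λ) :
    gm G Λ J 0 (fun A => φ₀ (spin A p) * ∏ e ∈ T, φ e (sx A e.1)) =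
      (φ₀ 1 + φ₀ (-1)) / 2 *
        ∏ e ∈ T, ((1 + Real.tanh J) / 2 * φ e 1 + (1 - Real.tanh J) / 2 * φ e (-1)) := by
  classical
  have hH : ∀ A, Real.exp (ham (EF G Λ) J 0 A) = ∏ e ∈ EF G Λ, Real.exp (J * sx A e.1) := by
    intro A
    simp [ham, Real.exp_sum]
  have hnum := FI hT Λ hp φ₀ (fun e t => Real.exp (J * t) * if e ∈ T then φ e t else 1) _
    (Finset.Subset.refl _)
  have hden := FI hT Λ hp (fun _ => 1) (fun e t => Real.exp (J * t) * 1) _ (Finset.Subset.refl _)
  simp only [exp_tanh] at hnum hden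
  have e1 : ∑ A ∈ Λ.powerset, Real.exp (ham (EF G Λ) J 0 A) *
      (φ₀ (spin A p) * ∏ e ∈ T, φ e (sx A e.1)) = _ := Eq.trans (by
    refine Finset.sum_congr rfl fun A _ => ?_
    rw [hH, Finset.prod_mul_distrib, Finset.prod_ite_mem, Finset.inter_eq_right.2 hTΛ]
    ring) hnum
  have e2 : ∑ A ∈ Λ.powerset, Real.exp (ham (EF G Λ) J 0 A) = _ := Eq.trans (by
    refine Finset.sum_congr rfl fun A _ => ?_
    rw [hH]
    simp) hden
  unfold gm avg
  rw [e1, e2, Finset.prod_mul_distrib, Finset.prod_mul_distrib]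
  have e3 : ∏ e ∈ EF G Λ, ((1 + Real.tanh J) / 2 * (if e ∈ T then φ e 1 else 1) +
      (1 - Real.tanh J) / 2 * if e ∈ T then φ e (-1) else 1) =
      ∏ e ∈ T, ((1 + Real.tanh J) / 2 * φ e 1 + (1 - Real.tanh J) / 2 * φ e (-1)) := by
    rw [← Finset.prod_subset hTΛ]
    · exact Finset.prod_congr rfl fun e he => by rw [if_pos he, if_pos he]
    · intro e _ he
      rw [if_neg he, if_neg he]
      ring
  have e4 : ∏ e ∈ EF G Λ, ((1 + Real.tanh J) / 2 * 1 + (1 - Real.tanh J) / 2 * 1) = 1 :=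
    Finset.prod_eq_one fun e _ => by ring
  rw [e3, e4]
  have h5 : ∏ e ∈ EF G Λ, Real.cosh J ≠ 0 :=
    Finset.prod_ne_zero_iff.2 fun _ _ => (Real.cosh_pos J).ne'
  have h6 : (2 : ℝ) ^ Λ.card ≠ 0 := by positivity
  field_simp
  ring

theorem mag_zero (hT : G.IsTree) (Λ : Finset V) (J : ℝ) {x : V} (hx : x ∈ Λ) :
    mag G Λ J 0 x = 0 := by
  have := gm_zero_prod hT Λ J hx (fun t => t) (fun _ _ => 1) (T := ∅) (Finset.empty_subset _)
  simpa [mag] using this

theorem gm_zero_cylinder (hT : G.IsTree) (Λ : Finset V) (J : ℝ) (S : Finset V) (η : V → Bool)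
    (hS : (G.induce (S : Set V)).Connected) (hSΛ : S ⊆ Λ) :
    gm G Λ J 0 (fun A => ∏ x ∈ S, (1 + sgn (η x) * spin A x) / 2) =
      Crest.ProbabilityR.TreeIsing.isingWeight G (Real.tanh J) S η := by
  classical
  obtain ⟨⟨p, hpS⟩⟩ := hS.nonempty
  have hpS' : p ∈ S := hpS
  let se : Sym2 V → ℝ := Sym2.lift ⟨fun u v => sgn (η u) * sgn (η v), fun _ _ => mul_comm _ _⟩
  have hsg : ∀ t : Bool, sgn t = 1 ∨ sgn t = -1 := fun t => by cases t <;> simp [sgn]
  have hEF : EF G S ⊆ EF G Λ := fun e he => mem_EF.2 fun v hv => hSΛ (mem_EF.1 he v hv)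
  have key : ∀ A : Finset V, ∏ x ∈ S, (1 + sgn (η x) * spin A x) / 2 =
      (1 + sgn (η p) * spin A p) / 2 * ∏ e ∈ EF G S, (1 + se e.1 * sx A e.1) / 2 := by
    intro A
    by_cases h : ∀ x ∈ S, spin A x = sgn (η x)
    · rw [Finset.prod_eq_one, Finset.prod_eq_one, h p hpS']
      · rcases hsg (η p) with h' | h' <;> rw [h'] <;> norm_num
      · intro e he
        obtain ⟨D, rfl⟩ := exists_dart e
        obtain ⟨h1, h2⟩ := ed_mem_EF.1 he
        have : se (ed D).1 = sgn (η D.fst) * sgn (η D.snd) := rfl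
        rw [this, sx_ed, h _ h1, h _ h2]
        rcases hsg (η D.fst) with h' | h' <;> rcases hsg (η D.snd) with h'' | h'' <;>
          rw [h', h''] <;> norm_num
      · intro x hx
        rw [h x hx]
        rcases hsg (η x) with h' | h' <;> rw [h'] <;> norm_num
    · have hz : ∀ x, spin A x ≠ sgn (η x) → (1 + sgn (η x) * spin A x) / 2 = 0 := by
        intro x hx
        rcases hsg (η x) with h' | h' <;> rcases spin_eq A x with h'' | h'' <;>
          rw [h', h''] at hx ⊢ <;> first | exact absurd rfl hx | norm_num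
      have h' := h
      push Not at h'
      obtain ⟨x, hx, hx'⟩ := h'
      rw [Finset.prod_eq_zero hx (hz x hx')]
      by_contra hne
      have hne' := (mul_ne_zero_iff.1 (Ne.symm hne))
      have hp0 : spin A p = sgn (η p) := by
        by_contra h0
        exact hne'.1 (hz p h0)
      have hedge := Finset.prod_ne_zero_iff.1 hne'.2
      have hall : ∀ (u v : (S : Set V)) (w : (G.induce (S : Set V)).Walk u v),
          spin A u.1 = sgn (η u.1) → spin A v.1 = sgn (η v.1) := by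
        intro u v w
        induction w with
        | nil => exact id
        | @cons u u' v hadj w ih =>
          intro hu
          apply ih
          have hadj' : G.Adj u.1 u'.1 := hadj
          have h0 := hedge (ed ⟨(u.1, u'.1), hadj'⟩) (ed_mem_EF.2 ⟨u.2, u'.2⟩)
          have e1 : se (ed (⟨(u.1, u'.1), hadj'⟩ : G.Dart)).1 = sgn (η u.1) * sgn (η u'.1) := rfl
          have e2 : sx A (ed (⟨(u.1, u'.1), hadj'⟩ : G.Dart)).1 = spin A u.1 * spin A u'.1 := rfl
          rw [e1, e2, hu] at h0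
          by_contra h1
          apply h0
          rcases hsg (η u.1) with a1 | a1 <;> rcases hsg (η u'.1) with a2 | a2 <;>
            rcases spin_eq A u'.1 with a3 | a3 <;> rw [a2, a3] at h1 <;> rw [a1, a2, a3] <;>
            first | exact absurd rfl h1 | norm_num
      obtain ⟨w⟩ := hS.preconnected ⟨p, hpS⟩ ⟨x, hx⟩
      exact hx' (hall _ _ w hp0)
  simp only [key]
  rw [gm_zero_prod hT Λ J (hSΛ hpS') (fun t => (1 + sgn (η p) * t) / 2)
    (fun e t => (1 + se e.1 * t) / 2) hEF]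
  unfold Crest.ProbabilityR.TreeIsing.isingWeight
  congr 1
  · ring
  · have := Finset.prod_subtype_eq_prod_filter (s := S.sym2) (p := (· ∈ G.edgeSet))
      (fun e : Sym2 V => if (Sym2.map η e).IsDiag then (1 + Real.tanh J) / 2
        else (1 - Real.tanh J) / 2)
    refine Eq.trans ?_ (this.trans ?_)
    · refine Finset.prod_congr (by ext e; simp [EF]) fun e _ => ?_
      obtain ⟨D, rfl⟩ := exists_dart e
      have e1 : se (ed D).1 = sgn (η D.fst) * sgn (η D.snd) := rfl
      have e2 : (Sym2.map η (ed D).1).IsDiag ↔ η D.fst = η D.snd := Iff.rfl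
      rw [e1]
      simp only [e2]
      cases η D.fst <;> cases η D.snd <;> simp [sgn]
    · exact Finset.prod_congr (by ext e; simp) fun _ _ => by congr

omit [G.LocallyFinite] in
/-- At zero coupling the spins are independent. -/
theorem gm_prod_of_zero (Λ : Finset V) (y : G.edgeSet → ℝ) (S : Finset V) (η : V → Bool) :
    gm G Λ 0 y (fun A => ∏ x ∈ S, (1 + sgn (η x) * spin A x) / 2) =
      ∏ x ∈ S, (1 + sgn (η x) * mag G Λ 0 y x) / 2 := by
  classical
  obtain ⟨h, hh⟩ := exists_field Λ y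
  have hpos : ∀ v, Real.exp (h v * 1) + Real.exp (h v * -1) ≠ 0 := fun v => by positivity
  have hmag : ∀ x ∈ Λ, mag G Λ 0 y x = (Real.exp (h x * 1) * 1 + Real.exp (h x * -1) * (-1)) /
      (Real.exp (h x * 1) + Real.exp (h x * -1)) := by
    intro x hx
    have := gm_prod_aux Λ y hh fun v t => if v = x then t else 1
    simp only [Finset.prod_ite_eq', if_pos hx] at this
    rw [mag, this, Finset.prod_eq_single x]
    · simp
    · intro v _ hv
      rw [if_neg hv, if_neg hv, mul_one, mul_one, mul_one, div_self (by simpa using hpos v)]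
    · exact fun h => absurd hx h
  have hout : ∀ x, x ∉ Λ → mag G Λ 0 y x = -1 := by
    intro x hx
    rw [mag, gm, avg_congr (g' := fun _ => -1), avg_const (powerset_ne Λ)]
    intro A hA
    have : x ∉ A := fun h => hx (Finset.mem_powerset.1 hA h)
    simp [spin, this]
  have e1 : gm G Λ 0 y (fun A => ∏ x ∈ S, (1 + sgn (η x) * spin A x) / 2) =
      gm G Λ 0 y (fun A => ∏ v ∈ Λ, (fun v t => if v ∈ S then (1 + sgn (η v) * t) / 2 else 1) v
        (spin A v)) * ∏ x ∈ S \ Λ, (1 + sgn (η x) * -1) / 2 := by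
    rw [gm, gm, ← avg_mul_const]
    refine avg_congr fun A hA => ?_
    simp only [Finset.prod_ite_mem]
    rw [← Finset.prod_inter_mul_prod_sdiff S Λ, Finset.inter_comm]
    congr 1
    refine Finset.prod_congr rfl fun x hx => ?_
    have : x ∉ A := fun h => (Finset.mem_sdiff.1 hx).2 (Finset.mem_powerset.1 hA h)
    simp [spin, this]
  rw [e1, gm_prod_aux Λ y hh (fun v t => if v ∈ S then (1 + sgn (η v) * t) / 2 else 1),
    ← Finset.prod_inter_mul_prod_sdiff S Λ]
  congr 1
  · rw [← Finset.prod_subset (s₁ := S ∩ Λ) Finset.inter_subset_right]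
    · refine Finset.prod_congr rfl fun x hx => ?_
      obtain ⟨h1, h2⟩ := Finset.mem_inter.1 hx
      have := hpos x
      rw [if_pos h1, if_pos h1, hmag x h2]
      field_simp
      ring
    · intro x hx hx'
      have : x ∉ S := fun h => hx' (Finset.mem_inter.2 ⟨h, hx⟩)
      rw [if_neg this, if_neg this, mul_one, mul_one, mul_one, div_self (by simpa using hpos x)]
  · exact Finset.prod_congr rfl fun x hx => by rw [hout x (Finset.mem_sdiff.1 hx).2]

omit [G.LocallyFinite] in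
theorem continuous_isingWeight (S : Finset V) (η : V → Bool) :
    Continuous fun θ : ℝ => Crest.ProbabilityR.TreeIsing.isingWeight G θ S η := by
  unfold Crest.ProbabilityR.TreeIsing.isingWeight
  refine continuous_const.mul (continuous_finsetProd _ fun e _ => ?_)
  split_ifs <;> fun_prop

omit [G.LocallyFinite] in
theorem mag_map (g : G ≃g G) (Λ : Finset V) (J : ℝ) (y : G.edgeSet → ℝ) (x : V) :
    mag G (Λ.map g.toEquiv.toEmbedding) J y (g x) = mag G Λ J (y ∘ g.mapEdgeSet) x := by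
  simp only [mag, gm_map, spin_map]

omit [G.LocallyFinite] in
theorem mdrift_map (g : G ≃g G) (Λ : Finset V) (J : ℝ) (y : G.edgeSet → ℝ) (e : G.edgeSet) :
    mdrift G (Λ.map g.toEquiv.toEmbedding) J y (g.mapEdgeSet e) =
      mdrift G Λ J (y ∘ g.mapEdgeSet) e := by
  rw [mdrift, gm_map, mdrift]
  congr 1
  funext A
  by_cases he : e ∈ EF G Λ
  · rw [drift_of_mem he, drift_of_mem ((mem_EF_map g Λ e).2 he), sp_map]
  · rw [drift_of_not_mem he, drift_of_not_mem fun h => he ((mem_EF_map g Λ e).1 h)]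

theorem cav_map (hc : G.Connected) (g : G ≃g G) (Λ : Finset V) (J : ℝ) (y : G.edgeSet → ℝ)
    (D : G.Dart) :
    cav (Λ.map g.toEquiv.toEmbedding) J y (mapD g D) = cav Λ J (y ∘ g.mapEdgeSet) D := by
  have hF : ∀ e, g.mapEdgeSet e ∈ EFin (Λ.map g.toEquiv.toEmbedding) (mapD g D) ↔
      e ∈ EFin Λ D := by
    intro e
    rw [mem_EFin, mem_EFin, mem_EF_map]
    refine and_congr Iff.rfl ?_
    obtain ⟨D', rfl⟩ := exists_dart e
    have hm : ∀ (D : G.Dart) (v : V), v ∈ (ed D).1 ↔ v = D.fst ∨ v = D.snd :=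
      fun D v => Sym2.mem_iff
    simp only [mapEdgeSet_ed, hm, forall_eq_or_imp, forall_eq, mapD_fst, mapD_snd,
      mem_side_mapD hc]
  rw [cav, avg_map, cav]
  simp only [ham_map g hF, mapD_fst, spin_map, Function.comp_apply, mapEdgeSet_ed]

omit [G.LocallyFinite] in
theorem eul_map (g : G ≃g G) (Λ : Finset V) (β : ℝ) (p s : ℕ) (w : ℕ → G.edgeSet → ℝ) (k : ℕ) :
    eul G (Λ.map g.toEquiv.toEmbedding) β p s w k ∘ g.mapEdgeSet =
      eul G Λ β p s (fun j => w j ∘ g.mapEdgeSet) k := by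
  induction k with
  | zero => rw [eul_zero, eul_zero]; rfl
  | succ k ih =>
    rw [eul_succ, eul_succ]
    split_ifs with h
    · rfl
    · funext e
      rw [Function.comp_apply, mdrift_map, ← ih]
      rfl

omit [G.LocallyFinite] in
theorem eul_congr (Λ : Finset V) (β : ℝ) (p s : ℕ) {w w' : ℕ → G.edgeSet → ℝ}
    (h : ∀ j, ∀ e ∈ EF G Λ, w j e = w' j e) (k : ℕ) :
    ∀ e ∈ EF G Λ, eul G Λ β p s w k e = eul G Λ β p s w' k e := by
  induction k with
  | zero => intro e _; rw [eul_zero, eul_zero]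
  | succ k ih =>
    intro e he
    rw [eul_succ, eul_succ]
    split_ifs with hk
    · rfl
    · simp only [mdrift]
      rw [ih e he, h k e he, gm_congr_y _ ih]

omit [G.LocallyFinite] in
theorem measurable_eul (Λ : Finset V) (β : ℝ) (p s k : ℕ) :
    Measurable fun w => eul G Λ β p s w k := by
  induction k with
  | zero => simp only [eul_zero]; exact measurable_const
  | succ k ih =>
    simp only [eul_succ]
    split_ifs with hk
    · exact measurable_const
    · refine measurable_pi_lambda _ fun e => ?_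
      refine (((measurable_pi_apply e).comp ih).add
        (((measurable_mdrift Λ _ e).comp ih).const_mul _)).add ?_
      fun_prop

end Crest.Agent.R160
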