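import Crest.Agent.R160.Chain
import Crest.Agent.R160.Finish
import Crest.Agent.R160.Flip

/-!
Row 160: the Euler scheme on a coarse mesh approximates the chain on a fine mesh.
-/

set_option autoImplicit false
set_option linter.unusedSectionVars false
set_option linter.unusedVariables false
set_option maxHeartbeats 400000

open MeasureTheory ProbabilityTheory Filter Topology
open scoped ENNReal

namespace Crest.Agent.R160

universe u

variable {V : Type u} {G : SimpleGraph V}

/-- Coarsening of Gaussian increments by the factor `2 ^ q`. -/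
noncomputable def crs {E : Type*} (q : ℕ) (w : ℕ → E → ℝ) : ℕ → E → ℝ :=
  fun j e => (∑ i ∈ Finset.range (2 ^ q), w (j * 2 ^ q + i) e) / √(2 ^ q)

lemma measurable_crs {E : Type*} (q : ℕ) : Measurable (crs (E := E) q) := by
  unfold crs
  fun_prop

variable (Λ : Finset V) (β : ℝ) (p s : ℕ)

/-- The sampling martingale. -/
noncomputable def mart (G : SimpleGraph V) (Λ : Finset V) (β : ℝ) (p s : ℕ)
    (ω : ℕ → (G.edgeSet → ℝ) × unitInterval) (e : G.edgeSet) (k : ℕ) : ℝ :=
  ∑ j ∈ Finset.Ico s k, β / 2 ^ p *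
    (drift G Λ (smp G Λ (β * (1 - j / 2 ^ p)) (chain G Λ β p s ω j) (ω j).2) e -
      mdrift G Λ (β * (1 - j / 2 ^ p)) (chain G Λ β p s ω j) e)

lemma measurable_mart (e : G.edgeSet) (k : ℕ) : Measurable fun ω => mart G Λ β p s ω e k := by
  refine Finset.measurable_fun_sum _ fun j _ => Measurable.const_mul (Measurable.sub ?_ ?_) _
  · exact measurable_smp Λ _ (measurable_chain Λ β p s j) (measurable_pi_apply j).snd
      (φ := fun _ A => drift G Λ A e) fun _ => measurable_const
  · exact (measurable_mdrift Λ _ e).comp (measurable_chain Λ β p s j)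

lemma abs_drift_sub_le (J : ℝ) (y : G.edgeSet → ℝ) (A : Finset V) (e : G.edgeSet) :
    |drift G Λ A e - mdrift G Λ J y e| ≤ 4 :=
  (abs_sub _ _).trans (by linarith [abs_drift_le (G := G) Λ A e, abs_mdrift_le Λ J y e])

lemma abs_mart_le (hβ : 0 ≤ β) (ω : ℕ → (G.edgeSet → ℝ) × unitInterval) (e : G.edgeSet) (k : ℕ) :
    |mart G Λ β p s ω e k| ≤ k * (β / 2 ^ p * 4) := by
  refine (Finset.abs_sum_le_sum_abs _ _).trans
    ((Finset.sum_le_card_nsmul _ _ (β / 2 ^ p * 4) fun j _ => ?_).trans ?_)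
  · rw [abs_mul, abs_of_nonneg (by positivity)]
    exact mul_le_mul_of_nonneg_left (abs_drift_sub_le Λ _ _ _ _) (by positivity)
  · rw [nsmul_eq_mul, Nat.card_Ico]
    gcongr
    exact_mod_cast Nat.sub_le k s

lemma mart_congr {ω ω' : ℕ → (G.edgeSet → ℝ) × unitInterval} (e : G.edgeSet) {k : ℕ}
    (h : ∀ j < k, ω j = ω' j) : mart G Λ β p s ω e k = mart G Λ β p s ω' e k := by
  refine Finset.sum_congr rfl fun j hj => ?_
  have hj' := (Finset.mem_Ico.1 hj).2
  rw [h j hj', chain_congr Λ β p s (k := j) fun i hi => h i (by omega)]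

lemma integral_mart_sq (hβ : 0 ≤ β) (e : G.edgeSet) (k : ℕ) :
    ∫ ω, mart G Λ β p s ω e k ^ 2 ∂POm G.edgeSet ≤ k * (16 * (β / 2 ^ p) ^ 2) := by
  induction k with
  | zero => simp [mart]
  | succ k ih =>
    by_cases hk : k < s
    · have : ∀ ω, mart G Λ β p s ω e (k + 1) = 0 := fun ω => by
        rw [mart, Finset.Ico_eq_empty (by omega), Finset.sum_empty]
      simp only [this]
      simp only [ne_eq, OfNat.ofNat_ne_zero, not_false_eq_true, zero_pow, integral_zero]
      positivity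
    have hk' : s ≤ k := by omega
    set a := β / 2 ^ p with ha
    set J := β * (1 - k / 2 ^ p) with hJ
    have ha0 : 0 ≤ a := by positivity
    have h1 : ∀ ω, mart G Λ β p s ω e (k + 1) = mart G Λ β p s ω e k +
        a * (drift G Λ (smp G Λ J (chain G Λ β p s ω k) (ω k).2) e -
          mdrift G Λ J (chain G Λ β p s ω k) e) := fun ω => Finset.sum_Ico_succ_top hk' _
    simp only [h1]
    have hm1 : Measurable fun q : (ℕ → (G.edgeSet → ℝ) × unitInterval) ×
        ((G.edgeSet → ℝ) × unitInterval) =>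
        drift G Λ (smp G Λ J (chain G Λ β p s q.1 k) q.2.2) e :=
      measurable_smp Λ _ ((measurable_chain Λ β p s k).comp measurable_fst) measurable_snd.snd
        (φ := fun _ A => drift G Λ A e) fun _ => measurable_const
    have hm2 : Measurable fun q : (ℕ → (G.edgeSet → ℝ) × unitInterval) ×
        ((G.edgeSet → ℝ) × unitInterval) => mdrift G Λ J (chain G Λ β p s q.1 k) e :=
      (measurable_mdrift Λ _ e).comp ((measurable_chain Λ β p s k).comp measurable_fst)
    have hm3 : Measurable fun q : (ℕ → (G.edgeSet → ℝ) × unitInterval) ×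
        ((G.edgeSet → ℝ) × unitInterval) => mart G Λ β p s q.1 e k :=
      (measurable_mart Λ β p s e k).comp measurable_fst
    have hm4 : Measurable fun q : (ℕ → (G.edgeSet → ℝ) × unitInterval) ×
        ((G.edgeSet → ℝ) × unitInterval) => (mart G Λ β p s q.1 e k +
        a * (drift G Λ (smp G Λ J (chain G Λ β p s q.1 k) q.2.2) e -
          mdrift G Λ J (chain G Λ β p s q.1 k) e)) ^ 2 := by fun_prop
    rw [POm, integral_freeze (nu G.edgeSet) k (fun ω ξ => (mart G Λ β p s ω e k +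
        a * (drift G Λ (smp G Λ J (chain G Λ β p s ω k) ξ.2) e -
          mdrift G Λ J (chain G Λ β p s ω k) e)) ^ 2) hm4 (M := (k * (a * 4) + a * 4) ^ 2)
      (fun ω ξ => by
        rw [abs_pow]
        refine pow_le_pow_left₀ (abs_nonneg _) ((abs_add_le _ _).trans
          (add_le_add (abs_mart_le Λ β p s hβ ω e k) ?_)) 2
        rw [abs_mul, abs_of_nonneg ha0]
        exact mul_le_mul_of_nonneg_left (abs_drift_sub_le Λ _ _ _ _) ha0)
      fun ω ω' h => by rw [chain_congr Λ β p s h, mart_congr Λ β p s e h], ← POm]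
    have h2 : ∀ ω, ∫ ξ, (mart G Λ β p s ω e k +
        a * (drift G Λ (smp G Λ J (chain G Λ β p s ω k) ξ.2) e -
          mdrift G Λ J (chain G Λ β p s ω k) e)) ^ 2 ∂nu G.edgeSet ≤
        mart G Λ β p s ω e k ^ 2 + 16 * a ^ 2 := by
      intro ω
      set N := mart G Λ β p s ω e k
      set y := chain G Λ β p s ω k
      have h3 : MeasurePreserving Prod.snd (nu G.edgeSet) volume := measurePreserving_snd
      have h4 : Measurable fun u => (N + a * (drift G Λ (smp G Λ J y u) e - mdrift G Λ J y e)) ^ 2 :=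
        measurable_smp Λ J measurable_const measurable_id
          (φ := fun _ A => (N + a * (drift G Λ A e - mdrift G Λ J y e)) ^ 2) fun _ => measurable_const
      rw [← integral_map (φ := Prod.snd) measurable_snd.aemeasurable h4.aestronglyMeasurable,
        h3.map_eq, integral_smp Λ J y fun A => (N + a * (drift G Λ A e - mdrift G Λ J y e)) ^ 2]
      refine (avg_mono (g' := fun A => N ^ 2 + 16 * a ^ 2 +
        2 * N * a * (drift G Λ A e - mdrift G Λ J y e)) fun A _ => ?_).trans (le_of_eq ?_)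
      · have h5 := abs_le.1 (abs_drift_sub_le Λ J y A e)
        have h6 : (drift G Λ A e - mdrift G Λ J y e) ^ 2 ≤ 16 := by nlinarith
        nlinarith [mul_le_mul_of_nonneg_left h6 (sq_nonneg a)]
      · rw [avg_add, avg_const (powerset_ne Λ), avg_const_mul, avg_sub, avg_const (powerset_ne Λ)]
        simp only [mdrift, gm, sub_self, mul_zero, add_zero]
    have hi : Integrable (fun ω => mart G Λ β p s ω e k ^ 2) (POm G.edgeSet) :=
      integrable_of_abs_le ((measurable_mart Λ β p s e k).pow_const 2) ((k * (a * 4)) ^ 2)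
        fun ω => by
          rw [abs_pow]
          exact pow_le_pow_left₀ (abs_nonneg _) (abs_mart_le Λ β p s hβ ω e k) 2
    refine (integral_mono_of_nonneg (ae_of_all _ fun _ => integral_nonneg fun _ => sq_nonneg _)
      (hi.add (integrable_const (16 * a ^ 2))) (ae_of_all _ h2)).trans ?_
    simp only [Pi.add_apply]
    rw [integral_add hi (integrable_const _)]
    simp only [integral_const, probReal_univ, smul_eq_mul, one_mul]
    push_cast
    linarith

lemma chain_decomp (ω : ℕ → (G.edgeSet → ℝ) × unitInterval) (e : G.edgeSet) (k : ℕ) :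
    chain G Λ β p s ω k e =
      ∑ j ∈ Finset.Ico s k, β / 2 ^ p * mdrift G Λ (β * (1 - j / 2 ^ p)) (chain G Λ β p s ω j) e +
        mart G Λ β p s ω e k + √(β / 2 ^ p) * ∑ j ∈ Finset.Ico s k, (ω j).1 e := by
  induction k with
  | zero => simp [chain_zero, mart]
  | succ k ih =>
    by_cases hk : k < s
    · rw [chain_of_le Λ β p s ω (by omega), mart, Finset.Ico_eq_empty (by omega)]
      simp
    · have hk' : s ≤ k := by omega
      rw [chain_succ_of_le Λ β p s ω hk', mart, Finset.sum_Ico_succ_top hk',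
        Finset.sum_Ico_succ_top hk', Finset.sum_Ico_succ_top hk', ← mart, nx, obs, ih]
      ring

lemma eul_of_le (w : ℕ → G.edgeSet → ℝ) {k : ℕ} (hk : k ≤ s) : eul G Λ β p s w k = 0 := by
  cases k with
  | zero => exact eul_zero ..
  | succ k => rw [eul_succ, if_pos (by omega)]

lemma eul_decomp (hβ : 0 ≤ β) (q : ℕ) (w : ℕ → G.edgeSet → ℝ) (e : G.edgeSet) (k : ℕ) :
    eul G Λ β p s (crs q w) k e =
      ∑ j ∈ Finset.Ico (s * 2 ^ q) (k * 2 ^ q), β / 2 ^ (p + q) *
        mdrift G Λ (β * (1 - (j / 2 ^ q : ℕ) / 2 ^ p)) (eul G Λ β p s (crs q w) (j / 2 ^ q)) e +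
        √(β / 2 ^ (p + q)) * ∑ j ∈ Finset.Ico (s * 2 ^ q) (k * 2 ^ q), w j e := by
  have hq : 0 < 2 ^ q := by positivity
  induction k with
  | zero => simp [eul_zero]
  | succ k ih =>
    by_cases hk : k < s
    · rw [eul_of_le Λ β p s _ (by omega), Finset.Ico_eq_empty
        (not_lt.2 (Nat.mul_le_mul_right _ (by omega)))]
      simp
    · have hk' : s * 2 ^ q ≤ k * 2 ^ q := Nat.mul_le_mul_right _ (by omega)
      have hk'' : k * 2 ^ q ≤ (k + 1) * 2 ^ q := Nat.mul_le_mul_right _ (by omega)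
      rw [eul_succ, if_neg hk, ← Finset.sum_Ico_consecutive _ hk' hk'',
        ← Finset.sum_Ico_consecutive _ hk' hk'', ih]
      have h1 : (k + 1) * 2 ^ q - k * 2 ^ q = 2 ^ q := by
        rw [Nat.succ_mul]
        omega
      have h2 : ∑ j ∈ Finset.Ico (k * 2 ^ q) ((k + 1) * 2 ^ q), β / 2 ^ (p + q) *
          mdrift G Λ (β * (1 - (j / 2 ^ q : ℕ) / 2 ^ p)) (eul G Λ β p s (crs q w) (j / 2 ^ q)) e =
          β / 2 ^ p * mdrift G Λ (β * (1 - k / 2 ^ p)) (eul G Λ β p s (crs q w) k) e := by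
        rw [Finset.sum_congr rfl (g := fun _ => β / 2 ^ (p + q) *
          mdrift G Λ (β * (1 - k / 2 ^ p)) (eul G Λ β p s (crs q w) k) e) fun j hj => by
            rw [Nat.div_eq_of_lt_le (Finset.mem_Ico.1 hj).1 (Finset.mem_Ico.1 hj).2]]
        rw [Finset.sum_const, Nat.card_Ico, h1, nsmul_eq_mul, pow_add]
        push_cast
        field_simp
      have h3 : √(β / 2 ^ (p + q)) * ∑ j ∈ Finset.Ico (k * 2 ^ q) ((k + 1) * 2 ^ q), w j e =
          √(β / 2 ^ p) * crs q w k e := by
        rw [Finset.sum_Ico_eq_sum_range, h1, crs, pow_add, ← div_div,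
          Real.sqrt_div' _ (by positivity)]
        ring
      rw [h2, mul_add, h3]
      ring

lemma mdrift_lip (J J' : ℝ) (y y' : G.edgeSet → ℝ) (e : G.edgeSet) :
    |mdrift G Λ J' y' e - mdrift G Λ J y e| ≤
      44 * ((EF G Λ).card * |J' - J| + 2 * ∑ e ∈ EF G Λ, |y' e - y e|) := by
  have h := gm_lip Λ J J' y y' (g := fun A => 1 / 2 * drift G Λ A e) fun A => by
    rw [abs_mul]
    have := abs_drift_le (G := G) Λ A e
    rw [abs_of_pos (by norm_num : (0 : ℝ) < 1 / 2)]
    linarith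
  simp only [gm, avg_const_mul] at h
  rw [← mul_sub, abs_mul, abs_of_pos (by norm_num : (0 : ℝ) < 1 / 2)] at h
  simp only [mdrift, gm]
  linarith

lemma integral_noise_sum (e : G.edgeSet) (T : Finset ℕ) :
    Integrable (fun ω : ℕ → (G.edgeSet → ℝ) × unitInterval => (∑ j ∈ T, (ω j).1 e) ^ 2)
      (POm G.edgeSet) ∧
    ∫ ω, (∑ j ∈ T, (ω j).1 e) ^ 2 ∂POm G.edgeSet = T.card := by
  have h : MeasurePreserving (fun (ω : ℕ → (G.edgeSet → ℝ) × unitInterval) j => (ω j).1 e)
      (POm G.edgeSet) (gE ℕ) := by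
    refine ⟨by fun_prop, ?_⟩
    rw [POm, Measure.infinitePi_map_pi _
      (f := fun _ (ξ : (G.edgeSet → ℝ) × unitInterval) => ξ.1 e) (by fun_prop), gE]
    congr 1
    funext j
    exact ((measurePreserving_eval_infinitePi (fun _ : G.edgeSet => gaussianReal 0 1) e).comp
      (measurePreserving_fst (ν := (volume : Measure unitInterval)))).map_eq
  have h1 := integrable_gE_sum_sq T (fun _ => 1)
  have h2 := integral_gE_sum_sq T (fun _ => 1)
  simp only [one_mul, one_pow, Finset.sum_const, nsmul_eq_mul, mul_one] at h1 h2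
  refine ⟨h.integrable_comp_of_integrable h1, ?_⟩
  rw [← h2, ← h.map_eq, integral_map h.measurable.aemeasurable]
  rw [h.map_eq]
  exact h1.aestronglyMeasurable

/-- The Euler scheme with mesh `2^-p` is close to the chain with mesh `2^-(p+q)`. -/
theorem euler_close [G.LocallyFinite] (hβ : 0 ≤ β) (hβ1 : β ≤ 1) (q : ℕ) {N : ℕ}
    (hN : (EF G Λ).card ≤ N) (k : ℕ) (hk : k ≤ 2 ^ (p + q)) :
    Integrable (fun ω : ℕ → (G.edgeSet → ℝ) × unitInterval =>
      ∑ e ∈ EF G Λ, |chain G Λ β (p + q) (s * 2 ^ q) ω k e -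
        eul G Λ β p s (crs q fun j => (ω j).1) (k / 2 ^ q) e|) (POm G.edgeSet) ∧
    ∫ ω, ∑ e ∈ EF G Λ, |chain G Λ β (p + q) (s * 2 ^ q) ω k e -
        eul G Λ β p s (crs q fun j => (ω j).1) (k / 2 ^ q) e| ∂POm G.edgeSet ≤
      (Real.exp (88 * N) * (660 * N ^ 3) + 7 * N) * √(1 / 2 ^ p) := by
  set a := β / 2 ^ (p + q) with ha
  set r := √(1 / 2 ^ p : ℝ) with hr
  set s' := s * 2 ^ q with hs'
  have ha0 : 0 ≤ a := by positivity
  have hr0 : 0 < r := by positivity
  have hr2 : r ^ 2 = 1 / 2 ^ p := Real.sq_sqrt (by positivity)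
  have hr1 : r ≤ 1 := 
    Real.sqrt_le_one.2 (div_le_one_of_le₀ (one_le_pow₀ one_le_two) (by positivity))
  have haq : a * 2 ^ q ≤ r ^ 2 := by
    rw [hr2, ha, pow_add]
    have : β / (2 ^ p * 2 ^ q) * 2 ^ q = β / 2 ^ p := by field_simp
    rw [this]
    gcongr
  have hapq : a * 2 ^ (p + q) ≤ 1 := by
    rw [ha, div_mul_cancel₀ _ (by positivity)]
    exact hβ1
  have ha1 : a ≤ r ^ 2 := le_trans (le_mul_of_one_le_right ha0 (one_le_pow₀ one_le_two)) haq
  have hrr : r ^ 2 ≤ r := by nlinarith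
  have hNR : ((EF G Λ).card : ℝ) ≤ N := by exact_mod_cast hN
  let Y := fun (ω : ℕ → (G.edgeSet → ℝ) × unitInterval) (j : ℕ) => chain G Λ β (p + q) s' ω j
  let Z := fun (ω : ℕ → (G.edgeSet → ℝ) × unitInterval) (j : ℕ) =>
    eul G Λ β p s (crs q fun j => (ω j).1) (j / 2 ^ q)
  let dA := fun (ω : ℕ → (G.edgeSet → ℝ) × unitInterval) (e : G.edgeSet) (j : ℕ) =>
    a * mdrift G Λ (β * (1 - j / 2 ^ (p + q))) (Y ω j) e
  let dE := fun (ω : ℕ → (G.edgeSet → ℝ) × unitInterval) (e : G.edgeSet) (j : ℕ) =>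
    a * mdrift G Λ (β * (1 - (j / 2 ^ q : ℕ) / 2 ^ p)) (Z ω j) e
  have hYm : ∀ j, Measurable fun ω => Y ω j := fun j => measurable_chain Λ β _ _ j
  have hZm : ∀ j, Measurable fun ω => Z ω j := fun j =>
    (measurable_eul Λ β p s _).comp ((measurable_crs q).comp (by fun_prop))
  have hdA : ∀ e j, Measurable fun ω => dA ω e j := fun e j =>
    ((measurable_mdrift Λ _ e).comp (hYm j)).const_mul _
  have hdE : ∀ e j, Measurable fun ω => dE ω e j := fun e j =>
    ((measurable_mdrift Λ _ e).comp (hZm j)).const_mul _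
  have hdAb : ∀ ω e j, |dA ω e j| ≤ a * 2 := fun ω e j => by
    rw [abs_mul, abs_of_nonneg ha0]
    exact mul_le_mul_of_nonneg_left (abs_mdrift_le _ _ _ _) ha0
  have hdEb : ∀ ω e j, |dE ω e j| ≤ a * 2 := fun ω e j => by
    rw [abs_mul, abs_of_nonneg ha0]
    exact mul_le_mul_of_nonneg_left (abs_mdrift_le _ _ _ _) ha0
  let U := fun (ω : ℕ → (G.edgeSet → ℝ) × unitInterval) (k : ℕ) =>
    ∑ e ∈ EF G Λ, |∑ j ∈ Finset.Ico s' k, (dA ω e j - dE ω e j)|
  have hUm : ∀ k, Measurable fun ω => U ω k := fun k =>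
    Finset.measurable_fun_sum _ fun e _ =>
      (Finset.measurable_fun_sum _ fun j _ => (hdA e j).sub (hdE e j)).abs
  have hUi : ∀ k, Integrable (fun ω => U ω k) (POm G.edgeSet) := fun k => by
    refine integrable_of_abs_le (hUm k) ((EF G Λ).card • (Finset.Ico s' k).card • (a * 4))
      fun ω => ?_
    rw [abs_of_nonneg (Finset.sum_nonneg fun _ _ => abs_nonneg _)]
    refine Finset.sum_le_card_nsmul _ _ _ fun e _ => (Finset.abs_sum_le_sum_abs _ _).trans
      (Finset.sum_le_card_nsmul _ _ _ fun j _ => (abs_sub _ _).trans ?_)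
    linarith [hdAb ω e j, hdEb ω e j]
  let W := fun (ω : ℕ → (G.edgeSet → ℝ) × unitInterval) (k : ℕ) =>
    ∑ e ∈ EF G Λ, (|mart G Λ β (p + q) s' ω e k| +
      |√a * ∑ j ∈ Finset.Ico (max s' (k / 2 ^ q * 2 ^ q)) k, (ω j).1 e|)
  have hW : ∀ k ≤ 2 ^ (p + q), Integrable (fun ω => W ω k) (POm G.edgeSet) ∧
      ∫ ω, W ω k ∂POm G.edgeSet ≤ 5 * N * r := by
    intro k hk
    have h1 : ∀ e, Integrable (fun ω => |mart G Λ β (p + q) s' ω e k|) (POm G.edgeSet) := fun e =>
      (integrable_of_abs_le (measurable_mart Λ β _ _ e k) _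
        fun ω => abs_mart_le Λ β _ _ hβ ω e k).abs
    have h2 : ∀ e, ∫ ω, |mart G Λ β (p + q) s' ω e k| ∂POm G.edgeSet ≤ 4 * r := fun e => by
      refine integral_abs_le_sqrt _ (measurable_mart Λ β _ _ e k) (integrable_of_abs_le
        ((measurable_mart Λ β _ _ e k).pow_const 2) ((k * (a * 4)) ^ 2) fun ω => ?_)
        (by positivity) ((integral_mart_sq Λ β _ _ hβ e k).trans ?_)
      · rw [abs_pow]
        exact pow_le_pow_left₀ (abs_nonneg _) (abs_mart_le Λ β _ _ hβ ω e k) 2
      · have h3 : (k : ℝ) * a ≤ 1 := by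
          refine le_trans ?_ hapq
          rw [mul_comm]
          gcongr
          exact_mod_cast hk
        rw [← ha]
        nlinarith [mul_le_mul h3 ha1 ha0 zero_le_one]
    have h3 : ∀ e, Measurable fun ω : ℕ → (G.edgeSet → ℝ) × unitInterval =>
        √a * ∑ j ∈ Finset.Ico (max s' (k / 2 ^ q * 2 ^ q)) k, (ω j).1 e := fun e => by fun_prop
    have h4 : ∀ e, Integrable (fun ω : ℕ → (G.edgeSet → ℝ) × unitInterval =>
        (√a * ∑ j ∈ Finset.Ico (max s' (k / 2 ^ q * 2 ^ q)) k, (ω j).1 e) ^ 2) (POm G.edgeSet) :=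
      fun e => by
        simp only [mul_pow]
        exact (integral_noise_sum e _).1.const_mul _
    have h5 : ∀ e, Integrable (fun ω : ℕ → (G.edgeSet → ℝ) × unitInterval =>
        |√a * ∑ j ∈ Finset.Ico (max s' (k / 2 ^ q * 2 ^ q)) k, (ω j).1 e|) (POm G.edgeSet) :=
      fun e => (((memLp_two_iff_integrable_sq (h3 e).aestronglyMeasurable).2 (h4 e)).integrable
        one_le_two).abs
    have h6 : ∀ e, ∫ ω, |√a * ∑ j ∈ Finset.Ico (max s' (k / 2 ^ q * 2 ^ q)) k, (ω j).1 e|
        ∂POm G.edgeSet ≤ r := fun e => by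
      refine integral_abs_le_sqrt _ (h3 e) (h4 e) hr0 ?_
      simp only [mul_pow]
      rw [integral_const_mul, (integral_noise_sum e _).2, Real.sq_sqrt ha0, Nat.card_Ico]
      refine le_trans ?_ haq
      gcongr
      have h7 := Nat.div_add_mod' k (2 ^ q)
      have h8 := Nat.mod_lt k (by positivity : 0 < 2 ^ q)
      have h9 : k - max s' (k / 2 ^ q * 2 ^ q) ≤ 2 ^ q := by omega
      exact_mod_cast h9
    have h7 : ∀ e, Integrable (fun ω : ℕ → (G.edgeSet → ℝ) × unitInterval =>
        |mart G Λ β (p + q) s' ω e k| +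
          |√a * ∑ j ∈ Finset.Ico (max s' (k / 2 ^ q * 2 ^ q)) k, (ω j).1 e|) (POm G.edgeSet) :=
      fun e => (h1 e).add (h5 e)
    refine ⟨integrable_finsetSum _ fun e _ => h7 e, ?_⟩
    rw [integral_finsetSum _ fun e _ => h7 e]
    refine (Finset.sum_le_card_nsmul _ _ (5 * r) fun e _ => ?_).trans ?_
    · rw [integral_add (h1 e) (h5 e)]
      linarith [h2 e, h6 e]
    · rw [nsmul_eq_mul]
      nlinarith
  have herr : ∀ ω k, ∑ e ∈ EF G Λ, |Y ω k e - Z ω k e| ≤ U ω k + W ω k + 2 * N * r := by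
    intro ω k
    have h1 : ∀ e ∈ EF G Λ, |Y ω k e - Z ω k e| ≤ |∑ j ∈ Finset.Ico s' k, (dA ω e j - dE ω e j)| +
        (|mart G Λ β (p + q) s' ω e k| +
          |√a * ∑ j ∈ Finset.Ico (max s' (k / 2 ^ q * 2 ^ q)) k, (ω j).1 e|) + 2 * r := by
      intro e _
      by_cases hks : k < s'
      · have h2 : k / 2 ^ q ≤ s := Nat.div_le_of_le_mul (by rw [mul_comm]; omega)
        simp only [Y, Z, chain_of_le Λ β _ _ ω hks.le, eul_of_le Λ β p s _ h2, Pi.zero_apply,
          sub_self, abs_zero]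
        positivity
      have h2 : s ≤ k / 2 ^ q := (Nat.le_div_iff_mul_le (by positivity)).2 (by omega)
      have h3 : s' ≤ k / 2 ^ q * 2 ^ q := Nat.mul_le_mul_right _ h2
      have h4 : k / 2 ^ q * 2 ^ q ≤ k := Nat.div_mul_le_self _ _
      have h5 : Y ω k e - Z ω k e = ∑ j ∈ Finset.Ico s' k, (dA ω e j - dE ω e j) +
          (mart G Λ β (p + q) s' ω e k + √a * ∑ j ∈ Finset.Ico (k / 2 ^ q * 2 ^ q) k, (ω j).1 e) +
          ∑ j ∈ Finset.Ico (k / 2 ^ q * 2 ^ q) k, dE ω e j := by
        have h6 := chain_decomp Λ β (p + q) s' ω e k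
        have h7 := eul_decomp Λ β p s hβ q (fun j => (ω j).1) e (k / 2 ^ q)
        rw [Finset.sum_sub_distrib, ← Finset.sum_Ico_consecutive (dE ω e) h3 h4]
        rw [← Finset.sum_Ico_consecutive (fun j => (ω j).1 e) h3 h4] at h6
        simp only [Y, Z, dA, dE]
        rw [h6, h7]
        ring
      rw [h5, max_eq_right h3]
      refine (abs_add_le _ _).trans (add_le_add ((abs_add_le _ _).trans
        (add_le_add le_rfl (abs_add_le _ _))) ?_)
      refine (Finset.abs_sum_le_sum_abs _ _).trans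
        ((Finset.sum_le_card_nsmul _ _ _ fun j _ => hdEb ω e j).trans ?_)
      rw [nsmul_eq_mul, Nat.card_Ico]
      have h7 := Nat.div_add_mod' k (2 ^ q)
      have h8 := Nat.mod_lt k (by positivity : 0 < 2 ^ q)
      have h9 : k - k / 2 ^ q * 2 ^ q ≤ 2 ^ q := by omega
      have h10 : ((k - k / 2 ^ q * 2 ^ q : ℕ) : ℝ) ≤ 2 ^ q := by exact_mod_cast h9
      nlinarith
    refine (Finset.sum_le_sum h1).trans ?_
    rw [Finset.sum_add_distrib, Finset.sum_add_distrib, Finset.sum_const, nsmul_eq_mul]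
    nlinarith
  have hstep : ∀ ω k, U ω (k + 1) ≤ (1 + 88 * N * a) * U ω k + 88 * N * a * W ω k +
      220 * N ^ 2 * a * r := by
    intro ω k
    have hU0 : 0 ≤ U ω k := Finset.sum_nonneg fun _ _ => abs_nonneg _
    have hW0 : 0 ≤ W ω k := Finset.sum_nonneg fun _ _ => by positivity
    by_cases hks : k < s'
    · have : U ω (k + 1) = 0 := by
        simp only [U]
        rw [Finset.Ico_eq_empty (by omega)]
        simp
      rw [this]
      positivity
    have hJ : |β * (1 - (k : ℝ) / 2 ^ (p + q)) - β * (1 - (k / 2 ^ q : ℕ) / 2 ^ p)| ≤ r := by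
      have h7 := Nat.div_add_mod' k (2 ^ q)
      have h8 := Nat.mod_lt k (by positivity : 0 < 2 ^ q)
      have h9 : (k : ℝ) = (k / 2 ^ q : ℕ) * 2 ^ q + (k % 2 ^ q : ℕ) := by exact_mod_cast h7.symm
      have h10 : ((k % 2 ^ q : ℕ) : ℝ) ≤ 2 ^ q := by exact_mod_cast h8.le
      have h11 : β * (1 - (k : ℝ) / 2 ^ (p + q)) - β * (1 - (k / 2 ^ q : ℕ) / 2 ^ p) =
          -(a * (k % 2 ^ q : ℕ)) := by
        generalize ((k / 2 ^ q : ℕ) : ℝ) = u at *
        generalize ((k % 2 ^ q : ℕ) : ℝ) = v at *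
        rw [h9, ha, pow_add]
        field_simp
        ring
      rw [h11, abs_neg, abs_of_nonneg (by positivity)]
      nlinarith
    have h1 : ∀ e ∈ EF G Λ, |∑ j ∈ Finset.Ico s' (k + 1), (dA ω e j - dE ω e j)| ≤
        |∑ j ∈ Finset.Ico s' k, (dA ω e j - dE ω e j)| +
          a * (44 * (N * r + 2 * (U ω k + W ω k + 2 * N * r))) := by
      intro e _
      rw [Finset.sum_Ico_succ_top (by omega)]
      refine (abs_add_le _ _).trans (add_le_add le_rfl ?_)
      simp only [dA, dE]
      rw [← mul_sub, abs_mul, abs_of_nonneg ha0]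
      refine mul_le_mul_of_nonneg_left ((mdrift_lip Λ _ _ _ _ e).trans ?_) ha0
      have h2 := herr ω k
      have h3 := mul_le_mul hNR hJ (abs_nonneg _) (by positivity)
      linarith
    refine (Finset.sum_le_sum h1).trans ?_
    rw [Finset.sum_add_distrib, Finset.sum_const, nsmul_eq_mul]
    have h2 : ((EF G Λ).card : ℝ) * (a * (44 * (N * r + 2 * (U ω k + W ω k + 2 * N * r)))) ≤
        N * (a * (44 * (N * r + 2 * (U ω k + W ω k + 2 * N * r)))) := by gcongr
    refine (add_le_add le_rfl h2).trans (le_of_eq ?_)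
    simp only [U]
    ring
  have hgr := gronwall (fun k => ∫ ω, U ω k ∂POm G.edgeSet) (88 * N * a) (660 * N ^ 2 * a * r)
    (by positivity) (by positivity) 0 k
    (integral_nonneg fun ω => Finset.sum_nonneg fun _ _ => abs_nonneg _) fun j _ hj => by
      have hWj := hW j (by omega)
      have hi1 : Integrable (fun ω => (1 + 88 * N * a) * U ω j + 88 * N * a * W ω j)
          (POm G.edgeSet) := ((hUi j).const_mul _).add (hWj.1.const_mul _)
      refine (integral_mono (hUi _) (hi1.add (integrable_const (220 * N ^ 2 * a * r)))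
        fun ω => hstep ω j).trans ?_
      simp only [Pi.add_apply]
      rw [integral_add hi1 (integrable_const _),
        integral_add ((hUi j).const_mul _) (hWj.1.const_mul _), integral_const_mul,
        integral_const_mul]
      simp only [integral_const, probReal_univ, smul_eq_mul, one_mul]
      have := mul_le_mul_of_nonneg_left hWj.2 (by positivity : (0 : ℝ) ≤ 88 * N * a)
      nlinarith
  have hU0 : ∫ ω, U ω 0 ∂POm G.edgeSet = 0 := by simp [U]
  simp only [zero_add, hU0] at hgr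
  have hka : a * k ≤ 1 := by
    refine le_trans ?_ hapq
    gcongr
    exact_mod_cast hk
  have hUk : ∫ ω, U ω k ∂POm G.edgeSet ≤ Real.exp (88 * N) * (660 * N ^ 3) * r := by
    refine hgr.trans ?_
    rcases Nat.eq_zero_or_pos N with rfl | hN0
    · simp
    have hN1 : (1 : ℝ) ≤ N := by exact_mod_cast hN0
    rw [mul_assoc (Real.exp _)]
    refine mul_le_mul (Real.exp_le_exp.2 ?_) ?_ (by positivity) (by positivity)
    · nlinarith
    · have h1 : (N : ℝ) ^ 2 ≤ N ^ 3 := pow_le_pow_right₀ hN1 (by norm_num)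
      have h2 : 660 * (N : ℝ) ^ 2 * a * r * k = 660 * N ^ 2 * r * (a * k) := by ring
      rw [h2]
      calc _ ≤ 660 * (N : ℝ) ^ 2 * r * 1 := by gcongr
        _ ≤ _ := by nlinarith
  have hWk := hW k hk
  have hi1 : Integrable (fun ω => U ω k + W ω k) (POm G.edgeSet) := (hUi k).add hWk.1
  have hi2 : Integrable (fun ω => U ω k + W ω k + 2 * N * r) (POm G.edgeSet) :=
    hi1.add (integrable_const _)
  have hm : Measurable fun ω => ∑ e ∈ EF G Λ, |Y ω k e - Z ω k e| :=
    Finset.measurable_fun_sum _ fun e _ => (((measurable_pi_apply e).comp (hYm k)).sub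
      ((measurable_pi_apply e).comp (hZm k))).abs
  have hi3 : Integrable (fun ω => ∑ e ∈ EF G Λ, |Y ω k e - Z ω k e|) (POm G.edgeSet) :=
    hi2.mono' hm.aestronglyMeasurable (ae_of_all _ fun ω => by
      rw [Real.norm_eq_abs, abs_of_nonneg (Finset.sum_nonneg fun _ _ => abs_nonneg _)]
      exact herr ω k)
  refine ⟨hi3, (integral_mono hi3 hi2 fun ω => herr ω k).trans ?_⟩
  rw [integral_add hi1 (integrable_const _), integral_add (hUi k) hWk.1]
  simp only [integral_const, probReal_univ, smul_eq_mul, one_mul]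
  nlinarith [hWk.2]

end Crest.Agent.R160
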