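import Crest.Agent.R160.Volume
import Crest.Agent.R160.Euler

/-!
Row 160: Euler schemes in balls approximate the chain in every large volume.
-/

set_option autoImplicit false
set_option linter.unusedSectionVars false
set_option linter.unusedVariables false
set_option maxHeartbeats 400000

open MeasureTheory ProbabilityTheory Filter Topology
open scoped ENNReal

namespace Crest.Agent.R160

universe u

variable {V : Type u} {G : SimpleGraph V} [G.LocallyFinite] {b : ℕ}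

lemma exists_pow_le {g : ℝ} (hg0 : 0 ≤ g) (hg1 : g < 1) (C : ℝ) {ε : ℝ} (hε : 0 < ε) :
    ∃ R : ℕ, ∀ R' ≥ R, C * g ^ R' ≤ ε := by
  have h := (tendsto_pow_atTop_nhds_zero_of_lt_one hg0 hg1).const_mul C
  rw [mul_zero] at h
  exact eventually_atTop.1 (h.eventually (ge_mem_nhds hε))

lemma exists_mesh_le (C : ℝ) {ε : ℝ} (hε : 0 < ε) : ∃ p : ℕ, ∀ p' ≥ p, C * (1 / 2 ^ p') ≤ ε := by
  obtain ⟨p, hp⟩ := exists_pow_le (g := 1 / 2) (by norm_num) (by norm_num) C hε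
  exact ⟨p, fun p' hp' => by simpa using hp p' hp'⟩

lemma exists_mesh_sqrt_le (C : ℝ) {ε : ℝ} (hε : 0 < ε) :
    ∃ p : ℕ, ∀ p' ≥ p, C * √(1 / 2 ^ p') ≤ ε := by
  have h := (Real.continuous_sqrt.tendsto 0).comp
    (tendsto_pow_atTop_nhds_zero_of_lt_one (r := (1 / 2 : ℝ)) (by norm_num) (by norm_num))
  have h2 := h.const_mul C
  rw [Real.sqrt_zero, mul_zero] at h2
  obtain ⟨p, hp⟩ := eventually_atTop.1 (h2.eventually (ge_mem_nhds hε))
  exact ⟨p, fun p' hp' => by simpa using hp p' hp'⟩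

lemma pow_sub_div {p n : ℕ} (h : n ≤ p) : ((2 ^ (p - n) : ℕ) : ℝ) / 2 ^ p = 1 / 2 ^ n := by
  obtain ⟨q, rfl⟩ := Nat.exists_eq_add_of_le h
  rw [Nat.add_sub_cancel_left, pow_add]
  push_cast
  field_simp

lemma sub_of_start (hb : 2 ≤ b) {β : ℝ} (hβ : 0 ≤ β) (hθ : b * Real.tanh β ^ 2 ≤ 1) {τ t : ℝ}
    (hτ : 0 ≤ τ) (hτt : τ ≤ t) (ht : t ≤ 1) :
    b * Real.tanh (β * (1 - t)) ^ 2 ≤ (1 - τ / 2) ^ 2 := by
  refine (b_tanh_sq_le hb hβ hθ (hτ.trans hτt) ht).trans ?_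
  have h1 : (1 - t / 2) ^ 2 ≤ (1 - τ / 2) ^ 2 := pow_le_pow_left₀ (by linarith) (by linarith) 2
  nlinarith [sq_nonneg (1 - t / 2)]

theorem volume_close (hT : G.IsTree) (K : Kids G b) (hreg : G.IsRegularOfDegree (b + 1))
    (hb : 2 ≤ b) {β : ℝ} (hβ : 0 ≤ β) (hθ : b * Real.tanh β ^ 2 ≤ 1) (n : ℕ) {ε : ℝ} (hε : 0 < ε) :
    ∃ R₀ : ℕ, 1 ≤ R₀ ∧ ∀ Λ : Finset V, ∃ p₁ : ℕ, ∀ p ≥ p₁, n ≤ p → ∀ x₀, ball G x₀ R₀ ⊆ Λ →
      ∀ k, 2 ^ (p - n) ≤ k → k ≤ 2 ^ p → ∀ x, G.dist x₀ x ≤ 1 →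
        Dm G Λ (ball G x₀ R₀) β p (2 ^ (p - n)) (2 ^ (p - n)) k x ≤ ε := by
  have hβ1 : β ≤ 1 := le_one_of_tanh_sq (tanh_sq_le_half hb hθ)
  set g : ℝ := 1 - 1 / 2 ^ n / 2 with hg
  have hn1 : (1 : ℝ) / 2 ^ n ≤ 1 := div_le_one_of_le₀ (one_le_pow₀ one_le_two) (by positivity)
  have hn0 : (0 : ℝ) < 1 / 2 ^ n := by positivity
  have hg0 : 0 < g := by linarith
  have hg1 : g < 1 := by linarith
  set L := 2 * (b + 1) * (2 / (1 - g) ^ 3) * (4800 * C1 + 1) / g with hL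
  have hL0 : 0 ≤ L := by
    have := C1_nonneg
    have : 0 < 1 - g := by linarith
    positivity
  obtain ⟨R₀, hR₀⟩ := exists_pow_le hg0.le hg1 (Real.exp L * 4 / g) (half_pos hε)
  refine ⟨R₀ + 1, by omega, fun Λ => ?_⟩
  obtain ⟨p₁, hp₁⟩ := exists_mesh_le (Real.exp L * (Cerr * ((EF G Λ).card : ℝ) ^ 4)) (half_pos hε)
  refine ⟨p₁, fun p hp hnp x₀ hx₀ k hk hk' x hx => ?_⟩
  obtain ⟨j, rfl⟩ := Nat.exists_eq_add_of_le hk
  have hsub : ∀ k : ℕ, 2 ^ (p - n) ≤ k → k ≤ 2 ^ p →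
      b * Real.tanh (β * (1 - k / 2 ^ p)) ^ 2 ≤ g ^ 2 := fun k hk hk' => by
    refine sub_of_start hb hβ hθ hn0.le ?_ ?_
    · rw [← pow_sub_div hnp]
      gcongr
    · rw [div_le_one (by positivity)]
      exact_mod_cast hk'
  refine (volume_bound hT K hreg hb hβ hβ1 hg0 hg1 p _ hsub x₀ (R₀ + 1) hx₀ j hk' x).trans ?_
  rw [← hL]
  have haj : β / 2 ^ p * j ≤ 1 := by
    have h1 : (j : ℝ) ≤ 2 ^ p := by exact_mod_cast (le_of_add_le_right hk' : j ≤ 2 ^ p)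
    rw [div_mul_eq_mul_div, div_le_one (by positivity)]
    nlinarith [(by positivity : (0 : ℝ) ≤ j)]
  have h1 : (1 + β / 2 ^ p * L) ^ j ≤ Real.exp L := by
    calc (1 + β / 2 ^ p * L) ^ j ≤ Real.exp (β / 2 ^ p * L) ^ j := by
          gcongr
          linarith [Real.add_one_le_exp (β / 2 ^ p * L)]
      _ = Real.exp (β / 2 ^ p * j * L) := by
          rw [← Real.exp_nat_mul]
          congr 1
          ring
      _ ≤ Real.exp L := Real.exp_le_exp.2 (by nlinarith)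
  have h2 : g ^ (R₀ + 1) / g ^ G.dist x₀ x ≤ g ^ (R₀ + 1) / g := by
    refine div_le_div_of_nonneg_left (by positivity) hg0 ?_
    simpa using pow_le_pow_of_le_one hg0.le hg1.le hx
  have hC : 0 ≤ Cerr * ((EF G Λ).card : ℝ) ^ 4 := by
    have := Cerr_nonneg
    positivity
  have h3 : j * (Cerr * ((EF G Λ).card : ℝ) ^ 4 * (β / 2 ^ p) ^ 2) ≤
      Cerr * ((EF G Λ).card : ℝ) ^ 4 * (1 / 2 ^ p) := by
    have h4 : β / 2 ^ p ≤ 1 / 2 ^ p := by gcongr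
    calc j * (Cerr * ((EF G Λ).card : ℝ) ^ 4 * (β / 2 ^ p) ^ 2)
        = Cerr * ((EF G Λ).card : ℝ) ^ 4 * ((β / 2 ^ p * j) * (β / 2 ^ p)) := by ring
      _ ≤ Cerr * ((EF G Λ).card : ℝ) ^ 4 * (1 * (1 / 2 ^ p)) := by gcongr
      _ = _ := by ring
  have h4 := hR₀ (R₀ + 1) (by omega)
  have h5 := hp₁ p hp
  calc _ ≤ Real.exp L * (4 * (g ^ (R₀ + 1) / g) + Cerr * ((EF G Λ).card : ℝ) ^ 4 * (1 / 2 ^ p)) := by
        gcongr
    _ = Real.exp L * 4 / g * g ^ (R₀ + 1) +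
        Real.exp L * (Cerr * ((EF G Λ).card : ℝ) ^ 4) * (1 / 2 ^ p) := by ring
    _ ≤ ε := by linarith

lemma integral_abs_sub_le_add {Ω : Type*} [MeasurableSpace Ω] {P : Measure Ω}
    [IsProbabilityMeasure P] {f g h : Ω → ℝ} (hf : Measurable f) (hg : Measurable g)
    (hh : Measurable h) (bf : ∀ ω, |f ω| ≤ 1) (bg : ∀ ω, |g ω| ≤ 1) (bh : ∀ ω, |h ω| ≤ 1) :
    ∫ ω, |f ω - h ω| ∂P ≤ ∫ ω, |f ω - g ω| ∂P + ∫ ω, |g ω - h ω| ∂P := by
  have i1 := integrable_of_abs_le (P := P) hf 1 bf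
  have i2 := integrable_of_abs_le (P := P) hg 1 bg
  have i3 := integrable_of_abs_le (P := P) hh 1 bh
  have j1 : Integrable (fun ω => |f ω - g ω|) P := (i1.sub i2).abs
  have j2 : Integrable (fun ω => |g ω - h ω|) P := (i2.sub i3).abs
  rw [← integral_add j1 j2]
  exact integral_mono (i1.sub i3).abs (j1.add j2) fun ω => abs_sub_le _ _ _

theorem approx (hT : G.IsTree) (K : Kids G b) (hreg : G.IsRegularOfDegree (b + 1))
    (hb : 2 ≤ b) {β : ℝ} (hβ : 0 ≤ β) (hθ : b * Real.tanh β ^ 2 ≤ 1) (n : ℕ) {ε : ℝ} (hε : 0 < ε) :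
    ∃ R₀ p₀ : ℕ, 1 ≤ R₀ ∧ n ≤ p₀ ∧ ∀ Λ : Finset V, ∃ p₁ : ℕ, p₀ ≤ p₁ ∧ ∀ p ≥ p₁, ∀ x₀,
      ball G x₀ R₀ ⊆ Λ → ∀ k : ℕ, 2 ^ (p - n) ≤ k → k ≤ 2 ^ p →
        ∫ ω, |mag G Λ (β * (1 - k / 2 ^ p)) (chain G Λ β p (2 ^ (p - n)) ω k) x₀ -
          mag G (ball G x₀ R₀) (β * (1 - k / 2 ^ p)) (eul G (ball G x₀ R₀) β p₀ (2 ^ (p₀ - n))
            (crs (p - p₀) fun j => (ω j).1) (k / 2 ^ (p - p₀))) x₀| ∂POm G.edgeSet ≤ ε ∧
        ∀ D : G.Dart, D.fst = x₀ →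
          ∫ ω, |cav Λ (β * (1 - k / 2 ^ p)) (chain G Λ β p (2 ^ (p - n)) ω k) D -
            cav (ball G x₀ R₀) (β * (1 - k / 2 ^ p)) (eul G (ball G x₀ R₀) β p₀ (2 ^ (p₀ - n))
              (crs (p - p₀) fun j => (ω j).1) (k / 2 ^ (p - p₀))) D| ∂POm G.edgeSet ≤ ε := by
  have hβ1 : β ≤ 1 := le_one_of_tanh_sq (tanh_sq_le_half hb hθ)
  obtain ⟨R₀, hR₀, hvol⟩ := volume_close hT K hreg hb hβ hθ n
    (ε := (ε / 2) ^ 2 / 196) (by positivity)
  obtain ⟨N, hN⟩ := exists_card_EF_ball hreg R₀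
  obtain ⟨p₀, hp₀⟩ := exists_mesh_sqrt_le (66 * (Real.exp (88 * N) * (660 * N ^ 3) + 7 * N))
    (half_pos hε)
  refine ⟨R₀, max p₀ n, hR₀, le_max_right _ _, fun Λ => ?_⟩
  obtain ⟨p₁, hp₁⟩ := hvol Λ
  have hp₀' := hp₀ (max p₀ n) (le_max_left _ _)
  have hn : n ≤ max p₀ n := le_max_right _ _
  generalize max p₀ n = P₀ at *
  refine ⟨max p₁ P₀, le_max_right _ _, fun p hp x₀ hx₀ k hk hk' => ?_⟩
  have hv := hp₁ p (le_of_max_le_left hp) (hn.trans (le_of_max_le_right hp)) x₀ hx₀ k hk hk'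
  obtain ⟨q, rfl⟩ := Nat.exists_eq_add_of_le (le_of_max_le_right hp)
  have hs : 2 ^ (P₀ + q - n) = 2 ^ (P₀ - n) * 2 ^ q := by
    rw [← pow_add]
    congr 1
    omega
  rw [Nat.add_sub_cancel_left]
  obtain ⟨hei, he⟩ := euler_close (ball G x₀ R₀) β P₀ (2 ^ (P₀ - n)) hβ hβ1 q (hN x₀) k hk'
  rw [← hs] at hei he
  set s := 2 ^ (P₀ + q - n) with hs'
  set J := β * (1 - k / 2 ^ (P₀ + q)) with hJ
  have hJ0 : 0 ≤ J := by
    refine mul_nonneg hβ (sub_nonneg.2 ?_)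
    rw [div_le_one (by positivity)]
    exact_mod_cast hk'
  have hJθ : Real.tanh J ^ 2 ≤ 1 / 2 := by
    refine tanh_sq_le_half hb ((sub_of_start hb hβ hθ le_rfl (by positivity) ?_).trans (by norm_num))
    rw [div_le_one (by positivity)]
    exact_mod_cast hk'
  have m1 := measurable_chain (G := G) Λ β (P₀ + q) s k
  have m2 := measurable_chain (G := G) (ball G x₀ R₀) β (P₀ + q) s k
  have m3 : Measurable fun ω : ℕ → (G.edgeSet → ℝ) × unitInterval =>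
      eul G (ball G x₀ R₀) β P₀ (2 ^ (P₀ - n)) (crs q fun j => (ω j).1) (k / 2 ^ q) :=
    (measurable_eul _ β _ _ _).comp ((measurable_crs q).comp (by fun_prop))
  have hE : 66 * ∫ ω, ∑ e ∈ EF G (ball G x₀ R₀), |chain G (ball G x₀ R₀) β (P₀ + q) s ω k e -
      eul G (ball G x₀ R₀) β P₀ (2 ^ (P₀ - n)) (crs q fun j => (ω j).1) (k / 2 ^ q) e|
        ∂POm G.edgeSet ≤ ε / 2 := by
    linarith
  constructor
  · refine (integral_abs_sub_le_add ((measurable_mag Λ J x₀).comp m1)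
      ((measurable_mag (ball G x₀ R₀) J x₀).comp m2) ((measurable_mag _ J x₀).comp m3)
      (fun _ => abs_mag_le _ _ _ _) (fun _ => abs_mag_le _ _ _ _)
      (fun _ => abs_mag_le _ _ _ _)).trans ?_
    have h1 := integral_abs_le_sqrt _ (((measurable_mag Λ J x₀).comp m1).sub
      ((measurable_mag (ball G x₀ R₀) J x₀).comp m2)) (integrable_Dm _ _ β J _ s s k x₀)
      (half_pos hε) ((hv x₀ (by simp)).trans (by nlinarith [sq_nonneg (ε / 2)]))
    have h2 : ∫ ω, |mag G (ball G x₀ R₀) J (chain G (ball G x₀ R₀) β (P₀ + q) s ω k) x₀ -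
        mag G (ball G x₀ R₀) J (eul G (ball G x₀ R₀) β P₀ (2 ^ (P₀ - n))
          (crs q fun j => (ω j).1) (k / 2 ^ q)) x₀| ∂POm G.edgeSet ≤ ε / 2 := by
      refine le_trans ?_ hE
      rw [← integral_const_mul]
      refine integral_mono_of_nonneg (ae_of_all _ fun _ => abs_nonneg _) (hei.const_mul _)
        (ae_of_all _ fun ω => (gm_lip _ J J _ _ fun A => (abs_spin A x₀).le).trans ?_)
      simp only [sub_self, abs_zero, mul_zero, zero_add]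
      have : 0 ≤ ∑ e ∈ EF G (ball G x₀ R₀), |chain G (ball G x₀ R₀) β (P₀ + q) s ω k e -
        eul G (ball G x₀ R₀) β P₀ (2 ^ (P₀ - n)) (crs q fun j => (ω j).1) (k / 2 ^ q) e| :=
        Finset.sum_nonneg fun _ _ => abs_nonneg _
      linarith
    simp only [Function.comp_apply, Pi.sub_apply] at h1 ⊢
    linarith
  · rintro D rfl
    have hd : G.dist D.fst D.snd ≤ 1 := (SimpleGraph.dist_eq_one_iff_adj.2 D.adj).le
    have hD : ed D ∈ EF G (ball G D.fst R₀) := by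
      rw [ed_mem_EF, mem_ball hT.connected, mem_ball hT.connected]
      exact ⟨by simp, hd.trans hR₀⟩
    refine (integral_abs_sub_le_add ((measurable_cav Λ J D).comp m1)
      ((measurable_cav (ball G D.fst R₀) J D).comp m2) ((measurable_cav _ J D).comp m3)
      (fun _ => abs_cav_le _ _ _ _) (fun _ => abs_cav_le _ _ _ _)
      (fun _ => abs_cav_le _ _ _ _)).trans ?_
    have m4 := ((measurable_cav Λ J D).comp m1).sub ((measurable_cav (ball G D.fst R₀) J D).comp m2)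
    have i1 := integrable_Dm (G := G) Λ (ball G D.fst R₀) β J (P₀ + q) s s k
    have h1 := integral_abs_le_sqrt (POm G.edgeSet) m4 (integrable_of_abs_le (m4.pow_const 2) 4
      fun ω => by
        have h1 := abs_le.1 (abs_cav_le Λ J (chain G Λ β (P₀ + q) s ω k) D)
        have h2 := abs_le.1 (abs_cav_le (ball G D.fst R₀) J
          (chain G (ball G D.fst R₀) β (P₀ + q) s ω k) D)
        rw [abs_of_nonneg (sq_nonneg _)]
        simp only [Function.comp_apply, Pi.sub_apply]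
        nlinarith) (half_pos hε) (by
      refine (integral_mono_of_nonneg (ae_of_all _ fun _ => sq_nonneg _)
        (((i1 D.fst).add (i1 D.snd)).const_mul 98)
        (ae_of_all _ fun ω => cav_sub_sq_le hT hJ0 hJθ _ _ (EF_mono hx₀ hD) hD)).trans ?_
      rw [integral_const_mul]
      simp only [Pi.add_apply]
      rw [integral_add (i1 D.fst) (i1 D.snd)]
      have h3 := hv D.fst (by simp)
      have h4 := hv D.snd hd
      unfold Dm at h3 h4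
      linarith)
    have h2 : ∫ ω, |cav (ball G D.fst R₀) J (chain G (ball G D.fst R₀) β (P₀ + q) s ω k) D -
        cav (ball G D.fst R₀) J (eul G (ball G D.fst R₀) β P₀ (2 ^ (P₀ - n))
          (crs q fun j => (ω j).1) (k / 2 ^ q)) D| ∂POm G.edgeSet ≤ ε / 2 := by
      refine le_trans ?_ hE
      rw [← integral_const_mul]
      exact integral_mono_of_nonneg (ae_of_all _ fun _ => abs_nonneg _) (hei.const_mul _)
        (ae_of_all _ fun ω => cav_lip _ J _ _ hD)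
    simp only [Function.comp_apply, Pi.sub_apply] at h1 ⊢
    linarith

end Crest.Agent.R160
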