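import Crest.Agent.R160.BranchA5

/-!
Row 160, subtask C1: second moment and tails of the cavity field in the abstract branch model.
-/

set_option autoImplicit false
set_option linter.unusedSectionVars false
set_option linter.unusedVariables false
set_option maxHeartbeats 400000

open MeasureTheory ProbabilityTheory Filter Topology
open scoped ENNReal

namespace Crest.Agent.R160

universe u
variable {b : ℕ}

theorem measurable_arr (c s : ℝ) : Measurable (arr (b := b) c s) :=
  BA.measurable_arr' c s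

/-- Second moment of the cavity magnetisation. -/
theorem branch_sq (hb : 2 ≤ b) : ∃ C : ℝ, 0 ≤ C ∧ ∀ J c : ℝ, 0 ≤ J → 0 ≤ c →
    b * Real.tanh (J + c) ^ 2 ≤ 1 → ∀ (L : ℕ) (s : ℝ), s = 1 ∨ s = -1 →
      ∫ ω, Real.tanh (Xi J L (arr c s ω)) ^ 2 ∂Pabs b (J + c) ≤ C * √c := by
  refine ⟨20 + 800 * b ^ 2, by positivity, fun J c hJ hc h L s hs => ?_⟩
  have hm : Measurable fun ω : List (Fin b) → Bool × ℝ => Xi J L (arr c s ω) :=
    (continuous_Xi J L).measurable.comp (measurable_arr c s)
  by_cases hc1 : c ≤ 1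
  · have h1 := BA.sq_xi hb hJ hc hc1 h L
    have hl := BA.law_red (b := b) J c L s hs
    have hm2 : Measurable fun p => Real.tanh (BA.xi c p) ^ 2 :=
      (BA.measurable_tanh.comp (BA.measurable_xi c)).pow_const 2
    rw [← hl.map_eq, integral_map hl.measurable.aemeasurable hm2.aestronglyMeasurable] at h1
    refine le_trans (le_of_eq (integral_congr_ae (ae_of_all _ fun ω => ?_))) h1
    beta_reduce
    rw [BA.xi_red J c L s hs]
    rcases hs with rfl | rfl <;> simp
  · have h1 := integral_mono (BA.integrable_tanh_pow (μ := Pabs b (J + c)) hm 2)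
      (integrable_const 1) fun ω => BA.tanh_sq_le_one _
    simp only [integral_const, probReal_univ, smul_eq_mul, one_mul] at h1
    have h2 : 1 ≤ √c := Real.one_le_sqrt.2 (by linarith)
    have h3 : (1 : ℝ) ≤ 20 + 800 * b ^ 2 := by nlinarith [sq_nonneg (b : ℝ)]
    exact h1.trans (one_le_mul_of_one_le_of_one_le h3 h2)

lemma BA.Xi_zero_field (J : ℝ) (L : ℕ) : Xi (b := b) J L (fun _ => 0) = 0 := by
  induction L with
  | zero => rw [Xi_zero]
  | succ L ih => simp [Xi_succ, Psi, ih, BA.fJ_zero]

/-- Tails of the cavity magnetisation. -/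
theorem branch_tail (hb : 2 ≤ b) (lam : ℝ) (hlam : 0 < lam) (q : ℕ) : ∃ D : ℝ, 0 ≤ D ∧
    ∀ J c : ℝ, 0 ≤ J → 0 ≤ c → b * Real.tanh (J + c) ^ 2 ≤ 1 → ∀ (L : ℕ) (s : ℝ),
      s = 1 ∨ s = -1 →
      (Pabs b (J + c)).real {ω | lam < |Real.tanh (Xi J L (arr c s ω))|} ≤ D * c ^ q := by
  obtain ⟨D, hD, H⟩ := BA.tail_xi hb hlam q
  refine ⟨D, hD, fun J c hJ hc h L s hs => ?_⟩
  rcases hc.eq_or_lt with rfl | hc'
  · have : {ω : List (Fin b) → Bool × ℝ | lam < |Real.tanh (Xi J L (arr 0 s ω))|} = ∅ := by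
      ext ω
      have e : arr 0 s ω = fun _ => 0 := by
        funext l
        simp [arr]
      simp [e, BA.Xi_zero_field, hlam.le]
    rw [this, measureReal_empty]
    positivity
  · have hl := BA.law_red (b := b) J c L s hs
    refine le_trans ?_ (H J c hJ hc' h L)
    rw [← hl.measureReal_preimage (measurableSet_lt measurable_const
      (BA.measurable_xi c).abs).nullMeasurableSet]
    refine measureReal_mono fun ω hω => ?_
    simp only [Set.mem_ofPred_eq, Set.mem_preimage] at hω ⊢
    rw [BA.xi_red J c L s hs]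
    refine (hω.trans_le (BA.abs_tanh_le _)).trans_eq ?_
    rcases hs with rfl | rfl <;> simp

end Crest.Agent.R160
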