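import Crest.Agent.R160.Defs

/-!
Row 160, subtask C1: calculus of `tanh`, `cosh` and of the message function `fJ`.
-/

set_option autoImplicit false
set_option linter.unusedSectionVars false
set_option linter.unusedVariables false
set_option maxHeartbeats 400000

open Real

namespace Crest.Agent.R160.BA

/-- Mean value theorem for a function differentiable everywhere. -/
lemma mvt {f f' : ℝ → ℝ} (hf : ∀ x, HasDerivAt f (f' x) x) (x y : ℝ) :
    ∃ z, min x y ≤ z ∧ z ≤ max x y ∧ f y - f x = f' z * (y - x) := by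
  have hc : Continuous f := continuous_iff_continuousAt.2 fun x => (hf x).continuousAt
  rcases lt_trichotomy x y with h | h | h
  · obtain ⟨z, hz, e⟩ := exists_hasDerivAt_eq_slope f f' h hc.continuousOn (fun z _ => hf z)
    refine ⟨z, (min_le_left _ _).trans hz.1.le, hz.2.le.trans (le_max_right _ _), ?_⟩
    rw [e, div_mul_cancel₀ _ (sub_pos.2 h).ne']
  · subst h
    exact ⟨x, min_le_left _ _, le_max_left _ _, by simp⟩
  · obtain ⟨z, hz, e⟩ := exists_hasDerivAt_eq_slope f f' h hc.continuousOn (fun z _ => hf z)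
    refine ⟨z, (min_le_right _ _).trans hz.1.le, hz.2.le.trans (le_max_left _ _), ?_⟩
    rw [e]
    have : x - y ≠ 0 := (sub_pos.2 h).ne'
    field_simp
    ring

lemma abs_sub_le_of_between {x y z : ℝ} (h1 : min x y ≤ z) (h2 : z ≤ max x y) :
    |z - x| ≤ |y - x| := by
  rcases le_total x y with h | h
  · rw [min_eq_left h] at h1
    rw [max_eq_right h] at h2
    rw [abs_of_nonneg (by linarith), abs_of_nonneg (by linarith)]
    linarith
  · rw [min_eq_right h] at h1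
    rw [max_eq_left h] at h2
    rw [abs_of_nonpos (by linarith), abs_of_nonpos (by linarith)]
    linarith

/-- A function with nonnegative derivative on `[0, ∞)` vanishing at `0` is nonnegative there. -/
lemma nonneg_of_deriv {f f' : ℝ → ℝ} (hf : ∀ x, HasDerivAt f (f' x) x) (h0 : f 0 = 0)
    (h' : ∀ x, 0 ≤ x → 0 ≤ f' x) {x : ℝ} (hx : 0 ≤ x) : 0 ≤ f x := by
  obtain ⟨z, h1, h2, e⟩ := mvt hf 0 x
  rw [min_eq_left hx] at h1
  rw [h0, sub_zero, sub_zero] at e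
  rw [e]
  exact mul_nonneg (h' z h1) hx

/-! ### `tanh` -/

lemma hasDerivAt_tanh (x : ℝ) : HasDerivAt tanh (1 - tanh x ^ 2) x := by
  have h : tanh = fun x => sinh x / cosh x := funext tanh_eq_sinh_div_cosh
  have hc := (cosh_pos x).ne'
  have := (hasDerivAt_sinh x).div (hasDerivAt_cosh x) hc
  have e : 1 - tanh x ^ 2 = (cosh x * cosh x - sinh x * sinh x) / cosh x ^ 2 := by
    rw [tanh_eq_sinh_div_cosh]
    field_simp
  rw [e, h]
  exact this

lemma continuous_tanh : Continuous tanh :=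
  continuous_iff_continuousAt.2 fun x => (hasDerivAt_tanh x).continuousAt

lemma measurable_tanh : Measurable tanh := continuous_tanh.measurable

lemma tanh_sq_le_one (x : ℝ) : tanh x ^ 2 ≤ 1 := (tanh_sq_lt_one x).le

lemma abs_tanh_sub_le (x y : ℝ) : |tanh y - tanh x| ≤ |y - x| := by
  obtain ⟨z, -, -, e⟩ := mvt hasDerivAt_tanh x y
  rw [e, abs_mul]
  have h1 := tanh_sq_le_one z
  have h2 := sq_nonneg (tanh z)
  have : |1 - tanh z ^ 2| ≤ 1 := by
    rw [abs_of_nonneg (by linarith)]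
    linarith
  exact mul_le_of_le_one_left (abs_nonneg _) this

lemma abs_tanh_le (x : ℝ) : |tanh x| ≤ |x| := by
  simpa using abs_tanh_sub_le 0 x

lemma tanh_mono : Monotone tanh := by
  intro x y h
  obtain ⟨z, -, -, e⟩ := mvt hasDerivAt_tanh x y
  have := mul_nonneg (sub_nonneg.2 (tanh_sq_le_one z)) (sub_nonneg.2 h)
  linarith

lemma tanh_nonneg {x : ℝ} (hx : 0 ≤ x) : 0 ≤ tanh x := by
  simpa using tanh_mono hx

lemma tanh_nonpos {x : ℝ} (hx : x ≤ 0) : tanh x ≤ 0 := by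
  simpa using tanh_mono hx

lemma abs_tanh_eq (x : ℝ) : |tanh x| = tanh |x| := by
  rcases le_total 0 x with h | h
  · rw [abs_of_nonneg h, abs_of_nonneg (tanh_nonneg h)]
  · rw [abs_of_nonpos h, abs_of_nonpos (tanh_nonpos h), tanh_neg]

lemma mul_tanh_eq (x : ℝ) : x * tanh x = |x| * |tanh x| := by
  rw [← abs_mul, abs_of_nonneg]
  rcases le_total 0 x with h | h
  · exact mul_nonneg h (tanh_nonneg h)
  · exact mul_nonneg_of_nonpos_of_nonpos h (tanh_nonpos h)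

lemma tanh_sq_le_mul (x : ℝ) : tanh x ^ 2 ≤ x * tanh x := by
  rw [mul_tanh_eq, ← sq_abs, sq]
  exact mul_le_mul_of_nonneg_right (abs_tanh_le x) (abs_nonneg _)

lemma tanh_add_sq_le (y w : ℝ) : tanh (y + w) ^ 2 ≤ 2 * y ^ 2 + 2 * tanh w ^ 2 := by
  have h := abs_tanh_sub_le w (y + w)
  rw [add_sub_cancel_right] at h
  have h2 : (tanh (y + w) - tanh w) ^ 2 ≤ y ^ 2 := sq_le_sq.2 h
  nlinarith [sq_nonneg (tanh (y + w) - 2 * tanh w)]

/-! ### `cosh` -/

lemma convexOn_cosh : ConvexOn ℝ Set.univ cosh := by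
  refine ⟨convex_univ, fun x _ y _ a b ha hb hab => ?_⟩
  have h1 := convexOn_exp.2 (Set.mem_univ x) (Set.mem_univ y) ha hb hab
  have h2 := convexOn_exp.2 (Set.mem_univ (-x)) (Set.mem_univ (-y)) ha hb hab
  simp only [smul_eq_mul] at h1 h2 ⊢
  rw [cosh_eq, cosh_eq, cosh_eq]
  have : -(a * x + b * y) = a * -x + b * -y := by ring
  rw [this]
  nlinarith

lemma cosh_add_le (a b x y : ℝ) (ha : 0 ≤ a) (hb : 0 ≤ b) (hab : a + b = 1) :
    cosh (a * x + b * y) ≤ a * cosh x + b * cosh y :=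
  convexOn_cosh.2 (Set.mem_univ x) (Set.mem_univ y) ha hb hab

lemma cosh_add_le_half (x y : ℝ) : cosh (x + y) ≤ (cosh (2 * x) + cosh (2 * y)) / 2 := by
  have := cosh_add_le (1 / 2) (1 / 2) (2 * x) (2 * y) (by norm_num) (by norm_num) (by norm_num)
  have e : 1 / 2 * (2 * x) + 1 / 2 * (2 * y) = x + y := by ring
  rw [e] at this
  linarith

lemma exp_sub_one_le {x : ℝ} (h0 : 0 ≤ x) (h1 : x ≤ 1) : exp x - 1 ≤ 2 * x := by
  have := abs_exp_sub_one_le (x := x) (by rwa [abs_of_nonneg h0])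
  rw [abs_of_nonneg h0] at this
  exact (le_abs_self _).trans this

lemma exp_sub_one_le' (x : ℝ) : exp x - 1 ≤ x * exp x := by
  have h := add_one_le_exp (-x)
  have hp := exp_pos x
  have e : exp (-x) * exp x = 1 := by rw [← exp_add]; simp
  nlinarith

lemma one_add_pow_le {x : ℝ} {n : ℕ} (h0 : 0 ≤ x) (h1 : n * x ≤ 1) : (1 + x) ^ n ≤ 1 + 2 * (n * x) := by
  have h2 : (1 + x) ^ n ≤ exp x ^ n :=
    pow_le_pow_left₀ (by linarith) (by linarith [add_one_le_exp x]) n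
  rw [← exp_nat_mul] at h2
  have := exp_sub_one_le (x := n * x) (by positivity) h1
  linarith

/-! ### The message function -/

/-- The derivative of `fJ J`. -/
noncomputable def dJ (J x : ℝ) : ℝ := (tanh (x + J) - tanh (x - J)) / 2

lemma fJ_eq (J x : ℝ) : fJ J x = (log (cosh (x + J)) - log (cosh (x - J))) / 2 := by
  rw [fJ, log_div (cosh_pos _).ne' (cosh_pos _).ne']
  ring

lemma hasDerivAt_fJ (J x : ℝ) : HasDerivAt (fJ J) (dJ J x) x := by
  have h : fJ J = fun x => (log (cosh (x + J)) - log (cosh (x - J))) / 2 := funext (fJ_eq J)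
  rw [h]
  have h1 := (((hasDerivAt_id x).add_const J).cosh).log (cosh_pos _).ne'
  have h2 := (((hasDerivAt_id x).sub_const J).cosh).log (cosh_pos _).ne'
  have e : dJ J x = (sinh (x + J) * 1 / cosh (x + J) - sinh (x - J) * 1 / cosh (x - J)) / 2 := by
    simp [dJ, tanh_eq_sinh_div_cosh]
  rw [e]
  exact (h1.sub h2).div_const 2

lemma measurable_fJ (J : ℝ) : Measurable (fJ J) := (continuous_fJ J).measurable

lemma fJ_neg (J x : ℝ) : fJ J (-x) = -fJ J x := by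
  rw [fJ_eq, fJ_eq]
  have e1 : -x + J = -(x - J) := by ring
  have e2 : -x - J = -(x + J) := by ring
  rw [e1, e2, cosh_neg, cosh_neg]
  ring

lemma fJ_zero (J : ℝ) : fJ J 0 = 0 := by
  have := fJ_neg J 0
  rw [neg_zero] at this
  linarith

lemma fJ_sign (J x s : ℝ) (hs : s = 1 ∨ s = -1) : fJ J (s * x) = s * fJ J x := by
  rcases hs with rfl | rfl
  · simp
  · simp [fJ_neg]

lemma exp_two_fJ (J x : ℝ) : exp (2 * fJ J x) = cosh (x + J) / cosh (x - J) := by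
  rw [fJ]
  have : 2 * (1 / 2 * log (cosh (x + J) / cosh (x - J))) = log (cosh (x + J) / cosh (x - J)) := by
    ring
  rw [this, exp_log (div_pos (cosh_pos _) (cosh_pos _))]

lemma dJ_neg (J x : ℝ) : dJ J (-x) = dJ J x := by
  have e1 : -x + J = -(x - J) := by ring
  have e2 : -x - J = -(x + J) := by ring
  rw [dJ, dJ, e1, e2, tanh_neg, tanh_neg]
  ring

lemma continuous_dJ (J : ℝ) : Continuous (dJ J) := by
  unfold dJ
  have := continuous_tanh
  fun_prop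

lemma dJ_lip (J x y : ℝ) : |dJ J y - dJ J x| ≤ |y - x| := by
  have h1 := abs_tanh_sub_le (x + J) (y + J)
  have h2 := abs_tanh_sub_le (x - J) (y - J)
  have e1 : y + J - (x + J) = y - x := by ring
  have e2 : y - J - (x - J) = y - x := by ring
  rw [e1] at h1
  rw [e2] at h2
  rw [abs_le] at h1 h2 ⊢
  unfold dJ
  constructor <;> linarith [h1.1, h1.2, h2.1, h2.2]

lemma tanh_add' (x y : ℝ) : tanh (x + y) = (tanh x + tanh y) / (1 + tanh x * tanh y) := by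
  have hx := cosh_pos x
  have hy := cosh_pos y
  have hxy := cosh_pos (x + y)
  rw [cosh_add] at hxy
  simp only [tanh_eq_sinh_div_cosh, sinh_add, cosh_add]
  field_simp

lemma dJ_eq (J x : ℝ) :
    dJ J x = tanh J * (1 - tanh x ^ 2) / (1 - tanh J ^ 2 * tanh x ^ 2) := by
  have h1 := abs_tanh_lt_one x
  have h2 := abs_tanh_lt_one J
  have h3 : |tanh x * tanh J| < 1 := by
    rw [abs_mul]
    exact mul_lt_one_of_nonneg_of_lt_one_left (abs_nonneg _) h1 h2.le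
  rw [abs_lt] at h3
  rw [dJ, sub_eq_add_neg x J, tanh_add', tanh_add', tanh_neg]
  have e : 1 - tanh J ^ 2 * tanh x ^ 2 = (1 + tanh x * tanh J) * (1 + tanh x * -tanh J) := by ring
  have p1 : 1 + tanh x * tanh J ≠ 0 := by linarith [h3.1]
  have p2 : 1 + tanh x * -tanh J ≠ 0 := by linarith [h3.2]
  rw [e, div_sub_div _ _ p1 p2, div_div, div_eq_div_iff (mul_ne_zero (mul_ne_zero p1 p2) two_ne_zero)
    (mul_ne_zero p1 p2)]
  ring

lemma den_pos (J x : ℝ) : 0 < 1 - tanh J ^ 2 * tanh x ^ 2 := by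
  have h1 := tanh_sq_lt_one J
  have h2 := tanh_sq_le_one x
  nlinarith [sq_nonneg (tanh J), sq_nonneg (tanh x)]

lemma dJ_ge {J : ℝ} (hJ : 0 ≤ J) (x : ℝ) : tanh J * (1 - tanh x ^ 2) ≤ dJ J x := by
  rw [dJ_eq, le_div_iff₀ (den_pos J x)]
  have h1 := mul_nonneg (tanh_nonneg hJ) (sub_nonneg.2 (tanh_sq_le_one x))
  have h2 : 0 ≤ tanh J ^ 2 * tanh x ^ 2 := by positivity
  nlinarith

lemma dJ_nonneg {J : ℝ} (hJ : 0 ≤ J) (x : ℝ) : 0 ≤ dJ J x :=
  (mul_nonneg (tanh_nonneg hJ) (sub_nonneg.2 (tanh_sq_le_one x))).trans (dJ_ge hJ x)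

/-- `θ - fJ' ≥ θ (1 - θ²) m²`. -/
lemma dJ_le' {J : ℝ} (hJ : 0 ≤ J) (x : ℝ) :
    dJ J x ≤ tanh J - tanh J * (1 - tanh J ^ 2) * tanh x ^ 2 := by
  rw [dJ_eq, div_le_iff₀ (den_pos J x)]
  have h0 := tanh_nonneg hJ
  have h1 := tanh_sq_le_one J
  have : 0 ≤ tanh J * (1 - tanh J ^ 2) * (tanh J ^ 2 * tanh x ^ 2 * tanh x ^ 2) :=
    mul_nonneg (mul_nonneg h0 (by linarith)) (by positivity)
  nlinarith

lemma dJ_le {J : ℝ} (hJ : 0 ≤ J) (x : ℝ) : dJ J x ≤ tanh J := by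
  have := dJ_le' hJ x
  have h : 0 ≤ tanh J * (1 - tanh J ^ 2) * tanh x ^ 2 :=
    mul_nonneg (mul_nonneg (tanh_nonneg hJ) (by linarith [tanh_sq_le_one J])) (by positivity)
  linarith

lemma dJ_le_two {J : ℝ} (hJ : 0 ≤ J) (hθ : tanh J ^ 2 ≤ 1 / 2) (x : ℝ) :
    dJ J x ≤ 2 * tanh J * (1 - tanh x ^ 2) := by
  rw [dJ_eq, div_le_iff₀ (den_pos J x)]
  have h1 := mul_nonneg (tanh_nonneg hJ) (sub_nonneg.2 (tanh_sq_le_one x))
  have h2 : tanh J ^ 2 * tanh x ^ 2 ≤ 1 / 2 := by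
    nlinarith [tanh_sq_le_one x, sq_nonneg (tanh J), sq_nonneg (tanh x)]
  nlinarith

lemma abs_fJ_sub_le {J : ℝ} (hJ : 0 ≤ J) (x y : ℝ) : |fJ J y - fJ J x| ≤ tanh J * |y - x| := by
  obtain ⟨z, -, -, e⟩ := mvt (hasDerivAt_fJ J) x y
  rw [e, abs_mul, abs_of_nonneg (dJ_nonneg hJ z)]
  exact mul_le_mul_of_nonneg_right (dJ_le hJ z) (abs_nonneg _)

lemma abs_fJ_le {J : ℝ} (hJ : 0 ≤ J) (x : ℝ) : |fJ J x| ≤ tanh J * |x| := by
  simpa [fJ_zero] using abs_fJ_sub_le hJ 0 x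

lemma fJ_mono {J : ℝ} (hJ : 0 ≤ J) : Monotone (fJ J) := by
  intro x y h
  obtain ⟨z, -, -, e⟩ := mvt (hasDerivAt_fJ J) x y
  have := mul_nonneg (dJ_nonneg hJ z) (sub_nonneg.2 h)
  linarith

lemma fJ_nonneg {J : ℝ} (hJ : 0 ≤ J) {x : ℝ} (hx : 0 ≤ x) : 0 ≤ fJ J x := by
  simpa [fJ_zero] using fJ_mono hJ hx

lemma abs_fJ_eq {J : ℝ} (hJ : 0 ≤ J) (x : ℝ) : |fJ J x| = fJ J |x| := by
  rcases le_total 0 x with h | h
  · rw [abs_of_nonneg h, abs_of_nonneg (fJ_nonneg hJ h)]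
  · have := fJ_nonneg hJ (neg_nonneg.2 h)
    rw [fJ_neg] at this
    rw [abs_of_nonpos h, abs_of_nonpos (by linarith), fJ_neg]

lemma abs_fJ_le_tanh {J : ℝ} (hJ : 0 ≤ J) (hθ : tanh J ^ 2 ≤ 1 / 2) (x : ℝ) :
    |fJ J x| ≤ 2 * tanh J * |tanh x| := by
  rw [abs_fJ_eq hJ, abs_tanh_eq]
  have := nonneg_of_deriv (f := fun x => 2 * tanh J * tanh x - fJ J x)
    (f' := fun x => 2 * tanh J * (1 - tanh x ^ 2) - dJ J x)
    (fun x => ((hasDerivAt_tanh x).const_mul _).sub (hasDerivAt_fJ J x)) (by simp [fJ_zero])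
    (fun x _ => sub_nonneg.2 (dJ_le_two hJ hθ x)) (abs_nonneg x)
  linarith

lemma abs_fJ_le_two {J : ℝ} (hJ : 0 ≤ J) (hθ : tanh J ^ 2 ≤ 1 / 2) (x : ℝ) :
    |fJ J x| ≤ 2 * |tanh x| := by
  have h := abs_fJ_le_tanh hJ hθ x
  have h1 := tanh_lt_one J
  have h2 := abs_nonneg (tanh x)
  nlinarith

lemma fJ_cubic {J : ℝ} (hJ : 0 ≤ J) (hθ : tanh J ^ 2 ≤ 1 / 2) {x : ℝ} (hx : 0 ≤ x) :
    fJ J x ≤ tanh J * x - tanh J * tanh x ^ 3 / 6 := by
  have := nonneg_of_deriv (f := fun x => tanh J * x - tanh J * tanh x ^ 3 / 6 - fJ J x)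
    (f' := fun x => tanh J * 1 - tanh J * ((3 : ℕ) * tanh x ^ (3 - 1) * (1 - tanh x ^ 2)) / 6 - dJ J x)
    (fun x => (((hasDerivAt_id x).const_mul _).sub
      ((((hasDerivAt_tanh x).pow 3).const_mul _).div_const 6)).sub (hasDerivAt_fJ J x))
    (by simp [fJ_zero]) (fun x _ => ?_) hx
  · linarith
  · have h1 := dJ_le' hJ x
    have h0 := tanh_nonneg hJ
    have h2 : 0 ≤ tanh J * tanh x ^ 2 := by positivity
    have h3 : 0 ≤ tanh J * tanh x ^ 2 * tanh x ^ 2 := by positivity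
    have h4 : 0 ≤ tanh J * tanh x ^ 2 * (1 / 2 - tanh J ^ 2) := mul_nonneg h2 (by linarith)
    norm_num
    nlinarith

/-- `fJ x · tanh x ≤ θ x tanh x - θ tanh⁴ x / 6`. -/
lemma fJ_mul_tanh_le {J : ℝ} (hJ : 0 ≤ J) (hθ : tanh J ^ 2 ≤ 1 / 2) (x : ℝ) :
    fJ J x * tanh x ≤ tanh J * (x * tanh x) - tanh J * tanh x ^ 4 / 6 := by
  have key : ∀ x, 0 ≤ x → fJ J x * tanh x ≤ tanh J * (x * tanh x) - tanh J * tanh x ^ 4 / 6 := by
    intro x hx
    have := mul_le_mul_of_nonneg_right (fJ_cubic hJ hθ hx) (tanh_nonneg hx)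
    nlinarith
  rcases le_total 0 x with h | h
  · exact key x h
  · have := key (-x) (neg_nonneg.2 h)
    rw [fJ_neg, tanh_neg] at this
    nlinarith

lemma fJ_mul_tanh_le_two {J : ℝ} (hJ : 0 ≤ J) (hθ : tanh J ^ 2 ≤ 1 / 2) (x : ℝ) :
    fJ J x * tanh x ≤ 2 * tanh x ^ 2 := by
  have h := abs_fJ_le_two hJ hθ x
  have h1 : fJ J x * tanh x ≤ |fJ J x| * |tanh x| := by
    rw [← abs_mul]
    exact le_abs_self _
  have h2 := mul_le_mul_of_nonneg_right h (abs_nonneg (tanh x))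
  have h3 : |tanh x| * |tanh x| = tanh x ^ 2 := by rw [← sq, sq_abs]
  nlinarith

/-- Second-order Taylor bound. -/
lemma fJ_add_le (J w y : ℝ) : fJ J (y + w) ≤ fJ J w + dJ J w * y + y ^ 2 := by
  obtain ⟨z, h1, h2, e⟩ := mvt (hasDerivAt_fJ J) w (y + w)
  have h3 := abs_sub_le_of_between h1 h2
  rw [add_sub_cancel_right] at h3 e
  have h4 := (dJ_lip J w z).trans h3
  have h5 : (dJ J z - dJ J w) * y ≤ |y| * |y| := by
    refine (le_abs_self _).trans ?_
    rw [abs_mul]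
    exact mul_le_mul_of_nonneg_right h4 (abs_nonneg _)
  rw [← sq, sq_abs] at h5
  nlinarith

end Crest.Agent.R160.BA
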