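import Crest.Agent.R160.BranchA1

/-!
Row 160, subtask C1: the recursive structure of the branch law.
-/

set_option autoImplicit false
set_option linter.unusedSectionVars false
set_option linter.unusedVariables false
set_option maxHeartbeats 400000

open MeasureTheory ProbabilityTheory Filter Topology
open scoped ENNReal

namespace Crest.Agent.R160.BA

variable {b : ℕ}

lemma measurable_sgn : Measurable sgn := measurable_from_top

lemma sgn_cases (t : Bool) : sgn t = 1 ∨ sgn t = -1 := by
  cases t <;> simp [sgn]

@[simp] lemma sgn_true : sgn true = 1 := rfl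
@[simp] lemma sgn_false : sgn false = -1 := rfl

lemma sgn_mul_self (t : Bool) : sgn t * sgn t = 1 := by
  cases t <;> simp

lemma sign_mul {s t : ℝ} (hs : s = 1 ∨ s = -1) (ht : t = 1 ∨ t = -1) : s * t = 1 ∨ s * t = -1 := by
  rcases hs with rfl | rfl <;> rcases ht with rfl | rfl <;> simp

lemma measurable_parS (l : List (Fin b)) :
    Measurable fun p : ℝ × (List (Fin b) → Bool) => parS p.1 p.2 l := by
  induction l with
  | nil => simpa using measurable_fst
  | cons j l ih =>
    simp only [parS_cons]
    have hs := measurable_sgn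
    exact ih.comp (f := fun p : ℝ × (List (Fin b) → Bool) =>
      (p.1 * sgn (p.2 []), fun l' => p.2 (j :: l'))) (by fun_prop)

/-- Joint measurability of the observations in the parent spin and the randomness. -/
lemma measurable_arr₂ (c : ℝ) :
    Measurable fun p : ℝ × (List (Fin b) → Bool × ℝ) => arr c p.1 p.2 := by
  refine measurable_pi_lambda _ fun l => ?_
  unfold arr
  have hs := measurable_sgn
  have hp : Measurable fun p : ℝ × (List (Fin b) → Bool × ℝ) =>
      parS p.1 (fun l => (p.2 l).1) l :=
    (measurable_parS l).comp (f := fun p : ℝ × (List (Fin b) → Bool × ℝ) =>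
      (p.1, fun l => (p.2 l).1)) (by fun_prop)
  fun_prop

lemma measurable_arr' (c s : ℝ) : Measurable (arr (b := b) c s) :=
  (measurable_arr₂ c).comp (f := fun ω => (s, ω)) (by fun_prop)

lemma continuous_Psi (J : ℝ) (L : ℕ) : Continuous (Psi (b := b) J L) := by
  unfold Psi
  exact (continuous_apply _).add ((continuous_fJ J).comp (continuous_Xi J L))

/-! ### The decomposition of the product measure -/

lemma map_split {X : Type*} [MeasurableSpace X] (P : Measure X) [IsProbabilityMeasure P]
    (A B : Type*) :
    (Measure.infinitePi fun _ : A ⊕ B => P).map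
        (fun ω => (fun a => ω (Sum.inl a), fun a => ω (Sum.inr a))) =
      (Measure.infinitePi fun _ : A => P).prod (Measure.infinitePi fun _ : B => P) := by
  have hm : Measurable (fun p : (A → X) × (B → X) => Sum.elim p.1 p.2) := by
    refine measurable_pi_lambda _ fun i => ?_
    cases i with
    | inl a => exact (measurable_pi_apply a).comp measurable_fst
    | inr b => exact (measurable_pi_apply b).comp measurable_snd
  have h : ((Measure.infinitePi fun _ : A => P).prod (Measure.infinitePi fun _ : B => P)).map
      (fun p => Sum.elim p.1 p.2) = Measure.infinitePi fun _ : A ⊕ B => P := by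
    refine Measure.eq_infinitePi _ fun s t ht => ?_
    rw [Measure.map_apply hm (.pi s.countable_toSet fun i _ => ht i)]
    have : (fun p : (A → X) × (B → X) => Sum.elim p.1 p.2) ⁻¹' Set.pi (s : Set (A ⊕ B)) t =
        Set.pi (s.toLeft : Set A) (fun a => t (Sum.inl a)) ×ˢ
          Set.pi (s.toRight : Set B) (fun b => t (Sum.inr b)) := by
      ext p
      simp [Set.mem_pi]
    rw [this, Measure.prod_prod, Measure.infinitePi_pi _ (fun a _ => ht _),
      Measure.infinitePi_pi _ (fun a _ => ht _), Finset.prod_sum_eq_prod_toLeft_mul_prod_toRight]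
  rw [← h, Measure.map_map (by fun_prop) hm]
  exact Measure.map_id

/-- The top coordinate and the `b` sub-branches are independent. -/
lemma map_decomp {X : Type*} [MeasurableSpace X] (P : Measure X) [IsProbabilityMeasure P] (b : ℕ) :
    MeasurePreserving (fun ω : List (Fin b) → X => (ω [], fun (j : Fin b) l => ω (j :: l)))
      (Measure.infinitePi fun _ => P)
      (P.prod (Measure.pi fun _ : Fin b => Measure.infinitePi fun _ : List (Fin b) => P)) := by
  refine ⟨by fun_prop, ?_⟩
  let e : Unit ⊕ (Fin b × List (Fin b)) → List (Fin b) := Sum.elim (fun _ => []) fun p => p.1 :: p.2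
  have he : Function.Injective e := by
    rintro (x | ⟨j, l⟩) (y | ⟨j', l'⟩) h <;> simp_all [e]
  have h1 := Measure.map_infinitePi_infinitePi_of_inj (P := fun _ : List (Fin b) => P) he
  have h2 := map_split P Unit (Fin b × List (Fin b))
  have h3 := Measure.infinitePi_map_curry (fun (_ : Fin b) (_ : List (Fin b)) => P)
  have h4 := Measure.infinitePi_map_eval (fun _ : Unit => P) ()
  rw [← Measure.infinitePi_eq_pi, ← h3]
  conv_rhs => enter [1]; rw [← h4]
  rw [Measure.map_prod_map _ _ (by fun_prop) (MeasurableEquiv.measurable _), ← h2, ← h1,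
    Measure.map_map (by fun_prop) (by fun_prop), Measure.map_map (by fun_prop) (by fun_prop)]
  rfl

/-- The law of one edge. -/
noncomputable def P0 (β : ℝ) : Measure (Bool × ℝ) := (bern β).prod (gaussianReal 0 1)

instance (β : ℝ) : IsProbabilityMeasure (P0 β) := by
  unfold P0
  infer_instance

/-- Decomposition of `Pabs`. -/
lemma decomp (b : ℕ) (β : ℝ) :
    MeasurePreserving (fun ω : List (Fin b) → Bool × ℝ => (ω [], fun (j : Fin b) l => ω (j :: l)))
      (Pabs b β) ((P0 β).prod (Measure.pi fun _ : Fin b => Pabs b β)) :=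
  map_decomp (P0 β) b

lemma eval_nil (b : ℕ) (β : ℝ) :
    MeasurePreserving (fun ω : List (Fin b) → Bool × ℝ => ω []) (Pabs b β) (P0 β) :=
  measurePreserving_eval_infinitePi (fun _ : List (Fin b) => P0 β) []

lemma flip_P0 (β s : ℝ) (hs : s = 1 ∨ s = -1) :
    MeasurePreserving (fun x : Bool × ℝ => (x.1, s * x.2)) (P0 β) (P0 β) := by
  have h : MeasurePreserving (fun z : ℝ => s * z) (gaussianReal 0 1) (gaussianReal 0 1) := by
    refine ⟨by fun_prop, ?_⟩
    rcases hs with rfl | rfl
    · simp
    · simpa using gaussianReal_map_neg (μ := 0) (v := 1)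
  exact (MeasurePreserving.id (bern β)).prod h

/-! ### The one-dimensional recursion -/

/-- The observation on an edge whose parent has spin `+1`. -/
noncomputable def yy (c : ℝ) (x : Bool × ℝ) : ℝ := c * (1 + sgn x.1) + √c * x.2

/-- The cavity field. -/
noncomputable def xi (c : ℝ) (p : (Bool × ℝ) × ℝ) : ℝ := yy c p.1 + sgn p.1.1 * p.2

/-- The field exerted on the parent. -/
noncomputable def psi (J c : ℝ) (p : (Bool × ℝ) × ℝ) : ℝ := yy c p.1 + fJ J (xi c p)

@[fun_prop] lemma measurable_yy (c : ℝ) : Measurable (yy c) := by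
  unfold yy
  have := measurable_sgn
  fun_prop

@[fun_prop] lemma measurable_xi (c : ℝ) : Measurable (xi c) := by
  unfold xi
  have := measurable_sgn
  fun_prop

@[fun_prop] lemma measurable_psi (J c : ℝ) : Measurable (psi J c) := by
  unfold psi
  have := measurable_fJ J
  fun_prop

/-- The law of a sum of `n` independent copies. -/
noncomputable def Sn (n : ℕ) (μ : Measure ℝ) : Measure ℝ :=
  (Measure.pi fun _ : Fin n => μ).map fun x => ∑ j, x j

instance (n : ℕ) (μ : Measure ℝ) [IsProbabilityMeasure μ] : IsProbabilityMeasure (Sn n μ) :=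
  Measure.isProbabilityMeasure_map (Measurable.aemeasurable (by fun_prop))

/-- One step of the recursion. -/
noncomputable def step (J c : ℝ) (η : Measure ℝ) : Measure ℝ :=
  ((P0 (J + c)).prod η).map (psi J c)

instance (J c : ℝ) (η : Measure ℝ) [IsProbabilityMeasure η] : IsProbabilityMeasure (step J c η) :=
  Measure.isProbabilityMeasure_map (measurable_psi J c).aemeasurable

/-- The law of the field from the children, given that the spin is `+1`. -/
noncomputable def eta (b : ℕ) (J c : ℝ) : ℕ → Measure ℝ
  | 0 => Measure.dirac 0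
  | L + 1 => Sn b (step J c (eta b J c L))

lemma eta_zero (J c : ℝ) : eta b J c 0 = Measure.dirac 0 := by
  simp only [eta]

lemma eta_succ (J c : ℝ) (L : ℕ) : eta b J c (L + 1) = Sn b (step J c (eta b J c L)) := by
  have := @eta.eq_def b J c
  simp only [eta]

instance (J c : ℝ) (L : ℕ) : IsProbabilityMeasure (eta b J c L) := by
  induction L with
  | zero => rw [eta_zero]; infer_instance
  | succ L ih => rw [eta_succ]; infer_instance

/-- The reduced variables. -/
noncomputable def red (J c : ℝ) (L : ℕ) (s : ℝ) (ω : List (Fin b) → Bool × ℝ) : (Bool × ℝ) × ℝ :=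
  (((ω []).1, s * (ω []).2), s * sgn (ω []).1 * (Xi J L (arr c s ω) - arr c s ω []))

lemma arr_nil_eq (c s : ℝ) (hs : s = 1 ∨ s = -1) (ω : List (Fin b) → Bool × ℝ) :
    arr c s ω [] = s * yy c ((ω []).1, s * (ω []).2) := by
  rw [arr_nil, yy]
  rcases hs with rfl | rfl <;> ring

lemma xi_red (J c : ℝ) (L : ℕ) (s : ℝ) (hs : s = 1 ∨ s = -1) (ω : List (Fin b) → Bool × ℝ) :
    xi c (red J c L s ω) = s * Xi J L (arr c s ω) := by
  have h := sgn_mul_self (ω []).1
  simp only [xi, red]
  rw [arr_nil_eq c s hs]
  set y := yy c ((ω []).1, s * (ω []).2)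
  set t := sgn (ω []).1
  have : t * (s * t * (Xi J L (arr c s ω) - s * y)) = (t * t) * (s * (Xi J L (arr c s ω) - s * y)) := by
    ring
  rw [this, h]
  rcases hs with rfl | rfl <;> ring

lemma psi_red (J c : ℝ) (L : ℕ) (s : ℝ) (hs : s = 1 ∨ s = -1) (ω : List (Fin b) → Bool × ℝ) :
    psi J c (red J c L s ω) = s * Psi J L (arr c s ω) := by
  rw [psi, xi_red J c L s hs, fJ_sign J _ s hs, Psi, arr_nil_eq c s hs]
  simp only [red]
  rcases hs with rfl | rfl <;> ring

lemma law_red (J c : ℝ) (L : ℕ) (s : ℝ) (hs : s = 1 ∨ s = -1) :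
    MeasurePreserving (red J c L s) (Pabs b (J + c)) ((P0 (J + c)).prod (eta b J c L)) := by
  induction L generalizing s with
  | zero =>
    have h1 : red (b := b) J c 0 s = (fun x : Bool × ℝ => (x, (0 : ℝ))) ∘
        (fun x : Bool × ℝ => (x.1, s * x.2)) ∘ fun ω => ω [] := by
      funext ω
      simp [red, Xi_zero]
    rw [h1, eta_zero]
    refine MeasurePreserving.comp ⟨by fun_prop, ?_⟩ ((flip_P0 _ s hs).comp (eval_nil b _))
    rw [Measure.prod_dirac]
  | succ L ih =>
    have hsg := measurable_sgn
    have hP := (continuous_Psi (b := b) J L).measurable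
    have h1 : red (b := b) J c (L + 1) s =
        (fun p : (Bool × ℝ) × (Fin b → List (Fin b) → Bool × ℝ) => ((p.1.1, s * p.1.2),
          ∑ j, s * sgn p.1.1 * Psi J L (arr c (s * sgn p.1.1) (p.2 j)))) ∘
        fun ω : List (Fin b) → Bool × ℝ => (ω [], fun (j : Fin b) l => ω (j :: l)) := by
      funext ω
      simp only [red, Xi_succ, Function.comp, add_sub_cancel_left, Finset.mul_sum]
      rfl
    rw [h1]
    refine MeasurePreserving.comp ?_ (decomp b _)
    refine MeasurePreserving.skew_product (f := fun x : Bool × ℝ => (x.1, s * x.2))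
      (g := fun (x : Bool × ℝ) (w : Fin b → List (Fin b) → Bool × ℝ) =>
        ∑ j, s * sgn x.1 * Psi J L (arr c (s * sgn x.1) (w j))) (flip_P0 _ s hs) ?_
      (ae_of_all _ fun x => ?_)
    · refine Finset.measurable_sum _ fun j _ => Measurable.mul (by fun_prop) (hP.comp ?_)
      exact (measurable_arr₂ c).comp
        (f := fun p : (Bool × ℝ) × (Fin b → List (Fin b) → Bool × ℝ) => (s * sgn p.1.1, p.2 j))
        (by fun_prop)
    · have ht := sign_mul hs (sgn_cases x.1)
      have h2 : MeasurePreserving (fun ω => s * sgn x.1 * Psi J L (arr c (s * sgn x.1) ω))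
          (Pabs b (J + c)) (step J c (eta b J c L)) := by
        have : MeasurePreserving (psi J c) ((P0 (J + c)).prod (eta b J c L))
          (step J c (eta b J c L)) := (measurable_psi J c).measurePreserving _
        convert this.comp (ih _ ht) using 1
        funext ω
        exact (psi_red J c L _ ht ω).symm
      have h3 := measurePreserving_pi (fun _ : Fin b => Pabs b (J + c))
        (fun _ => step J c (eta b J c L)) fun _ => h2
      rw [eta_succ, Sn, ← h3.map_eq, Measure.map_map (by fun_prop) h3.measurable]
      rfl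

end Crest.Agent.R160.BA
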