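import Crest.Agent.R160.BranchA2

/-!
Row 160, subtask C1: the Nishimori symmetry of the laws `eta` and `step`.
-/

set_option autoImplicit false
set_option linter.unusedSectionVars false
set_option linter.unusedVariables false
set_option maxHeartbeats 400000

open MeasureTheory ProbabilityTheory Filter Topology Real
open scoped ENNReal

namespace Crest.Agent.R160.BA

variable {b : ℕ}

/-- The exponential with values in `ℝ≥0∞`. -/
noncomputable def E (x : ℝ) : ℝ≥0∞ := ENNReal.ofReal (exp x)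

@[fun_prop] lemma measurable_E : Measurable E := by
  unfold E
  fun_prop

lemma E_add (x y : ℝ) : E (x + y) = E x * E y := by
  rw [E, E, E, exp_add, ENNReal.ofReal_mul (exp_pos _).le]

lemma E_zero : E 0 = 1 := by simp [E]

lemma E_ne_top (x : ℝ) : E x ≠ ∞ := ENNReal.ofReal_ne_top

/-- The Nishimori symmetry. -/
def Nish (μ : Measure ℝ) : Prop :=
  ∀ h : ℝ → ℝ≥0∞, Measurable h → ∫⁻ x, h (-x) ∂μ = ∫⁻ x, h x * E (-2 * x) ∂μ

lemma nish_dirac : Nish (Measure.dirac 0) := by
  intro h hh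
  simp [E_zero]

lemma Nish.conv {μ ν : Measure ℝ} [SFinite μ] [SFinite ν] (hμ : Nish μ) (hν : Nish ν) :
    Nish (μ ∗ ν) := by
  intro h hh
  rw [Measure.lintegral_conv (by fun_prop), Measure.lintegral_conv (by fun_prop)]
  have h1 : ∀ x, ∫⁻ y, h (-(x + y)) ∂ν = ∫⁻ y, h (-x + y) * E (-2 * y) ∂ν := by
    intro x
    rw [← hν (fun y => h (-x + y)) (by fun_prop)]
    simp only [neg_add]
  simp only [h1]
  have hG : Measurable fun x => ∫⁻ y, h (x + y) * E (-2 * y) ∂ν :=
    Measurable.lintegral_prod_right' (f := fun p : ℝ × ℝ => h (p.1 + p.2) * E (-2 * p.2))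
      (by fun_prop)
  rw [hμ _ hG]
  refine lintegral_congr fun x => ?_
  rw [← lintegral_mul_const _ (by fun_prop)]
  refine lintegral_congr fun y => ?_
  rw [mul_add, E_add]
  ring

lemma Sn_zero (μ : Measure ℝ) [IsProbabilityMeasure μ] : Sn 0 μ = Measure.dirac 0 := by
  simp [Sn]

lemma Sn_succ (n : ℕ) (μ : Measure ℝ) [IsProbabilityMeasure μ] : Sn (n + 1) μ = μ ∗ Sn n μ := by
  have h := measurePreserving_piFinSuccAbove (fun _ : Fin (n + 1) => μ) 0
  have h2 : MeasurePreserving (Prod.map id fun x : Fin n → ℝ => ∑ j, x j)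
      (μ.prod (Measure.pi fun _ => μ)) (μ.prod (Sn n μ)) :=
    (MeasurePreserving.id μ).prod ⟨by fun_prop, rfl⟩
  have h3 : MeasurePreserving (fun p : ℝ × ℝ => p.1 + p.2) (μ.prod (Sn n μ)) (μ ∗ Sn n μ) :=
    ⟨measurable_add, rfl⟩
  rw [← (h3.comp (h2.comp h)).map_eq, Sn]
  congr 1
  funext x
  simp [Fin.sum_univ_succ]
  rfl

lemma Nish.sn {μ : Measure ℝ} [IsProbabilityMeasure μ] (hμ : Nish μ) (n : ℕ) : Nish (Sn n μ) := by
  induction n with
  | zero => rw [Sn_zero]; exact nish_dirac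
  | succ n ih => rw [Sn_succ]; exact hμ.conv ih

/-- Cameron–Martin in dimension one. -/
lemma gauss_shift (a : ℝ) {g : ℝ → ℝ≥0∞} (hg : Measurable g) :
    ∫⁻ z, g (z + a) ∂gaussianReal 0 1 = ∫⁻ z, g z * E (a * z - a ^ 2 / 2) ∂gaussianReal 0 1 := by
  rw [gaussianReal_of_var_ne_zero _ one_ne_zero,
    lintegral_withDensity_eq_lintegral_mul _ (measurable_gaussianPDF _ _) (by fun_prop),
    lintegral_withDensity_eq_lintegral_mul _ (measurable_gaussianPDF _ _) (by fun_prop),
    ← lintegral_sub_right_eq_self _ a]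
  refine lintegral_congr fun z => ?_
  simp only [Pi.mul_apply, sub_add_cancel]
  rw [mul_comm (g z), ← mul_assoc, gaussianPDF, gaussianPDF, E,
    ← ENNReal.ofReal_mul (gaussianPDFReal_nonneg _ _ _)]
  congr 2
  simp only [gaussianPDFReal, NNReal.coe_one, mul_one, sub_zero]
  rw [mul_assoc, ← exp_add]
  congr 2
  ring

lemma gauss_neg {g : ℝ → ℝ≥0∞} (hg : Measurable g) :
    ∫⁻ z, g (-z) ∂gaussianReal 0 1 = ∫⁻ z, g z ∂gaussianReal 0 1 := by
  have h := gaussianReal_map_neg (μ := 0) (v := 1)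
  rw [neg_zero] at h
  conv_rhs => rw [← h]
  rw [lintegral_map hg (by fun_prop)]

lemma lintegral_bern (β : ℝ) (f : Bool → ℝ≥0∞) :
    ∫⁻ t, f t ∂bern β = ENNReal.ofReal ((1 + tanh β) / 2) * f true +
      ENNReal.ofReal ((1 - tanh β) / 2) * f false := by
  simp [bern, lintegral_add_measure, lintegral_smul_measure]

/-- The density of `(y, τ z)` with respect to the symmetric reference measure in `u`. -/
noncomputable def W (J c u z : ℝ) : ℝ≥0∞ :=
  ENNReal.ofReal ((1 + tanh (J + c)) / 2) * E (2 * u - 2 * c) +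
    ENNReal.ofReal ((1 - tanh (J + c)) / 2) * E (-2 * z)

lemma W_eq (J c u z : ℝ) :
    W J c u z = ENNReal.ofReal (exp (u - z - c) * cosh (u + z + J) / cosh (J + c)) := by
  have h1 := neg_one_lt_tanh (J + c)
  have h2 := tanh_lt_one (J + c)
  have hc := cosh_pos (J + c)
  rw [W, E, E, ← ENNReal.ofReal_mul (by linarith), ← ENNReal.ofReal_mul (by linarith),
    ← ENNReal.ofReal_add (mul_nonneg (by linarith) (exp_pos _).le)
      (mul_nonneg (by linarith) (exp_pos _).le)]
  congr 1
  have e1 : (1 + tanh (J + c)) / 2 = exp (J + c) / (2 * cosh (J + c)) := by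
    rw [tanh_eq_sinh_div_cosh, ← cosh_add_sinh]
    field_simp
  have e2 : (1 - tanh (J + c)) / 2 = exp (-(J + c)) / (2 * cosh (J + c)) := by
    rw [tanh_eq_sinh_div_cosh, ← cosh_sub_sinh]
    field_simp
  rw [e1, e2, cosh_eq (u + z + J)]
  have e3 : exp (J + c) * exp (2 * u - 2 * c) = exp (u - z - c) * exp (u + z + J) := by
    rw [← exp_add, ← exp_add]
    congr 1
    ring
  have e4 : exp (-(J + c)) * exp (-2 * z) = exp (u - z - c) * exp (-(u + z + J)) := by
    rw [← exp_add, ← exp_add]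
    congr 1
    ring
  rw [div_mul_eq_mul_div, div_mul_eq_mul_div, e3, e4]
  field_simp

lemma W_symm (J c u z : ℝ) :
    W J c (-u) (-z) * E (-2 * z) = W J c u z * E (-2 * (u + fJ J (u + z))) := by
  have hc := cosh_pos (J + c)
  have h1 := cosh_pos (u + z + J)
  have h2 := cosh_pos (u + z - J)
  rw [W_eq, W_eq, E, E, ← ENNReal.ofReal_mul (by positivity), ← ENNReal.ofReal_mul (by positivity)]
  congr 1
  have e1 : -u + -z + J = -(u + z - J) := by ring
  have e2 : exp (-2 * (u + fJ J (u + z))) = exp (-2 * u) * (cosh (u + z - J) / cosh (u + z + J)) := by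
    have : -2 * (u + fJ J (u + z)) = -2 * u + -(2 * fJ J (u + z)) := by ring
    rw [this, exp_add, exp_neg, exp_two_fJ, inv_div]
  have e3 : exp (-u - -z - c) * exp (-2 * z) = exp (u - z - c) * exp (-2 * u) := by
    rw [← exp_add, ← exp_add]
    congr 1
    ring
  rw [e1, cosh_neg, e2]
  generalize exp (-2 * z) = A at e3 ⊢
  generalize exp (-2 * u) = B at e3 ⊢
  field_simp
  exact e3

lemma measurable_W (J c : ℝ) : Measurable fun p : ℝ × ℝ => W J c p.1 p.2 := by
  unfold W
  fun_prop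

lemma lintegral_rep {J c : ℝ} (hc : 0 ≤ c) {η : Measure ℝ} [SFinite η] (hη : Nish η)
    {G : ℝ × ℝ → ℝ≥0∞} (hG : Measurable G) :
    ∫⁻ p, G (yy c p.1, sgn p.1.1 * p.2) ∂(P0 (J + c)).prod η =
      ∫⁻ Z, ∫⁻ z, G (√c * Z, z) * W J c (√c * Z) z ∂η ∂gaussianReal 0 1 := by
  have hs := measurable_sgn
  have hm : Measurable fun x : Bool × ℝ => ∫⁻ z, G (yy c x, sgn x.1 * z) ∂η :=
    Measurable.lintegral_prod_right'
      (f := fun p : (Bool × ℝ) × ℝ => G (yy c p.1, sgn p.1.1 * p.2)) (by fun_prop)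
  have hg : Measurable fun Z : ℝ => ∫⁻ z, G (√c * Z, z) ∂η :=
    Measurable.lintegral_prod_right' (f := fun p : ℝ × ℝ => G (√c * p.1, p.2)) (by fun_prop)
  have hg2 : Measurable fun Z : ℝ => ∫⁻ z, G (√c * Z, z) * E (-2 * z) ∂η :=
    Measurable.lintegral_prod_right' (f := fun p : ℝ × ℝ => G (√c * p.1, p.2) * E (-2 * p.2))
      (by fun_prop)
  rw [lintegral_prod _ (Measurable.aemeasurable (by fun_prop)), P0,
    lintegral_prod _ hm.aemeasurable, lintegral_bern]
  have hcc := mul_self_sqrt hc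
  have e1 : ∀ Z, yy c (true, Z) = √c * (Z + 2 * √c) := by
    intro Z
    simp only [yy, sgn_true]
    linear_combination (-2 : ℝ) * hcc
  have e2 : ∀ Z, yy c (false, Z) = √c * Z := by
    intro Z
    simp [yy]
  simp only [e1, e2, sgn_true, sgn_false, one_mul, neg_one_mul]
  rw [gauss_shift (2 * √c) hg]
  have e3 : ∀ Z, ∫⁻ z, G (√c * Z, -z) ∂η = ∫⁻ z, G (√c * Z, z) * E (-2 * z) ∂η := fun Z =>
    hη (fun z => G (√c * Z, z)) (by fun_prop)
  simp only [e3]
  rw [← lintegral_const_mul _ (by fun_prop), ← lintegral_const_mul _ hg2,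
    ← lintegral_add_left (by fun_prop)]
  refine lintegral_congr fun Z => ?_
  rw [← lintegral_mul_const _ (by fun_prop), ← lintegral_const_mul _ (by fun_prop),
    ← lintegral_const_mul _ (by fun_prop), ← lintegral_add_left (by fun_prop)]
  refine lintegral_congr fun z => ?_
  have e4 : 2 * √c * Z - (2 * √c) ^ 2 / 2 = 2 * (√c * Z) - 2 * c := by
    linear_combination (-2 : ℝ) * hcc
  rw [e4, W]
  ring

lemma Nish.step {J c : ℝ} (hc : 0 ≤ c) {η : Measure ℝ} [SFinite η] (hη : Nish η) :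
    Nish (step J c η) := by
  intro h hh
  have hf := measurable_fJ J
  have hW := measurable_W J c
  rw [BA.step, lintegral_map (by fun_prop) (measurable_psi J c),
    lintegral_map (by fun_prop) (measurable_psi J c)]
  have r1 := lintegral_rep (J := J) hc hη (G := fun p => h (-(p.1 + fJ J (p.1 + p.2)))) (by fun_prop)
  have r2 := lintegral_rep (J := J) hc hη
    (G := fun p => h (p.1 + fJ J (p.1 + p.2)) * E (-2 * (p.1 + fJ J (p.1 + p.2)))) (by fun_prop)
  simp only [psi, xi]
  rw [r1, r2]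
  have hm : Measurable fun Z : ℝ =>
      ∫⁻ z, h (-(√c * Z + fJ J (√c * Z + z))) * W J c (√c * Z) z ∂η := by
    refine Measurable.lintegral_prod_right'
      (f := fun p : ℝ × ℝ => h (-(√c * p.1 + fJ J (√c * p.1 + p.2))) * W J c (√c * p.1) p.2) ?_
    exact Measurable.mul (by fun_prop)
      (hW.comp (f := fun p : ℝ × ℝ => (√c * p.1, p.2)) (by fun_prop))
  rw [← gauss_neg hm]
  refine lintegral_congr fun Z => ?_
  set u := √c * Z with hu
  have e : √c * -Z = -u := by rw [hu]; ring
  rw [e]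
  have hK : Measurable fun z => h (u + fJ J (u + z)) * W J c (-u) (-z) :=
    Measurable.mul (by fun_prop) (hW.comp (f := fun z : ℝ => (-u, -z)) (by fun_prop))
  have k := hη _ hK
  simp only [neg_neg] at k
  have e2 : ∀ z, -(-u + fJ J (-u + z)) = u + fJ J (u + -z) := by
    intro z
    have : u + -z = -(-u + z) := by ring
    rw [this, fJ_neg]
    ring
  simp only [e2]
  rw [k]
  refine lintegral_congr fun z => ?_
  rw [mul_assoc, W_symm]
  ring

lemma nish_eta {J c : ℝ} (hc : 0 ≤ c) (L : ℕ) : Nish (eta b J c L) := by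
  induction L with
  | zero => rw [eta_zero]; exact nish_dirac
  | succ L ih => rw [eta_succ]; exact (ih.step hc).sn b

/-- The Nishimori identity for real-valued integrals. -/
lemma Nish.integral {μ : Measure ℝ} (hμ : Nish μ) {g : ℝ → ℝ} (hg : Measurable g) :
    ∫ x, g (-x) ∂μ = ∫ x, g x * exp (-2 * x) ∂μ := by
  have h : μ.map (fun x => -x) = μ.withDensity fun x => E (-2 * x) := by
    refine Measure.ext_of_lintegral _ fun f hf => ?_
    rw [lintegral_map hf (by fun_prop), lintegral_withDensity_eq_lintegral_mul _ (by fun_prop) hf,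
      hμ f hf]
    simp only [Pi.mul_apply, mul_comm]
  rw [← integral_map (by fun_prop) hg.aestronglyMeasurable, h,
    integral_withDensity_eq_integral_toReal_smul (by fun_prop)
      (ae_of_all _ fun x => (E_ne_top _).lt_top)]
  refine integral_congr_ae (ae_of_all _ fun x => ?_)
  simp only [E, ENNReal.toReal_ofReal (exp_pos _).le, smul_eq_mul, mul_comm]

/-- For odd `g`, `E g = E g tanh`. -/
lemma Nish.odd {μ : Measure ℝ} (hμ : Nish μ) {g : ℝ → ℝ} (hg : Measurable g)
    (hodd : ∀ x, g (-x) = -g x) (hi : Integrable g μ) :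
    ∫ x, g x ∂μ = ∫ x, g x * tanh x ∂μ := by
  have k := hμ.integral (g := fun x => g x / (1 + exp (-2 * x))) (by fun_prop)
  have e1 : ∀ x, g (-x) / (1 + exp (-2 * -x)) = -(g x / (1 + exp (-2 * x)) * exp (-2 * x)) := by
    intro x
    have hp := exp_pos (-2 * x)
    have : exp (-2 * -x) = (exp (-2 * x))⁻¹ := by
      rw [← exp_neg]
      congr 1
      ring
    rw [hodd, this]
    field_simp
    ring
  simp only [e1, integral_neg] at k
  have k0 : ∫ x, g x / (1 + exp (-2 * x)) * exp (-2 * x) ∂μ = 0 := by linarith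
  have hi2 : Integrable (fun x => g x * tanh x) μ :=
    hi.mul_bdd (c := 1) measurable_tanh.aestronglyMeasurable
      (ae_of_all _ fun x => (abs_tanh_lt_one x).le)
  rw [← sub_eq_zero, ← integral_sub hi hi2]
  have e2 : ∀ x, g x - g x * tanh x = 2 * (g x / (1 + exp (-2 * x)) * exp (-2 * x)) := by
    intro x
    have hp := exp_pos x
    have e : exp (-2 * x) = (exp x)⁻¹ * (exp x)⁻¹ := by
      rw [← exp_neg, ← exp_add]
      congr 1
      ring
    rw [tanh_eq, exp_neg, e]
    field_simp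
    ring
  simp only [e2]
  rw [integral_const_mul, k0, mul_zero]

end Crest.Agent.R160.BA
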