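import Crest.Agent.R160.BranchA3

/-!
Row 160, subtask C1: integrability and the second moment.
-/

set_option autoImplicit false
set_option linter.unusedSectionVars false
set_option linter.unusedVariables false
set_option maxHeartbeats 400000

open MeasureTheory ProbabilityTheory Filter Topology Real
open scoped ENNReal

namespace Crest.Agent.R160.BA

variable {b : ℕ}

lemma integrable_of_bdd {Ω : Type*} [MeasurableSpace Ω] {μ : Measure Ω} [IsFiniteMeasure μ]
    {f : Ω → ℝ} (hf : Measurable f) (M : ℝ) (h : ∀ x, |f x| ≤ M) : Integrable f μ :=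
  Integrable.of_bound hf.aestronglyMeasurable M (ae_of_all _ h)

lemma integrable_of_le {Ω : Type*} [MeasurableSpace Ω] {μ : Measure Ω}
    {f g : Ω → ℝ} (hf : Measurable f) (hg : Integrable g μ) (h : ∀ x, |f x| ≤ g x) :
    Integrable f μ :=
  hg.mono' hf.aestronglyMeasurable (ae_of_all _ h)

/-- All exponential moments are finite. -/
def AllExp (μ : Measure ℝ) : Prop := ∀ a : ℝ, Integrable (fun x => exp (a * x)) μ

lemma cosh_mul_eq (a x : ℝ) : cosh (a * x) = (exp (a * x) + exp (-a * x)) / 2 := by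
  rw [cosh_eq, neg_mul]

lemma AllExp.cosh {μ : Measure ℝ} (h : AllExp μ) (a : ℝ) : Integrable (fun x => cosh (a * x)) μ := by
  simp only [cosh_mul_eq]
  exact ((h a).add (h (-a))).div_const 2

lemma abs_le_two_cosh (x : ℝ) : |x| ≤ 2 * cosh x := by
  rw [cosh_eq, abs_le]
  have h1 := add_one_le_exp x
  have h2 := add_one_le_exp (-x)
  have h3 := exp_pos x
  have h4 := exp_pos (-x)
  constructor <;> linarith

lemma exp_le_two_cosh (x : ℝ) : exp x ≤ 2 * cosh x := by
  rw [cosh_eq]
  have h4 := exp_pos (-x)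
  linarith

lemma AllExp.id {μ : Measure ℝ} (h : AllExp μ) : Integrable (fun x => x) μ :=
  integrable_of_le measurable_id ((h.cosh 1).const_mul 2) fun x => by
    simpa using abs_le_two_cosh x

lemma allExp_dirac : AllExp (Measure.dirac 0) := fun a => integrable_dirac (by simp)

lemma allExp_gauss : AllExp (gaussianReal 0 1) := fun a => integrable_exp_mul_gaussianReal a

lemma AllExp.sn {μ : Measure ℝ} [IsProbabilityMeasure μ] (h : AllExp μ) (n : ℕ) :
    AllExp (Sn n μ) := by
  intro a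
  rw [Sn, integrable_map_measure (by fun_prop) (by fun_prop)]
  have := Integrable.fintype_prod (ι := Fin n) (f := fun _ x => exp (a * x)) (μ := fun _ => μ)
    fun _ => h a
  refine this.congr (ae_of_all _ fun x => ?_)
  simp only [Function.comp, Finset.mul_sum, exp_sum]

lemma integral_exp_sn (μ : Measure ℝ) [IsProbabilityMeasure μ] (n : ℕ) (a : ℝ) :
    ∫ x, exp (a * x) ∂Sn n μ = (∫ x, exp (a * x) ∂μ) ^ n := by
  rw [Sn, integral_map (by fun_prop) (by fun_prop)]
  have := integral_fintype_prod_eq_pow (ι := Fin n) (fun x => exp (a * x)) (μ := μ)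
  rw [Fintype.card_fin] at this
  rw [← this]
  simp only [Finset.mul_sum, exp_sum]

lemma integral_id_sn {μ : Measure ℝ} [IsProbabilityMeasure μ] (h : Integrable (fun x => x) μ)
    (n : ℕ) : ∫ x, x ∂Sn n μ = n * ∫ x, x ∂μ := by
  rw [Sn, integral_map (by fun_prop) (by fun_prop),
    integral_finsetSum _ fun j _ => integrable_comp_eval (μ := fun _ : Fin n => μ) (i := j) h]
  have : ∀ j : Fin n, ∫ x : Fin n → ℝ, x j ∂Measure.pi (fun _ => μ) = ∫ x, x ∂μ := fun j =>
    integral_comp_eval (μ := fun _ : Fin n => μ) (i := j) (f := fun x => x) (by fun_prop)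
  simp [this]

/-! ### Moments of the observation -/

lemma integral_cosh_gauss (t : ℝ) : ∫ z, cosh (t * z) ∂gaussianReal 0 1 = exp (t ^ 2 / 2) := by
  have h : ∀ a : ℝ, ∫ z, exp (a * z) ∂gaussianReal 0 1 = exp (a ^ 2 / 2) := by
    intro a
    have := congrFun (mgf_fun_id_gaussianReal (μ := 0) (v := 1)) a
    simpa [mgf] using this
  simp only [cosh_mul_eq]
  rw [integral_div, integral_add (allExp_gauss t) (allExp_gauss (-t)), h, h]
  ring_nf

lemma integral_sq_gauss : ∫ z, z ^ 2 ∂gaussianReal 0 1 = 1 := by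
  have h2 := variance_fun_id_gaussianReal (μ := 0) (v := 1)
  rw [variance_eq_integral (by fun_prop), integral_id_gaussianReal] at h2
  simpa using h2

lemma integrable_sq_gauss : Integrable (fun z : ℝ => z ^ 2) (gaussianReal 0 1) :=
  (memLp_id_gaussianReal' 2 (by simp)).integrable_sq

lemma integral_P0_snd (β : ℝ) (f : ℝ → ℝ) :
    ∫ x, f x.2 ∂P0 β = ∫ z, f z ∂gaussianReal 0 1 := by
  rw [P0, integral_fun_snd, probReal_univ, one_smul]

lemma integrable_P0_snd (β : ℝ) {f : ℝ → ℝ} (hf : Integrable f (gaussianReal 0 1)) :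
    Integrable (fun x : Bool × ℝ => f x.2) (P0 β) := hf.comp_snd _

lemma abs_sgn (t : Bool) : |sgn t| = 1 := by cases t <;> simp

lemma integrable_sgn (β : ℝ) : Integrable (fun x : Bool × ℝ => sgn x.1) (P0 β) :=
  integrable_of_bdd (measurable_sgn.comp measurable_fst) 1 fun x => (abs_sgn _).le

lemma integral_sgn (β : ℝ) : ∫ x, sgn x.1 ∂P0 β = tanh β := by
  have h1 := neg_one_lt_tanh β
  have h2 := tanh_lt_one β
  rw [P0, integral_fun_fst, integral_fintype Integrable.of_finite]
  simp only [Fintype.univ_bool, Measure.real, bern]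
  simp
  rw [ENNReal.toReal_ofReal (by linarith), ENNReal.toReal_ofReal (by linarith)]
  ring

lemma cosh_yy_le {c : ℝ} (hc : 0 ≤ c) (t : ℝ) (x : Bool × ℝ) :
    cosh (t * yy c x) ≤ (cosh (4 * t * c) + cosh (2 * t * √c * x.2)) / 2 := by
  have h := cosh_add_le_half (t * (c * (1 + sgn x.1))) (t * (√c * x.2))
  have h2 : cosh (2 * (t * (c * (1 + sgn x.1)))) ≤ cosh (4 * t * c) := by
    rcases sgn_cases x.1 with h | h <;> rw [h]
    · apply le_of_eq
      congr 1
      ring
    · simp [one_le_cosh]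
  rw [yy, mul_add]
  have e : 2 * (t * (√c * x.2)) = 2 * t * √c * x.2 := by ring
  rw [e] at h
  linarith

lemma integrable_cosh_yy (β : ℝ) {c : ℝ} (hc : 0 ≤ c) (t : ℝ) :
    Integrable (fun x => cosh (t * yy c x)) (P0 β) := by
  refine integrable_of_le (by fun_prop) (((integrable_const (cosh (4 * t * c))).add
    (integrable_P0_snd β (allExp_gauss.cosh (2 * t * √c)))).div_const 2) fun x => ?_
  rw [abs_of_pos (cosh_pos _)]
  exact cosh_yy_le hc t x

lemma integral_cosh_yy (β : ℝ) {c : ℝ} (hc : 0 ≤ c) (hc1 : c ≤ 1) (t : ℝ) (h : 8 * t ^ 2 * c ≤ 1) :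
    ∫ x, cosh (t * yy c x) ∂P0 β ≤ 1 + 16 * t ^ 2 * c := by
  have hi := integrable_P0_snd β (allExp_gauss.cosh (2 * t * √c))
  have h1 := integral_mono (integrable_cosh_yy β hc t)
    (((integrable_const (cosh (4 * t * c))).add hi).div_const 2) (cosh_yy_le hc t)
  simp only [Pi.add_apply] at h1
  rw [integral_div, integral_add (integrable_const _) hi,
    integral_P0_snd β (fun z => cosh (2 * t * √c * z)), integral_cosh_gauss] at h1
  simp only [integral_const, probReal_univ, smul_eq_mul, one_mul] at h1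
  have h2 : cosh (4 * t * c) ≤ exp (8 * t ^ 2 * c) := by
    refine (cosh_le_exp_half_sq _).trans (exp_le_exp.2 ?_)
    have : t ^ 2 * c * c ≤ t ^ 2 * c * 1 := mul_le_mul_of_nonneg_left hc1 (by positivity)
    nlinarith
  have h3 : exp ((2 * t * √c) ^ 2 / 2) ≤ exp (8 * t ^ 2 * c) := by
    refine exp_le_exp.2 ?_
    rw [mul_pow, sq_sqrt hc]
    have : 0 ≤ t ^ 2 * c := by positivity
    nlinarith
  have h4 := exp_sub_one_le (x := 8 * t ^ 2 * c) (by positivity) h
  linarith

lemma integrable_yy (β : ℝ) (c : ℝ) : Integrable (yy c) (P0 β) :=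
  (((integrable_const 1).add (integrable_sgn β)).const_mul c).add
    ((integrable_P0_snd β allExp_gauss.id).const_mul _)

lemma integral_yy (β : ℝ) (c : ℝ) : ∫ x, yy c x ∂P0 β = c * (1 + tanh β) := by
  have h1 : Integrable (fun x : Bool × ℝ => c * (1 + sgn x.1)) (P0 β) :=
    ((integrable_const 1).add (integrable_sgn β)).const_mul c
  have h2 : Integrable (fun x : Bool × ℝ => √c * x.2) (P0 β) :=
    (integrable_P0_snd β allExp_gauss.id).const_mul _
  unfold yy
  rw [integral_add h1 h2, integral_const_mul, integral_const_mul,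
    integral_add (integrable_const _) (integrable_sgn β), integral_sgn,
    integral_P0_snd β (fun z => z), integral_id_gaussianReal]
  simp

lemma yy_sq_le {c : ℝ} (hc : 0 ≤ c) (hc1 : c ≤ 1) (x : Bool × ℝ) :
    yy c x ^ 2 ≤ 8 * c + 2 * c * x.2 ^ 2 := by
  have h1 : (c * (1 + sgn x.1)) ^ 2 ≤ 4 * c := by
    rcases sgn_cases x.1 with h | h <;> rw [h] <;> nlinarith
  have h2 : (√c * x.2) ^ 2 = c * x.2 ^ 2 := by rw [mul_pow, sq_sqrt hc]
  rw [yy]
  nlinarith [sq_nonneg (c * (1 + sgn x.1) - √c * x.2)]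

lemma integrable_yy_sq (β : ℝ) {c : ℝ} (hc : 0 ≤ c) (hc1 : c ≤ 1) :
    Integrable (fun x => yy c x ^ 2) (P0 β) := by
  refine integrable_of_le (by fun_prop) ((integrable_const (8 * c)).add
    ((integrable_P0_snd β integrable_sq_gauss).const_mul (2 * c))) fun x => ?_
  rw [abs_of_nonneg (sq_nonneg _)]
  exact yy_sq_le hc hc1 x

lemma integral_yy_sq (β : ℝ) {c : ℝ} (hc : 0 ≤ c) (hc1 : c ≤ 1) :
    ∫ x, yy c x ^ 2 ∂P0 β ≤ 10 * c := by
  have hi := (integrable_P0_snd β integrable_sq_gauss).const_mul (2 * c)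
  have h1 := integral_mono (integrable_yy_sq β hc hc1) ((integrable_const (8 * c)).add hi)
    (yy_sq_le hc hc1)
  simp only [Pi.add_apply] at h1
  rw [integral_add (integrable_const _) hi, integral_const_mul (2 * c),
    integral_P0_snd β (fun z => z ^ 2), integral_sq_gauss] at h1
  simp only [integral_const, probReal_univ, smul_eq_mul, one_mul] at h1
  linarith

/-! ### One step -/

section step

variable {J c : ℝ} {η : Measure ℝ} [IsProbabilityMeasure η]

lemma abs_fJ_le_two' (hJ : 0 ≤ J) (hθ : tanh J ^ 2 ≤ 1 / 2) (x : ℝ) : |fJ J x| ≤ 2 := by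
  have := abs_fJ_le_two hJ hθ x
  have := abs_tanh_lt_one x
  linarith

lemma allExp_step (hJ : 0 ≤ J) (hc : 0 ≤ c) (hθ : tanh J ^ 2 ≤ 1 / 2) : AllExp (step J c η) := by
  intro a
  rw [step, integrable_map_measure (by fun_prop) (by fun_prop)]
  refine integrable_of_le (by fun_prop)
    (((integrable_cosh_yy (J + c) hc a).comp_fst η).const_mul (2 * exp (2 * |a|))) fun p => ?_
  simp only [Function.comp]
  rw [abs_of_pos (exp_pos _), psi, mul_add, exp_add]
  have h1 := exp_le_two_cosh (a * yy c p.1)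
  have h2 : exp (a * fJ J (xi c p)) ≤ exp (2 * |a|) := by
    refine exp_le_exp.2 ((le_abs_self _).trans ?_)
    rw [abs_mul, mul_comm]
    exact mul_le_mul_of_nonneg_right (abs_fJ_le_two' hJ hθ _) (abs_nonneg _)
  calc exp (a * yy c p.1) * exp (a * fJ J (xi c p))
      ≤ (2 * cosh (a * yy c p.1)) * exp (2 * |a|) :=
        mul_le_mul h1 h2 (exp_pos _).le (by positivity)
    _ = _ := by ring

lemma integral_prod_fst (β : ℝ) (f : Bool × ℝ → ℝ) :
    ∫ p, f p.1 ∂(P0 β).prod η = ∫ x, f x ∂P0 β := by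
  rw [integral_fun_fst]
  simp

lemma integral_prod_snd (β : ℝ) (f : ℝ → ℝ) :
    ∫ p, f p.2 ∂(P0 β).prod η = ∫ x, f x ∂η := by
  rw [integral_fun_snd]
  simp

lemma mean_step (hJ : 0 ≤ J) (hc : 0 ≤ c) (hc1 : c ≤ 1) (hθ : tanh J ^ 2 ≤ 1 / 2) :
    ∫ x, x ∂step J c η ≤ 14 * c + tanh (J + c) * ∫ z, fJ J z ∂η := by
  have hd0 := dJ_nonneg hJ
  have hd1 : ∀ x, dJ J x ≤ 1 := fun x => (dJ_le hJ x).trans (tanh_lt_one J).le
  have hif : Integrable (fJ J) η := integrable_of_bdd (measurable_fJ J) 2 (abs_fJ_le_two' hJ hθ)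
  have hid : Integrable (dJ J) η := integrable_of_bdd (continuous_dJ J).measurable 1 fun x => by
    rw [abs_of_nonneg (hd0 x)]
    exact hd1 x
  have i0 : Integrable (psi J c) ((P0 (J + c)).prod η) := by
    have := (allExp_step (η := η) hJ hc hθ).id
    rwa [step, integrable_map_measure (by fun_prop) (by fun_prop)] at this
  have i1 : Integrable (fun p : (Bool × ℝ) × ℝ => yy c p.1) ((P0 (J + c)).prod η) :=
    (integrable_yy _ c).comp_fst η
  have i2 : Integrable (fun p : (Bool × ℝ) × ℝ => sgn p.1.1 * fJ J p.2) ((P0 (J + c)).prod η) :=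
    (integrable_sgn _).mul_prod hif
  have i3 : Integrable (fun p : (Bool × ℝ) × ℝ => yy c p.1 * dJ J p.2) ((P0 (J + c)).prod η) :=
    (integrable_yy _ c).mul_prod hid
  have i4 : Integrable (fun p : (Bool × ℝ) × ℝ => yy c p.1 ^ 2) ((P0 (J + c)).prod η) :=
    (integrable_yy_sq _ hc hc1).comp_fst η
  have h : ∀ p : (Bool × ℝ) × ℝ, psi J c p ≤
      yy c p.1 + sgn p.1.1 * fJ J p.2 + yy c p.1 * dJ J p.2 + yy c p.1 ^ 2 := by
    intro p
    have h1 := fJ_add_le J (sgn p.1.1 * p.2) (yy c p.1)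
    have h2 : dJ J (sgn p.1.1 * p.2) = dJ J p.2 := by
      rcases sgn_cases p.1.1 with h | h <;> simp [h, dJ_neg]
    rw [fJ_sign J _ _ (sgn_cases _), h2] at h1
    rw [psi, xi]
    linarith
  have i12 : Integrable (fun p : (Bool × ℝ) × ℝ => yy c p.1 + sgn p.1.1 * fJ J p.2)
      ((P0 (J + c)).prod η) := i1.add i2
  have i123 : Integrable (fun p : (Bool × ℝ) × ℝ => yy c p.1 + sgn p.1.1 * fJ J p.2 +
      yy c p.1 * dJ J p.2) ((P0 (J + c)).prod η) := i12.add i3
  have h1 := integral_mono i0 (i123.add i4) h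
  simp only [Pi.add_apply] at h1
  rw [integral_add i123 i4, integral_add i12 i3, integral_add i1 i2,
    integral_prod_fst _ (yy c), integral_prod_fst _ (fun x => yy c x ^ 2),
    integral_prod_mul (fun x : Bool × ℝ => sgn x.1) (fJ J), integral_prod_mul (yy c) (dJ J),
    integral_sgn, integral_yy] at h1
  rw [step, integral_map (by fun_prop) (by fun_prop)]
  have h2 := integral_yy_sq (J + c) hc hc1
  have h3 : ∫ z, dJ J z ∂η ≤ 1 := by
    simpa using integral_mono hid (integrable_const 1) hd1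
  have h4 := tanh_lt_one (J + c)
  have h5 := tanh_nonneg (add_nonneg hJ hc)
  have h6 : c * (1 + tanh (J + c)) ≤ 2 * c := by nlinarith
  have h7 : c * (1 + tanh (J + c)) * ∫ z, dJ J z ∂η ≤ c * (1 + tanh (J + c)) * 1 :=
    mul_le_mul_of_nonneg_left h3 (by positivity)
  linarith

lemma integrable_tanh_pow {Ω : Type*} [MeasurableSpace Ω] {μ : Measure Ω} [IsFiniteMeasure μ]
    {f : Ω → ℝ} (hf : Measurable f) (n : ℕ) : Integrable (fun x => tanh (f x) ^ n) μ :=
  integrable_of_bdd ((measurable_tanh.comp hf).pow_const n) 1 fun x => by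
    rw [abs_pow]
    exact pow_le_one₀ (abs_nonneg _) (abs_tanh_lt_one _).le

lemma tanh_xi_le (hc : 0 ≤ c) (hc1 : c ≤ 1) (β : ℝ) :
    ∫ p, tanh (xi c p) ^ 2 ∂(P0 β).prod η ≤ 20 * c + 2 * ∫ z, tanh z ^ 2 ∂η := by
  have i4 : Integrable (fun p : (Bool × ℝ) × ℝ => 2 * yy c p.1 ^ 2) ((P0 β).prod η) :=
    ((integrable_yy_sq _ hc hc1).comp_fst η).const_mul 2
  have i5 : Integrable (fun p : (Bool × ℝ) × ℝ => 2 * tanh p.2 ^ 2) ((P0 β).prod η) :=
    (integrable_tanh_pow measurable_snd 2).const_mul 2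
  have h : ∀ p : (Bool × ℝ) × ℝ, tanh (xi c p) ^ 2 ≤ 2 * yy c p.1 ^ 2 + 2 * tanh p.2 ^ 2 := by
    intro p
    have h1 := tanh_add_sq_le (yy c p.1) (sgn p.1.1 * p.2)
    have h2 : tanh (sgn p.1.1 * p.2) ^ 2 = tanh p.2 ^ 2 := by
      rcases sgn_cases p.1.1 with h | h <;> simp [h]
    rwa [h2] at h1
  have h1 := integral_mono (integrable_tanh_pow (measurable_xi c) 2) (i4.add i5) h
  simp only [Pi.add_apply] at h1
  rw [integral_add i4 i5, integral_const_mul, integral_const_mul,
    integral_prod_fst _ (fun x => yy c x ^ 2), integral_prod_snd _ (fun z => tanh z ^ 2)] at h1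
  have h2 := integral_yy_sq β hc hc1
  linarith

lemma integrable_mul_tanh (hi : Integrable (fun x => x) η) : Integrable (fun x => x * tanh x) η :=
  hi.mul_bdd (c := 1) measurable_tanh.aestronglyMeasurable
    (ae_of_all _ fun x => (abs_tanh_lt_one x).le)

lemma Nish.tanh_sq_le (hη : Nish η) (hi : Integrable (fun x => x) η) :
    ∫ z, tanh z ^ 2 ∂η ≤ ∫ z, z ∂η := by
  rw [hη.odd (g := fun x => x) measurable_id (fun x => rfl) hi]
  exact integral_mono (integrable_tanh_pow measurable_id 2) (integrable_mul_tanh hi) tanh_sq_le_mul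

lemma Nish.mean_nonneg (hη : Nish η) (hi : Integrable (fun x => x) η) : 0 ≤ ∫ z, z ∂η :=
  (integral_nonneg fun z => sq_nonneg _).trans (hη.tanh_sq_le hi)

lemma Nish.fJ_le (hJ : 0 ≤ J) (hθ : tanh J ^ 2 ≤ 1 / 2) (hη : Nish η)
    (hi : Integrable (fun x => x) η) :
    ∫ z, fJ J z ∂η ≤ 2 * ∫ z, tanh z ^ 2 ∂η ∧
      ∫ z, fJ J z ∂η ≤ tanh J * (∫ z, z ∂η - (∫ z, tanh z ^ 2 ∂η) ^ 2 / 6) := by
  have hif : Integrable (fJ J) η := integrable_of_bdd (measurable_fJ J) 2 (abs_fJ_le_two' hJ hθ)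
  have hi2 : Integrable (fun x => fJ J x * tanh x) η :=
    hif.mul_bdd (c := 1) measurable_tanh.aestronglyMeasurable
      (ae_of_all _ fun x => (abs_tanh_lt_one x).le)
  have t2 : Integrable (fun x => tanh x ^ 2) η := integrable_tanh_pow measurable_id 2
  have t4 : Integrable (fun x => tanh x ^ 4) η := integrable_tanh_pow measurable_id 4
  rw [hη.odd (measurable_fJ J) (fJ_neg J) hif]
  constructor
  · rw [← integral_const_mul]
    exact integral_mono hi2 (t2.const_mul 2) (fJ_mul_tanh_le_two hJ hθ)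
  · set Y := ∫ z, tanh z ^ 2 ∂η with hY
    have h1 := integral_mono hi2 (((integrable_mul_tanh hi).const_mul (tanh J)).sub
      ((t4.const_mul (tanh J)).div_const 6)) (fJ_mul_tanh_le hJ hθ)
    simp only [Pi.sub_apply] at h1
    rw [integral_sub ((integrable_mul_tanh hi).const_mul (tanh J))
      ((t4.const_mul (tanh J)).div_const 6), integral_div, integral_const_mul, integral_const_mul,
      ← hη.odd (g := fun x => x) measurable_id (fun x => rfl) hi] at h1
    have h2 : ∫ z, 2 * Y * tanh z ^ 2 - Y ^ 2 ∂η ≤ ∫ z, tanh z ^ 4 ∂η :=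
      integral_mono ((t2.const_mul _).sub (integrable_const _)) t4 fun z => by
        beta_reduce
        nlinarith [sq_nonneg (tanh z ^ 2 - Y)]
    rw [integral_sub (t2.const_mul _) (integrable_const _), integral_const_mul, ← hY] at h2
    simp only [integral_const, probReal_univ, smul_eq_mul, one_mul] at h2
    have h3 : tanh J * Y ^ 2 ≤ tanh J * ∫ z, tanh z ^ 4 ∂η :=
      mul_le_mul_of_nonneg_left (by nlinarith) (tanh_nonneg hJ)
    linarith

end step

lemma allExp_eta {J c : ℝ} (hJ : 0 ≤ J) (hc : 0 ≤ c) (hθ : tanh J ^ 2 ≤ 1 / 2) (L : ℕ) :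
    AllExp (eta b J c L) := by
  cases L with
  | zero => rw [eta_zero]; exact allExp_dirac
  | succ L => rw [eta_succ]; exact (allExp_step hJ hc hθ).sn b

lemma theta_le {J c : ℝ} (hb : 2 ≤ b) (hJ : 0 ≤ J) (hc : 0 ≤ c) (h : b * tanh (J + c) ^ 2 ≤ 1) :
    tanh J ^ 2 ≤ 1 / 2 := by
  have h1 : tanh J ≤ tanh (J + c) := tanh_mono (by linarith)
  have h2 : tanh J ^ 2 ≤ tanh (J + c) ^ 2 := pow_le_pow_left₀ (tanh_nonneg hJ) h1 2
  have h3 : (2 : ℝ) ≤ b := by exact_mod_cast hb
  nlinarith [sq_nonneg (tanh (J + c))]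

lemma mean_eta {J c : ℝ} (hb : 2 ≤ b) (hJ : 0 ≤ J) (hc : 0 ≤ c) (hc1 : c ≤ 1)
    (h : b * tanh (J + c) ^ 2 ≤ 1) (L : ℕ) :
    ∫ z, z ∂eta b J c L ≤ 400 * b ^ 2 * √c := by
  have hθ := theta_le hb hJ hc h
  have hb' : (2 : ℝ) ≤ b := by exact_mod_cast hb
  have hs := sqrt_nonneg c
  have hss := mul_self_sqrt hc
  have hs1 : √c ≤ 1 := sqrt_le_one.2 hc1
  have hcs : c ≤ √c := by nlinarith
  induction L with
  | zero =>
    rw [eta_zero, integral_dirac]
    positivity
  | succ L ih =>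
    have hi := (allExp_eta (b := b) hJ hc hθ L).id
    have hN := nish_eta (b := b) (J := J) hc L
    obtain ⟨f1, f2⟩ := hN.fJ_le hJ hθ hi
    have hM := hN.mean_nonneg hi
    have h1 := mean_step (η := eta b J c L) hJ hc hc1 hθ
    rw [eta_succ, integral_id_sn (allExp_step hJ hc hθ).id]
    set M := ∫ z, z ∂eta b J c L
    set Y := ∫ z, tanh z ^ 2 ∂eta b J c L
    set F := ∫ z, fJ J z ∂eta b J c L
    have hY : 0 ≤ Y := integral_nonneg fun z => sq_nonneg _
    have t0 := tanh_nonneg hJ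
    have t1 : tanh J ≤ tanh (J + c) := tanh_mono (by linarith)
    have t2 := (tanh_lt_one (J + c)).le
    refine (mul_le_mul_of_nonneg_left h1 (by positivity)).trans ?_
    have hbc : b * c ≤ b * √c := mul_le_mul_of_nonneg_left hcs (by positivity)
    have hbs : 0 ≤ b * √c := by positivity
    have hbb : 2 * (b * √c) ≤ b * (b * √c) := mul_le_mul_of_nonneg_right hb' hbs
    by_cases hcase : Y ≤ 168 * b * √c
    · have a1 : tanh (J + c) * F ≤ 1 * (2 * Y) :=
        (mul_le_mul_of_nonneg_left f1 (by linarith)).trans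
          (mul_le_mul_of_nonneg_right t2 (by linarith))
      have a2 : b * (tanh (J + c) * F) ≤ b * (2 * (168 * b * √c)) :=
        mul_le_mul_of_nonneg_left (by linarith) (by positivity)
      nlinarith
    · push Not at hcase
      set t := b * (tanh (J + c) * tanh J) with ht
      have ht0 : 0 ≤ t := mul_nonneg (by positivity) (mul_nonneg (by linarith) t0)
      have ht1 : t ≤ 1 := by
        refine le_trans (mul_le_mul_of_nonneg_left ?_ (by positivity)) h
        rw [sq]
        exact mul_le_mul_of_nonneg_left t1 (by linarith)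
      have a1 : b * (tanh (J + c) * F) ≤ t * (M - Y ^ 2 / 6) := by
        have := mul_le_mul_of_nonneg_left (mul_le_mul_of_nonneg_left f2 (t0.trans t1))
          (show (0 : ℝ) ≤ b by positivity)
        rw [ht]
        linarith
      have a2 : 168 * (b * c) ≤ Y ^ 2 := by
        have := pow_le_pow_left₀ (by positivity) hcase.le 2
        have e : (168 * b * √c) ^ 2 = 168 * b * (168 * (b * c)) := by
          rw [mul_pow, sq_sqrt hc]
          ring
        have : 1 * (168 * (b * c)) ≤ 168 * b * (168 * (b * c)) :=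
          mul_le_mul_of_nonneg_right (by linarith) (by positivity)
        linarith
      have a3 : t * M ≤ t * (400 * b ^ 2 * √c) := mul_le_mul_of_nonneg_left ih ht0
      have a4 : 0 ≤ t * Y ^ 2 := by positivity
      by_cases hh : t ≤ 1 / 2
      · have : t * (400 * b ^ 2 * √c) ≤ 1 / 2 * (400 * b ^ 2 * √c) :=
          mul_le_mul_of_nonneg_right hh (by positivity)
        nlinarith
      · push Not at hh
        have a5 : t * (400 * b ^ 2 * √c) ≤ 1 * (400 * b ^ 2 * √c) :=
          mul_le_mul_of_nonneg_right ht1 (by positivity)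
        have a6 : 1 / 2 * Y ^ 2 ≤ t * Y ^ 2 := mul_le_mul_of_nonneg_right hh.le (sq_nonneg _)
        nlinarith

lemma sq_xi {J c : ℝ} (hb : 2 ≤ b) (hJ : 0 ≤ J) (hc : 0 ≤ c) (hc1 : c ≤ 1)
    (h : b * tanh (J + c) ^ 2 ≤ 1) (L : ℕ) :
    ∫ p, tanh (xi c p) ^ 2 ∂(P0 (J + c)).prod (eta b J c L) ≤ (20 + 800 * b ^ 2) * √c := by
  have hθ := theta_le hb hJ hc h
  have h1 := tanh_xi_le (η := eta b J c L) hc hc1 (J + c)
  have h2 := (nish_eta (b := b) (J := J) hc L).tanh_sq_le (allExp_eta (b := b) hJ hc hθ L).id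
  have h3 := mean_eta hb hJ hc hc1 h L
  have hs := sqrt_nonneg c
  have hss := mul_self_sqrt hc
  have hs1 : √c ≤ 1 := sqrt_le_one.2 hc1
  have hcs : c ≤ √c := by nlinarith
  linarith

end Crest.Agent.R160.BA
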