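import Crest.Agent.R160.BranchA4

/-!
Row 160, subtask C1: exponential moments and tails.
-/

set_option autoImplicit false
set_option linter.unusedSectionVars false
set_option linter.unusedVariables false
set_option maxHeartbeats 400000

open MeasureTheory ProbabilityTheory Filter Topology Real
open scoped ENNReal

namespace Crest.Agent.R160.BA

variable {b : ℕ}

section step

variable {J c : ℝ} {η : Measure ℝ} [IsProbabilityMeasure η]

lemma one_le_integral_exp (hη : Nish η) (hE : AllExp η) {a : ℝ} (ha : 0 ≤ a) :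
    1 ≤ ∫ x, exp (a * x) ∂η := by
  have i1 : Integrable (fun x => a * x) η := hE.id.const_mul a
  have h := integral_mono (i1.add (integrable_const 1)) (hE a) fun x => add_one_le_exp (a * x)
  simp only [Pi.add_apply] at h
  rw [integral_add i1 (integrable_const 1), integral_const_mul] at h
  simp only [integral_const, probReal_univ, smul_eq_mul, one_mul] at h
  have := mul_nonneg ha (hη.mean_nonneg hE.id)
  linarith

lemma one_le_integral_exp_neg (hη : Nish η) (hE : AllExp η) {a : ℝ} (ha : 2 ≤ a) :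
    1 ≤ ∫ x, exp (-a * x) ∂η := by
  have h := hη.integral (g := fun x => exp (a * x)) (by fun_prop)
  have e1 : ∀ x, exp (a * -x) = exp (-a * x) := fun x => by congr 1; ring
  have e2 : ∀ x, exp (a * x) * exp (-2 * x) = exp ((a - 2) * x) := fun x => by
    rw [← exp_add]; congr 1; ring
  simp only [e1, e2] at h
  rw [h]
  exact one_le_integral_exp hη hE (by linarith)

lemma integral_cosh_eq (hE : AllExp η) (a : ℝ) :
    ∫ x, cosh (a * x) ∂η = (∫ x, exp (a * x) ∂η + ∫ x, exp (-a * x) ∂η) / 2 := by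
  simp only [cosh_mul_eq]
  rw [integral_div, integral_add (hE a) (hE (-a))]

lemma cosh_sn (hη : Nish η) (hE : AllExp η) {s u : ℝ} (hs : 2 ≤ s) (n : ℕ)
    (hu : ∫ x, cosh (s * x) ∂η ≤ 1 + u) (hn : 2 * n * u ≤ 1) :
    ∫ x, cosh (s * x) ∂Sn n η ≤ 1 + 4 * n * u := by
  have h1 := one_le_integral_exp hη hE (a := s) (by linarith)
  have h2 := one_le_integral_exp_neg hη hE hs
  rw [integral_cosh_eq hE] at hu
  rw [integral_cosh_eq (hE.sn n), integral_exp_sn, integral_exp_sn]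
  have h3 := pow_le_pow_left₀ (by linarith) (show ∫ x, exp (s * x) ∂η ≤ 1 + 2 * u by linarith) n
  have h4 := pow_le_pow_left₀ (by linarith) (show ∫ x, exp (-s * x) ∂η ≤ 1 + 2 * u by linarith) n
  have h5 := one_add_pow_le (x := 2 * u) (n := n) (by linarith) (by linarith)
  linarith

lemma integral_step (f : ℝ → ℝ) (hf : Measurable f) :
    ∫ x, f x ∂step J c η = ∫ p, f (psi J c p) ∂(P0 (J + c)).prod η := by
  rw [step, integral_map (by fun_prop) hf.aestronglyMeasurable]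

lemma integrable_cosh_psi (hJ : 0 ≤ J) (hc : 0 ≤ c) (hθ : tanh J ^ 2 ≤ 1 / 2) (s : ℝ) :
    Integrable (fun p => cosh (s * psi J c p)) ((P0 (J + c)).prod η) := by
  have := (allExp_step (η := η) hJ hc hθ).cosh s
  rwa [step, integrable_map_measure (by fun_prop) (by fun_prop)] at this

lemma cosh_step (hJ : 0 ≤ J) (hc : 0 ≤ c) (hθ : tanh J ^ 2 ≤ 1 / 2) (hE : AllExp η) {s : ℝ}
    (hs : 0 ≤ s) :
    ∫ x, cosh (s * x) ∂step J c η ≤ 1 / 10 * ∫ x, cosh (20 * s * yy c x) ∂P0 (J + c) +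
      9 / 10 * ∫ z, cosh (4 / 5 * s * z) ∂η := by
  have i1 : Integrable (fun p : (Bool × ℝ) × ℝ => 1 / 10 * cosh (20 * s * yy c p.1))
      ((P0 (J + c)).prod η) := ((integrable_cosh_yy _ hc _).comp_fst η).const_mul _
  have i2 : Integrable (fun p : (Bool × ℝ) × ℝ => 9 / 10 * cosh (4 / 5 * s * p.2))
      ((P0 (J + c)).prod η) := ((hE.cosh _).comp_snd _).const_mul _
  have t0 := tanh_nonneg hJ
  have t1 : tanh J ≤ 18 / 25 := by nlinarith
  have h : ∀ p : (Bool × ℝ) × ℝ, cosh (s * psi J c p) ≤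
      1 / 10 * cosh (20 * s * yy c p.1) + 9 / 10 * cosh (4 / 5 * s * p.2) := by
    intro p
    have h1 := cosh_add_le (1 / 10) (9 / 10) |20 * s * yy c p.1| |4 / 5 * s * p.2| (by norm_num)
      (by norm_num) (by norm_num)
    rw [cosh_abs, cosh_abs] at h1
    refine le_trans (cosh_le_cosh.2 ?_) h1
    rw [abs_of_nonneg (a := 1 / 10 * _ + _) (by positivity), abs_mul, abs_mul, abs_mul (4 / 5 * s),
      abs_of_nonneg hs, abs_of_nonneg (a := 20 * s) (by positivity),
      abs_of_nonneg (a := 4 / 5 * s) (by positivity)]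
    have h2 : |psi J c p| ≤ |yy c p.1| + tanh J * |xi c p| :=
      (abs_add_le _ _).trans (add_le_add le_rfl (abs_fJ_le hJ _))
    have h3 : |xi c p| ≤ |yy c p.1| + |p.2| := by
      refine (abs_add_le _ _).trans ?_
      rw [abs_mul, abs_sgn, one_mul]
    have h4 : tanh J * |xi c p| ≤ 18 / 25 * (|yy c p.1| + |p.2|) :=
      mul_le_mul t1 h3 (abs_nonneg _) (by norm_num)
    have h5 : |psi J c p| ≤ 2 * |yy c p.1| + 18 / 25 * |p.2| := by
      have := abs_nonneg (yy c p.1)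
      linarith
    have := mul_le_mul_of_nonneg_left h5 hs
    linarith
  have h1 := integral_mono (integrable_cosh_psi (η := η) hJ hc hθ s) (i1.add i2) h
  simp only [Pi.add_apply] at h1
  rw [integral_add i1 i2, integral_const_mul, integral_const_mul,
    integral_prod_fst _ (fun x => cosh (20 * s * yy c x)),
    integral_prod_snd _ (fun z => cosh (4 / 5 * s * z))] at h1
  rwa [integral_step _ (by fun_prop)]

lemma cosh_base (hJ : 0 ≤ J) (hc : 0 ≤ c) (hc1 : 128 * c ≤ 1) (hθ : tanh J ^ 2 ≤ 1 / 2) :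
    ∫ x, cosh (2 * x) ∂step J c η ≤ 1 + 128 * c +
      16 * exp 32 * ∫ p, tanh (xi c p) ^ 2 ∂(P0 (J + c)).prod η := by
  have i1 : Integrable (fun p : (Bool × ℝ) × ℝ => 1 / 2 * cosh (4 * yy c p.1))
      ((P0 (J + c)).prod η) := ((integrable_cosh_yy _ hc _).comp_fst η).const_mul _
  have i2 : Integrable (fun p : (Bool × ℝ) × ℝ => 16 * exp 32 * tanh (xi c p) ^ 2)
      ((P0 (J + c)).prod η) := (integrable_tanh_pow (measurable_xi c) 2).const_mul _
  have i3 : Integrable (fun p : (Bool × ℝ) × ℝ => 1 / 2 * cosh (4 * yy c p.1) +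
      16 * exp 32 * tanh (xi c p) ^ 2) ((P0 (J + c)).prod η) := i1.add i2
  have h : ∀ p : (Bool × ℝ) × ℝ, cosh (2 * psi J c p) ≤
      1 / 2 * cosh (4 * yy c p.1) + 16 * exp 32 * tanh (xi c p) ^ 2 + 1 / 2 := by
    intro p
    have h1 := cosh_add_le_half (2 * yy c p.1) (2 * fJ J (xi c p))
    have e : 2 * (2 * yy c p.1) = 4 * yy c p.1 := by ring
    rw [e, ← mul_add] at h1
    have h2 := cosh_le_exp_half_sq (2 * (2 * fJ J (xi c p)))
    have h3 := exp_sub_one_le' ((2 * (2 * fJ J (xi c p))) ^ 2 / 2)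
    have h4 : fJ J (xi c p) ^ 2 ≤ (2 * tanh (xi c p)) ^ 2 := by
      refine sq_le_sq.2 ?_
      rw [abs_mul, abs_two]
      exact abs_fJ_le_two hJ hθ _
    have h5 := tanh_sq_le_one (xi c p)
    have h6 : (2 * (2 * fJ J (xi c p))) ^ 2 / 2 ≤ 32 * tanh (xi c p) ^ 2 := by nlinarith
    have h7 : exp ((2 * (2 * fJ J (xi c p))) ^ 2 / 2) ≤ exp 32 := exp_le_exp.2 (by linarith)
    have h8 := mul_le_mul h6 h7 (exp_pos _).le (by positivity)
    rw [psi]
    linarith
  have h1 := integral_mono (integrable_cosh_psi (η := η) hJ hc hθ 2)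
    (i3.add (integrable_const (1 / 2))) h
  simp only [Pi.add_apply] at h1
  rw [integral_add i3 (integrable_const _), integral_add i1 i2, integral_const_mul,
    integral_const_mul, integral_prod_fst _ (fun x => cosh (4 * yy c x))] at h1
  simp only [integral_const, probReal_univ, smul_eq_mul, one_mul] at h1
  have h2 := integral_cosh_yy (J + c) hc (by linarith) 4 (by linarith)
  rw [integral_step _ (by fun_prop)]
  linarith

lemma tail_of_cosh (hc : 0 ≤ c) (hc1 : c ≤ 1) (hE : AllExp η) (β : ℝ) {s lam : ℝ} (hs : 0 ≤ s)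
    (hlam : 0 ≤ lam) (hsc : 8 * s ^ 2 * c ≤ 1) (h : ∫ z, cosh (s * z) ∂η ≤ 3) :
    ((P0 β).prod η).real {p | lam < |xi c p|} ≤ 6 * exp (-(s / 2 * lam)) := by
  have i1 : Integrable (fun p : (Bool × ℝ) × ℝ => cosh (s * yy c p.1)) ((P0 β).prod η) :=
    (integrable_cosh_yy _ hc _).comp_fst η
  have i2 : Integrable (fun p : (Bool × ℝ) × ℝ => cosh (s * p.2)) ((P0 β).prod η) :=
    (hE.cosh _).comp_snd _
  have i3 : Integrable (fun p : (Bool × ℝ) × ℝ => (cosh (s * yy c p.1) + cosh (s * p.2)) / 2)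
      ((P0 β).prod η) := (i1.add i2).div_const 2
  have h1 := mul_meas_ge_le_integral_of_nonneg (ae_of_all _ fun p => by positivity) i3
    (cosh (s / 2 * lam))
  rw [integral_div, integral_add i1 i2, integral_prod_fst _ (fun x => cosh (s * yy c x)),
    integral_prod_snd _ (fun z => cosh (s * z))] at h1
  have h2 := integral_cosh_yy β hc hc1 s hsc
  have h3 : ((P0 β).prod η).real {p | lam < |xi c p|} ≤ ((P0 β).prod η).real
      {p | cosh (s / 2 * lam) ≤ (cosh (s * yy c p.1) + cosh (s * p.2)) / 2} := by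
    refine measureReal_mono fun p hp => ?_
    simp only [Set.mem_ofPred_eq] at hp ⊢
    have k1 := cosh_add_le_half (s / 2 * yy c p.1) (s / 2 * (sgn p.1.1 * p.2))
    have e1 : 2 * (s / 2 * yy c p.1) = s * yy c p.1 := by ring
    have e2 : cosh (2 * (s / 2 * (sgn p.1.1 * p.2))) = cosh (s * p.2) := by
      rcases sgn_cases p.1.1 with h | h <;> rw [h]
      · congr 1
        ring
      · rw [← cosh_neg]
        congr 1
        ring
    rw [e1, e2, ← mul_add] at k1
    refine le_trans (cosh_le_cosh.2 ?_) k1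
    rw [abs_mul, abs_mul, abs_of_nonneg hlam]
    exact mul_le_mul_of_nonneg_left hp.le (abs_nonneg _)
  have h4 := exp_le_two_cosh (s / 2 * lam)
  have h5 : exp (s / 2 * lam) * ((P0 β).prod η).real {p | lam < |xi c p|} ≤ 6 := by
    have := mul_le_mul h4 h3 measureReal_nonneg (by positivity)
    linarith
  rw [exp_neg, ← div_eq_mul_inv, le_div_iff₀ (exp_pos _)]
  linarith

end step

/-- The constant in the exponential moment bounds. -/
noncomputable def AA (b : ℕ) : ℝ := 6400 + 16 * exp 32 * (20 + 800 * b ^ 2)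

lemma AA_ge (b : ℕ) : 6400 ≤ AA b := by
  have : 0 ≤ 16 * exp 32 * (20 + 800 * (b : ℝ) ^ 2) := by positivity
  unfold AA
  linarith

lemma scale_sq (hb : 2 ≤ b) (m : ℕ) : (2 * (5 / 4 : ℝ) ^ m) ^ 2 ≤ 4 * (8 * b) ^ m := by
  have hb' : (2 : ℝ) ≤ b := by exact_mod_cast hb
  have : ((5 / 4 : ℝ) ^ 2) ^ m ≤ (8 * b) ^ m := pow_le_pow_left₀ (by positivity) (by linarith) m
  rw [mul_pow, ← pow_mul, mul_comm m 2, pow_mul]
  linarith

lemma small_of_constraint (hb : 2 ≤ b) {c : ℝ} (hc : 0 ≤ c) {m : ℕ}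
    (hm : 2 * b * (AA b * (8 * b) ^ m * √c) ≤ 1) :
    c ≤ √c ∧ c ≤ 1 ∧ 25600 * ((8 * b) ^ m * c) ≤ 1 := by
  have hb' : (2 : ℝ) ≤ b := by exact_mod_cast hb
  have hA := AA_ge b
  have hr : (1 : ℝ) ≤ (8 * b) ^ m := one_le_pow₀ (by linarith)
  have hs := sqrt_nonneg c
  have hss := mul_self_sqrt hc
  have h1 : 25600 * ((8 * b) ^ m * √c) ≤ 2 * b * AA b * ((8 * b) ^ m * √c) :=
    mul_le_mul_of_nonneg_right (by nlinarith) (by positivity)
  have h2 : 1 * √c ≤ (8 * b) ^ m * √c := mul_le_mul_of_nonneg_right hr hs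
  have h3 : √c ≤ 1 := by linarith
  have h4 : c ≤ √c := by nlinarith
  have h5 : (8 * b) ^ m * c ≤ (8 * b) ^ m * √c := mul_le_mul_of_nonneg_left h4 (by positivity)
  exact ⟨h4, by linarith, by linarith⟩

lemma cosh_eta_of_step {J c : ℝ} (hJ : 0 ≤ J) (hc : 0 ≤ c) (hθ : tanh J ^ 2 ≤ 1 / 2) {s u : ℝ}
    (hs : 2 ≤ s) (hu0 : 0 ≤ u) (hu : 2 * b * u ≤ 1)
    (h : ∀ L, ∫ x, cosh (s * x) ∂step J c (eta b J c L) ≤ 1 + u) (L : ℕ) :
    ∫ x, cosh (s * x) ∂eta b J c L ≤ 1 + 4 * b * u := by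
  cases L with
  | zero =>
    rw [eta_zero, integral_dirac]
    have : 0 ≤ 4 * b * u := by positivity
    simpa using this
  | succ L =>
    rw [eta_succ]
    exact cosh_sn ((nish_eta hc L).step hc) (allExp_step hJ hc hθ) hs b (h L) hu

lemma two_le_scale (m : ℕ) : (2 : ℝ) ≤ 2 * (5 / 4) ^ m := by
  have : (1 : ℝ) ≤ (5 / 4) ^ m := one_le_pow₀ (by norm_num)
  linarith

lemma cosh_scale {J c : ℝ} (hb : 2 ≤ b) (hJ : 0 ≤ J) (hc : 0 ≤ c)
    (h : b * tanh (J + c) ^ 2 ≤ 1) (m : ℕ) (hm : 2 * b * (AA b * (8 * b) ^ m * √c) ≤ 1) (L : ℕ) :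
    ∫ x, cosh (2 * (5 / 4) ^ m * x) ∂step J c (eta b J c L) ≤ 1 + AA b * (8 * b) ^ m * √c := by
  have hθ := theta_le hb hJ hc h
  have hb' : (2 : ℝ) ≤ b := by exact_mod_cast hb
  have hA := AA_ge b
  have hs := sqrt_nonneg c
  induction m generalizing L with
  | zero =>
    obtain ⟨h1, h2, h3⟩ := small_of_constraint hb hc hm
    simp only [pow_zero, mul_one, one_mul] at h3 ⊢
    have k1 := cosh_base (η := eta b J c L) hJ hc (by linarith) hθ
    have k2 := mul_le_mul_of_nonneg_left (sq_xi hb hJ hc h2 h L)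
      (show 0 ≤ 16 * exp 32 by positivity)
    unfold AA
    linarith
  | succ m ih =>
    have hr : (0 : ℝ) ≤ (8 * b) ^ m := by positivity
    have hu0 : 0 ≤ AA b * (8 * b) ^ m * √c := by positivity
    have e : AA b * (8 * b) ^ (m + 1) * √c = 8 * b * (AA b * (8 * b) ^ m * √c) := by ring
    have hm' : 2 * b * (AA b * (8 * b) ^ m * √c) ≤ 1 := by
      refine le_trans (mul_le_mul_of_nonneg_left ?_ (by positivity)) hm
      rw [e]
      exact le_mul_of_one_le_left hu0 (by linarith)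
    obtain ⟨h1, h2, h3⟩ := small_of_constraint hb hc hm'
    have k1 := cosh_eta_of_step hJ hc hθ (two_le_scale m) hu0 hm' (ih hm') L
    have k2 := cosh_step (η := eta b J c L) hJ hc hθ (allExp_eta hJ hc hθ L)
      (s := 2 * (5 / 4) ^ (m + 1)) (by positivity)
    have e2 : (4 / 5 * (2 * (5 / 4) ^ (m + 1)) : ℝ) = 2 * (5 / 4) ^ m := by ring
    rw [e2] at k2
    have k3 := scale_sq hb m
    have k4 : (20 * (2 * (5 / 4 : ℝ) ^ (m + 1))) ^ 2 * c ≤ 3200 * ((8 * b) ^ m * c) := by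
      have e3 : (20 * (2 * (5 / 4 : ℝ) ^ (m + 1))) ^ 2 = 625 * (2 * (5 / 4 : ℝ) ^ m) ^ 2 := by ring
      have := mul_le_mul_of_nonneg_right k3 hc
      have : 0 ≤ (8 * (b : ℝ)) ^ m * c := by positivity
      rw [e3]
      linarith
    have k5 := integral_cosh_yy (J + c) hc h2 (20 * (2 * (5 / 4) ^ (m + 1))) (by linarith)
    have k6 : (8 * b) ^ m * c ≤ (8 * b) ^ m * √c := mul_le_mul_of_nonneg_left h1 hr
    have k7 : 5120 * ((8 * b) ^ m * √c) ≤ 4 * b * AA b * ((8 * b) ^ m * √c) :=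
      mul_le_mul_of_nonneg_right (by nlinarith) (by positivity)
    have k8 : 0 ≤ b * (AA b * (8 * b) ^ m * √c) := by positivity
    rw [e]
    linarith

lemma tail_scale {J c : ℝ} (hb : 2 ≤ b) (hJ : 0 ≤ J) (hc : 0 ≤ c)
    (h : b * tanh (J + c) ^ 2 ≤ 1) (m : ℕ) (hm : 2 * b * (AA b * (8 * b) ^ m * √c) ≤ 1) (L : ℕ)
    {lam : ℝ} (hlam : 0 ≤ lam) :
    ((P0 (J + c)).prod (eta b J c L)).real {p | lam < |xi c p|} ≤
      6 * exp (-((5 / 4) ^ m * lam)) := by
  have hθ := theta_le hb hJ hc h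
  have hA := AA_ge b
  obtain ⟨h1, h2, h3⟩ := small_of_constraint hb hc hm
  have k1 := cosh_eta_of_step hJ hc hθ (two_le_scale m) (by positivity) hm
    (cosh_scale hb hJ hc h m hm) L
  have k2 := mul_le_mul_of_nonneg_right (scale_sq hb m) hc
  have k0 : 0 ≤ (8 * (b : ℝ)) ^ m * c := by positivity
  have k3 := tail_of_cosh hc h2 (allExp_eta (b := b) hJ hc hθ L) (J + c)
    (s := 2 * (5 / 4) ^ m) (by positivity) hlam (by linarith) (by linarith)
  have e : (2 * (5 / 4 : ℝ) ^ m) / 2 = (5 / 4) ^ m := by ring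
  rwa [e] at k3

lemma tail_xi (hb : 2 ≤ b) {lam : ℝ} (hlam : 0 < lam) (q : ℕ) : ∃ D : ℝ, 0 ≤ D ∧
    ∀ J c : ℝ, 0 ≤ J → 0 < c → b * tanh (J + c) ^ 2 ≤ 1 → ∀ L : ℕ,
      ((P0 (J + c)).prod (eta b J c L)).real {p | lam < |xi c p|} ≤ D * c ^ q := by
  have hb' : (2 : ℝ) ≤ b := by exact_mod_cast hb
  have hA := AA_ge b
  set r : ℝ := 8 * b with hr
  set K : ℝ := 2 * b * AA b with hK
  have hr1 : 1 < r := by linarith
  have hK0 : 0 < K := by positivity
  obtain ⟨N, hN⟩ := pow_unbounded_of_one_lt (r ^ (2 * q)) (show (1 : ℝ) < 5 / 4 by norm_num)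
  refine ⟨K ^ (2 * q) + 6 * (N.factorial / lam ^ N) * (K * r) ^ (2 * q), by positivity,
    fun J c hJ hc h L => ?_⟩
  have hs : 0 < √c := sqrt_pos.2 hc
  have hcq : c ^ q = √c ^ (2 * q) := by rw [pow_mul, sq_sqrt hc.le]
  rw [add_mul]
  by_cases hx : 1 ≤ K * √c
  · have h1 : ((P0 (J + c)).prod (eta b J c L)).real {p | lam < |xi c p|} ≤ 1 := measureReal_le_one
    have h2 : 1 ≤ K ^ (2 * q) * c ^ q := by
      rw [hcq, ← mul_pow]
      exact one_le_pow₀ hx
    have h3 : 0 ≤ 6 * (N.factorial / lam ^ N) * (K * r) ^ (2 * q) * c ^ q := by positivity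
    linarith
  · push Not at hx
    have hx0 : 0 < K * √c := by positivity
    obtain ⟨m, hm1, hm2⟩ := exists_nat_pow_near (x := (K * √c)⁻¹) (y := r)
      (one_le_inv₀ hx0 |>.2 hx.le) hr1
    have hm : 2 * b * (AA b * (8 * b) ^ m * √c) ≤ 1 := by
      have := mul_le_mul_of_nonneg_right hm1 hx0.le
      rw [inv_mul_cancel₀ hx0.ne'] at this
      calc 2 * b * (AA b * (8 * b) ^ m * √c) = r ^ m * (K * √c) := by rw [hr, hK]; ring
        _ ≤ 1 := this
    have h1 := tail_scale hb hJ hc.le h m hm L hlam.le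
    have h2 : 1 ≤ r ^ m * (K * r * √c) := by
      have := mul_le_mul_of_nonneg_right hm2.le hx0.le
      rw [inv_mul_cancel₀ hx0.ne'] at this
      calc (1 : ℝ) ≤ r ^ (m + 1) * (K * √c) := this
        _ = _ := by ring
    have h3 : 1 ≤ (r ^ (2 * q)) ^ m * ((K * r) ^ (2 * q) * c ^ q) := by
      rw [hcq, ← mul_pow, ← pow_mul, mul_comm (2 * q) m, pow_mul, ← mul_pow]
      exact one_le_pow₀ h2
    have h4 : ((5 / 4) ^ m * lam) ^ N / N.factorial ≤ exp ((5 / 4) ^ m * lam) :=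
      pow_div_factorial_le_exp _ (by positivity) N
    have h5 : (r ^ (2 * q)) ^ m ≤ ((5 / 4) ^ m) ^ N := by
      rw [← pow_mul (5 / 4 : ℝ), mul_comm m N, pow_mul (5 / 4 : ℝ)]
      exact pow_le_pow_left₀ (by positivity) hN.le m
    have hF : (0 : ℝ) < N.factorial := by positivity
    have h6 : (r ^ (2 * q)) ^ m ≤ exp ((5 / 4) ^ m * lam) * (N.factorial / lam ^ N) := by
      rw [div_le_iff₀ hF, mul_pow] at h4
      rw [← mul_div_assoc, le_div_iff₀ (by positivity)]
      exact (mul_le_mul_of_nonneg_right h5 (by positivity)).trans h4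
    have h7 : exp (-((5 / 4) ^ m * lam)) ≤
        (N.factorial / lam ^ N) * ((K * r) ^ (2 * q) * c ^ q) := by
      rw [exp_neg, inv_le_iff_one_le_mul₀' (exp_pos _), ← mul_assoc]
      exact h3.trans (mul_le_mul_of_nonneg_right h6 (by positivity))
    have h8 : 0 ≤ K ^ (2 * q) * c ^ q := by positivity
    linarith

end Crest.Agent.R160.BA
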