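import Crest.Agent.R160.Defs

/-!
Row 160, subtask C2, part 1: calculus of the message function and the deterministic effect of the
shifts on the branch field.
-/

set_option autoImplicit false
set_option linter.unusedSectionVars false
set_option linter.unusedVariables false
set_option maxHeartbeats 400000

open MeasureTheory ProbabilityTheory Filter Topology
open scoped ENNReal

namespace Crest.Agent.R160.C2

variable {b : ℕ}

lemma hasDerivAt_tanh (x : ℝ) : HasDerivAt Real.tanh (1 / Real.cosh x ^ 2) x := by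
  have h := (Real.hasDerivAt_sinh x).div (Real.hasDerivAt_cosh x) (Real.cosh_pos x).ne'
  have e : Real.tanh = fun y => Real.sinh y / Real.cosh y := funext Real.tanh_eq_sinh_div_cosh
  have e2 : 1 / Real.cosh x ^ 2 =
      (Real.cosh x * Real.cosh x - Real.sinh x * Real.sinh x) / Real.cosh x ^ 2 := by
    congr 1
    have := Real.cosh_sq x
    nlinarith
  rw [e, e2]
  exact h

lemma continuous_tanh : Continuous Real.tanh :=
  continuous_iff_continuousAt.2 fun x => (hasDerivAt_tanh x).continuousAt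

lemma one_sub_tanh_sq (x : ℝ) : 1 - Real.tanh x ^ 2 = 1 / Real.cosh x ^ 2 := by
  rw [Real.tanh_eq_sinh_div_cosh, div_pow]
  have := Real.cosh_sq x
  have h := (Real.cosh_pos x).ne'
  field_simp
  linarith

lemma tanh_sub_bounds {x y : ℝ} (h : x ≤ y) :
    0 ≤ Real.tanh y - Real.tanh x ∧ Real.tanh y - Real.tanh x ≤ y - x := by
  rcases h.eq_or_lt with rfl | h
  · simp
  obtain ⟨z, -, hz⟩ := exists_hasDerivAt_eq_slope Real.tanh (fun x => 1 / Real.cosh x ^ 2) h
    continuous_tanh.continuousOn fun x _ => hasDerivAt_tanh x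
  have hyx : 0 < y - x := by linarith
  rw [eq_div_iff hyx.ne'] at hz
  have h1 : 1 ≤ Real.cosh z ^ 2 := by nlinarith [Real.one_le_cosh z]
  have h2 : 0 ≤ 1 / Real.cosh z ^ 2 := by positivity
  have h3 : 1 / Real.cosh z ^ 2 ≤ 1 := by rw [div_le_one (by positivity)]; exact h1
  constructor <;> nlinarith

lemma tanh_mono {x y : ℝ} (h : x ≤ y) : Real.tanh x ≤ Real.tanh y := by
  linarith [(tanh_sub_bounds h).1]

lemma tanh_nonneg {x : ℝ} (h : 0 ≤ x) : 0 ≤ Real.tanh x := by
  simpa using tanh_mono h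

lemma tanh_sq_le_add {x d D : ℝ} (h0 : 0 ≤ d) (hD : d ≤ D) :
    Real.tanh (x + d) ^ 2 ≤ 2 * Real.tanh x ^ 2 + 2 * D ^ 2 := by
  obtain ⟨h1, h2⟩ := tanh_sub_bounds (x := x) (y := x + d) (by linarith)
  have h3 : (Real.tanh (x + d) - Real.tanh x) ^ 2 ≤ D ^ 2 := by
    apply pow_le_pow_left₀ h1
    linarith
  nlinarith [sq_nonneg (Real.tanh (x + d) - 2 * Real.tanh x)]

lemma half_le_tanh {x : ℝ} (h0 : 0 ≤ x) (h1 : x ≤ 1 / 2) : x / 2 ≤ Real.tanh x := by
  rcases h0.eq_or_lt with rfl | h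
  · simp
  obtain ⟨z, hz0, hz⟩ := exists_hasDerivAt_eq_slope Real.tanh (fun x => 1 / Real.cosh x ^ 2) h
    continuous_tanh.continuousOn fun x _ => hasDerivAt_tanh x
  rw [← one_sub_tanh_sq, sub_zero, Real.tanh_zero, sub_zero, eq_div_iff h.ne'] at hz
  have h2 := (tanh_sub_bounds hz0.1.le).2
  rw [Real.tanh_zero] at h2
  have h3 := tanh_nonneg hz0.1.le
  have h4 : Real.tanh z ^ 2 ≤ (1 / 2) ^ 2 := pow_le_pow_left₀ h3 (by linarith [hz0.2]) 2
  nlinarith

lemma hasDerivAt_fJ (J x : ℝ) :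
    HasDerivAt (fJ J) (Real.tanh J / (Real.cosh x ^ 2 - Real.tanh J ^ 2 * Real.sinh x ^ 2)) x := by
  have h1 : HasDerivAt (fun y => Real.cosh (y + J)) (Real.sinh (x + J)) x := by
    simpa using ((hasDerivAt_id x).add_const J).cosh
  have h2 : HasDerivAt (fun y => Real.cosh (y - J)) (Real.sinh (x - J)) x := by
    simpa using ((hasDerivAt_id x).sub_const J).cosh
  have h3 := ((h1.log (Real.cosh_pos _).ne').sub (h2.log (Real.cosh_pos _).ne')).const_mul (1 / 2)
  have e : fJ J = fun y => 1 / 2 * (Real.log (Real.cosh (y + J)) - Real.log (Real.cosh (y - J))) := by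
    funext y
    rw [fJ, Real.log_div (Real.cosh_pos _).ne' (Real.cosh_pos _).ne']
  rw [e]
  refine h3.congr_deriv (Eq.symm ?_)
  have hp := Real.cosh_pos (x + J)
  have hm := Real.cosh_pos (x - J)
  have hJ := Real.cosh_pos J
  have hpm : Real.cosh (x + J) * Real.cosh (x - J) =
      Real.cosh x ^ 2 * Real.cosh J ^ 2 - Real.sinh x ^ 2 * Real.sinh J ^ 2 := by
    rw [Real.cosh_add, Real.cosh_sub]; ring
  have hn : Real.sinh (x + J) * Real.cosh (x - J) - Real.cosh (x + J) * Real.sinh (x - J) =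
      2 * (Real.sinh J * Real.cosh J) := by
    rw [Real.cosh_add, Real.cosh_sub, Real.sinh_add, Real.sinh_sub]
    have := Real.cosh_sq x
    linear_combination (2 * Real.sinh J * Real.cosh J) * this
  have hd : Real.cosh x ^ 2 - Real.tanh J ^ 2 * Real.sinh x ^ 2 =
      Real.cosh (x + J) * Real.cosh (x - J) / Real.cosh J ^ 2 := by
    rw [hpm, Real.tanh_eq_sinh_div_cosh]
    field_simp
  rw [hd, div_sub_div _ _ hp.ne' hm.ne', hn, Real.tanh_eq_sinh_div_cosh]
  field_simp

lemma fJ_sub_bounds {J x y : ℝ} (hJ : 0 ≤ J) (h : x ≤ y) :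
    0 ≤ fJ J y - fJ J x ∧ fJ J y - fJ J x ≤ Real.tanh J * (y - x) ∧
      Real.tanh J * (y - x) * (1 - (Real.tanh x ^ 2 + Real.tanh y ^ 2)) ≤ fJ J y - fJ J x := by
  rcases h.eq_or_lt with rfl | h
  · simp
  obtain ⟨z, hz0, hz⟩ := exists_hasDerivAt_eq_slope (fJ J) _ h
    (continuous_fJ J).continuousOn fun x _ => hasDerivAt_fJ J x
  have hyx : 0 < y - x := by linarith
  rw [eq_div_iff hyx.ne'] at hz
  have hθ := tanh_nonneg hJ
  have hθ1 : Real.tanh J ^ 2 ≤ 1 := by nlinarith [Real.tanh_lt_one J]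
  have hc := Real.cosh_sq z
  have hs : 0 ≤ Real.sinh z ^ 2 := sq_nonneg _
  have hd1 : 1 ≤ Real.cosh z ^ 2 - Real.tanh J ^ 2 * Real.sinh z ^ 2 := by nlinarith
  have hd2 : Real.cosh z ^ 2 - Real.tanh J ^ 2 * Real.sinh z ^ 2 ≤ Real.cosh z ^ 2 := by
    nlinarith [sq_nonneg (Real.tanh J)]
  have e1 : Real.tanh J / (Real.cosh z ^ 2 - Real.tanh J ^ 2 * Real.sinh z ^ 2) ≤ Real.tanh J :=
    div_le_self hθ hd1
  have e2 : Real.tanh J * (1 - Real.tanh z ^ 2) ≤
      Real.tanh J / (Real.cosh z ^ 2 - Real.tanh J ^ 2 * Real.sinh z ^ 2) := by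
    rw [one_sub_tanh_sq, mul_one_div]
    exact div_le_div_of_nonneg_left hθ (by linarith) hd2
  have e0 : 0 ≤ Real.tanh J / (Real.cosh z ^ 2 - Real.tanh J ^ 2 * Real.sinh z ^ 2) :=
    div_nonneg hθ (by linarith)
  have e3 : Real.tanh z ^ 2 ≤ Real.tanh x ^ 2 + Real.tanh y ^ 2 := by
    have a1 := tanh_mono hz0.1.le
    have a2 := tanh_mono hz0.2.le
    rcases le_total 0 (Real.tanh z) with h0 | h0
    · nlinarith [sq_nonneg (Real.tanh x)]
    · nlinarith [sq_nonneg (Real.tanh y)]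
  rw [← hz]
  refine ⟨by positivity, by gcongr, ?_⟩
  have : Real.tanh J * (1 - (Real.tanh x ^ 2 + Real.tanh y ^ 2)) ≤
      Real.tanh J / (Real.cosh z ^ 2 - Real.tanh J ^ 2 * Real.sinh z ^ 2) :=
    le_trans (by gcongr) e2
  nlinarith

/-- The shift of the fields: `d θ^|l|` on the addresses of length `< K`. -/
noncomputable def sh (θ : ℝ) (K : ℕ) (d : ℝ) (l : List (Fin b)) : ℝ :=
  if l.length < K then d * θ ^ l.length else 0

lemma sh_zero (θ d : ℝ) (l : List (Fin b)) : sh θ 0 d l = 0 := by simp [sh]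

lemma sh_nil (θ d : ℝ) (K : ℕ) : sh (b := b) θ (K + 1) d [] = d := by simp [sh]

lemma sh_cons (θ d : ℝ) (K : ℕ) (j : Fin b) (l : List (Fin b)) :
    sh θ (K + 1) d (j :: l) = sh θ K (θ * d) l := by
  simp only [sh, List.length_cons, Nat.add_lt_add_iff_right]
  split_ifs
  · ring
  · rfl

lemma sh_add (θ d d' : ℝ) (K : ℕ) (l : List (Fin b)) :
    sh θ K (d + d') l = sh θ K d l + sh θ K d' l := by
  simp only [sh]
  split_ifs
  · ring
  · ring

lemma Xi_sh_succ (J θ d : ℝ) (K L : ℕ) (a : List (Fin b) → ℝ) :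
    Xi J (L + 1) (fun l => a l + sh θ (K + 1) d l) - Xi J (L + 1) a =
      d + ∑ j : Fin b, (Psi J L (fun l => a (j :: l) + sh θ K (θ * d) l) -
        Psi J L fun l => a (j :: l)) := by
  rw [Xi_succ, Xi_succ, Finset.sum_sub_distrib]
  simp only [sh_nil, sh_cons]
  ring

/-- Upper bounds for the effect of a shift. -/
lemma shift_upper {J : ℝ} (hJ : 0 ≤ J) (hb : b * Real.tanh J ^ 2 ≤ 1) (K : ℕ) :
    ∀ (L : ℕ) (a : List (Fin b) → ℝ) (d : ℝ), 0 ≤ d →
      (0 ≤ Xi J L (fun l => a l + sh (Real.tanh J) K d l) - Xi J L a ∧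
        Xi J L (fun l => a l + sh (Real.tanh J) K d l) - Xi J L a ≤ (1 + 2 * b) * K * d ∧
        Real.tanh J * (Xi J L (fun l => a l + sh (Real.tanh J) K d l) - Xi J L a) ≤ 2 * K * d) ∧
      0 ≤ Psi J L (fun l => a l + sh (Real.tanh J) K d l) - Psi J L a ∧
        Psi J L (fun l => a l + sh (Real.tanh J) K d l) - Psi J L a ≤ 2 * K * d := by
  have hθ := tanh_nonneg hJ
  have hθ1 : Real.tanh J ≤ 1 := (Real.tanh_lt_one J).le
  induction K with
  | zero => intro L a d hd; simp [sh_zero]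
  | succ K ih =>
    intro L a d hd
    have hK : (0 : ℝ) ≤ K := Nat.cast_nonneg K
    have hb0 : (0 : ℝ) ≤ b := Nat.cast_nonneg b
    have key : 0 ≤ Xi J L (fun l => a l + sh (Real.tanh J) (K + 1) d l) - Xi J L a ∧
        Xi J L (fun l => a l + sh (Real.tanh J) (K + 1) d l) - Xi J L a ≤
          d + b * (2 * K * (Real.tanh J * d)) := by
      cases L with
      | zero =>
        rw [Xi_zero, Xi_zero, sh_nil]
        constructor
        · linarith
        · have : 0 ≤ b * (2 * K * (Real.tanh J * d)) := by positivity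
          linarith
      | succ L =>
        rw [Xi_sh_succ]
        have hd' : 0 ≤ Real.tanh J * d := by positivity
        constructor
        · exact add_nonneg hd (Finset.sum_nonneg fun j _ => (ih L _ _ hd').2.1)
        · have := Finset.sum_le_sum (s := Finset.univ) fun (j : Fin b) _ =>
            (ih L (fun l => a (j :: l)) _ hd').2.2
          simp only [Finset.sum_const, Finset.card_univ, Fintype.card_fin, nsmul_eq_mul] at this
          linarith
    obtain ⟨k1, k2⟩ := key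
    have k3 : Real.tanh J * (Xi J L (fun l => a l + sh (Real.tanh J) (K + 1) d l) - Xi J L a) ≤
        d + 2 * K * d := by
      calc _ ≤ Real.tanh J * (d + b * (2 * K * (Real.tanh J * d))) := by gcongr
        _ = Real.tanh J * d + (b * Real.tanh J ^ 2) * (2 * K * d) := by ring
        _ ≤ 1 * d + 1 * (2 * K * d) := by gcongr
        _ = _ := by ring
    obtain ⟨f1, f2, -⟩ := fJ_sub_bounds hJ (sub_nonneg.1 k1)
    push_cast
    refine ⟨⟨k1, ?_, by nlinarith⟩, ?_, ?_⟩
    · have : b * (2 * K * (Real.tanh J * d)) ≤ b * (2 * K * (1 * d)) := by gcongr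
      nlinarith [mul_nonneg hb0 hd, mul_nonneg hK hd]
    · simp only [Psi, sh_nil]
      linarith
    · simp only [Psi, sh_nil]
      linarith

/-- The weighted sum of the squared cavity magnetisations on the first `K` levels. -/
noncomputable def WW (J : ℝ) : ℕ → ℕ → (List (Fin b) → ℝ) → ℝ
  | 0, _, _ => 0
  | K + 1, L, a => Real.tanh (Xi J L a) ^ 2 +
      Real.tanh J ^ 2 * ∑ j : Fin b, WW J K (L - 1) fun l => a (j :: l)

lemma WW_zero (J : ℝ) (L : ℕ) (a : List (Fin b) → ℝ) : WW J 0 L a = 0 := by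
  simp only [WW]

lemma WW_succ (J : ℝ) (K L : ℕ) (a : List (Fin b) → ℝ) :
    WW J (K + 1) L a = Real.tanh (Xi J L a) ^ 2 +
      Real.tanh J ^ 2 * ∑ j : Fin b, WW J K (L - 1) fun l => a (j :: l) := by
  have := @WW.eq_def b J
  simp only [WW]

lemma WW_nonneg (J : ℝ) (K : ℕ) : ∀ (L : ℕ) (a : List (Fin b) → ℝ), 0 ≤ WW J K L a := by
  induction K with
  | zero => intro L a; rw [WW_zero]
  | succ K ih =>
    intro L a
    rw [WW_succ]
    exact add_nonneg (sq_nonneg _) (mul_nonneg (sq_nonneg _) (Finset.sum_nonneg fun j _ => ih _ _))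

lemma continuous_WW (J : ℝ) (K : ℕ) : ∀ L : ℕ, Continuous (WW (b := b) J K L) := by
  induction K with
  | zero =>
    intro L
    have : WW (b := b) J 0 L = fun _ => 0 := funext (WW_zero J L)
    rw [this]
    exact continuous_const
  | succ K ih =>
    intro L
    have : WW (b := b) J (K + 1) L = fun a => Real.tanh (Xi J L a) ^ 2 +
      Real.tanh J ^ 2 * ∑ j : Fin b, WW J K (L - 1) fun l => a (j :: l) := funext (WW_succ J K L)
    rw [this]
    refine ((continuous_tanh.comp (continuous_Xi J L)).pow 2).add (continuous_const.mul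
      (continuous_finsetSum _ fun j _ => (ih _).comp (by fun_prop)))

/-- Lower bound for the effect of a shift. -/
lemma shift_lower {J : ℝ} (hJ : 0 ≤ J) (hb : b * Real.tanh J ^ 2 ≤ 1) {K₀ : ℕ} {η Δ : ℝ}
    (hΔ : (1 + 2 * b) * K₀ * η ≤ Δ) (K : ℕ) :
    K ≤ K₀ → ∀ (L : ℕ), K ≤ L → ∀ (a : List (Fin b) → ℝ) (e d : ℝ), 0 ≤ e → 0 ≤ d → e + d ≤ η →
      d * (∑ k ∈ Finset.range K, (b * Real.tanh J ^ 2) ^ k - 8 * K₀ * (WW J K L a + K * Δ ^ 2)) ≤
        Psi J L (fun l => a l + sh (Real.tanh J) K (e + d) l) -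
          Psi J L (fun l => a l + sh (Real.tanh J) K e l) := by
  have hθ := tanh_nonneg hJ
  have hθ1 : Real.tanh J ≤ 1 := (Real.tanh_lt_one J).le
  induction K with
  | zero => intro _ L _ a e d _ _ _; simp [sh_zero, WW_zero]
  | succ K ih =>
    intro hK L hL a e d he hd hed
    obtain ⟨L, rfl⟩ : ∃ L', L = L' + 1 := ⟨L - 1, by omega⟩
    have hK0 : (0 : ℝ) ≤ K := Nat.cast_nonneg K
    have hb0 : (0 : ℝ) ≤ b := Nat.cast_nonneg b
    have hKK : (K : ℝ) + 1 ≤ K₀ := by exact_mod_cast hK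
    set θ := Real.tanh J with hθd
    set a1 : List (Fin b) → ℝ := fun l => a l + sh θ (K + 1) e l with ha1
    have ha2 : (fun l => a l + sh θ (K + 1) (e + d) l) = fun l => a1 l + sh θ (K + 1) d l := by
      funext l
      simp only [ha1, sh_add]
      ring
    -- sizes of the shifts of the cavity field
    obtain ⟨⟨u1, u2, -⟩, -⟩ := shift_upper hJ hb (K + 1) (L + 1) a e he
    obtain ⟨⟨v1, v2, -⟩, -⟩ := shift_upper hJ hb (K + 1) (L + 1) a (e + d) (by linarith)
    obtain ⟨⟨w1, -, w3⟩, -⟩ := shift_upper hJ hb (K + 1) (L + 1) a1 d hd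
    rw [← hθd] at u1 u2 v1 v2 w1 w3
    rw [← ha1] at u1 u2
    rw [ha2] at v1 v2 ⊢
    set ξ := Xi J (L + 1) a with hξ
    set ξ1 := Xi J (L + 1) a1 with hξ1
    set ξ2 := Xi J (L + 1) (fun l => a1 l + sh θ (K + 1) d l) with hξ2
    push_cast at u2 v2 w3
    have hη : 0 ≤ η := by linarith
    have b1 : ξ1 - ξ ≤ Δ := by
      refine u2.trans (le_trans ?_ hΔ)
      gcongr
      linarith
    have b2 : ξ2 - ξ ≤ Δ := by
      refine v2.trans (le_trans ?_ hΔ)
      gcongr
    have m1 := tanh_sq_le_add (x := ξ) u1 b1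
    have m2 := tanh_sq_le_add (x := ξ) v1 b2
    rw [add_sub_cancel] at m1 m2
    obtain ⟨-, -, f3⟩ := fJ_sub_bounds hJ (sub_nonneg.1 w1)
    rw [← hθd] at f3
    -- the children
    have hch : ξ2 - ξ1 = d + ∑ j : Fin b,
        (Psi J L (fun l => a (j :: l) + sh θ K (θ * e + θ * d) l) -
          Psi J L fun l => a (j :: l) + sh θ K (θ * e) l) := by
      rw [hξ2, hξ1, Xi_sh_succ]
      congr 1
      refine Finset.sum_congr rfl fun j _ => ?_
      simp only [ha1, sh_cons, sh_add, add_assoc]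
    have hsum := Finset.sum_le_sum (s := Finset.univ) fun (j : Fin b) _ =>
      ih (by omega) L (by omega) (fun l => a (j :: l)) (θ * e) (θ * d) (by positivity)
        (by positivity) (by nlinarith)
    rw [← Finset.mul_sum, Finset.sum_sub_distrib, ← Finset.mul_sum, Finset.sum_add_distrib] at hsum
    simp only [Finset.sum_const, Finset.card_univ, Fintype.card_fin, nsmul_eq_mul] at hsum
    set S := ∑ k ∈ Finset.range K, (b * θ ^ 2) ^ k with hS
    set W := ∑ j : Fin b, WW J K L fun l => a (j :: l) with hW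
    have hS' : ∑ k ∈ Finset.range (K + 1), (b * θ ^ 2) ^ k = 1 + b * θ ^ 2 * S := by
      rw [Finset.sum_range_succ', hS, Finset.mul_sum]
      simp only [pow_succ, pow_zero]
      rw [add_comm]
      congr 1
      exact Finset.sum_congr rfl fun k _ => by ring
    rw [hS', WW_succ, Nat.add_sub_cancel, ← hξ, ← hθd, ← hW]
    simp only [Psi, sh_nil]
    rw [← hξ1, ← hξ2]
    have g1 : θ * (θ * d * (b * S - 8 * K₀ * (W + b * (K * Δ ^ 2)))) ≤ θ * (ξ2 - ξ1) := by
      have : θ * d * (b * S - 8 * K₀ * (W + b * (K * Δ ^ 2))) ≤ ξ2 - ξ1 := by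
        rw [hch]; linarith
      gcongr
    have g2 : θ * (ξ2 - ξ1) * (Real.tanh ξ1 ^ 2 + Real.tanh ξ2 ^ 2) ≤
        (2 * K₀ * d) * (4 * Real.tanh ξ ^ 2 + 4 * Δ ^ 2) := by
      refine mul_le_mul (w3.trans (by gcongr)) (by linarith) (by positivity) (by positivity)
    have g3 : d * (8 * K₀) * ((b * θ ^ 2) * (K * Δ ^ 2)) ≤ d * (8 * K₀) * (1 * (K * Δ ^ 2)) := by
      gcongr
    push_cast
    nlinarith

end Crest.Agent.R160.C2
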