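import Crest.Agent.R160.BranchA
import Crest.Agent.R160.BranchC1
import Crest.Agent.R168.Bayes

/-!
Row 160, subtask C2, part 2: resampling of one child branch, Cameron–Martin shifts and the mean of
the loss.
-/

set_option autoImplicit false
set_option linter.unusedSectionVars false
set_option linter.unusedVariables false
set_option maxHeartbeats 400000

open MeasureTheory ProbabilityTheory Filter Topology
open scoped ENNReal

namespace Crest.Agent.R160.C2

variable {b : ℕ}

/-- Replace the branch of the child `j` of `p.1` by `p.2`. -/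
def mrg {X : Type*} (j : Fin b) (p : (List (Fin b) → X) × (List (Fin b) → X)) :
    List (Fin b) → X
  | [] => p.1 []
  | i :: l => if i = j then p.2 l else p.1 (i :: l)

lemma mrg_nil {X : Type*} (j : Fin b) (p : (List (Fin b) → X) × (List (Fin b) → X)) :
    mrg j p [] = p.1 [] := rfl

lemma mrg_self {X : Type*} (j : Fin b) (p : (List (Fin b) → X) × (List (Fin b) → X))
    (l : List (Fin b)) : mrg j p (j :: l) = p.2 l := by simp [mrg]

lemma mrg_ne {X : Type*} {i j : Fin b} (h : i ≠ j) (p : (List (Fin b) → X) × (List (Fin b) → X))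
    (l : List (Fin b)) : mrg j p (i :: l) = p.1 (i :: l) := by simp [mrg, h]

/-- The reindexing behind `mrg`. -/
def mrgIdx (j : Fin b) : List (Fin b) → List (Fin b) ⊕ List (Fin b)
  | [] => Sum.inl []
  | i :: l => if i = j then Sum.inr l else Sum.inl (i :: l)

lemma mrgIdx_injective (j : Fin b) : Function.Injective (mrgIdx j) := by
  rintro (_ | ⟨i, l⟩) (_ | ⟨i', l'⟩) h
  · rfl
  · simp only [mrgIdx] at h
    split_ifs at h
    simp at h
  · simp only [mrgIdx] at h
    split_ifs at h
    simp at h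
  · simp only [mrgIdx] at h
    split_ifs at h <;> simp_all

lemma measurable_elim {X A B : Type*} [MeasurableSpace X] :
    Measurable (fun p : (A → X) × (B → X) => Sum.elim p.1 p.2) := by
  refine measurable_pi_lambda _ fun i => ?_
  cases i with
  | inl a => exact (measurable_pi_apply a).comp measurable_fst
  | inr b => exact (measurable_pi_apply b).comp measurable_snd

lemma prod_map_elim {X : Type*} [MeasurableSpace X] (μ : Measure X) [IsProbabilityMeasure μ]
    (A B : Type*) :
    ((Measure.infinitePi fun _ : A => μ).prod (Measure.infinitePi fun _ : B => μ)).map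
      (fun p => Sum.elim p.1 p.2) = Measure.infinitePi fun _ : A ⊕ B => μ := by
  refine Measure.eq_infinitePi _ fun s t ht => ?_
  rw [Measure.map_apply measurable_elim (.pi s.countable_toSet fun i _ => ht i)]
  have : (fun p : (A → X) × (B → X) => Sum.elim p.1 p.2) ⁻¹' Set.pi (s : Set (A ⊕ B)) t =
      Set.pi (s.toLeft : Set A) (fun a => t (Sum.inl a)) ×ˢ
        Set.pi (s.toRight : Set B) (fun b => t (Sum.inr b)) := by
    ext p
    simp [Set.mem_pi]
  rw [this, Measure.prod_prod, Measure.infinitePi_pi _ (fun a _ => ht _),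
    Measure.infinitePi_pi _ (fun a _ => ht _), Finset.prod_sum_eq_prod_toLeft_mul_prod_toRight]

lemma mrg_eq {X : Type*} (j : Fin b) :
    mrg (X := X) j = (fun z l => z (mrgIdx j l)) ∘ fun p => Sum.elim p.1 p.2 := by
  funext p l
  cases l with
  | nil => rfl
  | cons i l =>
    simp only [mrg, mrgIdx, Function.comp]
    split_ifs <;> rfl

lemma measurable_mrg {X : Type*} [MeasurableSpace X] (j : Fin b) : Measurable (mrg (X := X) j) := by
  rw [mrg_eq]
  exact Measurable.comp (by fun_prop) measurable_elim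

lemma map_mrg (β' : ℝ) (j : Fin b) :
    ((Pabs b β').prod (Pabs b β')).map (mrg j) = Pabs b β' := by
  rw [mrg_eq, ← Measure.map_map (by fun_prop) measurable_elim, Pabs, prod_map_elim]
  exact Measure.map_infinitePi_infinitePi_of_inj (mrgIdx_injective j)

lemma lintegral_mrg (β' : ℝ) (j : Fin b) {F : (List (Fin b) → Bool × ℝ) → ℝ≥0∞}
    (hF : Measurable F) :
    ∫⁻ ω, F ω ∂Pabs b β' = ∫⁻ ω₁, ∫⁻ ω₂, F (mrg j (ω₁, ω₂)) ∂Pabs b β' ∂Pabs b β' := by
  conv_lhs => rw [← map_mrg β' j]
  rw [lintegral_map hF (measurable_mrg j)]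
  exact lintegral_prod _ (hF.comp (measurable_mrg j)).aemeasurable

lemma sgn_cases {s : ℝ} (hs : s = 1 ∨ s = -1) (t : Bool) : s * sgn t = 1 ∨ s * sgn t = -1 := by
  rcases hs with rfl | rfl <;> cases t <;> simp [sgn]

lemma arr_child (c s : ℝ) (ω : List (Fin b) → Bool × ℝ) (j : Fin b) :
    (fun l => arr c s ω (j :: l)) = arr c (s * sgn (ω []).1) fun l => ω (j :: l) :=
  funext fun l => arr_cons c s ω j l

lemma arr_mrg_self (c s : ℝ) (j : Fin b) (ω₁ ω₂ : List (Fin b) → Bool × ℝ) :
    (fun l => arr c s (mrg j (ω₁, ω₂)) (j :: l)) = arr c (s * sgn (ω₁ []).1) ω₂ := by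
  rw [arr_child, mrg_nil]
  simp only [mrg_self]

lemma arr_mrg_ne (c s : ℝ) {i j : Fin b} (h : i ≠ j) (ω₁ ω₂ : List (Fin b) → Bool × ℝ) :
    (fun l => arr c s (mrg j (ω₁, ω₂)) (i :: l)) = fun l => arr c s ω₁ (i :: l) := by
  rw [arr_child, arr_child, mrg_nil]
  simp only [mrg_ne h]

lemma arr_mrg_nil (c s : ℝ) (j : Fin b) (ω₁ ω₂ : List (Fin b) → Bool × ℝ) :
    arr c s (mrg j (ω₁, ω₂)) [] = arr c s ω₁ [] := by
  rw [arr_nil, arr_nil, mrg_nil]

/-- A functional of the observations on a child branch. -/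
lemma lintegral_child (β' c : ℝ) {s : ℝ} (hs : s = 1 ∨ s = -1) (j : Fin b)
    {F : (List (Fin b) → ℝ) → ℝ≥0∞} (hF : Measurable F) {B : ℝ≥0∞}
    (hB : ∀ s' : ℝ, s' = 1 ∨ s' = -1 → ∫⁻ ω, F (arr c s' ω) ∂Pabs b β' ≤ B) :
    ∫⁻ ω, F (fun l => arr c s ω (j :: l)) ∂Pabs b β' ≤ B := by
  have hm : Measurable fun ω : List (Fin b) → Bool × ℝ => F fun l => arr c s ω (j :: l) :=
    hF.comp (Measurable.comp (g := fun (a : List (Fin b) → ℝ) l => a (j :: l)) (by fun_prop)
      (measurable_arr c s))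
  rw [lintegral_mrg β' j hm]
  simp only [arr_mrg_self]
  calc _ ≤ ∫⁻ _, B ∂Pabs b β' := lintegral_mono fun ω₁ => hB _ (sgn_cases hs _)
    _ = B := by simp

/-! ### Cameron–Martin -/

/-- Shift of the Gaussian coordinates. -/
def shf (u : List (Fin b) → ℝ) (ω : List (Fin b) → Bool × ℝ) (l : List (Fin b)) : Bool × ℝ :=
  ((ω l).1, (ω l).2 + u l)

lemma measurable_shf (u : List (Fin b) → ℝ) : Measurable (shf u) := by
  unfold shf
  fun_prop

lemma arr_shf (c s : ℝ) (u : List (Fin b) → ℝ) (ω : List (Fin b) → Bool × ℝ) :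
    arr c s (shf u ω) = fun l => arr c s ω l + √c * u l := by
  funext l
  simp only [arr, shf]
  ring

lemma gauss_map_add (v : ℝ) : (gaussianReal 0 1).map (fun z => z + v) =
    (gaussianReal 0 1).withDensity fun z => ENNReal.ofReal (Real.exp (v * z - v ^ 2 / 2)) := by
  rw [gaussianReal_map_add_const, gaussianReal_of_var_ne_zero _ one_ne_zero,
    gaussianReal_of_var_ne_zero _ one_ne_zero, ← withDensity_mul _ (by fun_prop) (by fun_prop)]
  congr 1
  funext z
  simp only [Pi.mul_apply, gaussianPDF, gaussianPDFReal]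
  rw [← ENNReal.ofReal_mul (by positivity), mul_assoc _ (Real.exp _), ← Real.exp_add]
  congr 3
  push_cast
  ring

lemma nu_map_add (β' v : ℝ) :
    ((bern β').prod (gaussianReal 0 1)).map (fun x : Bool × ℝ => (x.1, x.2 + v)) =
      ((bern β').prod (gaussianReal 0 1)).withDensity
        fun x => ENNReal.ofReal (Real.exp (v * x.2 - v ^ 2 / 2)) := by
  refine Measure.ext_of_lintegral _ fun g hg => ?_
  rw [lintegral_map hg (by fun_prop), lintegral_withDensity_eq_lintegral_mul _ (by fun_prop) hg,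
    lintegral_prod _ (by fun_prop), lintegral_prod _ (by fun_prop)]
  refine lintegral_congr fun t => ?_
  have hg' : Measurable fun z : ℝ => g (t, z) := by fun_prop
  have := lintegral_map (μ := gaussianReal 0 1) hg' (g := fun z => z + v) (by fun_prop)
  simp only
  rw [← this, gauss_map_add, lintegral_withDensity_eq_lintegral_mul _ (by fun_prop) hg']
  rfl

lemma map_shf (β' : ℝ) (F : Finset (List (Fin b))) (u : List (Fin b) → ℝ)
    (hu : ∀ l, l ∉ F → u l = 0) :
    (Pabs b β').map (shf u) = (Pabs b β').withDensity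
      fun ω => ENNReal.ofReal (Real.exp (∑ l ∈ F, (u l * (ω l).2 - u l ^ 2 / 2))) := by
  have : ∀ l, IsProbabilityMeasure (((bern β').prod (gaussianReal 0 1)).withDensity
      fun x => ENNReal.ofReal (Real.exp (u l * x.2 - u l ^ 2 / 2))) := by
    intro l
    rw [← nu_map_add]
    exact Measure.isProbabilityMeasure_map (by fun_prop)
  have h1 : shf u = fun (ω : List (Fin b) → Bool × ℝ) l =>
      (fun l (x : Bool × ℝ) => (x.1, x.2 + u l)) l (ω l) := rfl
  rw [h1, Pabs, Measure.infinitePi_map_pi _ (f := fun l (x : Bool × ℝ) => (x.1, x.2 + u l))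
    (by fun_prop)]
  simp_rw [nu_map_add]
  rw [← R168.infinitePi_withDensity_prod _ F
    (fun l (x : Bool × ℝ) => ENNReal.ofReal (Real.exp (u l * x.2 - u l ^ 2 / 2)))
    (by fun_prop) (fun l hl => by funext x; simp [hu l hl])]
  congr 1
  funext ω
  rw [← ENNReal.ofReal_prod_of_nonneg (fun i _ => (Real.exp_pos _).le), Real.exp_sum]

lemma cm_ineq (β' : ℝ) (F : Finset (List (Fin b))) (u : List (Fin b) → ℝ)
    (hu : ∀ l, l ∉ F → u l = 0) {A : Set (List (Fin b) → Bool × ℝ)} (hA : MeasurableSet A)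
    {t : ℝ} (ht : 0 < t) :
    (Pabs b β').real A ≤ t / 2 * (Pabs b β').real (shf u ⁻¹' A) +
      Real.exp (∑ l ∈ F, u l ^ 2) / (2 * t) := by
  set ρ : (List (Fin b) → Bool × ℝ) → ℝ≥0∞ :=
    fun ω => ENNReal.ofReal (Real.exp (∑ l ∈ F, (u l * (ω l).2 - u l ^ 2 / 2))) with hρ
  set ρ' : (List (Fin b) → Bool × ℝ) → ℝ≥0∞ :=
    fun ω => ENNReal.ofReal (Real.exp (∑ l ∈ F, ((-u) l * (ω l).2 - (-u) l ^ 2 / 2))) with hρ'
  have mρ : Measurable ρ := by rw [hρ]; fun_prop
  have mρ' : Measurable ρ' := by rw [hρ']; fun_prop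
  have h1 : ∫⁻ ω, A.indicator ρ ω ∂Pabs b β' = Pabs b β' (shf u ⁻¹' A) := by
    rw [lintegral_indicator hA, ← withDensity_apply _ hA, ← map_shf β' F u hu,
      Measure.map_apply (measurable_shf u) hA]
  have h2 : ∫⁻ ω, ρ' ω ∂Pabs b β' = 1 := by
    rw [← setLIntegral_univ, ← withDensity_apply _ MeasurableSet.univ,
      ← map_shf β' F (-u) (fun l hl => by simp [hu l hl]),
      Measure.map_apply (measurable_shf _) MeasurableSet.univ]
    simp
  have h3 : ∀ ω, A.indicator (fun _ => (1 : ℝ≥0∞)) ω ≤ ENNReal.ofReal (t / 2) * A.indicator ρ ω +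
      ENNReal.ofReal (Real.exp (∑ l ∈ F, u l ^ 2) / (2 * t)) * ρ' ω := by
    intro ω
    by_cases hω : ω ∈ A
    · rw [Set.indicator_of_mem hω, Set.indicator_of_mem hω, hρ, hρ']
      simp only
      rw [← ENNReal.ofReal_mul (by positivity), ← ENNReal.ofReal_mul (by positivity),
        ← ENNReal.ofReal_add (by positivity) (by positivity), ← ENNReal.ofReal_one]
      refine ENNReal.ofReal_le_ofReal ?_
      set x := Real.exp (∑ l ∈ F, (u l * (ω l).2 - u l ^ 2 / 2)) with hx
      have hx0 : 0 < x := Real.exp_pos _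
      have : Real.exp (∑ l ∈ F, u l ^ 2) *
          Real.exp (∑ l ∈ F, ((-u) l * (ω l).2 - (-u) l ^ 2 / 2)) = x⁻¹ := by
        rw [hx, ← Real.exp_neg, ← Real.exp_add, ← Finset.sum_add_distrib, ← Finset.sum_neg_distrib]
        congr 1
        refine Finset.sum_congr rfl fun l _ => ?_
        simp only [Pi.neg_apply]
        ring
      rw [div_mul_eq_mul_div (Real.exp _), this]
      have h : t / 2 * x + x⁻¹ / (2 * t) - 1 = (t * x - 1) ^ 2 / (2 * t * x) := by
        field_simp
        ring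
      have : 0 ≤ (t * x - 1) ^ 2 / (2 * t * x) := by positivity
      linarith
    · rw [Set.indicator_of_notMem hω]
      exact zero_le
  have h4 : Pabs b β' A ≤ ENNReal.ofReal (t / 2) * Pabs b β' (shf u ⁻¹' A) +
      ENNReal.ofReal (Real.exp (∑ l ∈ F, u l ^ 2) / (2 * t)) := by
    calc Pabs b β' A = ∫⁻ ω, A.indicator (fun _ => (1 : ℝ≥0∞)) ω ∂Pabs b β' := by
          rw [lintegral_indicator hA]; simp
      _ ≤ _ := lintegral_mono h3
      _ = _ := by
          rw [lintegral_add_left ((mρ.indicator hA).const_mul _), lintegral_const_mul _ mρ',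
            lintegral_const_mul _ (mρ.indicator hA), h1, h2, mul_one]
  have h5 := ENNReal.toReal_mono (by finiteness) h4
  rw [ENNReal.toReal_add (by finiteness) (by finiteness), ENNReal.toReal_mul,
    ENNReal.toReal_ofReal (by positivity), ENNReal.toReal_ofReal (by positivity)] at h5
  exact h5

/-! ### The mean of the loss -/

lemma lintegral_WW {J c β' B : ℝ} (hb : b * Real.tanh J ^ 2 ≤ 1) (hB0 : 0 ≤ B)
    (hB : ∀ (L : ℕ) (s : ℝ), s = 1 ∨ s = -1 →
      ∫ ω, Real.tanh (Xi J L (arr c s ω)) ^ 2 ∂Pabs b β' ≤ B) (K : ℕ) :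
    ∀ (L : ℕ) (s : ℝ), s = 1 ∨ s = -1 →
      ∫⁻ ω, ENNReal.ofReal (WW J K L (arr c s ω)) ∂Pabs b β' ≤ ENNReal.ofReal (K * B) := by
  induction K with
  | zero => intro L s _; simp [WW_zero]
  | succ K ih =>
    intro L s hs
    have hm : Measurable fun ω : List (Fin b) → Bool × ℝ => Real.tanh (Xi J L (arr c s ω)) ^ 2 :=
      ((continuous_tanh.comp (continuous_Xi J L)).pow 2).measurable.comp (measurable_arr c s)
    have hW : Measurable fun a : List (Fin b) → ℝ => ENNReal.ofReal (WW J K (L - 1) a) :=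
      (continuous_WW J K (L - 1)).measurable.ennreal_ofReal
    have hW' : ∀ j : Fin b, Measurable fun ω : List (Fin b) → Bool × ℝ =>
        ENNReal.ofReal (WW J K (L - 1) fun l => arr c s ω (j :: l)) := fun j =>
      hW.comp (Measurable.comp (g := fun (a : List (Fin b) → ℝ) l => a (j :: l)) (by fun_prop)
        (measurable_arr c s))
    have h1 : ∫⁻ ω, ENNReal.ofReal (Real.tanh (Xi J L (arr c s ω)) ^ 2) ∂Pabs b β' ≤
        ENNReal.ofReal B := by
      rw [← ofReal_integral_eq_lintegral_ofReal _ (ae_of_all _ fun ω => sq_nonneg _)]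
      · exact ENNReal.ofReal_le_ofReal (hB L s hs)
      · refine Integrable.of_bound hm.aestronglyMeasurable 1 (ae_of_all _ fun ω => ?_)
        rw [Real.norm_of_nonneg (sq_nonneg _)]
        nlinarith [Real.tanh_lt_one (Xi J L (arr c s ω)), Real.neg_one_lt_tanh (Xi J L (arr c s ω))]
    have h2 : ∀ ω : List (Fin b) → Bool × ℝ, ENNReal.ofReal (WW J (K + 1) L (arr c s ω)) =
        ENNReal.ofReal (Real.tanh (Xi J L (arr c s ω)) ^ 2) + ENNReal.ofReal (Real.tanh J ^ 2) *
          ∑ j : Fin b, ENNReal.ofReal (WW J K (L - 1) fun l => arr c s ω (j :: l)) := by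
      intro ω
      rw [WW_succ, ENNReal.ofReal_add (sq_nonneg _) (mul_nonneg (sq_nonneg _)
        (Finset.sum_nonneg fun j _ => WW_nonneg _ _ _ _)), ENNReal.ofReal_mul (sq_nonneg _),
        ENNReal.ofReal_sum_of_nonneg fun j _ => WW_nonneg _ _ _ _]
    simp_rw [h2]
    rw [lintegral_add_left hm.ennreal_ofReal, lintegral_const_mul _ (by fun_prop),
      lintegral_finsetSum _ fun j _ => hW' j]
    have h3 : ∑ j : Fin b, ∫⁻ ω, ENNReal.ofReal (WW J K (L - 1) fun l => arr c s ω (j :: l))
        ∂Pabs b β' ≤ ENNReal.ofReal (b * (K * B)) := by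
      calc _ ≤ ∑ j : Fin b, ENNReal.ofReal (K * B) :=
            Finset.sum_le_sum fun j _ => lintegral_child β' c hs j hW (ih (L - 1))
        _ = _ := by
            rw [Finset.sum_const, Finset.card_univ, Fintype.card_fin, nsmul_eq_mul,
              ENNReal.ofReal_mul (Nat.cast_nonneg b), ENNReal.ofReal_natCast]
    calc _ ≤ ENNReal.ofReal B + ENNReal.ofReal (Real.tanh J ^ 2) * ENNReal.ofReal (b * (K * B)) := by
          gcongr
      _ ≤ _ := by
          rw [← ENNReal.ofReal_mul (sq_nonneg _), ← ENNReal.ofReal_add hB0 (by positivity)]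
          refine ENNReal.ofReal_le_ofReal ?_
          have : (b * Real.tanh J ^ 2) * (K * B) ≤ 1 * (K * B) := by gcongr
          push_cast
          nlinarith

end Crest.Agent.R160.C2
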