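import Crest.Agent.R160.BranchA
import Crest.Agent.R160.BranchC2

/-!
Row 160, subtask C2: anti-concentration of the branch field and the spine estimate.
-/

set_option autoImplicit false
set_option linter.unusedSectionVars false
set_option linter.unusedVariables false
set_option maxHeartbeats 400000

open MeasureTheory ProbabilityTheory Filter Topology
open scoped ENNReal

namespace Crest.Agent.R160

universe u
variable {b : ℕ}

namespace C2

lemma tanh_sq_le_of_le {J c : ℝ} (hJ : 0 ≤ J) (hc : 0 < c) (h : b * Real.tanh (J + c) ^ 2 ≤ 1) :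
    b * Real.tanh J ^ 2 ≤ 1 := by
  refine le_trans ?_ h
  have := tanh_nonneg hJ
  have := tanh_mono (x := J) (y := J + c) (by linarith)
  gcongr

lemma measurable_Psi_arr (J c s : ℝ) (L : ℕ) :
    Measurable fun ω : List (Fin b) → Bool × ℝ => Psi J L (arr c s ω) := by
  have : Continuous (Psi (b := b) J L) :=
    (continuous_apply _).add ((continuous_fJ J).comp (continuous_Xi J L))
  exact this.measurable.comp (measurable_arr c s)

lemma sum_sh_sq {θ : ℝ} (hb : b * θ ^ 2 ≤ 1) (K : ℕ) (d : ℝ) :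
    ∑ l ∈ (Finset.range K).biUnion (lists b), sh θ K d l ^ 2 ≤ K * d ^ 2 := by
  rw [Finset.sum_biUnion]
  · calc _ ≤ ∑ k ∈ Finset.range K, d ^ 2 := Finset.sum_le_sum fun k hk => ?_
      _ = _ := by simp
    have : ∀ l ∈ lists b k, sh θ K d l ^ 2 = d ^ 2 * (θ ^ 2) ^ k := by
      intro l hl
      rw [sh, mem_lists.1 hl, if_pos (Finset.mem_range.1 hk)]
      ring
    rw [Finset.sum_congr rfl this, Finset.sum_const, card_lists, nsmul_eq_mul]
    push_cast
    have h1 : (b * θ ^ 2) ^ k ≤ 1 := pow_le_one₀ (by positivity) hb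
    calc (b : ℝ) ^ k * (d ^ 2 * (θ ^ 2) ^ k) = d ^ 2 * (b * θ ^ 2) ^ k := by rw [mul_pow]; ring
      _ ≤ d ^ 2 * 1 := by gcongr
      _ = _ := mul_one _
  · intro k _ k' _ hkk
    refine Finset.disjoint_left.2 fun l hl hl' => hkk ?_
    rw [← mem_lists.1 hl, ← mem_lists.1 hl']

/-- The core of the anti-concentration estimate. -/
lemma anti_core {J c β' B η r t s a : ℝ} {K L n : ℕ} (hJ : 0 ≤ J) (hc : 0 < c)
    (hb : b * Real.tanh J ^ 2 ≤ 1) (hB0 : 0 ≤ B)
    (hB : ∀ (L : ℕ) (s : ℝ), s = 1 ∨ s = -1 →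
      ∫ ω, Real.tanh (Xi J L (arr c s ω)) ^ 2 ∂Pabs b β' ≤ B)
    (hs : s = 1 ∨ s = -1) (hKL : K ≤ L) (hn : 0 < n) (hη : 0 ≤ η) (hηc : K * η ^ 2 ≤ c)
    (hΔ : K * ((1 + 2 * b) * K * η) ^ 2 ≤ 1 / 64)
    (hS : (K : ℝ) / 2 ≤ ∑ k ∈ Finset.range K, (b * Real.tanh J ^ 2) ^ k)
    (hr : 2 * r < η / n * (K / 4)) (ht : 0 < t) :
    (Pabs b β').real {ω | |Psi J L (arr c s ω) - a| ≤ r} ≤
      t / (2 * n) + t / 2 * (64 * (K * B)) + 3 / (2 * t) := by
  set θ := Real.tanh J with hθ
  set A : Set (List (Fin b) → Bool × ℝ) := {ω | |Psi J L (arr c s ω) - a| ≤ r} with hA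
  have mA : MeasurableSet A :=
    measurableSet_le ((measurable_Psi_arr J c s L).sub_const a).abs measurable_const
  set Bad : Set (List (Fin b) → Bool × ℝ) := {ω | 1 / 64 ≤ WW J K L (arr c s ω)} with hBad
  have mW : Measurable fun ω : List (Fin b) → Bool × ℝ => WW J K L (arr c s ω) :=
    (continuous_WW J K L).measurable.comp (measurable_arr c s)
  have mBad : MeasurableSet Bad := measurableSet_le measurable_const mW
  have hsc : 0 < √c := Real.sqrt_pos.2 hc
  have hn' : (0 : ℝ) < n := by exact_mod_cast hn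
  -- probability of the bad event
  have pBad : (Pabs b β').real Bad ≤ 64 * (K * B) := by
    have h1 := (mul_meas_ge_le_lintegral (μ := Pabs b β') mW.ennreal_ofReal
      (ENNReal.ofReal (1 / 64))).trans (lintegral_WW hb hB0 hB K L s hs)
    have h2 : Pabs b β' Bad ≤
        Pabs b β' {ω | ENNReal.ofReal (1 / 64) ≤ ENNReal.ofReal (WW J K L (arr c s ω))} :=
      measure_mono fun ω hω => ENNReal.ofReal_le_ofReal hω
    have h3 := ENNReal.toReal_mono (by finiteness) ((mul_le_mul_right h2 _).trans h1)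
    rw [ENNReal.toReal_mul, ENNReal.toReal_ofReal (by positivity),
      ENNReal.toReal_ofReal (by positivity)] at h3
    have : (Pabs b β').real Bad = (Pabs b β' Bad).toReal := rfl
    linarith
  -- the shifts
  set u : ℕ → List (Fin b) → ℝ := fun i l => sh θ K (i * (η / n)) l / √c with hu
  have harr : ∀ i ω, arr c s (shf (u i) ω) = fun l => arr c s ω l + sh θ K (i * (η / n)) l := by
    intro i ω
    rw [arr_shf]
    funext l
    simp only [hu]
    field_simp
  have hcm : ∀ i ∈ Finset.range n, (Pabs b β').real A ≤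
      t / 2 * ((Pabs b β').real (shf (u i) ⁻¹' A \ Bad) + 64 * (K * B)) + 3 / (2 * t) := by
    intro i hi
    have hi' : (i : ℝ) ≤ n := by exact_mod_cast (Finset.mem_range.1 hi).le
    have h1 := cm_ineq β' ((Finset.range K).biUnion (lists b)) (u i) (fun l hl => by
      simp only [Finset.mem_biUnion, Finset.mem_range, mem_lists, exists_eq_right'] at hl
      simp [hu, sh, hl]) mA ht
    have h2 : ∑ l ∈ (Finset.range K).biUnion (lists b), u i l ^ 2 ≤ 1 := by
      simp only [hu, div_pow, Real.sq_sqrt hc.le]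
      rw [← Finset.sum_div, div_le_one hc]
      refine (sum_sh_sq hb K _).trans (le_trans ?_ hηc)
      have : i * (η / n) ≤ η := by
        rw [mul_div_assoc', div_le_iff₀ hn']
        nlinarith
      gcongr
    have h3 : Real.exp (∑ l ∈ (Finset.range K).biUnion (lists b), u i l ^ 2) ≤ 3 :=
      (Real.exp_le_exp.2 h2).trans (Real.exp_one_lt_d9.le.trans (by norm_num))
    have h4 : (Pabs b β').real (shf (u i) ⁻¹' A) ≤
        (Pabs b β').real (shf (u i) ⁻¹' A \ Bad) + 64 * (K * B) := by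
      calc _ ≤ (Pabs b β').real ((shf (u i) ⁻¹' A \ Bad) ∪ Bad) :=
            measureReal_mono (by rw [Set.sdiff_union_self]; exact Set.subset_union_left)
        _ ≤ _ := (measureReal_union_le _ _).trans (by gcongr)
    refine h1.trans ?_
    gcongr
  have hlt : ∀ i i' : ℕ, i < i' → i' < n →
      Disjoint (shf (u i) ⁻¹' A \ Bad) (shf (u i') ⁻¹' A \ Bad) := by
    intro i i' hii hi'
    refine Set.disjoint_left.2 fun ω h1 h2 => ?_
    obtain ⟨h1, hb1⟩ := h1
    obtain ⟨h2, -⟩ := h2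
    simp only [Set.mem_preimage, hA, Set.mem_ofPred_eq, harr] at h1 h2
    simp only [hBad, Set.mem_ofPred_eq, not_le] at hb1
    have hi1 : (i : ℝ) + 1 ≤ i' := by exact_mod_cast hii
    have hi2 : (i' : ℝ) ≤ n := by exact_mod_cast hi'.le
    have hηn : 0 ≤ η / n := by positivity
    have h3 := shift_lower hJ hb (K₀ := K) (η := η) le_rfl K le_rfl L hKL (arr c s ω)
      (i * (η / n)) ((i' - i) * (η / n)) (by positivity) (mul_nonneg (by linarith) hηn) (by
        have : i' * (η / n) ≤ η := by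
          rw [mul_div_assoc', div_le_iff₀ hn']
          nlinarith
        linarith)
    rw [show (i : ℝ) * (η / n) + (i' - i) * (η / n) = i' * (η / n) by ring, ← hθ] at h3
    have hK0 : (0 : ℝ) ≤ K := Nat.cast_nonneg K
    have h4 : (K : ℝ) / 4 ≤ ∑ k ∈ Finset.range K, (b * θ ^ 2) ^ k -
        8 * K * (WW J K L (arr c s ω) + K * ((1 + 2 * b) * K * η) ^ 2) := by
      have : 8 * K * (WW J K L (arr c s ω) + K * ((1 + 2 * b) * K * η) ^ 2) ≤
          8 * K * (1 / 64 + 1 / 64) := by gcongr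
      linarith
    have h5 : η / n * (K / 4) ≤ (i' - i) * (η / n) * (∑ k ∈ Finset.range K, (b * θ ^ 2) ^ k -
        8 * K * (WW J K L (arr c s ω) + K * ((1 + 2 * b) * K * η) ^ 2)) :=
      mul_le_mul (by nlinarith) h4 (by positivity) (mul_nonneg (by linarith) hηn)
    have := abs_le.1 h1
    have := abs_le.1 h2
    linarith
  have hsum : ∑ i ∈ Finset.range n, (Pabs b β').real (shf (u i) ⁻¹' A \ Bad) ≤ 1 := by
    rw [← measureReal_biUnion_finset]
    · exact measureReal_le_one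
    · intro i hi i' hi' hii
      rcases lt_or_gt_of_ne hii with h | h
      · exact hlt i i' h (Finset.mem_range.1 hi')
      · exact (hlt i' i h (Finset.mem_range.1 hi)).symm
    · exact fun i _ => (measurable_shf _ mA).diff mBad
  have h := Finset.sum_le_sum hcm
  simp only [Finset.sum_add_distrib, ← Finset.mul_sum, Finset.sum_const, Finset.card_range,
    nsmul_eq_mul] at h
  have h' : n * (Pabs b β').real A ≤ n * (t / (2 * n) + t / 2 * (64 * (K * B)) + 3 / (2 * t)) := by
    have e : n * (t / (2 * n)) = t / 2 * 1 := by field_simp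
    have : t / 2 * ∑ i ∈ Finset.range n, (Pabs b β').real (shf (u i) ⁻¹' A \ Bad) ≤ t / 2 * 1 := by
      gcongr
    nlinarith
  exact le_of_mul_le_mul_left h' hn'

end C2

open C2 in
/-- Anti-concentration at scale `c ^ (1/4)`. -/
theorem branch_anti (hb : 2 ≤ b) (p : ℝ) (hp : 0 < p) : ∃ κ c₀ : ℝ, 0 < κ ∧ 0 < c₀ ∧
    ∀ J c : ℝ, 0 ≤ J → 0 < c → c ≤ c₀ → b * Real.tanh (J + c) ^ 2 ≤ 1 →
      1 - √c ≤ b * Real.tanh J ^ 2 → ∀ (L : ℕ), 1 ≤ L * √c → ∀ s : ℝ, s = 1 ∨ s = -1 → ∀ a : ℝ,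
        (Pabs b (J + c)).real {ω | |Psi J L (arr c s ω) - a| ≤ κ * √(√c)} ≤ p := by
  obtain ⟨C, hC0, hC⟩ := branch_sq hb
  have hb0 : (0 : ℝ) ≤ b := Nat.cast_nonneg b
  set ε : ℝ := min (1 / (8 * (1 + 2 * b))) (p ^ 2 / (480 * (C + 1))) with hε
  have hε0 : 0 < ε := lt_min (by positivity) (by positivity)
  have hε1 : (1 + 2 * b) * ε ≤ 1 / 8 := by
    have : ε ≤ 1 / (8 * (1 + 2 * b)) := min_le_left _ _
    rw [le_div_iff₀ (by positivity)] at this
    linarith
  have hε2 : (C + 1) * ε ≤ p ^ 2 / 480 := by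
    have : ε ≤ p ^ 2 / (480 * (C + 1)) := min_le_right _ _
    rw [le_div_iff₀ (by positivity)] at this
    linarith
  have hε3 : ε ≤ 1 / 8 := by nlinarith
  set n : ℕ := ⌈8 / p ^ 2⌉₊ with hn
  have hn0 : 0 < n := Nat.ceil_pos.2 (by positivity)
  have hn' : (0 : ℝ) < n := by exact_mod_cast hn0
  have hn1 : 8 / p ^ 2 ≤ n := Nat.le_ceil _
  refine ⟨√(ε / 2) / (10 * n), ε ^ 2, by positivity, by positivity, ?_⟩
  intro J c hJ hc hcc hbc hlow L hL s hs a
  have hsc : 0 < √c := Real.sqrt_pos.2 hc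
  have hsε : √c ≤ ε := Real.sqrt_le_iff.2 ⟨hε0.le, hcc⟩
  have hcs : √c * √c = c := Real.mul_self_sqrt hc.le
  set K : ℕ := ⌊ε / √c⌋₊ with hK
  have hK1 : 1 ≤ K := Nat.le_floor (by rw [le_div_iff₀ hsc]; simpa using hsε)
  have hK1' : (1 : ℝ) ≤ K := by exact_mod_cast hK1
  have hK2 : K * √c ≤ ε := by
    have := Nat.floor_le (a := ε / √c) (by positivity)
    rwa [le_div_iff₀ hsc] at this
  have hK3 : ε ≤ 2 * (K * √c) := by
    have := (Nat.lt_floor_add_one (ε / √c)).le
    rw [div_le_iff₀ hsc] at this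
    nlinarith
  have hKL : K ≤ L := by
    have : (K : ℝ) * √c ≤ L * √c := by linarith
    exact_mod_cast le_of_mul_le_mul_right this hsc
  have hη : (K : ℝ) * √(c / K) ^ 2 = c := by
    rw [Real.sq_sqrt (by positivity)]
    field_simp
  have hbθ := tanh_sq_le_of_le hJ hc hbc
  have key := anti_core (b := b) (β' := J + c) (B := C * √c) (η := √(c / K))
    (r := √(ε / 2) / (10 * n) * √(√c)) (t := 5 / p) (a := a) (n := n) hJ hc hbθ (by positivity)
    (hC J c hJ hc.le hbc) hs hKL hn0 (Real.sqrt_nonneg _) hη.le ?_ ?_ ?_ (by positivity)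
  · refine key.trans ?_
    have e1 : 5 / p / (2 * n) ≤ p / 3 := by
      rw [div_le_iff₀ (by positivity)] at hn1
      rw [div_div, div_le_div_iff₀ (by positivity) (by positivity)]
      nlinarith
    have e2 : 5 / p / 2 * (64 * (K * (C * √c))) ≤ p / 3 := by
      have : K * (C * √c) ≤ p ^ 2 / 480 := by
        calc K * (C * √c) = C * (K * √c) := by ring
          _ ≤ (C + 1) * ε := by gcongr; linarith
          _ ≤ _ := hε2
      calc _ ≤ 5 / p / 2 * (64 * (p ^ 2 / 480)) := by gcongr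
        _ = p / 3 := by field_simp; ring
    have e3 : 3 / (2 * (5 / p)) ≤ p / 3 := by
      have : 3 / (2 * (5 / p)) = 3 * p / 10 := by field_simp; ring
      linarith
    linarith
  · calc (K : ℝ) * ((1 + 2 * b) * K * √(c / K)) ^ 2
        = (1 + 2 * b) ^ 2 * K ^ 2 * (K * √(c / K) ^ 2) := by ring
      _ = ((1 + 2 * b) * (K * √c)) ^ 2 := by rw [hη, mul_pow, mul_pow, Real.sq_sqrt hc.le]; ring
      _ ≤ (1 / 8) ^ 2 := by
          refine pow_le_pow_left₀ (by positivity) (le_trans ?_ hε1) 2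
          gcongr
      _ = _ := by norm_num
  · calc (K : ℝ) / 2 = ∑ k ∈ Finset.range K, (1 / 2 : ℝ) := by simp; ring
      _ ≤ _ := Finset.sum_le_sum fun k hk => ?_
    have hk' : (k : ℝ) ≤ K := by exact_mod_cast (Finset.mem_range.1 hk).le
    have h1 := one_add_mul_le_pow (a := -√c) (by linarith) k
    have h2 : (1 + -√c) ^ k ≤ (b * Real.tanh J ^ 2) ^ k :=
      pow_le_pow_left₀ (by linarith) (by linarith) k
    have h3 : k * √c ≤ K * √c := by gcongr
    linarith
  · have h1 : √(ε / 2) * √(√c) ≤ √(c / K) * K := by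
      rw [← Real.sqrt_mul (by positivity)]
      refine Real.sqrt_le_iff.2 ⟨by positivity, ?_⟩
      rw [mul_pow, Real.sq_sqrt (by positivity)]
      have : c / K * (K : ℝ) ^ 2 = (K * √c) * √c := by
        rw [mul_assoc, hcs]; field_simp
      rw [this]
      gcongr
      linarith
    have h2 : 0 < √(c / K) * K := by positivity
    calc 2 * (√(ε / 2) / (10 * n) * √(√c)) = (√(ε / 2) * √(√c)) / (5 * n) := by field_simp; ring
      _ ≤ (√(c / K) * K) / (5 * n) := by gcongr
      _ < (√(c / K) * K) / (4 * n) := by gcongr; norm_num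
      _ = _ := by field_simp

namespace C2

/-- The weight used in the exponential moment along the spine. -/
noncomputable def ph (M : ℝ≥0∞) (r x : ℝ) : ℝ≥0∞ := 1 + M * Set.indicator {y | |y| ≤ r} 1 x

lemma measurable_ph (M : ℝ≥0∞) (r : ℝ) : Measurable (ph M r) := by
  have mS : MeasurableSet {y : ℝ | |y| ≤ r} :=
    measurableSet_le continuous_abs.measurable measurable_const
  exact ((measurable_one.indicator mS).const_mul M).const_add 1

/-- The product of the weights along the spine. -/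
noncomputable def GG (J : ℝ) (M : ℝ≥0∞) (r : ℝ) (L m : ℕ) (l : List (Fin b))
    (a : List (Fin b) → ℝ) : ℝ≥0∞ :=
  ∏ j ∈ Finset.range m, ph M r (Xi J (L - j) fun l' => a (l.take j ++ l'))

lemma measurable_GG (J : ℝ) (M : ℝ≥0∞) (r : ℝ) (L m : ℕ) (l : List (Fin b)) :
    Measurable (GG J M r L m l) := by
  unfold GG
  refine Finset.measurable_prod _ fun j _ => (measurable_ph M r).comp ?_
  exact (continuous_Xi J _).measurable.comp (by fun_prop)

lemma lintegral_GG (hb : 2 ≤ b) {J c β' r : ℝ} {M : ℝ≥0∞} {L₀ : ℕ}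
    (hM : ∀ L, L₀ ≤ L → ∀ s : ℝ, s = 1 ∨ s = -1 → ∀ a : ℝ,
      M * Pabs b β' {ω | |Psi J L (arr c s ω) - a| ≤ r} ≤ 1) (m : ℕ) :
    ∀ (L : ℕ) (l : List (Fin b)), m ≤ l.length + 1 → L₀ + m ≤ L → ∀ s : ℝ, s = 1 ∨ s = -1 →
      ∫⁻ ω, GG J M r L m l (arr c s ω) ∂Pabs b β' ≤ 2 ^ m := by
  induction m with
  | zero => intro L l _ _ s _; simp [GG]
  | succ m ih =>
    intro L l hl hL s hs
    obtain ⟨L, rfl⟩ : ∃ L', L = L' + 1 := ⟨L - 1, by omega⟩
    obtain ⟨j₀, l₀, hl₀, hG⟩ : ∃ (j₀ : Fin b) (l₀ : List (Fin b)), m ≤ l₀.length + 1 ∧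
        ∀ a, GG J M r (L + 1) (m + 1) l a =
          ph M r (Xi J (L + 1) a) * GG J M r L m l₀ fun l' => a (j₀ :: l') := by
      cases l with
      | nil =>
        obtain rfl : m = 0 := by simpa using hl
        exact ⟨⟨0, by omega⟩, [], by simp, fun a => by simp [GG]⟩
      | cons j₀ l₀ =>
        refine ⟨j₀, l₀, by simp at hl; omega, fun a => ?_⟩
        rw [GG, GG, Finset.prod_range_succ', mul_comm]
        simp
    obtain ⟨j₁, hj⟩ : ∃ j₁ : Fin b, j₀ ≠ j₁ := by
      by_cases h : j₀ = ⟨0, by omega⟩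
      · exact ⟨⟨1, by omega⟩, by simp [h]⟩
      · exact ⟨_, h⟩
    have hm : Measurable fun ω => GG J M r (L + 1) (m + 1) l (arr c s ω) :=
      (measurable_GG J M r _ _ l).comp (measurable_arr c s)
    rw [lintegral_mrg β' j₁ hm]
    have hin : ∀ ω₁, ∫⁻ ω₂, GG J M r (L + 1) (m + 1) l (arr c s (mrg j₁ (ω₁, ω₂))) ∂Pabs b β' ≤
        2 * GG J M r L m l₀ fun l' => arr c s ω₁ (j₀ :: l') := by
      intro ω₁
      set A := arr c s ω₁ [] + ∑ j ∈ Finset.univ.erase j₁, Psi J L fun l' => arr c s ω₁ (j :: l')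
        with hA
      have h1 : ∀ ω₂, GG J M r (L + 1) (m + 1) l (arr c s (mrg j₁ (ω₁, ω₂))) =
          (1 + M * Set.indicator {ω | |Psi J L (arr c (s * sgn (ω₁ []).1) ω) - -A| ≤ r} 1 ω₂) *
            GG J M r L m l₀ fun l' => arr c s ω₁ (j₀ :: l') := by
        intro ω₂
        rw [hG, arr_mrg_ne c s hj, Xi_succ, ← Finset.add_sum_erase _ _ (Finset.mem_univ j₁),
          arr_mrg_self, arr_mrg_nil, Finset.sum_congr rfl fun j hj =>
            congrArg (Psi J L) (arr_mrg_ne c s (Finset.ne_of_mem_erase hj) ω₁ ω₂), ph]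
        congr 3
        have : arr c s ω₁ [] + (Psi J L (arr c (s * sgn (ω₁ []).1) ω₂) +
            ∑ j ∈ Finset.univ.erase j₁, Psi J L fun l' => arr c s ω₁ (j :: l')) =
            Psi J L (arr c (s * sgn (ω₁ []).1) ω₂) - -A := by rw [hA]; ring
        rw [this]
        rfl
      have mS : MeasurableSet {ω : List (Fin b) → Bool × ℝ |
          |Psi J L (arr c (s * sgn (ω₁ []).1) ω) - -A| ≤ r} :=
        measurableSet_le ((measurable_Psi_arr J c _ L).sub_const _).abs measurable_const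
      simp_rw [h1]
      have mS' : Measurable fun ω₂ : List (Fin b) → Bool × ℝ => 1 + M * Set.indicator
          {ω : List (Fin b) → Bool × ℝ | |Psi J L (arr c (s * sgn (ω₁ []).1) ω) - -A| ≤ r}
          (1 : (List (Fin b) → Bool × ℝ) → ℝ≥0∞) ω₂ :=
        ((measurable_one.indicator mS).const_mul M).const_add 1
      rw [lintegral_mul_const _ mS', lintegral_add_left measurable_const,
        lintegral_const_mul _ (measurable_one.indicator mS), lintegral_indicator_one mS]
      gcongr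
      rw [lintegral_const, measure_univ, mul_one, ← one_add_one_eq_two]
      gcongr
      exact hM L (by omega) _ (sgn_cases hs _) _
    have hm2 : Measurable fun ω => GG J M r L m l₀ fun l' => arr c s ω (j₀ :: l') :=
      (measurable_GG J M r _ _ l₀).comp (Measurable.comp
        (g := fun (a : List (Fin b) → ℝ) l => a (j₀ :: l)) (by fun_prop) (measurable_arr c s))
    refine (lintegral_mono hin).trans ?_
    rw [lintegral_const_mul _ hm2, pow_succ']
    gcongr
    exact lintegral_child β' c hs j₀ (measurable_GG J M r L m l₀) (ih L l₀ hl₀ (by omega))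

lemma le_prod_ph {r q : ℝ} (hr0 : 0 < r) (hr : r ≤ 1 / 2) (hq : 1 ≤ q) (m : ℕ) (ξ : ℕ → ℝ)
    (h : ∑ j ∈ Finset.range m, Real.tanh (ξ j) ^ 2 < r ^ 2 / 8 * m) :
    ENNReal.ofReal q ^ m ≤ ∏ j ∈ Finset.range m, ph (ENNReal.ofReal q ^ 2) r (ξ j) := by
  classical
  set S := (Finset.range m).filter fun j => |ξ j| ≤ r with hS
  set T := (Finset.range m).filter fun j => ¬ |ξ j| ≤ r with hT
  have hST : S.card + T.card = m := by
    rw [hS, hT, Finset.card_filter_add_card_filter_not, Finset.card_range]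
  have h1 : T.card * (r ^ 2 / 4) ≤ ∑ j ∈ Finset.range m, Real.tanh (ξ j) ^ 2 := by
    calc T.card * (r ^ 2 / 4) = ∑ j ∈ T, r ^ 2 / 4 := by simp
      _ ≤ ∑ j ∈ T, Real.tanh (ξ j) ^ 2 := Finset.sum_le_sum fun j hj => ?_
      _ ≤ _ := Finset.sum_le_sum_of_subset_of_nonneg (Finset.filter_subset _ _)
          fun j _ _ => sq_nonneg _
    have hj' : r ≤ |ξ j| := (not_le.1 (Finset.mem_filter.1 hj).2).le
    have h2 : r / 2 ≤ Real.tanh |ξ j| := (half_le_tanh hr0.le hr).trans (tanh_mono hj')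
    have h3 : Real.tanh |ξ j| ^ 2 = Real.tanh (ξ j) ^ 2 := by
      rcases abs_choice (ξ j) with h | h <;> rw [h]
      rw [Real.tanh_neg, neg_sq]
    have h4 := pow_le_pow_left₀ (by positivity) h2 2
    nlinarith
  have h2 : m ≤ 2 * S.card := by
    have h3 : (T.card : ℝ) * (r ^ 2 / 4) < (m / 2) * (r ^ 2 / 4) := by linarith
    have h4 := lt_of_mul_lt_mul_right h3 (by positivity)
    have h5 : 2 * T.card < m := by
      have : (2 * T.card : ℝ) < m := by linarith
      exact_mod_cast this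
    omega
  have hq' : 1 ≤ ENNReal.ofReal q := by rw [← ENNReal.ofReal_one]; exact ENNReal.ofReal_le_ofReal hq
  calc ENNReal.ofReal q ^ m ≤ (ENNReal.ofReal q ^ 2) ^ S.card := by
        rw [← pow_mul]; exact pow_le_pow_right₀ hq' h2
    _ = ∏ j ∈ S, ENNReal.ofReal q ^ 2 := by simp
    _ ≤ ∏ j ∈ S, ph (ENNReal.ofReal q ^ 2) r (ξ j) := Finset.prod_le_prod' fun j hj => by
        rw [ph, Set.indicator_of_mem (by exact (Finset.mem_filter.1 hj).2), Pi.one_apply, mul_one]
        exact le_add_self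
    _ ≤ _ := Finset.prod_le_prod_of_subset_of_one_le' (Finset.filter_subset _ _)
        fun j _ _ => le_self_add

end C2

open C2 in
/-- Along a path, the squared cavity magnetisations add up, except with a probability that is
exponentially small at an arbitrarily large rate. -/
theorem branch_spine (hb : 2 ≤ b) (p : ℝ) (hp : 0 < p) : ∃ κ c₀ : ℝ, 0 < κ ∧ 0 < c₀ ∧
    ∀ J c : ℝ, 0 ≤ J → 0 < c → c ≤ c₀ → b * Real.tanh (J + c) ^ 2 ≤ 1 →
      1 - √c ≤ b * Real.tanh J ^ 2 → ∀ (L m : ℕ) (l : List (Fin b)), m ≤ l.length + 1 →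
        m ≤ L → 1 ≤ ((L - m : ℕ) : ℝ) * √c → ∀ s : ℝ, s = 1 ∨ s = -1 →
        (Pabs b (J + c)).real {ω | ∑ j ∈ Finset.range m,
          Real.tanh (Xi J (L - j) fun l' => arr c s ω (l.take j ++ l')) ^ 2 < κ * √c * m} ≤
            p ^ m := by
  obtain ⟨κ, c₀, hκ, hc₀, H⟩ := branch_anti hb (p ^ 2 / 4) (by positivity)
  refine ⟨κ ^ 2 / 8, min c₀ ((1 / (2 * κ)) ^ 4), by positivity, lt_min hc₀ (by positivity), ?_⟩
  intro J c hJ hc hcc hbc hlow L m l hl hmL hL s hs
  rcases le_or_gt 1 p with hp1 | hp1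
  · exact measureReal_le_one.trans (one_le_pow₀ hp1)
  have hsc : 0 < √c := Real.sqrt_pos.2 hc
  set r := κ * √(√c) with hr
  have hr0 : 0 < r := by positivity
  have hr2 : r ^ 2 = κ ^ 2 * √c := by rw [hr, mul_pow, Real.sq_sqrt hsc.le]
  have hr1 : r ≤ 1 / 2 := by
    have h1 : √(√c) ≤ 1 / (2 * κ) := by
      refine Real.sqrt_le_iff.2 ⟨by positivity, Real.sqrt_le_iff.2 ⟨by positivity, ?_⟩⟩
      rw [← pow_mul]
      exact hcc.trans (min_le_right _ _)
    calc r ≤ κ * (1 / (2 * κ)) := by rw [hr]; gcongr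
      _ = 1 / 2 := by field_simp
  set q : ℝ := 2 / p with hq
  have hq1 : 1 ≤ q := by rw [hq, le_div_iff₀ hp]; linarith
  have hG := lintegral_GG (J := J) (c := c) (β' := J + c) (r := r) (M := ENNReal.ofReal q ^ 2)
    (L₀ := L - m) hb (fun L' hL' s' hs' a => ?_) m L l hl (by omega) s hs
  · have h1 := (mul_meas_ge_le_lintegral (μ := Pabs b (J + c))
      ((measurable_GG J (ENNReal.ofReal q ^ 2) r L m l).comp (measurable_arr c s))
      (ENNReal.ofReal q ^ m)).trans hG
    have h2 : Pabs b (J + c) {ω | ∑ j ∈ Finset.range m,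
          Real.tanh (Xi J (L - j) fun l' => arr c s ω (l.take j ++ l')) ^ 2 < κ ^ 2 / 8 * √c * m} ≤
        Pabs b (J + c) {ω | ENNReal.ofReal q ^ m ≤
          (GG J (ENNReal.ofReal q ^ 2) r L m l ∘ arr c s) ω} := by
      refine measure_mono fun ω hω => ?_
      refine le_prod_ph hr0 hr1 hq1 m (fun j => Xi J (L - j) fun l' => arr c s ω (l.take j ++ l')) ?_
      rw [hr2]
      refine lt_of_lt_of_eq hω ?_
      ring
    have h3 := ENNReal.toReal_mono (by finiteness) ((mul_le_mul_right h2 _).trans h1)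
    rw [ENNReal.toReal_mul, ENNReal.toReal_pow, ENNReal.toReal_ofReal (by positivity),
      ENNReal.toReal_pow, ENNReal.toReal_ofNat] at h3
    have h4 : (2 : ℝ) ^ m = q ^ m * p ^ m := by
      rw [← mul_pow, hq]; congr 1; field_simp
    rw [h4] at h3
    exact le_of_mul_le_mul_left h3 (by positivity)
  · have h1 := H J c hJ hc (hcc.trans (min_le_left _ _)) hbc hlow L' (hL.trans (by gcongr)) s' hs' a
    rw [← ENNReal.ofReal_toReal (measure_ne_top (Pabs b (J + c)) _),
      ← ENNReal.ofReal_pow (by positivity), ← ENNReal.ofReal_mul (by positivity),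
      ← ENNReal.ofReal_one]
    refine ENNReal.ofReal_le_ofReal ?_
    calc _ ≤ q ^ 2 * (p ^ 2 / 4) := by gcongr; exact h1
      _ = 1 := by rw [hq]; field_simp; norm_num

end Crest.Agent.R160
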