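import Crest.Agent.R160.Step

/-!
Row 160: the resampling chain, its marginal laws and the pair inequality.
-/

set_option autoImplicit false
set_option linter.unusedSectionVars false
set_option linter.unusedVariables false
set_option maxHeartbeats 400000

open MeasureTheory ProbabilityTheory Filter Topology
open scoped ENNReal

namespace Crest.Agent.R160

universe u

variable {V : Type u} {G : SimpleGraph V}

/-- The probability space of the chains. -/
noncomputable def POm (E : Type*) : Measure (ℕ → (E → ℝ) × unitInterval) :=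
  Measure.infinitePi fun _ : ℕ => nu E

instance (E : Type*) : IsProbabilityMeasure (POm E) := by
  unfold POm
  infer_instance

lemma POm_map_fst (E : Type*) : (POm E).map (fun ω k => (ω k).1) = PN E := by
  rw [POm, Measure.infinitePi_map_pi _ (f := fun _ => Prod.fst) (by fun_prop), PN]
  congr 1
  funext k
  exact (measurePreserving_fst (μ := gE E) (ν := (volume : Measure unitInterval))).map_eq

/-- The resampling chain in the volume `Λ` with mesh `2^-p`, started at step `s`. -/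
noncomputable def chain (G : SimpleGraph V) (Λ : Finset V) (β : ℝ) (p s : ℕ)
    (ω : ℕ → (G.edgeSet → ℝ) × unitInterval) : ℕ → G.edgeSet → ℝ
  | 0 => 0
  | k + 1 => if k < s then 0 else
      nx G Λ (β * (1 - k / 2 ^ p)) (β / 2 ^ p) (chain G Λ β p s ω k) (ω k)

variable (Λ : Finset V) (β : ℝ) (p s : ℕ)

lemma chain_zero (ω : ℕ → (G.edgeSet → ℝ) × unitInterval) : chain G Λ β p s ω 0 = 0 := by
  simp only [chain]

lemma chain_succ (ω : ℕ → (G.edgeSet → ℝ) × unitInterval) (k : ℕ) :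
    chain G Λ β p s ω (k + 1) = if k < s then 0 else
      nx G Λ (β * (1 - k / 2 ^ p)) (β / 2 ^ p) (chain G Λ β p s ω k) (ω k) := by
  have := @chain.eq_def V G Λ β p s ω
  simp only [chain]

lemma chain_of_le (ω : ℕ → (G.edgeSet → ℝ) × unitInterval) {k : ℕ} (hk : k ≤ s) :
    chain G Λ β p s ω k = 0 := by
  cases k with
  | zero => exact chain_zero ..
  | succ k => rw [chain_succ, if_pos (by omega)]

lemma chain_succ_of_le (ω : ℕ → (G.edgeSet → ℝ) × unitInterval) {k : ℕ} (hk : s ≤ k) :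
    chain G Λ β p s ω (k + 1) =
      nx G Λ (β * (1 - k / 2 ^ p)) (β / 2 ^ p) (chain G Λ β p s ω k) (ω k) := by
  rw [chain_succ, if_neg (by omega)]

lemma measurable_chain (k : ℕ) : Measurable fun ω => chain G Λ β p s ω k := by
  induction k with
  | zero => simp only [chain_zero, measurable_const]
  | succ k ih =>
    simp only [chain_succ]
    split_ifs
    · exact measurable_const
    · exact measurable_nx Λ _ _ ih (measurable_pi_apply k)

lemma chain_congr {ω ω' : ℕ → (G.edgeSet → ℝ) × unitInterval} {k : ℕ}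
    (h : ∀ j < k, ω j = ω' j) : chain G Λ β p s ω k = chain G Λ β p s ω' k := by
  induction k with
  | zero => simp only [chain_zero]
  | succ k ih => rw [chain_succ, chain_succ, ih fun j hj => h j (by omega), h k (by omega)]

lemma J_succ (k : ℕ) :
    β * (1 - ((k + 1 : ℕ) : ℝ) / 2 ^ p) = β * (1 - k / 2 ^ p) - β / 2 ^ p := by
  push_cast
  ring

/-- The marginal law of the chain. -/
theorem chain_law (hβ : 0 ≤ β) (j : ℕ) {φ : (G.edgeSet → ℝ) → ℝ} (hφ : Measurable φ) {M : ℝ}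
    (hM : ∀ y, |φ y| ≤ M) :
    ∫ ω, φ (chain G Λ β p s ω (s + j)) ∂POm G.edgeSet =
      gm G Λ (β * (1 - s / 2 ^ p)) 0
        fun A => ∫ z, φ (obs G Λ (β * j / 2 ^ p) 0 A z) ∂gE G.edgeSet := by
  induction j generalizing φ with
  | zero =>
    have : ∀ A z, obs G Λ (β * (0 : ℕ) / 2 ^ p) 0 A z = 0 := by
      intro A z
      funext e
      simp [obs]
    simp only [this, add_zero, chain_of_le Λ β p s _ le_rfl, integral_const, probReal_univ,
      smul_eq_mul, one_mul, gm, avg_const (powerset_ne Λ)]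
  | succ j ih =>
    have ha : 0 ≤ β / 2 ^ p := by positivity
    have hc : 0 ≤ β * j / 2 ^ p := by positivity
    let φ₂ : (G.edgeSet → ℝ) → Finset V → ℝ := fun y A =>
      ∫ z, φ (obs G Λ (β / 2 ^ p) y A z) ∂gE G.edgeSet
    have hφ₂ : ∀ A, Measurable fun y => φ₂ y A := fun A =>
      (StronglyMeasurable.integral_prod_right' (ν := gE G.edgeSet)
        (hφ.comp (measurable_obs Λ (β / 2 ^ p) measurable_fst measurable_snd
          A)).stronglyMeasurable).measurable
    have hφ₂M : ∀ y A, |φ₂ y A| ≤ M := fun y A => by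
      have := norm_integral_le_of_norm_le_const (μ := gE G.edgeSet)
        (f := fun z => φ (obs G Λ (β / 2 ^ p) y A z)) (C := M) (ae_of_all _ fun _ => hM _)
      simpa using this
    simp only [← add_assoc, chain_succ_of_le Λ β p s _ (Nat.le_add_right s j)]
    rw [POm, integral_freeze (nu G.edgeSet) (s + j) (fun ω ξ => φ (nx G Λ
      (β * (1 - ((s + j : ℕ) : ℝ) / 2 ^ p)) (β / 2 ^ p) (chain G Λ β p s ω (s + j)) ξ)) (M := M)
      (hφ.comp (measurable_nx Λ _ _ ((measurable_chain Λ β p s _).comp measurable_fst)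
        measurable_snd)) (fun _ _ => hM _) fun ω ω' h => by rw [chain_congr Λ β p s h]]
    simp only [integral_nx Λ _ _ _ hφ hM]
    rw [← POm, ih (φ := fun y => gm G Λ (β * (1 - ((s + j : ℕ) : ℝ) / 2 ^ p)) y (φ₂ y))
      (measurable_gm Λ _ measurable_id hφ₂) fun y => abs_gm_le (hφ₂M y)]
    have hJ : β * (1 - ((s + j : ℕ) : ℝ) / 2 ^ p) = β * (1 - s / 2 ^ p) - β * j / 2 ^ p := by
      push_cast
      ring
    rw [hJ, ← bayes Λ _ _ hc 0 hφ₂ hφ₂M]
    congr 1
    funext A
    have h1 := integral_gE_conv (β * j / 2 ^ p) (β / 2 ^ p) hc ha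
      (φ := fun z => φ fun e => (β * j / 2 ^ p + β / 2 ^ p) * drift G Λ A e + z e) (M := M)
      (hφ.comp (by fun_prop)) fun _ => hM _
    have h2 : β * ((j + 1 : ℕ) : ℝ) / 2 ^ p = β * j / 2 ^ p + β / 2 ^ p := by
      push_cast
      ring
    simp only [φ₂, h2]
    convert h1 using 3
    · congr 1
      funext z
      congr 1
      funext e
      simp only [obs, Pi.zero_apply]
      ring
    · congr 1
      funext e
      simp only [obs, Pi.zero_apply, zero_add]

lemma integrable_of_abs_le {Ω : Type*} [MeasurableSpace Ω] {P : Measure Ω} [IsFiniteMeasure P]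
    {f : Ω → ℝ} (hf : Measurable f) (M : ℝ) (hM : ∀ ω, |f ω| ≤ M) : Integrable f P :=
  Integrable.of_bound (C := M) hf.aestronglyMeasurable (ae_of_all _ hM)

lemma sq_sub_sub_le {a b c M : ℝ} (ha : |a| ≤ 1) (hb : |b| ≤ 1) (hc : |c| ≤ M) :
    |(a - b - c) ^ 2| ≤ (2 + M) ^ 2 := by
  rw [abs_pow]
  refine pow_le_pow_left₀ (abs_nonneg _) ?_ 2
  refine (abs_sub _ _).trans ?_
  have := abs_sub a b
  linarith

lemma sum_Gam_sq_le (Λ Λ' : Finset V) (J : ℝ) (y y' : G.edgeSet → ℝ) (x x' : V)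
    (F : Finset G.edgeSet) :
    |∑ e ∈ F, (Gam G Λ J y x e - Gam G Λ' J y' x' e) ^ 2| ≤ F.card * 64 := by
  rw [abs_of_nonneg (Finset.sum_nonneg fun _ _ => sq_nonneg _), ← nsmul_eq_mul]
  refine Finset.sum_le_card_nsmul _ _ _ fun e _ => ?_
  have h1 := abs_le.1 (abs_Gam_le Λ J y x e)
  have h2 := abs_le.1 (abs_Gam_le Λ' J y' x' e)
  nlinarith

/-- The pair inequality for two chains driven by the same noise. -/
theorem pair_chain (Λ' : Finset V) (hβ : 0 ≤ β) (hβ1 : β ≤ 1) (s' k : ℕ) (hs : s ≤ k) (hs' : s' ≤ k)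
    (x x' : V) {X : (ℕ → (G.edgeSet → ℝ) × unitInterval) → ℝ} (hX : Measurable X) {M : ℝ}
    (hM : ∀ ω, |X ω| ≤ M) (hdep : ∀ ω ω', (∀ j < k, ω j = ω' j) → X ω = X ω')
    {F : Finset G.edgeSet} (hF : EF G Λ ⊆ F) (hF' : EF G Λ' ⊆ F) :
    ∫ ω, (mag G Λ (β * (1 - ((k + 1 : ℕ) : ℝ) / 2 ^ p)) (chain G Λ β p s ω (k + 1)) x -
        mag G Λ' (β * (1 - ((k + 1 : ℕ) : ℝ) / 2 ^ p)) (chain G Λ' β p s' ω (k + 1)) x' - X ω) ^ 2
        ∂POm G.edgeSet ≤
      ∫ ω, (mag G Λ (β * (1 - k / 2 ^ p)) (chain G Λ β p s ω k) x -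
        mag G Λ' (β * (1 - k / 2 ^ p)) (chain G Λ' β p s' ω k) x' - X ω) ^ 2 ∂POm G.edgeSet +
      2 * (β / 2 ^ p) * ∑ e ∈ F, ∫ ω, (Gam G Λ (β * (1 - k / 2 ^ p)) (chain G Λ β p s ω k) x e -
        Gam G Λ' (β * (1 - k / 2 ^ p)) (chain G Λ' β p s' ω k) x' e) ^ 2 ∂POm G.edgeSet +
      Cerr * (F.card : ℝ) ^ 4 * (β / 2 ^ p) ^ 2 := by
  have ha : 0 ≤ β / 2 ^ p := by positivity
  have ha1 : β / 2 ^ p ≤ 1 := div_le_one_of_le₀ (hβ1.trans (one_le_pow₀ one_le_two)) (by positivity)
  simp only [chain_succ_of_le Λ β p s _ hs, chain_succ_of_le Λ' β p s' _ hs', J_succ]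
  set J := β * (1 - k / 2 ^ p) with hJ
  set a := β / 2 ^ p with ha'
  have hc := measurable_chain (G := G) Λ β p s k
  have hc' := measurable_chain (G := G) Λ' β p s' k
  have hm1 : Measurable fun q : (ℕ → (G.edgeSet → ℝ) × unitInterval) ×
      ((G.edgeSet → ℝ) × unitInterval) =>
      mag G Λ (J - a) (nx G Λ J a (chain G Λ β p s q.1 k) q.2) x :=
    (measurable_mag Λ _ x).comp (measurable_nx Λ _ _ (hc.comp measurable_fst) measurable_snd)
  have hm2 : Measurable fun q : (ℕ → (G.edgeSet → ℝ) × unitInterval) ×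
      ((G.edgeSet → ℝ) × unitInterval) =>
      mag G Λ' (J - a) (nx G Λ' J a (chain G Λ' β p s' q.1 k) q.2) x' :=
    (measurable_mag Λ' _ x').comp (measurable_nx Λ' _ _ (hc'.comp measurable_fst) measurable_snd)
  have hm3 : Measurable fun q : (ℕ → (G.edgeSet → ℝ) × unitInterval) ×
      ((G.edgeSet → ℝ) × unitInterval) => X q.1 := hX.comp measurable_fst
  have hm4 : Measurable fun q : (ℕ → (G.edgeSet → ℝ) × unitInterval) ×
      ((G.edgeSet → ℝ) × unitInterval) =>
      (mag G Λ (J - a) (nx G Λ J a (chain G Λ β p s q.1 k) q.2) x -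
        mag G Λ' (J - a) (nx G Λ' J a (chain G Λ' β p s' q.1 k) q.2) x' - X q.1) ^ 2 := by
    fun_prop
  rw [POm, integral_freeze (nu G.edgeSet) k (fun ω ξ =>
    (mag G Λ (J - a) (nx G Λ J a (chain G Λ β p s ω k) ξ) x -
      mag G Λ' (J - a) (nx G Λ' J a (chain G Λ' β p s' ω k) ξ) x' - X ω) ^ 2) hm4
    (fun _ _ => sq_sub_sub_le (abs_mag_le _ _ _ _) (abs_mag_le _ _ _ _) (hM _))
    fun ω ω' h => by rw [chain_congr Λ β p s h, chain_congr Λ' β p s' h, hdep ω ω' h], ← POm]
  have hn1 := (measurable_mag Λ J x).comp hc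
  have hn2 := (measurable_mag Λ' J x').comp hc'
  have hi1 : Integrable (fun ω => (mag G Λ J (chain G Λ β p s ω k) x -
      mag G Λ' J (chain G Λ' β p s' ω k) x' - X ω) ^ 2) (POm G.edgeSet) :=
    integrable_of_abs_le (((hn1.sub hn2).sub hX).pow_const 2) _
      fun _ => sq_sub_sub_le (abs_mag_le _ _ _ _) (abs_mag_le _ _ _ _) (hM _)
  have hi2 : ∀ e, Integrable (fun ω => (Gam G Λ J (chain G Λ β p s ω k) x e -
      Gam G Λ' J (chain G Λ' β p s' ω k) x' e) ^ 2) (POm G.edgeSet) := fun e => by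
    refine integrable_of_abs_le (((((measurable_Gam Λ J x e).comp hc)).sub
      ((measurable_Gam Λ' J x' e).comp hc')).pow_const 2) 64 fun ω => ?_
    have h1 := abs_le.1 (abs_Gam_le Λ J (chain G Λ β p s ω k) x e)
    have h2 := abs_le.1 (abs_Gam_le Λ' J (chain G Λ' β p s' ω k) x' e)
    rw [abs_of_nonneg (sq_nonneg _)]
    nlinarith
  have hi3 : Integrable (fun ω => 2 * a * ∑ e ∈ F, (Gam G Λ J (chain G Λ β p s ω k) x e -
      Gam G Λ' J (chain G Λ' β p s' ω k) x' e) ^ 2) (POm G.edgeSet) :=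
    (integrable_finsetSum _ fun e _ => hi2 e).const_mul _
  have hi4 : Integrable (fun ω => (mag G Λ J (chain G Λ β p s ω k) x -
      mag G Λ' J (chain G Λ' β p s' ω k) x' - X ω) ^ 2 +
      2 * a * ∑ e ∈ F, (Gam G Λ J (chain G Λ β p s ω k) x e -
      Gam G Λ' J (chain G Λ' β p s' ω k) x' e) ^ 2) (POm G.edgeSet) := hi1.add hi3
  refine (integral_mono_of_nonneg (ae_of_all _ fun _ => integral_nonneg fun _ => sq_nonneg _)
    (hi4.add (integrable_const (Cerr * (F.card : ℝ) ^ 4 * a ^ 2)))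
    (ae_of_all _ fun ω => pair_step Λ Λ' J a ha ha1 _ _ x x' (X ω) hF hF')).trans (le_of_eq ?_)
  simp only [Pi.add_apply]
  rw [integral_add hi4 (integrable_const _), integral_add hi1 hi3, integral_const_mul,
    integral_finsetSum _ fun e _ => hi2 e]
  simp

end Crest.Agent.R160
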