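import Crest.Agent.R160.Tree

/-!
Row 160, subtask D1: Gaussian noise on the edges from uniform labels on the vertices, and the
dyadic refinement of Gaussian increments.
-/

set_option autoImplicit false
set_option linter.unusedSectionVars false
set_option linter.unusedVariables false
set_option maxHeartbeats 400000

open MeasureTheory ProbabilityTheory Filter Topology
open scoped ENNReal

namespace Crest.Agent.R160

universe u
variable {V : Type u} {G : SimpleGraph V} [G.LocallyFinite]

namespace Noise

lemma map_zip {E X Y : Type*} [MeasurableSpace X] [MeasurableSpace Y] (μ : Measure X)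
    (ν : Measure Y) [IsProbabilityMeasure μ] [IsProbabilityMeasure ν] :
    ((Measure.infinitePi fun _ : E => μ).prod (Measure.infinitePi fun _ : E => ν)).map
      (fun p e => (p.1 e, p.2 e)) = Measure.infinitePi fun _ : E => μ.prod ν := by
  have hm : Measurable fun (p : (E → X) × (E → Y)) e => (p.1 e, p.2 e) := by fun_prop
  refine Measure.eq_infinitePi _ fun s t ht => ?_
  have hst : MeasurableSet (Set.pi (s : Set E) t) := .pi s.countable_toSet fun i _ => ht i
  rw [Measure.map_apply hm hst, Measure.prod_apply (hm hst)]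
  have h1 : ∀ x : E → X, (Measure.infinitePi fun _ : E => ν) (Prod.mk x ⁻¹'
      ((fun (p : (E → X) × (E → Y)) e => (p.1 e, p.2 e)) ⁻¹' Set.pi (s : Set E) t)) =
      ∏ e ∈ s, ν (Prod.mk (x e) ⁻¹' t e) := by
    intro x
    rw [← Measure.infinitePi_pi (fun _ : E => ν) (fun e _ => measurable_prodMk_left (ht e))]
    rfl
  simp_rw [h1]
  have h2 : ∀ e, Measurable fun x : X => ν (Prod.mk x ⁻¹' t e) :=
    fun e => measurable_measure_prodMk_left (ht e)
  rw [lintegral_prod_eq_prod_lintegral_of_indepFun s
    (fun e (x : E → X) => ν (Prod.mk (x e) ⁻¹' t e))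
    (iIndepFun_infinitePi (P := fun _ : E => μ) h2) (fun i => (h2 i).comp (by fun_prop))]
  refine Finset.prod_congr rfl fun e _ => ?_
  rw [(measurePreserving_eval_infinitePi (fun _ : E => μ) e).lintegral_comp (h2 e),
    Measure.prod_apply (ht e)]

lemma mp_zip (E : Type*) {X Y : Type*} [MeasurableSpace X] [MeasurableSpace Y] (μ : Measure X)
    (ν : Measure Y) [IsProbabilityMeasure μ] [IsProbabilityMeasure ν] :
    MeasurePreserving (fun (p : (E → X) × (E → Y)) e => (p.1 e, p.2 e))
      ((Measure.infinitePi fun _ : E => μ).prod (Measure.infinitePi fun _ : E => ν))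
      (Measure.infinitePi fun _ : E => μ.prod ν) :=
  ⟨by fun_prop, map_zip μ ν⟩

lemma mp_unzip (E : Type*) {X Y : Type*} [MeasurableSpace X] [MeasurableSpace Y] (μ : Measure X)
    (ν : Measure Y) [IsProbabilityMeasure μ] [IsProbabilityMeasure ν] :
    MeasurePreserving (fun (z : E → X × Y) => (fun e => (z e).1, fun e => (z e).2))
      (Measure.infinitePi fun _ : E => μ.prod ν)
      ((Measure.infinitePi fun _ : E => μ).prod (Measure.infinitePi fun _ : E => ν)) := by
  refine ⟨by fun_prop, ?_⟩
  rw [← map_zip, Measure.map_map (by fun_prop) (by fun_prop)]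
  exact Measure.map_id

lemma mp_pi (E : Type*) {X Y : Type*} [MeasurableSpace X] [MeasurableSpace Y] {μ : Measure X}
    {ν : Measure Y} [IsProbabilityMeasure μ] {f : X → Y} (hf : MeasurePreserving f μ ν) :
    MeasurePreserving (fun (z : E → X) e => f (z e))
      (Measure.infinitePi fun _ : E => μ) (Measure.infinitePi fun _ : E => ν) := by
  have := hf.measurable
  refine ⟨by fun_prop, ?_⟩
  rw [Measure.infinitePi_map_pi _ (f := fun _ => f) fun _ => hf.measurable]
  simp only [hf.map_eq]

lemma mp_inj {A B X : Type*} [MeasurableSpace X] (μ : Measure X) [IsProbabilityMeasure μ]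
    {f : A → B} (hf : Function.Injective f) :
    MeasurePreserving (fun (z : B → X) a => z (f a))
      (Measure.infinitePi fun _ : B => μ) (Measure.infinitePi fun _ : A => μ) :=
  ⟨by fun_prop, Measure.map_infinitePi_infinitePi_of_inj (P := fun _ : B => μ) hf⟩

lemma mp_uncurry (A B : Type*) {X : Type*} [MeasurableSpace X] (μ : Measure X)
    [IsProbabilityMeasure μ] :
    MeasurePreserving (fun (z : A → B → X) (p : A × B) => z p.1 p.2)
      (Measure.infinitePi fun _ : A => Measure.infinitePi fun _ : B => μ)
      (Measure.infinitePi fun _ : A × B => μ) :=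
  ⟨by fun_prop, Measure.infinitePi_map_curry_symm (fun (_ : A) (_ : B) => μ)⟩

lemma mp_curry (A B : Type*) {X : Type*} [MeasurableSpace X] (μ : Measure X)
    [IsProbabilityMeasure μ] :
    MeasurePreserving (fun (z : A × B → X) (a : A) (b : B) => z (a, b))
      (Measure.infinitePi fun _ : A × B => μ)
      (Measure.infinitePi fun _ : A => Measure.infinitePi fun _ : B => μ) :=
  ⟨by fun_prop, Measure.infinitePi_map_curry (fun (_ : A) (_ : B) => μ)⟩

lemma mp_elim (A B : Type*) {X : Type*} [MeasurableSpace X] (μ : Measure X)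
    [IsProbabilityMeasure μ] :
    MeasurePreserving (fun p : (A → X) × (B → X) => Sum.elim p.1 p.2)
      ((Measure.infinitePi fun _ : A => μ).prod (Measure.infinitePi fun _ : B => μ))
      (Measure.infinitePi fun _ : A ⊕ B => μ) := by
  have hm : Measurable (fun p : (A → X) × (B → X) => Sum.elim p.1 p.2) := by
    refine measurable_pi_lambda _ fun i => ?_
    cases i with
    | inl a => exact (measurable_pi_apply a).comp measurable_fst
    | inr b => exact (measurable_pi_apply b).comp measurable_snd
  refine ⟨hm, Measure.eq_infinitePi _ fun s t ht => ?_⟩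
  rw [Measure.map_apply hm (.pi s.countable_toSet fun i _ => ht i)]
  have : (fun p : (A → X) × (B → X) => Sum.elim p.1 p.2) ⁻¹' Set.pi (s : Set (A ⊕ B)) t =
      Set.pi (s.toLeft : Set A) (fun a => t (Sum.inl a)) ×ˢ
        Set.pi (s.toRight : Set B) (fun b => t (Sum.inr b)) := by
    ext p
    simp [Set.mem_pi]
  rw [this, Measure.prod_prod, Measure.infinitePi_pi _ (fun a _ => ht _),
    Measure.infinitePi_pi _ (fun a _ => ht _), Finset.prod_sum_eq_prod_toLeft_mul_prod_toRight]

/-! ### Noise on the edges -/

open Classical in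
/-- Rank of `v` among the neighbours of `u` for the keys `k`. -/
noncomputable def rank (G : SimpleGraph V) [G.LocallyFinite] (k : V → unitInterval) (u v : V) : ℕ :=
  ((G.neighborFinset u).filter fun a => k a < k v).card

open Classical in
/-- The contribution of the endpoint `u` to the noise of the pair `u v`. -/
noncomputable def half (G : SimpleGraph V) [G.LocallyFinite] (k : V → unitInterval)
    (t : V → ℕ → ℕ → ℝ) (u v : V) : ℕ → ℝ :=
  if k v < k u then t u (rank G k u v) else 0

/-- The noise on unordered pairs. -/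
noncomputable def noise (G : SimpleGraph V) [G.LocallyFinite] (k : V → unitInterval)
    (t : V → ℕ → ℕ → ℝ) : Sym2 V → ℕ → ℝ :=
  Sym2.lift ⟨fun u v => half G k t u v + half G k t v u, fun _ _ => add_comm _ _⟩

lemma noise_mk (k : V → unitInterval) (t : V → ℕ → ℕ → ℝ) (u v : V) :
    noise G k t s(u, v) = half G k t u v + half G k t v u := rfl

lemma rank_comp (g : G ≃g G) (k : V → unitInterval) (u v : V) :
    rank G (k ∘ g) u v = rank G k (g u) (g v) := by
  classical
  unfold rank
  refine Finset.card_equiv g.toEquiv fun a => ?_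
  simp only [Finset.mem_filter, SimpleGraph.mem_neighborFinset, Function.comp_apply]
  exact and_congr g.map_adj_iff.symm Iff.rfl

lemma noise_comp (g : G ≃g G) (k : V → unitInterval) (t : V → ℕ → ℕ → ℝ) (e : Sym2 V) :
    noise G (k ∘ g) (t ∘ g) e = noise G k t (e.map g) := by
  have h : ∀ u v, half G (k ∘ g) (t ∘ g) u v = half G k t (g u) (g v) := by
    intro u v
    unfold half
    rw [rank_comp]
    rfl
  induction e with
  | _ a b => simp only [Sym2.map_mk, noise_mk, h]

lemma measurable_noise : Measurable
    fun (p : (V → unitInterval) × (V → ℕ → ℕ → ℝ)) (e : G.edgeSet) => noise G p.1 p.2 e := by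
  classical
  have h1 : ∀ u v, Measurable
      fun (p : (V → unitInterval) × (V → ℕ → ℕ → ℝ)) => rank G p.1 u v := by
    intro u v
    simp only [rank, Finset.card_filter]
    refine Finset.measurable_sum _ fun a _ => ?_
    exact Measurable.ite (measurableSet_lt (by fun_prop) (by fun_prop)) measurable_const
      measurable_const
  have h2 : ∀ u v, Measurable
      fun (p : (V → unitInterval) × (V → ℕ → ℕ → ℝ)) => half G p.1 p.2 u v := by
    intro u v
    unfold half
    refine Measurable.ite (measurableSet_lt (by fun_prop) (by fun_prop)) ?_ measurable_const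
    have h3 : Measurable fun q : ((V → unitInterval) × (V → ℕ → ℕ → ℝ)) × ℕ => q.1.2 u q.2 :=
      measurable_from_prod_countable_left fun n =>
        (measurable_pi_apply n).comp ((measurable_pi_apply u).comp measurable_snd)
    exact h3.comp (measurable_id.prodMk (h1 u v))
  refine measurable_pi_lambda _ fun e => ?_
  obtain ⟨e, he⟩ := e
  induction e with
  | _ a b => exact (h2 a b).add (h2 b a)

lemma ae_injective [Countable V] :
    ∀ᵐ k ∂(Measure.infinitePi fun _ : V => (volume : Measure unitInterval)),
      Function.Injective k := by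
  have h : ∀ u v : V, ∀ᵐ k ∂(Measure.infinitePi fun _ : V => (volume : Measure unitInterval)),
      k u = k v → u = v := by
    intro u v
    by_cases huv : u = v
    · simp [huv]
    · have h1 := Measure.infinitePi_map_eval_prod
        (P := fun _ : V => (volume : Measure unitInterval)) huv
      have hm : MeasurableSet {p : unitInterval × unitInterval | p.1 = p.2} :=
        measurableSet_eq_fun measurable_fst measurable_snd
      have h2 : ((volume : Measure unitInterval).prod volume)
          {p : unitInterval × unitInterval | p.1 = p.2} = 0 := by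
        refine Measure.measure_prod_null_of_ae_null hm (ae_of_all _ fun x => ?_)
        have : Prod.mk x ⁻¹' {p : unitInterval × unitInterval | p.1 = p.2} = {x} := by
          ext y
          simp [eq_comm]
        simp only [this, measure_singleton, Pi.zero_apply]
      rw [← h1, Measure.map_apply (by fun_prop) hm] at h2
      rw [ae_iff]
      refine measure_mono_null (fun k hk => ?_) h2
      simp only [Classical.not_imp, Set.mem_ofPred_eq] at hk
      exact hk.1
  filter_upwards [ae_all_iff.2 fun u => ae_all_iff.2 fun v => h u v] with k hk u v huv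
  exact hk u v huv

lemma rank_lt (k : V → unitInterval) {u v v' : V}
    (hv : G.Adj u v) (h : k v < k v') : rank G k u v < rank G k u v' := by
  classical
  refine Finset.card_lt_card ⟨fun a ha => ?_, fun hc => ?_⟩
  · rw [Finset.mem_filter] at ha ⊢
    exact ⟨ha.1, ha.2.trans h⟩
  · have := hc (Finset.mem_filter.2 ⟨(SimpleGraph.mem_neighborFinset _ _ _).2 hv, h⟩)
    exact lt_irrefl _ (Finset.mem_filter.1 this).2

lemma map_noise_of_injective {k : V → unitInterval} (hk : Function.Injective k) :
    (Measure.infinitePi fun _ : V => PX ℕ).map (fun t (e : G.edgeSet) => noise G k t e) =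
      PX G.edgeSet := by
  have h1 : ∀ e : G.edgeSet, ∃ u v, (e : Sym2 V) = s(u, v) ∧ G.Adj u v ∧ k v < k u := by
    rintro ⟨e, he⟩
    induction e with
    | _ a b =>
      have hab : G.Adj a b := he
      rcases lt_or_gt_of_ne (hk.ne hab.ne) with h | h
      · exact ⟨b, a, Sym2.eq_swap, hab.symm, h⟩
      · exact ⟨a, b, rfl, hab, h⟩
  choose u v huv hadj hlt using h1
  have hf : Function.Injective fun e : G.edgeSet => (u e, rank G k (u e) (v e)) := fun e e' h => by
    simp only [Prod.mk.injEq] at h
    obtain ⟨h1, h2⟩ := h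
    have h3 : v e = v e' := by
      by_contra hne
      rw [← h1] at h2
      rcases lt_or_gt_of_ne (hk.ne hne) with h | h
      · exact (rank_lt k (hadj e) h).ne h2
      · exact (rank_lt k (h1 ▸ hadj e') h).ne' h2
    exact Subtype.ext (by rw [huv e, huv e', h1, h3])
  have h2 := ((mp_inj (gE ℕ) hf).comp (mp_uncurry V ℕ (gE ℕ))).map_eq
  refine Eq.trans ?_ h2
  congr 1
  funext t e
  rw [huv e, noise_mk]
  simp only [half, hlt e, if_true, (hlt e).not_gt, if_false, add_zero]
  rfl

lemma mp_noise [Countable V] : MeasurePreserving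
    (fun (p : (V → unitInterval) × (V → ℕ → ℕ → ℝ)) (e : G.edgeSet) => noise G p.1 p.2 e)
    ((Measure.infinitePi fun _ : V => (volume : Measure unitInterval)).prod
      (Measure.infinitePi fun _ : V => PX ℕ)) (PX G.edgeSet) := by
  have hm := measurable_noise (G := G)
  refine ⟨hm, ?_⟩
  ext A hA
  rw [Measure.map_apply hm hA, Measure.prod_apply (hm hA)]
  have : ∀ᵐ k ∂(Measure.infinitePi fun _ : V => (volume : Measure unitInterval)),
      (Measure.infinitePi fun _ : V => PX ℕ) (Prod.mk k ⁻¹'
      ((fun (p : (V → unitInterval) × (V → ℕ → ℕ → ℝ)) (e : G.edgeSet) => noise G p.1 p.2 e)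
        ⁻¹' A)) = PX G.edgeSet A := by
    filter_upwards [ae_injective] with k hk
    rw [← map_noise_of_injective hk]
    exact (Measure.map_apply (hm.comp measurable_prodMk_left) hA).symm
  rw [lintegral_congr_ae this]
  simp

/-! ### Dyadic refinement -/

/-- Even positions come from the left, odd positions from the right. -/
def idx (n : ℕ) : ℕ ⊕ ℕ := if n % 2 = 0 then Sum.inl (n / 2) else Sum.inr (n / 2)

lemma idx_injective : Function.Injective idx := by
  intro n m h
  unfold idx at h
  split_ifs at h with h1 h2 h2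
  · have := Sum.inl_injective h
    omega
  · have := Sum.inr_injective h
    omega

/-- Interleaving of two sequences. -/
def merge (p : (ℕ → ℝ) × (ℕ → ℝ)) (n : ℕ) : ℝ := Sum.elim p.1 p.2 (idx n)

lemma merge_even (p : (ℕ → ℝ) × (ℕ → ℝ)) (k : ℕ) : merge p (2 * k) = p.1 k := by
  simp [merge, idx]

lemma merge_odd (p : (ℕ → ℝ) × (ℕ → ℝ)) (k : ℕ) : merge p (2 * k + 1) = p.2 k := by
  have : (2 * k + 1) / 2 = k := by omega
  simp [merge, idx, this]

lemma mp_merge : MeasurePreserving merge ((gE ℕ).prod (gE ℕ)) (gE ℕ) :=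
  (mp_inj (gaussianReal 0 1) idx_injective).comp (mp_elim ℕ ℕ (gaussianReal 0 1))

/-- The even and odd subsequences. -/
def split (w : ℕ → ℝ) : (ℕ → ℝ) × (ℕ → ℝ) := (fun k => w (2 * k), fun k => w (2 * k + 1))

lemma mp_split : MeasurePreserving split (gE ℕ) ((gE ℕ).prod (gE ℕ)) := by
  have hm : Measurable split := by
    unfold split
    fun_prop
  refine ⟨hm, ?_⟩
  conv_lhs => rw [← mp_merge.map_eq]
  rw [Measure.map_map hm mp_merge.measurable]
  have : split ∘ merge = id := by
    funext p
    simp only [Function.comp_apply, split, merge_even, merge_odd, id]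
  rw [this, Measure.map_id]

/-- The rotation by a quarter of `π`, composed with a reflection. -/
noncomputable def rot (p : ℝ × ℝ) : ℝ × ℝ := ((p.1 + p.2) / √2, (p.1 - p.2) / √2)

lemma mp_rot : MeasurePreserving rot ((gaussianReal 0 1).prod (gaussianReal 0 1))
    ((gaussianReal 0 1).prod (gaussianReal 0 1)) := by
  have h1 : MeasurePreserving (ContinuousLinearMap.rotation (E := ℝ) (Real.pi / 4))
      ((gaussianReal 0 1).prod (gaussianReal 0 1)) ((gaussianReal 0 1).prod (gaussianReal 0 1)) :=
    ⟨by fun_prop, IsGaussian.map_rotation_eq_self (by simp) _⟩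
  have h2 := h1.comp (Measure.measurePreserving_swap (μ := gaussianReal 0 1)
    (ν := gaussianReal 0 1))
  have h3 : √2 / 2 = (√2)⁻¹ := by
    have : √2 ≠ 0 := by positivity
    field_simp
    exact Real.sq_sqrt (by norm_num)
  convert h2 using 1
  funext p
  simp only [rot, Function.comp_apply, ContinuousLinearMap.rotation_apply, Real.cos_pi_div_four,
    Real.sin_pi_div_four, h3, Prod.fst_swap, Prod.snd_swap, smul_eq_mul]
  ext <;> simp only [] <;> ring

/-- Coordinatewise rotation. -/
noncomputable def rotP (p : (ℕ → ℝ) × (ℕ → ℝ)) : (ℕ → ℝ) × (ℕ → ℝ) :=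
  (fun k => (p.1 k + p.2 k) / √2, fun k => (p.1 k - p.2 k) / √2)

lemma mp_rotP : MeasurePreserving rotP ((gE ℕ).prod (gE ℕ)) ((gE ℕ).prod (gE ℕ)) :=
  (mp_unzip ℕ (gaussianReal 0 1) (gaussianReal 0 1)).comp
    ((mp_pi ℕ mp_rot).comp (mp_zip ℕ (gaussianReal 0 1) (gaussianReal 0 1)))

/-- One refinement step: the state is (current level, reservoir). -/
noncomputable def step (s : (ℕ → ℝ) × (ℕ → ℝ)) : (ℕ → ℝ) × (ℕ → ℝ) :=
  (merge (rotP (s.1, (split s.2).1)), (split s.2).2)

lemma mp_step : MeasurePreserving step ((gE ℕ).prod (gE ℕ)) ((gE ℕ).prod (gE ℕ)) :=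
  ((mp_merge.comp mp_rotP).prod (MeasurePreserving.id (gE ℕ))).comp
    ((measurePreserving_prodAssoc (gE ℕ) (gE ℕ) (gE ℕ)).symm.comp
      ((MeasurePreserving.id (gE ℕ)).prod mp_split))

end Noise

open Noise

theorem exists_noise (hc : G.Connected) :
    ∃ (W : (V → unitInterval) → G.edgeSet → ℕ → ℝ) (U : (V → unitInterval) → V → unitInterval),
      Measurable W ∧ Measurable U ∧
      (∀ (g : G ≃g G) x, W (x ∘ g) = W x ∘ g.mapEdgeSet) ∧
      (∀ (g : G ≃g G) x, U (x ∘ g) = U x ∘ g) ∧
      (Crest.ProbabilityR.Labels.labelMeasure V).map (fun x => (W x, U x)) =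
        (PX G.edgeSet).prod (Crest.ProbabilityR.Labels.labelMeasure V) := by
  have := countable_of_connected hc
  obtain ⟨ψ, hψ, hψ'⟩ := Measure.exists_measurable_map_eq
    (((volume : Measure unitInterval).prod (PX ℕ)).prod (volume : Measure unitInterval))
  have h0 : MeasurePreserving ψ volume _ := ⟨hψ, hψ'⟩
  have h1 := ((mp_noise (G := G)).comp (mp_unzip V volume (PX ℕ))).prod
    (MeasurePreserving.id (Measure.infinitePi fun _ : V => (volume : Measure unitInterval)))
  have h2 := h1.comp ((mp_unzip V _ _).comp (mp_pi V h0))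
  refine ⟨fun x e => noise G (fun v => (ψ (x v)).1.1) (fun v => (ψ (x v)).1.2) e,
    fun x v => (ψ (x v)).2, measurable_fst.comp h2.measurable, measurable_snd.comp h2.measurable,
    fun g x => ?_, fun g x => rfl, h2.map_eq⟩
  funext e
  exact noise_comp g (fun v => (ψ (x v)).1.1) (fun v => (ψ (x v)).1.2) e

theorem exists_lev : ∃ lev : ℕ → (ℕ → ℝ) → ℕ → ℝ, (∀ p, Measurable (lev p)) ∧
    (∀ p w k, lev p w k = (lev (p + 1) w (2 * k) + lev (p + 1) w (2 * k + 1)) / √2) ∧
    ∀ (E : Type u) (p : ℕ), (PX E).map (fun w k e => lev p (w e) k) = PN E := by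
  have h1 : ∀ p, MeasurePreserving (fun w => (step^[p] (split w)).1) (gE ℕ) (gE ℕ) := fun p =>
    measurePreserving_fst.comp ((mp_step.iterate p).comp mp_split)
  refine ⟨fun p w => (step^[p] (split w)).1, fun p => (h1 p).measurable, fun p w k => ?_,
    fun E p => ?_⟩
  · simp only [Function.iterate_succ_apply', step, merge_even, merge_odd, rotP]
    have h2 : √2 ≠ 0 := by positivity
    have h3 : √2 ^ 2 = 2 := Real.sq_sqrt (by norm_num)
    field_simp
    rw [h3]
    ring
  · exact ((mp_curry ℕ E (gaussianReal 0 1)).comp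
      ((mp_inj (gaussianReal 0 1) (Prod.swap_injective (α := ℕ) (β := E))).comp
        ((mp_uncurry E ℕ (gaussianReal 0 1)).comp (mp_pi E (h1 p))))).map_eq

end Crest.Agent.R160
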