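import Mathlib

/-!
Row 160, subtask B: the Efron-Stein decomposition on an infinite product space.
-/

set_option autoImplicit false
set_option linter.unusedSectionVars false
set_option linter.unusedVariables false
set_option maxHeartbeats 400000

open MeasureTheory ProbabilityTheory

namespace Crest.Agent.R160.ES

variable {I : Type*} [DecidableEq I]

/-- Moebius transform on finite sets. -/
noncomputable def mob (φ : Finset I → ℝ) (S : Finset I) : ℝ :=
  ∑ T ∈ S.powerset, (-1 : ℝ) ^ (S.card + T.card) * φ T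

lemma mob_insert (φ : Finset I → ℝ) {a : I} {S : Finset I} (ha : a ∉ S) :
    mob φ (insert a S) = mob (fun T => φ (insert a T)) S - mob φ S := by
  unfold mob
  rw [Finset.sum_powerset_insert ha, ← Finset.sum_sub_distrib, ← Finset.sum_add_distrib]
  refine Finset.sum_congr rfl fun T hT => ?_
  have haT : a ∉ T := fun h => ha (Finset.mem_powerset.mp hT h)
  rw [Finset.card_insert_of_notMem ha, Finset.card_insert_of_notMem haT]
  ring

lemma sum_mob (φ : Finset I → ℝ) (L : Finset I) : ∑ S ∈ L.powerset, mob φ S = φ L := by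
  induction L using Finset.induction_on generalizing φ with
  | empty => simp [mob]
  | insert a L ha ih =>
    rw [Finset.sum_powerset_insert ha, ← Finset.sum_add_distrib, ← ih fun T => φ (insert a T)]
    refine Finset.sum_congr rfl fun S hS => ?_
    rw [mob_insert φ fun h => ha (Finset.mem_powerset.mp hS h)]
    ring

lemma mob_eq_zero (φ : Finset I → ℝ) {a : I} {S : Finset I} (ha : a ∈ S)
    (h : ∀ T, φ (insert a T) = φ T) : mob φ S = 0 := by
  rw [← Finset.insert_erase ha, mob_insert φ (Finset.notMem_erase a S)]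
  simp [h]

variable {X : Type} [MeasurableSpace X] (μ : Measure X) [IsProbabilityMeasure μ]

/-- The product measure. -/
noncomputable abbrev PP (I : Type*) (μ : Measure X) [IsProbabilityMeasure μ] : Measure (I → X) :=
  Measure.infinitePi fun _ : I => μ

lemma measurable_pw (T : Finset I) :
    Measurable fun p : (I → X) × (I → X) => T.piecewise p.1 p.2 := by
  refine measurable_pi_lambda _ fun i => ?_
  by_cases hi : i ∈ T
  · simp only [Finset.piecewise, hi, if_true]; fun_prop
  · simp only [Finset.piecewise, hi, if_false]; fun_prop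

lemma mp_pw (T : Finset I) :
    MeasurePreserving (fun p : (I → X) × (I → X) => T.piecewise p.1 p.2)
      ((PP I μ).prod (PP I μ)) (PP I μ) := by
  refine ⟨measurable_pw T, Measure.eq_infinitePi _ fun s t ht => ?_⟩
  rw [Measure.map_apply (measurable_pw T) (MeasurableSet.pi s.countable_toSet fun i _ => ht i)]
  have : (fun p : (I → X) × (I → X) => T.piecewise p.1 p.2) ⁻¹' Set.pi s t =
      Set.pi (s.filter (· ∈ T)) t ×ˢ Set.pi (s.filter (· ∉ T)) t := by
    ext p
    simp only [Set.mem_preimage, Set.mem_pi, Finset.mem_coe, Set.mem_prod, Finset.mem_filter,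
      Finset.piecewise]
    constructor
    · intro h
      refine ⟨fun i hi => ?_, fun i hi => ?_⟩
      · simpa [hi.2] using h i hi.1
      · simpa [hi.2] using h i hi.1
    · intro h i hi
      by_cases hT : i ∈ T
      · simpa [hT] using h.1 i ⟨hi, hT⟩
      · simpa [hT] using h.2 i ⟨hi, hT⟩
  rw [this, Measure.prod_prod, Measure.infinitePi_pi _ fun i _ => ht i,
    Measure.infinitePi_pi _ fun i _ => ht i, Finset.prod_filter_mul_prod_filter_not]

lemma mp_comp (σ : I ≃ I) : MeasurePreserving (fun w : I → X => w ∘ σ) (PP I μ) (PP I μ) := by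
  have hm : Measurable fun w : I → X => w ∘ σ := measurable_pi_lambda _ fun i => by fun_prop
  refine ⟨hm, Measure.eq_infinitePi _ fun s t ht => ?_⟩
  rw [Measure.map_apply hm (MeasurableSet.pi s.countable_toSet fun i _ => ht i)]
  have : (fun w : I → X => w ∘ σ) ⁻¹' Set.pi s t =
      Set.pi (s.map σ.toEmbedding) fun i => t (σ.symm i) := by
    ext w
    simp only [Set.mem_preimage, Set.mem_pi, Finset.mem_coe, Function.comp_apply,
      Finset.mem_map_equiv]
    exact ⟨fun h i hi => by simpa using h _ hi, fun h i hi => by simpa using h (σ i) (by simpa)⟩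
  rw [this, Measure.infinitePi_pi _ fun i _ => ht _, Finset.prod_map]
  simp

/-- Bounded measurable functions. -/
def BM {Ω : Type*} [MeasurableSpace Ω] (F : Ω → ℝ) : Prop :=
  Measurable F ∧ ∃ M, ∀ w, |F w| ≤ M

section BM
variable {Ω : Type*} [MeasurableSpace Ω] {F G : Ω → ℝ}

lemma BM.integrable (h : BM F) (ν : Measure Ω) [IsFiniteMeasure ν] : Integrable F ν := by
  obtain ⟨hm, M, hM⟩ := h
  exact Integrable.of_bound hm.aestronglyMeasurable M (Filter.Eventually.of_forall hM)

lemma BM.mul (hF : BM F) (hG : BM G) : BM fun w => F w * G w := by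
  obtain ⟨hm, M, hM⟩ := hF
  obtain ⟨hm', M', hM'⟩ := hG
  refine ⟨hm.mul hm', M * M', fun w => ?_⟩
  rw [abs_mul]
  exact mul_le_mul (hM w) (hM' w) (abs_nonneg _) ((abs_nonneg _).trans (hM w))

lemma BM.add (hF : BM F) (hG : BM G) : BM fun w => F w + G w := by
  obtain ⟨hm, M, hM⟩ := hF
  obtain ⟨hm', M', hM'⟩ := hG
  exact ⟨hm.add hm', M + M', fun w => (abs_add_le _ _).trans (add_le_add (hM w) (hM' w))⟩

lemma BM.const (c : ℝ) : BM fun _ : Ω => c := ⟨measurable_const, |c|, fun _ => le_rfl⟩

lemma BM.sum {ι : Type*} (s : Finset ι) {F : ι → Ω → ℝ} (h : ∀ i ∈ s, BM (F i)) :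
    BM fun w => ∑ i ∈ s, F i w := by
  classical
  induction s using Finset.induction_on with
  | empty => simpa using BM.const (Ω := Ω) 0
  | insert a s ha ih =>
    simp only [Finset.sum_insert ha]
    exact (h a (Finset.mem_insert_self _ _)).add (ih fun i hi => h i (Finset.mem_insert_of_mem hi))

lemma BM.comp {Ω' : Type*} [MeasurableSpace Ω'] (hF : BM F) {f : Ω' → Ω} (hf : Measurable f) :
    BM fun w => F (f w) := by
  obtain ⟨hm, M, hM⟩ := hF
  exact ⟨hm.comp hf, M, fun w => hM _⟩

end BM

/-- Conditional expectation given the coordinates in `T`. -/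
noncomputable def E (T : Finset I) (F : (I → X) → ℝ) (w : I → X) : ℝ :=
  ∫ w', F (T.piecewise w w') ∂PP I μ

variable {F G H : (I → X) → ℝ}

lemma BM.E (hF : BM F) (T : Finset I) : BM (E μ T F) := by
  obtain ⟨hm, M, hM⟩ := hF
  refine ⟨?_, M, fun w => ?_⟩
  · exact ((hm.comp (measurable_pw T)).stronglyMeasurable.integral_prod_right').measurable
  · have := norm_integral_le_of_norm_le_const (μ := PP I μ)
      (f := fun w' => F (T.piecewise w w')) (C := M) (Filter.Eventually.of_forall fun w' => hM _)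
    simpa [ES.E] using this

lemma integral_pw (hF : BM F) (T : Finset I) :
    ∫ w, ∫ w', F (T.piecewise w w') ∂PP I μ ∂PP I μ = ∫ w, F w ∂PP I μ := by
  rw [← integral_prod _ ((hF.comp (measurable_pw T)).integrable _)]
  have := (mp_pw μ T).map_eq
  conv_rhs => rw [← this]
  rw [integral_map (measurable_pw T).aemeasurable hF.1.aestronglyMeasurable]

lemma integral_mul_dep (hF : BM F) (hH : BM H) {S : Finset I} (hd : DependsOn H (S : Set I)) :
    ∫ w, F w * H w ∂PP I μ = ∫ w, E μ S F w * H w ∂PP I μ := by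
  rw [← integral_pw μ (hF.mul hH) S]
  refine integral_congr_ae (Filter.Eventually.of_forall fun w => ?_)
  simp only [E]
  rw [← integral_mul_const]
  refine integral_congr_ae (Filter.Eventually.of_forall fun w' => ?_)
  simp only
  rw [hd (y := w) fun i hi => by simp [Finset.piecewise, Finset.mem_coe.mp hi]]

lemma E_E (hF : BM F) (S T : Finset I) (w : I → X) :
    E μ S (E μ T F) w = E μ (T ∩ S) F w := by
  have hm : Measurable fun w' : I → X => (T ∩ S).piecewise w w' :=
    (measurable_pw (T ∩ S)).comp (measurable_const.prodMk measurable_id)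
  have := integral_pw μ (hF.comp hm) T
  simp only [E]
  rw [← this]
  congr 1
  funext w'
  congr 1
  funext w''
  congr 1
  funext i
  by_cases hS : i ∈ S <;> by_cases hT : i ∈ T <;> simp [Finset.piecewise, hS, hT]

lemma E_dep (T : Finset I) (F : (I → X) → ℝ) : DependsOn (E μ T F) (T : Set I) := by
  intro x y h
  simp only [E]
  congr 1
  funext w'
  congr 1
  funext i
  by_cases hT : i ∈ T
  · simp [Finset.piecewise, hT, h i hT]
  · simp [Finset.piecewise, hT]

lemma E_of_dep {L : Finset I} (hd : DependsOn F (L : Set I)) (w : I → X) : E μ L F w = F w := by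
  have : ∀ w', F (L.piecewise w w') = F w := fun w' =>
    hd fun i hi => by simp [Finset.piecewise, Finset.mem_coe.mp hi]
  simp [E, this]

lemma E_insert {L : Finset I} (hd : DependsOn F (L : Set I)) {a : I} (ha : a ∉ L) (T : Finset I)
    (w : I → X) : E μ (insert a T) F w = E μ T F w := by
  simp only [E]
  congr 1
  funext w'
  refine hd fun i hi => ?_
  have : i ≠ a := fun h => ha (h ▸ hi)
  simp [Finset.piecewise, this]

/-- The Efron-Stein component. -/
noncomputable def C (S : Finset I) (F : (I → X) → ℝ) (w : I → X) : ℝ :=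
  mob (fun T => E μ T F w) S

lemma BM.C (hF : BM F) (S : Finset I) : BM (C μ S F) :=
  BM.sum _ fun T _ => (BM.const _).mul (hF.E μ T)

lemma C_dep (S : Finset I) (F : (I → X) → ℝ) : DependsOn (C μ S F) (S : Set I) := by
  intro x y h
  simp only [C, mob]
  refine Finset.sum_congr rfl fun T hT => ?_
  rw [E_dep μ T F fun i hi => h i (Finset.mem_powerset.mp hT hi)]

lemma sum_C {L : Finset I} (hd : DependsOn F (L : Set I)) (w : I → X) :
    ∑ S ∈ L.powerset, C μ S F w = F w := by
  simp only [C]
  rw [sum_mob, E_of_dep μ hd]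

lemma C_eq_zero {L : Finset I} (hd : DependsOn F (L : Set I)) {S : Finset I} (hS : ¬ S ⊆ L)
    (w : I → X) : C μ S F w = 0 := by
  obtain ⟨a, ha, ha'⟩ := Finset.not_subset.mp hS
  exact mob_eq_zero _ ha fun T => E_insert μ hd ha' T w

lemma C_empty (F : (I → X) → ℝ) (w : I → X) : C μ ∅ F w = ∫ w', F w' ∂PP I μ := by
  simp [C, mob, E]

lemma orth_aux (hF : BM F) (hH : BM H) {S S' : Finset I} (hd : DependsOn H (S' : Set I))
    (hS : ¬ S ⊆ S') : ∫ w, C μ S F w * H w ∂PP I μ = 0 := by
  obtain ⟨a, ha, ha'⟩ := Finset.not_subset.mp hS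
  have h1 : ∫ w, C μ S F w * H w ∂PP I μ = mob (fun T => ∫ w, E μ T F w * H w ∂PP I μ) S := by
    simp only [C, mob, Finset.sum_mul]
    rw [integral_finsetSum _ fun T _ => (((BM.const _).mul (hF.E μ T)).mul hH).integrable _]
    refine Finset.sum_congr rfl fun T _ => ?_
    rw [← integral_const_mul]
    simp only [mul_assoc]
  rw [h1]
  refine mob_eq_zero _ ha fun T => ?_
  rw [integral_mul_dep μ (hF.E μ _) hH hd, integral_mul_dep μ (hF.E μ T) hH hd]
  simp only [E_E μ hF, Finset.insert_inter_of_notMem ha']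

lemma orth (hF : BM F) (hG : BM G) {S S' : Finset I} (h : S ≠ S') :
    ∫ w, C μ S F w * C μ S' G w ∂PP I μ = 0 := by
  by_cases h1 : S ⊆ S'
  · have h2 : ¬ S' ⊆ S := fun h2 => h (Finset.Subset.antisymm h1 h2)
    simp only [mul_comm (C μ S F _)]
    exact orth_aux μ hG (hF.C μ S) (C_dep μ S F) h2
  · exact orth_aux μ hF (hG.C μ S') (C_dep μ S' G) h1

lemma parseval (hF : BM F) (hG : BM G) {L : Finset I} (hdF : DependsOn F (L : Set I))
    (hdG : DependsOn G (L : Set I)) :
    ∫ w, F w * G w ∂PP I μ = ∑ S ∈ L.powerset, ∫ w, C μ S F w * C μ S G w ∂PP I μ := by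
  have : ∀ w, F w * G w = ∑ S ∈ L.powerset, ∑ S' ∈ L.powerset, C μ S F w * C μ S' G w :=
    fun w => by rw [← Finset.sum_mul_sum, sum_C μ hdF, sum_C μ hdG]
  simp only [this]
  rw [integral_finsetSum _ fun S _ =>
    (BM.sum _ fun S' _ => (hF.C μ S).mul (hG.C μ S')).integrable _]
  refine Finset.sum_congr rfl fun S hS => ?_
  rw [integral_finsetSum _ fun S' _ => ((hF.C μ S).mul (hG.C μ S')).integrable _]
  exact Finset.sum_eq_single_of_mem S hS fun S' _ h => orth μ hF hG h.symm

/-- The spectral mass of `S`. -/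
noncomputable def mass (S : Finset I) (F : (I → X) → ℝ) : ℝ := ∫ w, C μ S F w * C μ S F w ∂PP I μ

lemma mass_nonneg (S : Finset I) (F : (I → X) → ℝ) : 0 ≤ mass μ S F :=
  integral_nonneg fun w => mul_self_nonneg _

lemma mass_eq_zero {L : Finset I} (hd : DependsOn F (L : Set I)) {S : Finset I} (hS : ¬ S ⊆ L) :
    mass μ S F = 0 := by
  simp [mass, C_eq_zero μ hd hS]

lemma cross_le (hF : BM F) (hG : BM G) (S : Finset I) {t : ℝ} (ht : 0 < t) :
    ∫ w, C μ S F w * C μ S G w ∂PP I μ ≤ (t * mass μ S F + t⁻¹ * mass μ S G) / 2 := by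
  have h1 := ((hF.C μ S).mul (hF.C μ S)).integrable (PP I μ)
  have h2 := ((hG.C μ S).mul (hG.C μ S)).integrable (PP I μ)
  simp only [mass]
  rw [← integral_const_mul, ← integral_const_mul, ← integral_add (h1.const_mul _) (h2.const_mul _),
    ← integral_div]
  refine integral_mono (((hF.C μ S).mul (hG.C μ S)).integrable _)
    (((h1.const_mul _).add (h2.const_mul _)).div_const _) fun w => ?_
  simp only
  set x := C μ S F w
  set y := C μ S G w
  have : (t * (x * x) + t⁻¹ * (y * y)) / 2 - x * y = (t * x - y) ^ 2 / (2 * t) := by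
    field_simp; ring
  have h3 : 0 ≤ (t * x - y) ^ 2 / (2 * t) := by positivity
  linarith

lemma E_map (hF : BM F) (σ : I ≃ I) (T : Finset I) (w : I → X) :
    E μ (T.map σ.toEmbedding) (fun w => F (w ∘ σ)) w = E μ T F (w ∘ σ) := by
  have hm : Measurable fun w' : I → X => T.piecewise (w ∘ σ) w' :=
    (measurable_pw T).comp (measurable_const.prodMk measurable_id)
  simp only [E]
  have := (mp_comp μ σ).map_eq
  conv_rhs => rw [← this]
  rw [integral_map (mp_comp μ σ).measurable.aemeasurable (hF.comp hm).1.aestronglyMeasurable]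
  congr 1
  funext w'
  congr 1
  funext i
  by_cases hT : i ∈ T <;> simp [Finset.piecewise, hT]

lemma C_map (hF : BM F) (σ : I ≃ I) (S : Finset I) (w : I → X) :
    C μ (S.map σ.toEmbedding) (fun w => F (w ∘ σ)) w = C μ S F (w ∘ σ) := by
  simp only [C, mob]
  symm
  refine Finset.sum_bij (fun T _ => T.map σ.toEmbedding) ?_ ?_ ?_ ?_
  · intro T hT
    exact Finset.mem_powerset.mpr (Finset.map_subset_map.mpr (Finset.mem_powerset.mp hT))
  · intro T _ T' _ h
    exact Finset.map_injective _ h
  · intro T hT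
    obtain ⟨T', h1, h2⟩ := Finset.subset_map_iff.mp (Finset.mem_powerset.mp hT)
    exact ⟨T', Finset.mem_powerset.mpr h1, h2.symm⟩
  · intro T _
    rw [E_map μ hF, Finset.card_map, Finset.card_map]

lemma integral_comp (hF : Measurable F) (σ : I ≃ I) :
    ∫ w, F (w ∘ σ) ∂PP I μ = ∫ w, F w ∂PP I μ := by
  have := (mp_comp μ σ).map_eq
  conv_rhs => rw [← this]
  rw [integral_map (mp_comp μ σ).measurable.aemeasurable hF.aestronglyMeasurable]

lemma mass_map (hF : BM F) (σ : I ≃ I) (S : Finset I) :
    mass μ (S.map σ.toEmbedding) (fun w => F (w ∘ σ)) = mass μ S F := by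
  simp only [mass, C_map μ hF]
  exact integral_comp μ ((hF.C μ S).mul (hF.C μ S)).1 σ

/-! ### Spreading the spectral mass over vertices -/

variable {V : Type*} [DecidableEq V]

/-- The mass of `F` at the vertex `x`, when the mass of `S` is spread evenly over `vs S`. -/
noncomputable def q (vs : Finset I → Finset V) (F : (I → X) → ℝ) (x : V) : ℝ :=
  ∑' S : Finset I, if x ∈ vs S then mass μ S F / (vs S).card else 0

lemma q_eq (vs : Finset I → Finset V) {L : Finset I} (hd : DependsOn F (L : Set I)) (x : V) :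
    q μ vs F x = ∑ S ∈ L.powerset, if x ∈ vs S then mass μ S F / (vs S).card else 0 := by
  refine tsum_eq_sum fun S hS => ?_
  rw [mass_eq_zero μ hd fun h => hS (Finset.mem_powerset.mpr h)]
  simp

lemma q_nonneg (vs : Finset I → Finset V) (F : (I → X) → ℝ) (x : V) : 0 ≤ q μ vs F x :=
  tsum_nonneg fun S => by
    split_ifs
    · exact div_nonneg (mass_nonneg μ S F) (Nat.cast_nonneg _)
    · exact le_rfl

lemma sum_q_le (vs : Finset I → Finset V) (hF : BM F) {L : Finset I}
    (hd : DependsOn F (L : Set I)) (O : Finset V) :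
    ∑ x ∈ O, q μ vs F x ≤ ∫ w, F w * F w ∂PP I μ := by
  simp only [q_eq μ vs hd]
  rw [Finset.sum_comm, parseval μ hF hF hd hd]
  refine Finset.sum_le_sum fun S _ => ?_
  rw [← Finset.sum_filter, Finset.sum_const, nsmul_eq_mul]
  have h0 := mass_nonneg μ S F
  change _ ≤ mass μ S F
  have hc : ((O.filter (· ∈ vs S)).card : ℝ) ≤ (vs S).card := by
    exact_mod_cast Finset.card_le_card fun x hx => (Finset.mem_filter.mp hx).2
  rcases Nat.eq_zero_or_pos (vs S).card with h | h
  · simp [h, h0]
  · have h' : (0 : ℝ) < (vs S).card := by exact_mod_cast h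
    calc _ ≤ ((vs S).card : ℝ) * (mass μ S F / (vs S).card) :=
          mul_le_mul_of_nonneg_right hc (by positivity)
      _ = _ := by field_simp

lemma q_eq_zero (vs : Finset I → Finset V) {L : Finset I} (hd : DependsOn F (L : Set I))
    {W : Finset V} (hW : ∀ S ⊆ L, vs S ⊆ W) {x : V} (hx : x ∉ W) : q μ vs F x = 0 := by
  rw [q_eq μ vs hd]
  refine Finset.sum_eq_zero fun S hS => ?_
  rw [if_neg fun h => hx (hW S (Finset.mem_powerset.mp hS) h)]

lemma q_map (vs : Finset I → Finset V) (hF : BM F) (σ : I ≃ I) (g : V ≃ V)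
    (hvs : ∀ S, vs (S.map σ.toEmbedding) = (vs S).map g.toEmbedding) (x : V) :
    q μ vs (fun w => F (w ∘ σ)) (g x) = q μ vs F x := by
  simp only [q]
  rw [← (Equiv.finsetCongr σ).tsum_eq]
  refine tsum_congr fun S => ?_
  simp only [Equiv.finsetCongr_apply, hvs, mass_map μ hF, Finset.card_map]
  simp

lemma cov_le (vs : Finset I → Finset V) (hne : ∀ S, S.Nonempty → (vs S).Nonempty)
    (hF : BM F) (hG : BM G) {L : Finset I} (hdF : DependsOn F (L : Set I))
    (hdG : DependsOn G (L : Set I)) {W : Finset V} (hW : ∀ S ⊆ L, vs S ⊆ W)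
    (t : V → ℝ) (ht : ∀ x, 0 < t x) :
    ∫ w, F w * G w ∂PP I μ ≤ (∫ w, F w ∂PP I μ) * (∫ w, G w ∂PP I μ) +
      (∑ x ∈ W, t x * q μ vs F x + ∑ x ∈ W, (t x)⁻¹ * q μ vs G x) / 2 := by
  have key : ∀ S ∈ L.powerset, ∫ w, C μ S F w * C μ S G w ∂PP I μ ≤
      (if S = ∅ then (∫ w, F w ∂PP I μ) * (∫ w, G w ∂PP I μ) else 0) +
        ∑ x ∈ W, (t x * (if x ∈ vs S then mass μ S F / (vs S).card else 0) +
          (t x)⁻¹ * (if x ∈ vs S then mass μ S G / (vs S).card else 0)) / 2 := by
    intro S hS
    have hF0 := mass_nonneg μ S F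
    have hG0 := mass_nonneg μ S G
    by_cases h0 : S = ∅
    · subst h0
      simp only [C_empty, if_true, integral_const, probReal_univ, one_smul, le_add_iff_nonneg_right]
      refine Finset.sum_nonneg fun x _ => ?_
      have := ht x
      split_ifs <;> positivity
    · have hc : (0 : ℝ) < (vs S).card := by
        exact_mod_cast (hne S (Finset.nonempty_iff_ne_empty.mpr h0)).card_pos
      rw [if_neg h0, zero_add]
      calc ∫ w, C μ S F w * C μ S G w ∂PP I μ
          = ∑ x ∈ vs S, (∫ w, C μ S F w * C μ S G w ∂PP I μ) / (vs S).card := by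
            rw [Finset.sum_const, nsmul_eq_mul]; field_simp
        _ ≤ ∑ x ∈ vs S, (t x * (if x ∈ vs S then mass μ S F / (vs S).card else 0) +
              (t x)⁻¹ * (if x ∈ vs S then mass μ S G / (vs S).card else 0)) / 2 := by
            refine Finset.sum_le_sum fun x hx => ?_
            rw [if_pos hx, if_pos hx, div_le_iff₀ hc]
            refine (cross_le μ hF hG S (ht x)).trans (le_of_eq ?_)
            field_simp
        _ ≤ _ := by
            refine Finset.sum_le_sum_of_subset_of_nonneg (hW S (Finset.mem_powerset.mp hS))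
              fun x _ hx => ?_
            simp [hx]
  rw [parseval μ hF hG hdF hdG]
  refine (Finset.sum_le_sum key).trans (le_of_eq ?_)
  rw [Finset.sum_add_distrib, Finset.sum_ite_eq' L.powerset ∅, if_pos (by simp), Finset.sum_comm]
  congr 1
  simp only [q_eq μ vs hdF, q_eq μ vs hdG, Finset.mul_sum, ← Finset.sum_add_distrib,
    Finset.sum_div]

end Crest.Agent.R160.ES
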