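import Crest.Agent.R160.Tree
import Crest.Agent.R160.Temper1

/-!
Row 160, subtask B: decay of correlations of factors of i.i.d. edge labels on the regular tree.
-/

set_option autoImplicit false
set_option linter.unusedSectionVars false
set_option linter.unusedVariables false
set_option maxHeartbeats 400000

open MeasureTheory ProbabilityTheory Filter Topology
open scoped ENNReal

namespace Crest.Agent.R160

universe u
variable {V : Type u} {G : SimpleGraph V} [G.LocallyFinite] {b : ℕ}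
variable {X : Type} [MeasurableSpace X] (μ : Measure X) [IsProbabilityMeasure μ]

/-- Integrals of an equivariant family indexed by darts do not depend on the dart. -/
theorem integral_dart_eq (hT : G.IsTree) (K : Kids G b) (Ψ : G.Dart → (G.edgeSet → X) → ℝ)
    (hm : ∀ D, Measurable (Ψ D))
    (heq : ∀ (g : G ≃g G) D w, Ψ (mapD g D) w = Ψ D (w ∘ g.mapEdgeSet)) (D D' : G.Dart) :
    ∫ w, Ψ D w ∂Measure.infinitePi (fun _ : G.edgeSet => μ) =
      ∫ w, Ψ D' w ∂Measure.infinitePi (fun _ : G.edgeSet => μ) := by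
  classical
  obtain ⟨g, hg, -⟩ := exists_iso hT K D D' D.fst D'.fst (by simp)
    (by rw [SimpleGraph.dist_eq_one_iff_adj.mpr D.adj, SimpleGraph.dist_eq_one_iff_adj.mpr D'.adj])
  subst hg
  simp only [heq]
  exact (ES.integral_comp μ (hm D) g.mapEdgeSet).symm

/-- Integrals of an equivariant family indexed by vertices do not depend on the vertex. -/
theorem integral_vertex_eq (hT : G.IsTree) (K : Kids G b) (hreg : G.IsRegularOfDegree (b + 1))
    (Ψ : V → (G.edgeSet → X) → ℝ) (hm : ∀ x, Measurable (Ψ x))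
    (heq : ∀ (g : G ≃g G) x w, Ψ (g x) w = Ψ x (w ∘ g.mapEdgeSet)) (x x' : V) :
    ∫ w, Ψ x w ∂Measure.infinitePi (fun _ : G.edgeSet => μ) =
      ∫ w, Ψ x' w ∂Measure.infinitePi (fun _ : G.edgeSet => μ) := by
  classical
  have hex : ∀ y : V, ∃ D : G.Dart, D.fst = y := fun y => by
    have h : 0 < G.degree y := by rw [hreg.degree_eq y]; omega
    obtain ⟨z, hz⟩ := (G.degree_pos_iff_exists_adj y).mp h
    exact ⟨⟨(y, z), hz⟩, rfl⟩
  obtain ⟨D, rfl⟩ := hex x
  obtain ⟨D', rfl⟩ := hex x'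
  exact integral_dart_eq μ hT K (fun D => Ψ D.fst) (fun D => hm _) (fun g D w => heq g D.fst w) D D'

open Classical in
/-- The endpoints of a finite set of edges. -/
noncomputable def vsE (G : SimpleGraph V) (S : Finset G.edgeSet) : Finset V :=
  S.biUnion fun e => e.1.toFinset

omit [G.LocallyFinite] in
lemma mem_vsE {S : Finset G.edgeSet} {x : V} : x ∈ vsE G S ↔ ∃ e ∈ S, x ∈ e.1 := by
  classical
  simp [vsE]

omit [G.LocallyFinite] in
lemma vsE_nonempty {S : Finset G.edgeSet} (h : S.Nonempty) : (vsE G S).Nonempty := by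
  obtain ⟨e, he⟩ := h
  exact ⟨e.1.out.1, mem_vsE.mpr ⟨e, he, Sym2.out_fst_mem _⟩⟩

omit [G.LocallyFinite] in
lemma vsE_mono {S L : Finset G.edgeSet} (h : S ⊆ L) : vsE G S ⊆ vsE G L := fun x hx => by
  obtain ⟨e, he, hx⟩ := mem_vsE.mp hx
  exact mem_vsE.mpr ⟨e, h he, hx⟩

omit [G.LocallyFinite] in
lemma vsE_map (g : G ≃g G) (S : Finset G.edgeSet) :
    vsE G (S.map g.mapEdgeSet.toEmbedding) = (vsE G S).map g.toEquiv.toEmbedding := by
  ext x
  simp only [mem_vsE, Finset.mem_map, Equiv.coe_toEmbedding]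
  constructor
  · rintro ⟨_, ⟨e, he, rfl⟩, hx⟩
    have hx' : x ∈ Sym2.map g e.1 := hx
    obtain ⟨y, hy, rfl⟩ := Sym2.mem_map.mp hx'
    exact ⟨y, ⟨e, he, hy⟩, rfl⟩
  · rintro ⟨y, ⟨e, he, hy⟩, rfl⟩
    refine ⟨_, ⟨e, he, rfl⟩, ?_⟩
    change g y ∈ Sym2.map g e.1
    exact Sym2.mem_map.mpr ⟨y, hy, rfl⟩

open Classical in
lemma weighted_le (hT : G.IsTree) (K : Kids G b) (hb : 2 ≤ b) {C : ℝ} (hC0 : 0 ≤ C)
    (hC : ∀ (c c' : V) (j : ℕ) (S : Finset V), (∀ x ∈ S, G.dist x c = j) →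
      ∑ x ∈ S, (√b)⁻¹ ^ G.dist x c' ≤
        C * (G.dist c c' + 1) * (√b) ^ j * (√b)⁻¹ ^ G.dist c c')
    (Ψ : G.Dart → (G.edgeSet → X) → ℝ) (hm : ∀ D, ES.BM (Ψ D))
    (heq : ∀ (g : G ≃g G) D w, Ψ (mapD g D) w = Ψ D (w ∘ g.mapEdgeSet))
    (D : G.Dart) {L : Finset G.edgeSet} (hd : DependsOn (Ψ D) (L : Set G.edgeSet)) (c' : V) :
    ∑ x ∈ vsE G L, ((√b) ^ G.dist x D.fst * (√b)⁻¹ ^ G.dist x c') * ES.q μ (vsE G) (Ψ D) x ≤
      b * C * ((G.dist D.fst c' + 1) * (√b)⁻¹ ^ G.dist D.fst c') *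
        ∫ w, Ψ D w * Ψ D w ∂ES.PP G.edgeSet μ := by
  set W := vsE G L with hW
  set q := ES.q μ (vsE G) (Ψ D) with hq
  have hb0 : (0 : ℝ) < b := by exact_mod_cast (by omega : 0 < b)
  have hs : (0 : ℝ) < √b := Real.sqrt_pos.mpr hb0
  have hq0 : ∀ x, 0 ≤ q x := ES.q_nonneg μ _ _
  set A : ℕ → ℝ := fun j => ∑ y ∈ W with G.dist y D.fst = j, q y with hA
  have hA0 : ∀ j, 0 ≤ A j := fun j => Finset.sum_nonneg fun y _ => hq0 y
  have hpt : ∀ x, (b : ℝ) ^ G.dist x D.fst * q x ≤ b * A (G.dist x D.fst) := by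
    intro x
    obtain ⟨O, hO, hO'⟩ := exists_orbit hT K D x
    have h1 : ∀ x' ∈ O, q x' = q x := by
      intro x' hx'
      obtain ⟨g, hg, rfl⟩ := exists_iso hT K D D x x' (hO' x' hx').1.symm (hO' x' hx').2.symm
      have h2 : Ψ D = fun w => Ψ D (w ∘ g.mapEdgeSet) := by
        funext w
        rw [← heq, hg]
      have h3 := ES.q_map μ (vsE G) (hm D) g.mapEdgeSet g.toEquiv (vsE_map g) x
      rw [← h2] at h3
      exact h3
    have h2 : (O.card : ℝ) * q x ≤ A (G.dist x D.fst) := by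
      calc (O.card : ℝ) * q x = ∑ x' ∈ O, q x' := by
            rw [Finset.sum_congr rfl h1, Finset.sum_const, nsmul_eq_mul]
        _ = ∑ x' ∈ O with x' ∈ W, q x' := by
            rw [Finset.sum_filter]
            refine Finset.sum_congr rfl fun x' _ => ?_
            split_ifs with h
            · rfl
            · exact ES.q_eq_zero μ (vsE G) hd (fun S hS => vsE_mono hS) h
        _ ≤ _ := by
            refine Finset.sum_le_sum_of_subset_of_nonneg (fun y hy => ?_) fun y _ _ => hq0 y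
            rw [Finset.mem_filter] at hy ⊢
            exact ⟨hy.2, (hO' y hy.1).1⟩
    have h3 : (b : ℝ) ^ G.dist x D.fst ≤ b * O.card := by
      have h4 : b ^ G.dist x D.fst ≤ b * O.card := by
        calc b ^ G.dist x D.fst ≤ b ^ (G.dist x D.fst - 1 + 1) :=
              Nat.pow_le_pow_right (by omega) (by omega)
          _ = b * b ^ (G.dist x D.fst - 1) := by ring
          _ ≤ _ := Nat.mul_le_mul_left _ hO
      exact_mod_cast h4
    calc _ ≤ (b * O.card) * q x := mul_le_mul_of_nonneg_right h3 (hq0 x)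
      _ = b * (O.card * q x) := by ring
      _ ≤ _ := mul_le_mul_of_nonneg_left h2 hb0.le
  set k := G.dist D.fst c' with hk
  have hmaps : ∀ x ∈ W, G.dist x D.fst ∈ W.image fun x => G.dist x D.fst :=
    fun x hx => Finset.mem_image_of_mem _ hx
  rw [← Finset.sum_fiberwise_of_maps_to hmaps]
  have hsum : ∑ j ∈ W.image (fun x => G.dist x D.fst), A j ≤
      ∫ w, Ψ D w * Ψ D w ∂ES.PP G.edgeSet μ := by
    simp only [hA]
    rw [Finset.sum_fiberwise_of_maps_to hmaps]
    exact ES.sum_q_le μ (vsE G) (hm D) hd W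
  refine le_trans ?_ (mul_le_mul_of_nonneg_left hsum (by positivity))
  rw [Finset.mul_sum]
  refine Finset.sum_le_sum fun j _ => ?_
  have hbj : (√b : ℝ) ^ j * (√b) ^ j = (b : ℝ) ^ j := by
    rw [← mul_pow, Real.mul_self_sqrt hb0.le]
  have hsj : (0 : ℝ) < (√b) ^ j := by positivity
  calc ∑ x ∈ W with G.dist x D.fst = j,
        ((√b) ^ G.dist x D.fst * (√b)⁻¹ ^ G.dist x c') * q x
      ≤ ∑ x ∈ W with G.dist x D.fst = j, (√b)⁻¹ ^ G.dist x c' * (b * A j / (√b) ^ j) := by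
        refine Finset.sum_le_sum fun x hx => ?_
        have hx' := (Finset.mem_filter.mp hx).2
        have h1 := hpt x
        rw [hx'] at h1 ⊢
        have h2 : (√b) ^ j * q x ≤ b * A j / (√b) ^ j := by
          rw [le_div_iff₀ hsj]
          calc _ = ((√b : ℝ) ^ j * (√b) ^ j) * q x := by ring
            _ ≤ _ := by rw [hbj]; exact h1
        calc _ = (√b)⁻¹ ^ G.dist x c' * ((√b) ^ j * q x) := by ring
          _ ≤ _ := mul_le_mul_of_nonneg_left h2 (by positivity)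
    _ = (∑ x ∈ W with G.dist x D.fst = j, (√b)⁻¹ ^ G.dist x c') * (b * A j / (√b) ^ j) := by
        rw [Finset.sum_mul]
    _ ≤ (C * (k + 1) * (√b) ^ j * (√b)⁻¹ ^ k) * (b * A j / (√b) ^ j) := by
        have := hA0 j
        exact mul_le_mul_of_nonneg_right
          (hC D.fst c' j _ fun x hx => (Finset.mem_filter.mp hx).2) (by positivity)
    _ = _ := by field_simp

open Classical in
lemma cov_bound (hT : G.IsTree) (K : Kids G b) (hb : 2 ≤ b) {C : ℝ} (hC0 : 0 ≤ C)
    (hC : ∀ (c c' : V) (j : ℕ) (S : Finset V), (∀ x ∈ S, G.dist x c = j) →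
      ∑ x ∈ S, (√b)⁻¹ ^ G.dist x c' ≤
        C * (G.dist c c' + 1) * (√b) ^ j * (√b)⁻¹ ^ G.dist c c')
    (Ψ : G.Dart → (G.edgeSet → X) → ℝ) (hm : ∀ D, ES.BM (Ψ D))
    (hloc : ∀ D, ∃ S : Finset G.edgeSet, DependsOn (Ψ D) (S : Set G.edgeSet))
    (heq : ∀ (g : G ≃g G) D w, Ψ (mapD g D) w = Ψ D (w ∘ g.mapEdgeSet)) (D₀ D D' : G.Dart) :
    ∫ w, Ψ D w * Ψ D' w ∂ES.PP G.edgeSet μ ≤ (∫ w, Ψ D₀ w ∂ES.PP G.edgeSet μ) ^ 2 +
      b * C * ((G.dist D.fst D'.fst + 1) * (√b)⁻¹ ^ G.dist D.fst D'.fst) *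
        ∫ w, Ψ D₀ w ^ 2 ∂ES.PP G.edgeSet μ := by
  have hb0 : (0 : ℝ) < b := by exact_mod_cast (by omega : 0 < b)
  have hs : (0 : ℝ) < √b := Real.sqrt_pos.mpr hb0
  obtain ⟨S, hS⟩ := hloc D
  obtain ⟨S', hS'⟩ := hloc D'
  have hd : DependsOn (Ψ D) ((S ∪ S' : Finset G.edgeSet) : Set G.edgeSet) :=
    hS.mono (by simp)
  have hd' : DependsOn (Ψ D') ((S ∪ S' : Finset G.edgeSet) : Set G.edgeSet) :=
    hS'.mono (by simp)
  have h := ES.cov_le μ (vsE G) (fun S => vsE_nonempty) (hm D) (hm D') hd hd'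
    (W := vsE G (S ∪ S')) (fun S hS => vsE_mono hS)
    (fun x => (√b) ^ G.dist x D.fst * (√b)⁻¹ ^ G.dist x D'.fst) (fun x => by positivity)
  have h1 := weighted_le μ hT K hb hC0 hC Ψ hm heq D hd D'.fst
  have h2 := weighted_le μ hT K hb hC0 hC Ψ hm heq D' hd' D.fst
  have e1 : ∀ E : G.Dart, ∫ w, Ψ E w ∂ES.PP G.edgeSet μ = ∫ w, Ψ D₀ w ∂ES.PP G.edgeSet μ :=
    fun E => integral_dart_eq μ hT K Ψ (fun D => (hm D).1) heq E D₀
  have e2 : ∀ E : G.Dart, ∫ w, Ψ E w * Ψ E w ∂ES.PP G.edgeSet μ =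
      ∫ w, Ψ D₀ w ^ 2 ∂ES.PP G.edgeSet μ := fun E => by
    simp only [sq]
    exact integral_dart_eq μ hT K (fun D w => Ψ D w * Ψ D w) (fun D => ((hm D).mul (hm D)).1)
      (fun g D w => by rw [heq]) E D₀
  have e3 : ∀ x, ((√b : ℝ) ^ G.dist x D.fst * (√b)⁻¹ ^ G.dist x D'.fst)⁻¹ =
      (√b) ^ G.dist x D'.fst * (√b)⁻¹ ^ G.dist x D.fst := fun x => by
    simp only [inv_pow, mul_inv, inv_inv, mul_comm]
  simp only [e3] at h
  rw [e1 D, e1 D'] at h
  rw [e2] at h1 h2
  rw [SimpleGraph.dist_comm (u := D'.fst) (v := D.fst)] at h2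
  nlinarith

lemma sum_dist_le {g : ℕ → ℝ} (hg0 : ∀ k, 0 ≤ g k) (hg : Summable g) (i m : ℕ) :
    ∑ j ∈ Finset.range m, g (Nat.dist i j) ≤ 2 * ∑' k, g k := by
  rw [← Finset.sum_filter_add_sum_filter_not _ (· ≤ i), two_mul]
  refine add_le_add ?_ ?_
  · rw [← Finset.sum_image (f := g) (g := fun j => Nat.dist i j)]
    · exact hg.sum_le_tsum _ fun k _ => hg0 k
    · intro a ha a' ha' h
      simp only [Finset.coe_filter, Set.mem_ofPred_eq, Nat.dist] at ha ha' h
      omega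
  · rw [← Finset.sum_image (f := g) (g := fun j => Nat.dist i j)]
    · exact hg.sum_le_tsum _ fun k _ => hg0 k
    · intro a ha a' ha' h
      simp only [Finset.coe_filter, Set.mem_ofPred_eq, Nat.dist] at ha ha' h
      omega

lemma dist_take (hT : G.IsTree) (K : Kids G b) (D : G.Dart) (l : List (Fin b)) {i j : ℕ}
    (hi : i ≤ l.length) (hj : j ≤ l.length) :
    G.dist (K.down D (l.take i)).fst (K.down D (l.take j)).fst = Nat.dist i j := by
  wlog h : i ≤ j generalizing i j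
  · rw [SimpleGraph.dist_comm, this hj hi (by omega), Nat.dist_comm]
  have h1 : l.take j = l.take i ++ (l.take j).drop i := by
    conv_lhs => rw [← List.take_append_drop i (l.take j)]
    rw [List.take_take, min_eq_left h]
  rw [h1, K.down_append, dist_down_fst hT K (Or.inr rfl)]
  simp only [SimpleGraph.dist_self, List.length_drop, List.length_take, Nat.dist]
  omega

/-- Sums of a local equivariant field along a path have variance linear in the length. -/
theorem incoherence (hT : G.IsTree) (K : Kids G b) (hreg : G.IsRegularOfDegree (b + 1))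
    (hb : 2 ≤ b) : ∃ C : ℝ, 0 ≤ C ∧ ∀ Ψ : G.Dart → (G.edgeSet → X) → ℝ,
      (∀ D, Measurable (Ψ D)) → (∀ D w, |Ψ D w| ≤ 1) →
      (∀ D, ∃ S : Finset G.edgeSet, DependsOn (Ψ D) (S : Set G.edgeSet)) →
      (∀ (g : G ≃g G) D w, Ψ (mapD g D) w = Ψ D (w ∘ g.mapEdgeSet)) →
      ∀ (D₀ D : G.Dart) (l : List (Fin b)) (m : ℕ), m ≤ l.length + 1 →
        ∫ w, (∑ j ∈ Finset.range m, Ψ (K.down D (l.take j)) w) ^ 2
            ∂Measure.infinitePi (fun _ : G.edgeSet => μ) ≤
          C * m * ∫ w, Ψ D₀ w ^ 2 ∂Measure.infinitePi (fun _ : G.edgeSet => μ) +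
            (m : ℝ) ^ 2 * (∫ w, Ψ D₀ w ∂Measure.infinitePi (fun _ : G.edgeSet => μ)) ^ 2 := by
  classical
  obtain ⟨C, hC0, hC⟩ := schur_sum hT K hb
  have hb1 : (1 : ℝ) < b := by exact_mod_cast (by omega : 1 < b)
  have hs : (1 : ℝ) < √b := Real.lt_sqrt_of_sq_lt (by simpa using hb1)
  set g : ℕ → ℝ := fun k => ((k : ℝ) + 1) * (√b)⁻¹ ^ k with hg
  have hg0 : ∀ k, 0 ≤ g k := fun k => by simp only [hg]; positivity
  have hr : ‖(√b : ℝ)⁻¹‖ < 1 := by
    rw [Real.norm_eq_abs, abs_of_pos (by positivity)]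
    exact inv_lt_one_of_one_lt₀ hs
  have hgs : Summable g := by
    have h1 := summable_pow_mul_geometric_of_norm_lt_one 1 hr
    have h2 := summable_geometric_of_norm_lt_one hr
    refine (h1.add h2).congr fun k => ?_
    simp only [hg]
    ring
  have hT0 : 0 ≤ ∑' k, g k := tsum_nonneg hg0
  refine ⟨b * C * (2 * ∑' k, g k), by positivity, ?_⟩
  intro Ψ hm hbd hloc heq D₀ D l m hml
  have hBM : ∀ D, ES.BM (Ψ D) := fun D => ⟨hm D, 1, hbd D⟩
  set v := ∫ w, Ψ D₀ w ^ 2 ∂Measure.infinitePi (fun _ : G.edgeSet => μ) with hv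
  set M := ∫ w, Ψ D₀ w ∂Measure.infinitePi (fun _ : G.edgeSet => μ) with hM
  have hv0 : 0 ≤ v := integral_nonneg fun w => sq_nonneg _
  have hexp : ∫ w, (∑ j ∈ Finset.range m, Ψ (K.down D (l.take j)) w) ^ 2
      ∂Measure.infinitePi (fun _ : G.edgeSet => μ) = ∑ i ∈ Finset.range m, ∑ j ∈ Finset.range m,
        ∫ w, Ψ (K.down D (l.take i)) w * Ψ (K.down D (l.take j)) w ∂ES.PP G.edgeSet μ := by
    simp only [sq, Finset.sum_mul_sum]
    rw [integral_finsetSum _ fun i _ =>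
      (ES.BM.sum _ fun j _ => (hBM _).mul (hBM _)).integrable _]
    refine Finset.sum_congr rfl fun i _ => ?_
    exact integral_finsetSum _ fun j _ => ((hBM _).mul (hBM _)).integrable _
  rw [hexp]
  calc _ ≤ ∑ i ∈ Finset.range m, (m * M ^ 2 + b * C * (2 * ∑' k, g k) * v) := by
        refine Finset.sum_le_sum fun i hi => ?_
        calc _ ≤ ∑ j ∈ Finset.range m, (M ^ 2 + b * C * g (Nat.dist i j) * v) := by
              refine Finset.sum_le_sum fun j hj => ?_
              have h := cov_bound μ hT K hb hC0 hC Ψ hBM hloc heq D₀ (K.down D (l.take i))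
                (K.down D (l.take j))
              rw [dist_take hT K D l (by simp at hi; omega) (by simp at hj; omega)] at h
              exact h
          _ = m * M ^ 2 + b * C * (∑ j ∈ Finset.range m, g (Nat.dist i j)) * v := by
              rw [Finset.sum_add_distrib, Finset.sum_const, Finset.card_range, nsmul_eq_mul,
                Finset.mul_sum, Finset.sum_mul]
          _ ≤ _ := by
              have := sum_dist_le hg0 hgs i m
              gcongr
    _ = _ := by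
        rw [Finset.sum_const, Finset.card_range, nsmul_eq_mul]
        ring

end Crest.Agent.R160
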