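import Crest.Agent.R160.Approx
import Crest.Agent.R160.Temper
import Crest.Agent.R160.Noise

/-!
Row 160: the equivariant approximations of the magnetisation field.
-/

set_option autoImplicit false
set_option linter.unusedSectionVars false
set_option linter.unusedVariables false
set_option maxHeartbeats 400000

open MeasureTheory ProbabilityTheory Filter Topology
open scoped ENNReal

namespace Crest.Agent.R160

universe u

variable {V : Type u} {G : SimpleGraph V} [G.LocallyFinite] {b : ℕ}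

/-- The Euler scheme around `x` read at step `k` of the finer mesh `2^-P`. -/
noncomputable def YO (G : SimpleGraph V) [G.LocallyFinite] (β : ℝ) (R p n P : ℕ) (x : V) (k : ℕ)
    (z : ℕ → G.edgeSet → ℝ) : G.edgeSet → ℝ :=
  eul G (ball G x R) β p (2 ^ (p - n)) (crs (P - p) z) (k / 2 ^ (P - p))

lemma measurable_YO (β : ℝ) (R p n P : ℕ) (x : V) (k : ℕ) : Measurable (YO G β R p n P x k) :=
  (measurable_eul _ β _ _ _).comp (measurable_crs _)

/-- The data of the approximation scheme. -/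
structure Dat (G : SimpleGraph V) [G.LocallyFinite] (β : ℝ) : Type where
  lev : ℕ → (ℕ → ℝ) → ℕ → ℝ
  R : ℕ → ℕ
  p : ℕ → ℕ
  lev_meas : ∀ p, Measurable (lev p)
  lev_crs : ∀ p w k, lev p w k = (lev (p + 1) w (2 * k) + lev (p + 1) w (2 * k + 1)) / √2
  lev_law : ∀ p, (PX G.edgeSet).map (fun w k e => lev p (w e) k) = PN G.edgeSet
  one_le : ∀ n, 1 ≤ R n
  le_p : ∀ n, n ≤ p n
  apx : ∀ (n : ℕ) (Λ : Finset V), ∃ p₁ : ℕ, p n ≤ p₁ ∧ ∀ P ≥ p₁, ∀ x₀,
    ball G x₀ (R n) ⊆ Λ → ∀ k : ℕ, 2 ^ (P - n) ≤ k → k ≤ 2 ^ P →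
      ∫ ω, |mag G Λ (β * (1 - k / 2 ^ P)) (chain G Λ β P (2 ^ (P - n)) ω k) x₀ -
        mag G (ball G x₀ (R n)) (β * (1 - k / 2 ^ P))
          (YO G β (R n) (p n) n P x₀ k fun j => (ω j).1) x₀| ∂POm G.edgeSet ≤ 1 / (n + 1) ∧
      ∀ D : G.Dart, D.fst = x₀ →
        ∫ ω, |cav Λ (β * (1 - k / 2 ^ P)) (chain G Λ β P (2 ^ (P - n)) ω k) D -
          cav (ball G x₀ (R n)) (β * (1 - k / 2 ^ P))
            (YO G β (R n) (p n) n P x₀ k fun j => (ω j).1) D| ∂POm G.edgeSet ≤ 1 / (n + 1)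

theorem exists_dat (hT : G.IsTree) (K : Kids G b) (hreg : G.IsRegularOfDegree (b + 1))
    (hb : 2 ≤ b) {β : ℝ} (hβ : 0 ≤ β) (hθ : b * Real.tanh β ^ 2 ≤ 1) : Nonempty (Dat G β) := by
  obtain ⟨lev, h1, h2, h3⟩ := exists_lev.{u}
  choose R p hR hp h using fun n : ℕ => approx hT K hreg hb hβ hθ n
    (ε := 1 / (n + 1)) (by positivity)
  exact ⟨⟨lev, R, p, h1, h2, h3 _, hR, hp, h⟩⟩

namespace Dat

variable {β : ℝ} (d : Dat G β)

/-- The increments at mesh `2^-P`. -/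
def Z (P : ℕ) (w : G.edgeSet → ℕ → ℝ) : ℕ → G.edgeSet → ℝ := fun k e => d.lev P (w e) k

lemma measurable_Z (P : ℕ) : Measurable (d.Z P) :=
  measurable_pi_lambda _ fun k => measurable_pi_lambda _ fun e =>
    (measurable_pi_apply k).comp ((d.lev_meas P).comp (measurable_pi_apply e))

lemma lev_eq (p q : ℕ) (w : ℕ → ℝ) (k : ℕ) :
    d.lev p w k = (∑ i ∈ Finset.range (2 ^ q), d.lev (p + q) w (k * 2 ^ q + i)) / √(2 ^ q) := by
  induction q generalizing p k with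
  | zero => simp
  | succ q ih =>
    rw [d.lev_crs, ih (p + 1), ih (p + 1), pow_succ 2 q, mul_two, Finset.sum_range_add,
      pow_succ (2 : ℝ) q, Real.sqrt_mul (by positivity), ← add_div, div_div]
    have h1 : p + 1 + q = p + (q + 1) := by ring
    rw [h1]
    congr 2
    · exact Finset.sum_congr rfl fun i _ => by congr 1; ring
    · exact Finset.sum_congr rfl fun i _ => by congr 1; ring

lemma crs_Z {p P : ℕ} (h : p ≤ P) (w : G.edgeSet → ℕ → ℝ) : crs (P - p) (d.Z P w) = d.Z p w := by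
  obtain ⟨q, rfl⟩ := Nat.exists_eq_add_of_le h
  funext k e
  rw [Nat.add_sub_cancel_left, crs, Z, d.lev_eq p q]
  rfl

lemma transfer (P : ℕ) {Φ : (ℕ → G.edgeSet → ℝ) → ℝ} (hΦ : Measurable Φ) :
    ∫ ω, Φ (fun k => (ω k).1) ∂POm G.edgeSet = ∫ w, Φ (d.Z P w) ∂PX G.edgeSet := by
  rw [← integral_map (φ := fun (ω : ℕ → (G.edgeSet → ℝ) × unitInterval) k => (ω k).1)
    (Measurable.aemeasurable (by fun_prop)) hΦ.aestronglyMeasurable, POm_map_fst, ← d.lev_law P]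
  exact integral_map (d.measurable_Z P).aemeasurable hΦ.aestronglyMeasurable

/-- The Euler scheme around `x` at time `t`. -/
noncomputable def Y (n : ℕ) (x : V) (t : ℝ) (w : G.edgeSet → ℕ → ℝ) : G.edgeSet → ℝ :=
  eul G (ball G x (d.R n)) β (d.p n) (2 ^ (d.p n - n)) (d.Z (d.p n) w) ⌊t * 2 ^ d.p n⌋₊

/-- The approximate magnetisation. -/
noncomputable def M (n : ℕ) (t : ℝ) (x : V) (w : G.edgeSet → ℕ → ℝ) : ℝ :=
  mag G (ball G x (d.R n)) (β * (1 - t)) (d.Y n x t w) x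

/-- The approximate cavity magnetisation. -/
noncomputable def U (n : ℕ) (t : ℝ) (D : G.Dart) (w : G.edgeSet → ℕ → ℝ) : ℝ :=
  cav (ball G D.fst (d.R n)) (β * (1 - t)) (d.Y n D.fst t w) D

lemma YO_Z (n : ℕ) {P : ℕ} (hP : d.p n ≤ P) (x : V) (k : ℕ) (w : G.edgeSet → ℕ → ℝ) :
    YO G β (d.R n) (d.p n) n P x k (d.Z P w) = d.Y n x (k / 2 ^ P) w := by
  rw [YO, d.crs_Z hP, Y]
  congr 1
  obtain ⟨q, rfl⟩ := Nat.exists_eq_add_of_le hP
  have : (k : ℝ) / 2 ^ (d.p n + q) * 2 ^ d.p n = k / ((2 ^ q : ℕ) : ℝ) := by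
    rw [pow_add]
    push_cast
    field_simp
  rw [this, Nat.floor_div_eq_div, Nat.add_sub_cancel_left]

lemma measurable_Y (n : ℕ) (x : V) (t : ℝ) : Measurable (d.Y n x t) :=
  (measurable_eul _ β _ _ _).comp (d.measurable_Z _)

lemma measurable_M (n : ℕ) (t : ℝ) (x : V) : Measurable (d.M n t x) :=
  (measurable_mag _ _ x).comp (d.measurable_Y n x t)

lemma measurable_U (n : ℕ) (t : ℝ) (D : G.Dart) : Measurable (d.U n t D) :=
  (measurable_cav _ _ D).comp (d.measurable_Y n D.fst t)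

lemma abs_M_le (n : ℕ) (t : ℝ) (x : V) (w : G.edgeSet → ℕ → ℝ) : |d.M n t x w| ≤ 1 :=
  abs_mag_le _ _ _ _

lemma abs_U_le (n : ℕ) (t : ℝ) (D : G.Dart) (w : G.edgeSet → ℕ → ℝ) : |d.U n t D w| ≤ 1 :=
  abs_cav_le _ _ _ _

lemma Y_map (hc : G.Connected) (g : G ≃g G) (n : ℕ) (x : V) (t : ℝ) (w : G.edgeSet → ℕ → ℝ) :
    d.Y n (g x) t w ∘ g.mapEdgeSet = d.Y n x t (w ∘ g.mapEdgeSet) := by
  rw [Y, ball_map hc, eul_map]
  rfl

lemma M_map (hc : G.Connected) (g : G ≃g G) (n : ℕ) (t : ℝ) (x : V) (w : G.edgeSet → ℕ → ℝ) :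
    d.M n t (g x) w = d.M n t x (w ∘ g.mapEdgeSet) := by
  rw [M, M, ← d.Y_map hc, ball_map hc, mag_map]

lemma U_map (hc : G.Connected) (g : G ≃g G) (n : ℕ) (t : ℝ) (D : G.Dart)
    (w : G.edgeSet → ℕ → ℝ) : d.U n t (mapD g D) w = d.U n t D (w ∘ g.mapEdgeSet) := by
  rw [U, U, ← d.Y_map hc, mapD_fst, ball_map hc, cav_map hc]

lemma U_congr (hc : G.Connected) (n : ℕ) (t : ℝ) (D : G.Dart) {w w' : G.edgeSet → ℕ → ℝ}
    (h : ∀ e ∈ EF G (ball G D.fst (d.R n)), w e = w' e) : d.U n t D w = d.U n t D w' := by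
  refine cav_congr_y _ (eul_congr _ β _ _ (fun j e he => ?_) _) ?_
  · simp only [Z, h e he]
  · rw [ed_mem_EF, mem_ball hc, mem_ball hc]
    exact ⟨by simp, (SimpleGraph.dist_eq_one_iff_adj.2 D.adj).le.trans (d.one_le n)⟩

/-- Mean square distance of two approximations. -/
noncomputable def del (o : V) (n n' : ℕ) (t : ℝ) : ℝ :=
  ∫ w, (d.M n t o w - d.M n' t o w) ^ 2 ∂PX G.edgeSet

/-- Second moment of the approximate cavity magnetisation. -/
noncomputable def sec (D₀ : G.Dart) (n : ℕ) (t : ℝ) : ℝ := ∫ w, d.U n t D₀ w ^ 2 ∂PX G.edgeSet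

lemma del_eq (hT : G.IsTree) (K : Kids G b) (hreg : G.IsRegularOfDegree (b + 1)) (o x : V)
    (n n' : ℕ) (t : ℝ) : d.del x n n' t = d.del o n n' t :=
  integral_vertex_eq (gE ℕ) hT K hreg (fun x w => (d.M n t x w - d.M n' t x w) ^ 2)
    (fun x => ((d.measurable_M n t x).sub (d.measurable_M n' t x)).pow_const 2)
    (fun g x w => by rw [d.M_map hT.connected, d.M_map hT.connected]) x o

lemma sec_eq (hT : G.IsTree) (K : Kids G b) (D D₀ : G.Dart) (n : ℕ) (t : ℝ) :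
    d.sec D n t = d.sec D₀ n t :=
  integral_dart_eq (gE ℕ) hT K (fun D w => d.U n t D w ^ 2)
    (fun D => (d.measurable_U n t D).pow_const 2)
    (fun g D w => by rw [d.U_map hT.connected]) D D₀

lemma del_nonneg (o : V) (n n' : ℕ) (t : ℝ) : 0 ≤ d.del o n n' t :=
  integral_nonneg fun _ => sq_nonneg _

lemma del_le (o : V) (n n' : ℕ) (t : ℝ) : d.del o n n' t ≤ 4 := by
  refine (integral_mono_of_nonneg (ae_of_all _ fun _ => sq_nonneg _) (integrable_const 4)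
    (ae_of_all _ fun w => ?_)).trans (by simp)
  have h1 := abs_le.1 (d.abs_M_le n t o w)
  have h2 := abs_le.1 (d.abs_M_le n' t o w)
  simp only
  nlinarith

lemma abs_sec_le (D₀ : G.Dart) (n : ℕ) (t : ℝ) : |d.sec D₀ n t| ≤ 1 := by
  rw [sec, abs_of_nonneg (integral_nonneg fun _ => sq_nonneg _)]
  exact (integral_mono_of_nonneg (ae_of_all _ fun _ => sq_nonneg _) (integrable_const 1)
    (ae_of_all _ fun w => (sq_mem (d.abs_U_le n t D₀ w)).2)).trans (by simp)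

theorem incoh (hT : G.IsTree) (K : Kids G b) (hreg : G.IsRegularOfDegree (b + 1)) (hb : 2 ≤ b) :
    ∃ C : ℝ, 0 ≤ C ∧ ∀ (n n' : ℕ) (t : ℝ) (D₀ D₁ D : G.Dart) (l : List (Fin b)) (m : ℕ),
      m ≤ l.length + 1 →
      ∫ w, (∑ j ∈ Finset.range m, (d.U n t (K.down D (l.take j)) w ^ 2 -
          d.U n' t (K.down D (l.take j)) w ^ 2)) ^ 2 ∂PX G.edgeSet ≤
        C * m * ∫ w, (d.U n t D₁ w ^ 2 - d.U n' t D₁ w ^ 2) ^ 2 ∂PX G.edgeSet +
          (m : ℝ) ^ 2 * (d.sec D₀ n t - d.sec D₀ n' t) ^ 2 := by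
  classical
  obtain ⟨C, hC, h⟩ := incoherence (gE ℕ) hT K hreg hb
  refine ⟨C, hC, fun n n' t D₀ D₁ D l m hm => ?_⟩
  have h1 := h (fun D w => d.U n t D w ^ 2 - d.U n' t D w ^ 2)
    (fun D => ((d.measurable_U n t D).pow_const 2).sub ((d.measurable_U n' t D).pow_const 2))
    (fun D w => by
      have h1 := sq_mem (d.abs_U_le n t D w)
      have h2 := sq_mem (d.abs_U_le n' t D w)
      rw [abs_le]
      constructor <;> linarith)
    (fun D => ⟨EF G (ball G D.fst (d.R n)) ∪ EF G (ball G D.fst (d.R n')), fun w w' hw => by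
      simp only
      rw [d.U_congr hT.connected n t D fun e he => hw e (by simp [he]),
        d.U_congr hT.connected n' t D fun e he => hw e (by simp [he])]⟩)
    (fun g D w => by rw [d.U_map hT.connected, d.U_map hT.connected]) D₁ D l m hm
  rw [← d.sec_eq hT K D₁ D₀, ← d.sec_eq hT K D₁ D₀, sec, sec, ← integral_sub]
  · exact h1
  · exact integrable_of_abs_le ((d.measurable_U n t D₁).pow_const 2) 1 fun w => by
      rw [abs_of_nonneg (sq_nonneg _)]
      exact (sq_mem (d.abs_U_le n t D₁ w)).2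
  · exact integrable_of_abs_le ((d.measurable_U n' t D₁).pow_const 2) 1 fun w => by
      rw [abs_of_nonneg (sq_nonneg _)]
      exact (sq_mem (d.abs_U_le n' t D₁ w)).2

end Dat

end Crest.Agent.R160
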