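import Crest.Agent.R160.Rate
import Crest.Agent.R160.Fiid

/-!
Row 160: comparison of the chains with the equivariant approximations.
-/

set_option autoImplicit false
set_option linter.unusedSectionVars false
set_option linter.unusedVariables false
set_option maxHeartbeats 400000

open MeasureTheory ProbabilityTheory Filter Topology
open scoped ENNReal

namespace Crest.Agent.R160

universe u

section abstract
variable {Ω : Type*} [MeasurableSpace Ω] {P : Measure Ω} [IsProbabilityMeasure P]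

lemma abs_integral_sq_sub_le {f g : Ω → ℝ} (hf : Measurable f) (hg : Measurable g) {M : ℝ}
    (bf : ∀ ω, |f ω| ≤ M) (bg : ∀ ω, |g ω| ≤ M) :
    |∫ ω, f ω ^ 2 ∂P - ∫ ω, g ω ^ 2 ∂P| ≤ 2 * M * ∫ ω, |f ω - g ω| ∂P := by
  have i1 : Integrable (fun ω => f ω ^ 2) P := integrable_of_abs_le (hf.pow_const 2) (M ^ 2)
    fun ω => by rw [abs_pow]; exact pow_le_pow_left₀ (abs_nonneg _) (bf ω) 2
  have i2 : Integrable (fun ω => g ω ^ 2) P := integrable_of_abs_le (hg.pow_const 2) (M ^ 2)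
    fun ω => by rw [abs_pow]; exact pow_le_pow_left₀ (abs_nonneg _) (bg ω) 2
  have i3 : Integrable (fun ω => |f ω - g ω|) P :=
    ((integrable_of_abs_le hf M bf).sub (integrable_of_abs_le hg M bg)).abs
  rw [← integral_sub i1 i2, ← integral_const_mul]
  refine (abs_integral_le_integral_abs).trans (integral_mono (i1.sub i2).abs (i3.const_mul _)
    fun ω => ?_)
  have : f ω ^ 2 - g ω ^ 2 = (f ω + g ω) * (f ω - g ω) := by ring
  simp only
  rw [this, abs_mul]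
  exact mul_le_mul_of_nonneg_right ((abs_add_le _ _).trans (by linarith [bf ω, bg ω]))
    (abs_nonneg _)

lemma integral_abs_sub_sub_le {f g f' g' : Ω → ℝ} (hf : Measurable f) (hg : Measurable g)
    (hf' : Measurable f') (hg' : Measurable g') (bf : ∀ ω, |f ω| ≤ 1) (bg : ∀ ω, |g ω| ≤ 1)
    (bf' : ∀ ω, |f' ω| ≤ 1) (bg' : ∀ ω, |g' ω| ≤ 1) :
    ∫ ω, |f ω - f' ω - (g ω - g' ω)| ∂P ≤ ∫ ω, |f ω - g ω| ∂P + ∫ ω, |f' ω - g' ω| ∂P := by
  have i1 : Integrable (fun ω => |f ω - g ω|) P :=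
    ((integrable_of_abs_le hf 1 bf).sub (integrable_of_abs_le hg 1 bg)).abs
  have i2 : Integrable (fun ω => |f' ω - g' ω|) P :=
    ((integrable_of_abs_le hf' 1 bf').sub (integrable_of_abs_le hg' 1 bg')).abs
  rw [← integral_add i1 i2]
  refine integral_mono_of_nonneg (ae_of_all _ fun _ => abs_nonneg _) (i1.add i2)
    (ae_of_all _ fun ω => ?_)
  have : f ω - f' ω - (g ω - g' ω) = (f ω - g ω) - (f' ω - g' ω) := by ring
  simp only
  rw [this]
  exact abs_sub _ _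

lemma integral_abs_sq_sub_le {f g : Ω → ℝ} (hf : Measurable f) (hg : Measurable g)
    (bf : ∀ ω, |f ω| ≤ 1) (bg : ∀ ω, |g ω| ≤ 1) :
    ∫ ω, |f ω ^ 2 - g ω ^ 2| ∂P ≤ 2 * ∫ ω, |f ω - g ω| ∂P := by
  have i3 : Integrable (fun ω => |f ω - g ω|) P :=
    ((integrable_of_abs_le hf 1 bf).sub (integrable_of_abs_le hg 1 bg)).abs
  rw [← integral_const_mul]
  refine integral_mono_of_nonneg (ae_of_all _ fun _ => abs_nonneg _) (i3.const_mul _)
    (ae_of_all _ fun ω => ?_)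
  have : f ω ^ 2 - g ω ^ 2 = (f ω + g ω) * (f ω - g ω) := by ring
  simp only
  rw [this, abs_mul]
  exact mul_le_mul_of_nonneg_right ((abs_add_le _ _).trans (by linarith [bf ω, bg ω]))
    (abs_nonneg _)

lemma integral_sum_sq_le {a ψ : ℕ → Ω → ℝ} (ha : ∀ j, Measurable (a j)) (hψ : ∀ j, Measurable (ψ j))
    (ba : ∀ j ω, |a j ω| ≤ 1) (bψ : ∀ j ω, |ψ j ω| ≤ 1) (m : ℕ) {ε : ℝ}
    (h : ∀ j < m, ∫ ω, |a j ω - ψ j ω| ∂P ≤ ε) :
    ∫ ω, (∑ j ∈ Finset.range m, a j ω) ^ 2 ∂P ≤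
      2 * ∫ ω, (∑ j ∈ Finset.range m, ψ j ω) ^ 2 ∂P + 4 * (m : ℝ) ^ 2 * ε := by
  have i1 : Integrable (fun ω => (∑ j ∈ Finset.range m, ψ j ω) ^ 2) P :=
    integrable_of_abs_le ((Finset.measurable_fun_sum _ fun j _ => hψ j).pow_const 2) ((m : ℝ) ^ 2)
      fun ω => by
        rw [abs_of_nonneg (sq_nonneg _)]
        exact sum_sq_le_sq fun j => bψ j ω
  have i2 : ∀ j, Integrable (fun ω => |a j ω - ψ j ω|) P := fun j =>
    ((integrable_of_abs_le (ha j) 1 (ba j)).sub (integrable_of_abs_le (hψ j) 1 (bψ j))).abs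
  have i3 := (integrable_finsetSum (Finset.range m) fun j _ => i2 j).const_mul (4 * m : ℝ)
  have hpt : ∀ ω, (∑ j ∈ Finset.range m, a j ω) ^ 2 ≤ 2 * (∑ j ∈ Finset.range m, ψ j ω) ^ 2 +
      4 * m * ∑ j ∈ Finset.range m, |a j ω - ψ j ω| := by
    intro ω
    have h1 : ∑ j ∈ Finset.range m, a j ω =
        ∑ j ∈ Finset.range m, ψ j ω + ∑ j ∈ Finset.range m, (a j ω - ψ j ω) := by
      rw [Finset.sum_sub_distrib]
      ring
    have h2 := Finset.abs_sum_le_sum_abs (fun j => a j ω - ψ j ω) (Finset.range m)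
    have h3 : ∑ j ∈ Finset.range m, |a j ω - ψ j ω| ≤ m * 2 :=
      (Finset.sum_le_card_nsmul _ _ 2 fun j _ => (abs_sub _ _).trans
        (by linarith [ba j ω, bψ j ω])).trans (by simp)
    have h4 : (∑ j ∈ Finset.range m, (a j ω - ψ j ω)) ^ 2 ≤
        (m * 2) * ∑ j ∈ Finset.range m, |a j ω - ψ j ω| := by
      rw [← sq_abs, sq]
      exact mul_le_mul (h2.trans h3) h2 (abs_nonneg _) (by positivity)
    rw [h1]
    nlinarith [sq_nonneg (∑ j ∈ Finset.range m, ψ j ω - ∑ j ∈ Finset.range m, (a j ω - ψ j ω))]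
  refine (integral_mono_of_nonneg (ae_of_all _ fun _ => sq_nonneg _) ((i1.const_mul 2).add i3)
    (ae_of_all _ hpt)).trans ?_
  simp only [Pi.add_apply]
  rw [integral_add (i1.const_mul 2) i3, integral_const_mul, integral_const_mul,
    integral_finsetSum _ fun j _ => i2 j]
  have h5 := Finset.sum_le_card_nsmul _ _ ε fun j (hj : j ∈ Finset.range m) =>
    h j (Finset.mem_range.1 hj)
  rw [Finset.card_range, nsmul_eq_mul] at h5
  nlinarith [mul_le_mul_of_nonneg_left h5 (by positivity : (0 : ℝ) ≤ 4 * m)]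

end abstract

variable {V : Type u} {G : SimpleGraph V} [G.LocallyFinite] {b : ℕ}

namespace Dat

variable {β : ℝ} (d : Dat G β)

/-- The approximate magnetisation on the space of the chains. -/
noncomputable def MO (n P k : ℕ) (x : V) (z : ℕ → G.edgeSet → ℝ) : ℝ :=
  mag G (ball G x (d.R n)) (β * (1 - k / 2 ^ P)) (YO G β (d.R n) (d.p n) n P x k z) x

/-- The approximate cavity magnetisation on the space of the chains. -/
noncomputable def UO (n P k : ℕ) (D : G.Dart) (z : ℕ → G.edgeSet → ℝ) : ℝ :=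
  cav (ball G D.fst (d.R n)) (β * (1 - k / 2 ^ P)) (YO G β (d.R n) (d.p n) n P D.fst k z) D

lemma measurable_MO (n P k : ℕ) (x : V) : Measurable (d.MO n P k x) :=
  (measurable_mag _ _ x).comp (measurable_YO β _ _ _ _ _ _)

lemma measurable_UO (n P k : ℕ) (D : G.Dart) : Measurable (d.UO n P k D) :=
  (measurable_cav _ _ D).comp (measurable_YO β _ _ _ _ _ _)

lemma MO_Z {n P : ℕ} (hP : d.p n ≤ P) (k : ℕ) (x : V) (w : G.edgeSet → ℕ → ℝ) :
    d.MO n P k x (d.Z P w) = d.M n (k / 2 ^ P) x w := by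
  rw [MO, d.YO_Z n hP, M]

lemma UO_Z {n P : ℕ} (hP : d.p n ≤ P) (k : ℕ) (D : G.Dart) (w : G.edgeSet → ℕ → ℝ) :
    d.UO n P k D (d.Z P w) = d.U n (k / 2 ^ P) D w := by
  rw [UO, d.YO_Z n hP, U]

/-- The chain number `n` in the volume `Λ` is `ε`-close to the approximations around `x`. -/
def Cl (Λ : Finset V) (n P k : ℕ) (x : V) (ε : ℝ) : Prop :=
  d.p n ≤ P ∧
  ∫ ω, |mag G Λ (β * (1 - k / 2 ^ P)) (chain G Λ β P (2 ^ (P - n)) ω k) x -
    d.MO n P k x fun j => (ω j).1| ∂POm G.edgeSet ≤ ε ∧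
  ∀ D : G.Dart, D.fst = x →
    ∫ ω, |cav Λ (β * (1 - k / 2 ^ P)) (chain G Λ β P (2 ^ (P - n)) ω k) D -
      d.UO n P k D fun j => (ω j).1| ∂POm G.edgeSet ≤ ε

lemma exists_Cl (n : ℕ) (Λ : Finset V) {ε : ℝ} (hε : 1 / ((n : ℝ) + 1) ≤ ε) :
    ∃ p₁ : ℕ, n ≤ p₁ ∧ ∀ P ≥ p₁, ∀ x, ball G x (d.R n) ⊆ Λ → ∀ k : ℕ, 2 ^ (P - n) ≤ k → k ≤ 2 ^ P →
      d.Cl Λ n P k x ε := by
  obtain ⟨p₁, hp₁, h⟩ := d.apx n Λ
  refine ⟨p₁, (d.le_p n).trans hp₁, fun P hP x hx k hk hk' => ?_⟩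
  obtain ⟨h1, h2⟩ := h P hP x hx k hk hk'
  refine ⟨hp₁.trans hP, h1.trans hε, ?_⟩
  rintro D rfl
  exact (h2 D rfl).trans hε

lemma measurable_fst' :
    Measurable fun (ω : ℕ → (G.edgeSet → ℝ) × unitInterval) (j : ℕ) => (ω j).1 := by fun_prop

lemma Dm_close {Λ : Finset V} {n n' P k : ℕ} {x : V} {ε : ℝ} (h : d.Cl Λ n P k x ε)
    (h' : d.Cl Λ n' P k x ε) :
    |Dm G Λ Λ β P (2 ^ (P - n)) (2 ^ (P - n')) k x - d.del x n n' (k / 2 ^ P)| ≤ 8 * ε := by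
  have h1 : d.del x n n' (k / 2 ^ P) = ∫ ω, (d.MO n P k x (fun j => (ω j).1) -
      d.MO n' P k x fun j => (ω j).1) ^ 2 ∂POm G.edgeSet := by
    rw [d.transfer P (Φ := fun z => (d.MO n P k x z - d.MO n' P k x z) ^ 2)
      (((d.measurable_MO n P k x).sub (d.measurable_MO n' P k x)).pow_const 2)]
    simp only [d.MO_Z h.1, d.MO_Z h'.1, del]
  have m1 := (measurable_mag Λ (β * (1 - k / 2 ^ P)) x).comp
    (measurable_chain (G := G) Λ β P (2 ^ (P - n)) k)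
  have m2 := (measurable_mag Λ (β * (1 - k / 2 ^ P)) x).comp
    (measurable_chain (G := G) Λ β P (2 ^ (P - n')) k)
  have m3 := (d.measurable_MO n P k x).comp measurable_fst'
  have m4 := (d.measurable_MO n' P k x).comp measurable_fst'
  have h2 := integral_abs_sub_sub_le (P := POm G.edgeSet) m1 m3 m2 m4 (fun _ => abs_mag_le _ _ _ _)
    (fun _ => abs_mag_le _ _ _ _) (fun _ => abs_mag_le _ _ _ _) (fun _ => abs_mag_le _ _ _ _)
  have h3 := abs_integral_sq_sub_le (P := POm G.edgeSet) (m1.sub m2) (m3.sub m4) (M := 2)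
    (fun _ => (abs_sub _ _).trans (add_le_add (abs_mag_le _ _ _ _) (abs_mag_le _ _ _ _) |>.trans
      (by norm_num)))
    (fun _ => (abs_sub _ _).trans (add_le_add (abs_mag_le _ _ _ _) (abs_mag_le _ _ _ _) |>.trans
      (by norm_num)))
  simp only [Function.comp_apply, Pi.sub_apply] at h2 h3
  rw [h1, Dm]
  linarith [h.2.1, h'.2.1]

lemma dx_close {Λ : Finset V} {n n' P k : ℕ} {D : G.Dart} {ε : ℝ} (h : d.Cl Λ n P k D.fst ε)
    (h' : d.Cl Λ n' P k D.fst ε) :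
    ∫ ω, |cav Λ (β * (1 - k / 2 ^ P)) (chain G Λ β P (2 ^ (P - n)) ω k) D ^ 2 -
      cav Λ (β * (1 - k / 2 ^ P)) (chain G Λ β P (2 ^ (P - n')) ω k) D ^ 2 -
      (d.UO n P k D (fun j => (ω j).1) ^ 2 - d.UO n' P k D (fun j => (ω j).1) ^ 2)|
      ∂POm G.edgeSet ≤ 4 * ε := by
  have m1 := (measurable_cav Λ (β * (1 - k / 2 ^ P)) D).comp
    (measurable_chain (G := G) Λ β P (2 ^ (P - n)) k)
  have m2 := (measurable_cav Λ (β * (1 - k / 2 ^ P)) D).comp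
    (measurable_chain (G := G) Λ β P (2 ^ (P - n')) k)
  have m3 := (d.measurable_UO n P k D).comp measurable_fst'
  have m4 := (d.measurable_UO n' P k D).comp measurable_fst'
  have hb : ∀ {x : ℝ}, |x| ≤ 1 → |x ^ 2| ≤ 1 := fun h => by
    rw [abs_pow]
    exact pow_le_one₀ (abs_nonneg _) h
  have h2 := integral_abs_sub_sub_le (P := POm G.edgeSet) (m1.pow_const 2) (m3.pow_const 2)
    (m2.pow_const 2) (m4.pow_const 2) (fun _ => hb (abs_cav_le _ _ _ _))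
    (fun _ => hb (abs_cav_le _ _ _ _)) (fun _ => hb (abs_cav_le _ _ _ _))
    (fun _ => hb (abs_cav_le _ _ _ _))
  have h3 := integral_abs_sq_sub_le (P := POm G.edgeSet) m1 m3 (fun _ => abs_cav_le _ _ _ _)
    (fun _ => abs_cav_le _ _ _ _)
  have h4 := integral_abs_sq_sub_le (P := POm G.edgeSet) m2 m4 (fun _ => abs_cav_le _ _ _ _)
    (fun _ => abs_cav_le _ _ _ _)
  simp only [Function.comp_apply] at h2 h3 h4
  linarith [h.2.2 D rfl, h'.2.2 D rfl]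

lemma sec_close {Λ : Finset V} {n P k : ℕ} {D : G.Dart} {ε : ℝ} (h : d.Cl Λ n P k D.fst ε) :
    |∫ ω, cav Λ (β * (1 - k / 2 ^ P)) (chain G Λ β P (2 ^ (P - n)) ω k) D ^ 2 ∂POm G.edgeSet -
      d.sec D n (k / 2 ^ P)| ≤ 2 * ε := by
  have h1 : d.sec D n (k / 2 ^ P) = ∫ ω, d.UO n P k D (fun j => (ω j).1) ^ 2 ∂POm G.edgeSet := by
    rw [d.transfer P (Φ := fun z => d.UO n P k D z ^ 2) ((d.measurable_UO n P k D).pow_const 2)]
    simp only [d.UO_Z h.1, sec]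
  have m1 := (measurable_cav Λ (β * (1 - k / 2 ^ P)) D).comp
    (measurable_chain (G := G) Λ β P (2 ^ (P - n)) k)
  have m3 := (d.measurable_UO n P k D).comp measurable_fst'
  have h3 := abs_integral_sq_sub_le (P := POm G.edgeSet) m1 m3 (M := 1)
    (fun _ => abs_cav_le _ _ _ _) (fun _ => abs_cav_le _ _ _ _)
  simp only [Function.comp_apply] at h3
  rw [h1]
  linarith [h.2.2 D rfl]

theorem S_close (hT : G.IsTree) (K : Kids G b) (hreg : G.IsRegularOfDegree (b + 1)) (hb : 2 ≤ b) :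
    ∃ C : ℝ, 0 ≤ C ∧ ∀ (Λ : Finset V) (n n' P k : ℕ) (D₀ D : G.Dart) (l : List (Fin b)) (m : ℕ)
      (ε X : ℝ), 0 ≤ ε → m ≤ l.length + 1 → d.Cl Λ n P k D.fst ε → d.Cl Λ n' P k D.fst ε →
      (∀ j < m, d.Cl Λ n P k (K.down D (l.take j)).fst ε) →
      (∀ j < m, d.Cl Λ n' P k (K.down D (l.take j)).fst ε) →
      ∫ ω, (cav Λ (β * (1 - k / 2 ^ P)) (chain G Λ β P (2 ^ (P - n)) ω k) D ^ 2 -
        cav Λ (β * (1 - k / 2 ^ P)) (chain G Λ β P (2 ^ (P - n')) ω k) D ^ 2) ^ 2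
        ∂POm G.edgeSet ≤ X →
      |d.sec D₀ n (k / 2 ^ P) - d.sec D₀ n' (k / 2 ^ P)| ≤ ε → ε ≤ 1 →
      ∫ ω, (∑ j ∈ Finset.range m,
        (cav Λ (β * (1 - k / 2 ^ P)) (chain G Λ β P (2 ^ (P - n)) ω k) (K.down D (l.take j)) ^ 2 -
        cav Λ (β * (1 - k / 2 ^ P)) (chain G Λ β P (2 ^ (P - n')) ω k) (K.down D (l.take j)) ^ 2)) ^ 2
        ∂POm G.edgeSet ≤ C * m * X + (m : ℝ) ^ 2 * ((8 * C + 18) * ε) := by
  obtain ⟨C, hC, h⟩ := d.incoh hT K hreg hb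
  refine ⟨2 * C, by positivity, fun Λ n n' P k D₀ D l m ε X hε hm h1 h1' h2 h2' hX hγ hε1 => ?_⟩
  have mc : ∀ (n : ℕ) (D : G.Dart), Measurable fun ω =>
      cav Λ (β * (1 - k / 2 ^ P)) (chain G Λ β P (2 ^ (P - n)) ω k) D ^ 2 := fun n D =>
    ((measurable_cav Λ _ D).comp (measurable_chain Λ β P _ k)).pow_const 2
  have mu : ∀ (n : ℕ) (D : G.Dart), Measurable fun z => d.UO n P k D z ^ 2 := fun n D =>
    (d.measurable_UO n P k D).pow_const 2
  have h3 := integral_sum_sq_le (P := POm G.edgeSet)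
    (a := fun j ω =>
      cav Λ (β * (1 - k / 2 ^ P)) (chain G Λ β P (2 ^ (P - n)) ω k) (K.down D (l.take j)) ^ 2 -
      cav Λ (β * (1 - k / 2 ^ P)) (chain G Λ β P (2 ^ (P - n')) ω k) (K.down D (l.take j)) ^ 2)
    (ψ := fun j ω => d.UO n P k (K.down D (l.take j)) (fun j => (ω j).1) ^ 2 -
      d.UO n' P k (K.down D (l.take j)) (fun j => (ω j).1) ^ 2)
    (fun j => (mc n _).sub (mc n' _))
    (fun j => ((mu n _).comp measurable_fst').sub ((mu n' _).comp measurable_fst'))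
    (fun j ω => abs_sq_sub_sq_le (abs_cav_le _ _ _ _) (abs_cav_le _ _ _ _))
    (fun j ω => abs_sq_sub_sq_le (abs_cav_le _ _ _ _) (abs_cav_le _ _ _ _)) m
    fun j hj => d.dx_close (h2 j hj) (h2' j hj)
  rw [d.transfer P (Φ := fun z => (∑ j ∈ Finset.range m, (d.UO n P k (K.down D (l.take j)) z ^ 2 -
      d.UO n' P k (K.down D (l.take j)) z ^ 2)) ^ 2)
    ((Finset.measurable_fun_sum _ fun j _ => (mu n _).sub (mu n' _)).pow_const 2)] at h3
  simp only [d.UO_Z h1.1, d.UO_Z h1'.1] at h3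
  have h4 := h n n' (k / 2 ^ P) D₀ D D l m hm
  have h5 : ∫ w, (d.U n (k / 2 ^ P) D w ^ 2 - d.U n' (k / 2 ^ P) D w ^ 2) ^ 2 ∂PX G.edgeSet =
      ∫ ω, (d.UO n P k D (fun j => (ω j).1) ^ 2 - d.UO n' P k D (fun j => (ω j).1) ^ 2) ^ 2
        ∂POm G.edgeSet := by
    rw [d.transfer P (Φ := fun z => (d.UO n P k D z ^ 2 - d.UO n' P k D z ^ 2) ^ 2)
      (((mu n _).sub (mu n' _)).pow_const 2)]
    simp only [d.UO_Z h1.1, d.UO_Z h1'.1]
  have h6 := abs_integral_sq_sub_le (P := POm G.edgeSet) ((mc n D).sub (mc n' D))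
    (((mu n D).comp measurable_fst').sub ((mu n' D).comp measurable_fst')) (M := 1)
    (fun ω => abs_sq_sub_sq_le (abs_cav_le _ _ _ _) (abs_cav_le _ _ _ _))
    (fun ω => abs_sq_sub_sq_le (abs_cav_le _ _ _ _) (abs_cav_le _ _ _ _))
  simp only [Function.comp_apply, Pi.sub_apply] at h6
  have h7 := d.dx_close h1 h1'
  have h8 : ∫ w, (d.U n (k / 2 ^ P) D w ^ 2 - d.U n' (k / 2 ^ P) D w ^ 2) ^ 2 ∂PX G.edgeSet ≤
      X + 8 * ε := by
    rw [h5]
    linarith [(abs_le.1 h6).1]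
  have h9 : (d.sec D₀ n (k / 2 ^ P) - d.sec D₀ n' (k / 2 ^ P)) ^ 2 ≤ ε := by
    rw [← sq_abs]
    nlinarith [abs_nonneg (d.sec D₀ n (k / 2 ^ P) - d.sec D₀ n' (k / 2 ^ P))]
  have hm0 : (0 : ℝ) ≤ m := by positivity
  have h10 := mul_le_mul_of_nonneg_left h8 (mul_nonneg hC hm0)
  have h11 := mul_le_mul_of_nonneg_left h9 (sq_nonneg (m : ℝ))
  have h12 : (m : ℝ) ≤ (m : ℝ) ^ 2 := by exact_mod_cast Nat.le_self_pow two_ne_zero m
  have h13 := mul_le_mul_of_nonneg_left h12 (mul_nonneg hC hε)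
  nlinarith

end Dat

end Crest.Agent.R160
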