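import Crest.Agent.R160.Defs
import Crest.Agent.R168.Bayes

/-!
Row 160: facts on independent Gaussians (Cameron-Martin shift, convolution, moments) and the
freezing lemma for i.i.d. sequences.
-/

set_option autoImplicit false
set_option linter.unusedSectionVars false
set_option linter.unusedVariables false
set_option maxHeartbeats 400000

open MeasureTheory ProbabilityTheory Filter Topology
open scoped ENNReal

namespace Crest.Agent.R160

universe u

variable {E : Type*}

lemma gauss_map_add (v : ℝ) :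
    (gaussianReal 0 1).map (fun z => z + v) =
      (gaussianReal 0 1).withDensity (fun z => ENNReal.ofReal (Real.exp (v * z - v ^ 2 / 2))) := by
  rw [gaussianReal_map_add_const, gaussianReal_of_var_ne_zero _ one_ne_zero,
    gaussianReal_of_var_ne_zero _ one_ne_zero, ← withDensity_mul _ (by fun_prop) (by fun_prop)]
  congr 1
  funext z
  simp only [Pi.mul_apply, gaussianPDF, gaussianPDFReal]
  rw [← ENNReal.ofReal_mul (by positivity), mul_assoc (√_)⁻¹, ← Real.exp_add]
  congr 3
  simp only [NNReal.coe_one]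
  ring

/-- Cameron-Martin formula for a finitely supported shift. -/
lemma gE_map_add (F : Finset E) (v : E → ℝ) (hv : ∀ e, e ∉ F → v e = 0) :
    (gE E).map (fun z e => z e + v e) = (gE E).withDensity
      (fun z => ENNReal.ofReal (Real.exp (∑ e ∈ F, (v e * z e - v e ^ 2 / 2)))) := by
  have : ∀ i, IsProbabilityMeasure ((gaussianReal 0 1).withDensity
      (fun z => ENNReal.ofReal (Real.exp (v i * z - v i ^ 2 / 2)))) := by
    intro i
    rw [← gauss_map_add]
    exact Measure.isProbabilityMeasure_map (by fun_prop)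
  rw [gE, Measure.infinitePi_map_pi _ (f := fun j y => y + v j) (by fun_prop)]
  simp_rw [gauss_map_add]
  rw [← R168.infinitePi_withDensity_prod (gaussianReal 0 1) F
    (fun i z => ENNReal.ofReal (Real.exp (v i * z - v i ^ 2 / 2)))
    (by fun_prop) (fun i hi => by funext y; simp [hv i hi])]
  congr 1
  funext y
  rw [← ENNReal.ofReal_prod_of_nonneg (fun i _ => (Real.exp_pos _).le), Real.exp_sum]

lemma integral_gE_add (F : Finset E) (v : E → ℝ) (hv : ∀ e, e ∉ F → v e = 0) {φ : (E → ℝ) → ℝ}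
    (hφ : Measurable φ) :
    ∫ z, φ (fun e => z e + v e) ∂gE E =
      ∫ z, Real.exp (∑ e ∈ F, (v e * z e - v e ^ 2 / 2)) * φ z ∂gE E := by
  rw [← integral_map (φ := fun (z : E → ℝ) e => z e + v e)
    (Measurable.aemeasurable (by fun_prop)) hφ.aestronglyMeasurable,
    gE_map_add F v hv, integral_withDensity_eq_integral_toReal_smul (by fun_prop)
      (ae_of_all _ fun _ => ENNReal.ofReal_lt_top)]
  simp only [ENNReal.toReal_ofReal (Real.exp_pos _).le, smul_eq_mul]

lemma integrable_exp_sum (F : Finset E) (v : E → ℝ) :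
    Integrable (fun z : E → ℝ => Real.exp (∑ e ∈ F, (v e * z e - v e ^ 2 / 2))) (gE E) := by
  classical
  have h := gE_map_add F (fun e => if e ∈ F then v e else 0) (fun e he => if_neg he)
  have h1 : ∀ z : E → ℝ, ∑ e ∈ F, ((if e ∈ F then v e else 0) * z e -
      (if e ∈ F then v e else 0) ^ 2 / 2) = ∑ e ∈ F, (v e * z e - v e ^ 2 / 2) :=
    fun z => Finset.sum_congr rfl fun e he => by rw [if_pos he]
  simp_rw [h1] at h
  have h2 : IsProbabilityMeasure ((gE E).withDensity
      (fun z => ENNReal.ofReal (Real.exp (∑ e ∈ F, (v e * z e - v e ^ 2 / 2))))) := by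
    rw [← h]
    exact Measure.isProbabilityMeasure_map (Measurable.aemeasurable (by fun_prop))
  refine ⟨Measurable.aestronglyMeasurable (by fun_prop), ?_⟩
  rw [hasFiniteIntegral_iff_ofReal (ae_of_all _ fun _ => (Real.exp_pos _).le)]
  have h3 := h2.measure_univ
  rw [withDensity_apply _ MeasurableSet.univ, Measure.restrict_univ] at h3
  rw [h3]
  exact ENNReal.one_lt_top

lemma infinitePi_prod_zip {X Y : Type*} [MeasurableSpace X] [MeasurableSpace Y] (μ : Measure X)
    (ν : Measure Y) [IsProbabilityMeasure μ] [IsProbabilityMeasure ν] {f : X → Y → ℝ}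
    (hf : Measurable (Function.uncurry f)) :
    ((Measure.infinitePi fun _ : E => μ).prod (Measure.infinitePi fun _ : E => ν)).map
      (fun p e => f (p.1 e) (p.2 e)) =
      Measure.infinitePi fun _ : E => (μ.prod ν).map (Function.uncurry f) := by
  have : IsProbabilityMeasure ((μ.prod ν).map (Function.uncurry f)) :=
    Measure.isProbabilityMeasure_map hf.aemeasurable
  have hm : Measurable fun (p : (E → X) × (E → Y)) e => f (p.1 e) (p.2 e) :=
    measurable_pi_lambda _ fun e => hf.comp (f := fun p : (E → X) × (E → Y) => (p.1 e, p.2 e))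
      (by fun_prop)
  refine Measure.eq_infinitePi _ fun s t ht => ?_
  have hst : MeasurableSet (Set.pi (s : Set E) t) := .pi s.countable_toSet fun i _ => ht i
  rw [Measure.map_apply hm hst, Measure.prod_apply (hm hst)]
  have h1 : ∀ x : E → X, (Measure.infinitePi fun _ : E => ν) (Prod.mk x ⁻¹'
      ((fun (p : (E → X) × (E → Y)) e => f (p.1 e) (p.2 e)) ⁻¹' Set.pi (s : Set E) t)) =
      ∏ e ∈ s, ν (Prod.mk (x e) ⁻¹' (Function.uncurry f ⁻¹' t e)) := by
    intro x
    rw [← Measure.infinitePi_pi (fun _ : E => ν)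
      (fun e _ => measurable_prodMk_left (hf (ht e)))]
    rfl
  simp_rw [h1]
  have h2 : ∀ e, Measurable fun x : X => ν (Prod.mk x ⁻¹' (Function.uncurry f ⁻¹' t e)) :=
    fun e => measurable_measure_prodMk_left (hf (ht e))
  rw [lintegral_prod_eq_prod_lintegral_of_indepFun s
    (fun e (x : E → X) => ν (Prod.mk (x e) ⁻¹' (Function.uncurry f ⁻¹' t e)))
    (iIndepFun_infinitePi (P := fun _ : E => μ) h2) (fun i => (h2 i).comp (by fun_prop))]
  refine Finset.prod_congr rfl fun e _ => ?_
  rw [(measurePreserving_eval_infinitePi (fun _ : E => μ) e).lintegral_comp (h2 e),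
    Measure.map_apply hf (ht e), Measure.prod_apply (hf (ht e))]

lemma gauss_conv (c a : ℝ) (hc : 0 ≤ c) (ha : 0 ≤ a) :
    ((gaussianReal 0 1).prod (gaussianReal 0 1)).map (fun p : ℝ × ℝ => √c * p.1 + √a * p.2) =
      (gaussianReal 0 1).map (fun z => √(c + a) * z) := by
  have h1 : (fun p : ℝ × ℝ => √c * p.1 + √a * p.2) =
      (fun p : ℝ × ℝ => p.1 + p.2) ∘ Prod.map (fun z => √c * z) (fun z => √a * z) := rfl
  rw [h1, ← Measure.map_map (by fun_prop) (by fun_prop),
    ← Measure.map_prod_map _ _ (by fun_prop) (by fun_prop), gaussianReal_map_const_mul,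
    gaussianReal_map_const_mul, gaussianReal_map_const_mul]
  change (gaussianReal _ _).conv (gaussianReal _ _) = _
  rw [gaussianReal_conv_gaussianReal]
  congr 1
  · simp
  · ext
    simp [Real.sq_sqrt hc, Real.sq_sqrt ha, Real.sq_sqrt (add_nonneg hc ha)]

lemma gE_conv (c a : ℝ) (hc : 0 ≤ c) (ha : 0 ≤ a) :
    ((gE E).prod (gE E)).map (fun p e => √c * p.1 e + √a * p.2 e) =
      (gE E).map (fun z e => √(c + a) * z e) := by
  rw [gE, infinitePi_prod_zip (gaussianReal 0 1) (gaussianReal 0 1)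
    (f := fun x y => √c * x + √a * y) (by fun_prop),
    Measure.infinitePi_map_pi _ (f := fun _ z => √(c + a) * z) (by fun_prop)]
  congr 1
  funext e
  exact gauss_conv c a hc ha

lemma integral_gE_conv (c a : ℝ) (hc : 0 ≤ c) (ha : 0 ≤ a) {φ : (E → ℝ) → ℝ} (hφ : Measurable φ)
    {M : ℝ} (hM : ∀ y, |φ y| ≤ M) :
    ∫ z, ∫ z', φ (fun e => √c * z e + √a * z' e) ∂gE E ∂gE E =
      ∫ z, φ (fun e => √(c + a) * z e) ∂gE E := by
  rw [← integral_map (φ := fun (z : E → ℝ) e => √(c + a) * z e)
    (Measurable.aemeasurable (by fun_prop)) hφ.aestronglyMeasurable, ← gE_conv c a hc ha,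
    integral_map (Measurable.aemeasurable (by fun_prop)) hφ.aestronglyMeasurable, integral_prod]
  exact Integrable.of_bound (C := M) (hφ.comp (by fun_prop)).aestronglyMeasurable
    (ae_of_all _ fun _ => hM _)

lemma memLp_gE_apply (e : E) (p : ℝ≥0∞) (hp : p ≠ ∞) : MemLp (fun z : E → ℝ => z e) p (gE E) :=
  (memLp_id_gaussianReal' p hp).comp_measurePreserving
    (measurePreserving_eval_infinitePi (fun _ : E => gaussianReal 0 1) e)

lemma integral_gE_apply (e : E) : ∫ z : E → ℝ, z e ∂gE E = 0 := by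
  have := (measurePreserving_eval_infinitePi (fun _ : E => gaussianReal 0 1) e).map_eq
  have h2 := integral_id_gaussianReal (μ := 0) (v := 1)
  rw [← this, integral_map (measurable_pi_apply e).aemeasurable (by fun_prop)] at h2
  exact h2

lemma integral_gE_sq (e : E) : ∫ z : E → ℝ, z e * z e ∂gE E = 1 := by
  have := (measurePreserving_eval_infinitePi (fun _ : E => gaussianReal 0 1) e).map_eq
  have h2 := variance_fun_id_gaussianReal (μ := 0) (v := 1)
  rw [variance_eq_integral (by fun_prop), integral_id_gaussianReal, ← this,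
    integral_map (measurable_pi_apply e).aemeasurable (by fun_prop)] at h2
  simpa [sq, gE] using h2

lemma integral_gE_mul {e e' : E} (h : e ≠ e') : ∫ z : E → ℝ, z e * z e' ∂gE E = 0 := by
  have h1 : IndepFun (fun z : E → ℝ => z e) (fun z => z e') (gE E) :=
    (iIndepFun_infinitePi (P := fun _ : E => gaussianReal 0 1) (X := fun _ z => z)
      (by fun_prop)).indepFun h
  rw [h1.integral_fun_mul_eq_mul_integral (measurable_pi_apply e).aestronglyMeasurable
    (measurable_pi_apply e').aestronglyMeasurable, integral_gE_apply, zero_mul]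

lemma integrable_gE_mul (e e' : E) : Integrable (fun z : E → ℝ => z e * z e') (gE E) :=
  (memLp_gE_apply e 2 (by simp)).integrable_mul (memLp_gE_apply e' 2 (by simp))

lemma integrable_gE_apply (e : E) : Integrable (fun z : E → ℝ => z e) (gE E) :=
  (memLp_gE_apply e 1 (by simp)).integrable le_rfl

lemma sum_sq_expand (F : Finset E) (Γ z : E → ℝ) :
    (∑ e ∈ F, Γ e * z e) ^ 2 = ∑ e ∈ F, ∑ e' ∈ F, Γ e * Γ e' * (z e * z e') := by
  rw [sq, Finset.sum_mul_sum]
  exact Finset.sum_congr rfl fun e _ => Finset.sum_congr rfl fun e' _ => by ring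

lemma integrable_gE_sum_sq (F : Finset E) (Γ : E → ℝ) :
    Integrable (fun z : E → ℝ => (∑ e ∈ F, Γ e * z e) ^ 2) (gE E) := by
  simp_rw [sum_sq_expand]
  exact integrable_finsetSum _ fun e _ => integrable_finsetSum _ fun e' _ =>
    (integrable_gE_mul e e').const_mul _

lemma integral_gE_sum_sq (F : Finset E) (Γ : E → ℝ) :
    ∫ z : E → ℝ, (∑ e ∈ F, Γ e * z e) ^ 2 ∂gE E = ∑ e ∈ F, Γ e ^ 2 := by
  classical
  simp_rw [sum_sq_expand]
  rw [integral_finsetSum _ fun e _ => integrable_finsetSum _ fun e' _ =>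
    (integrable_gE_mul e e').const_mul _]
  refine Finset.sum_congr rfl fun e he => ?_
  rw [integral_finsetSum _ fun e' _ => (integrable_gE_mul e e').const_mul _,
    Finset.sum_eq_single e]
  · rw [integral_const_mul, integral_gE_sq]
    ring
  · intro e' _ h
    rw [integral_const_mul, integral_gE_mul h.symm, mul_zero]
  · exact fun h => absurd he h

/-- The fourth moment of a standard Gaussian. -/
noncomputable def m4 : ℝ := ∫ z, z ^ 4 ∂gaussianReal 0 1

lemma m4_nonneg : 0 ≤ m4 := integral_nonneg fun z => by positivity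

lemma integrable_gE_pow_four (e : E) : Integrable (fun z : E → ℝ => z e ^ 4) (gE E) := by
  have := (memLp_gE_apply e 4 (by simp)).integrable_norm_pow' (p := 4)
  refine this.congr (ae_of_all _ fun z => ?_)
  simp only [Real.norm_eq_abs]
  exact Even.pow_abs (by decide) _

lemma integral_gE_pow_four (e : E) : ∫ z : E → ℝ, z e ^ 4 ∂gE E = m4 := by
  have := (measurePreserving_eval_infinitePi (fun _ : E => gaussianReal 0 1) e).map_eq
  rw [m4, ← this, integral_map (measurable_pi_apply e).aemeasurable (by fun_prop)]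
  rfl

lemma sum_abs_pow_four_le (F : Finset E) (z : E → ℝ) :
    (∑ e ∈ F, |z e|) ^ 4 ≤ (F.card : ℝ) ^ 3 * ∑ e ∈ F, z e ^ 4 := by
  have h1 : (∑ e ∈ F, |z e|) ^ 2 ≤ F.card * ∑ e ∈ F, |z e| ^ 2 := sq_sum_le_card_mul_sum_sq
  have h2 : (∑ e ∈ F, |z e| ^ 2) ^ 2 ≤ F.card * ∑ e ∈ F, (|z e| ^ 2) ^ 2 :=
    sq_sum_le_card_mul_sum_sq
  have h3 : ∑ e ∈ F, (|z e| ^ 2) ^ 2 = ∑ e ∈ F, z e ^ 4 :=
    Finset.sum_congr rfl fun e _ => by rw [sq_abs]; ring
  rw [h3] at h2
  calc (∑ e ∈ F, |z e|) ^ 4 = ((∑ e ∈ F, |z e|) ^ 2) ^ 2 := by ring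
    _ ≤ (F.card * ∑ e ∈ F, |z e| ^ 2) ^ 2 := by gcongr
    _ = (F.card : ℝ) ^ 2 * (∑ e ∈ F, |z e| ^ 2) ^ 2 := by ring
    _ ≤ (F.card : ℝ) ^ 2 * (F.card * ∑ e ∈ F, z e ^ 4) := by gcongr
    _ = _ := by ring

lemma integral_abs_le_sqrt {Ω : Type*} [MeasurableSpace Ω] (P : Measure Ω) [IsProbabilityMeasure P]
    {f : Ω → ℝ} (hf : Measurable f) (hi : Integrable (fun ω => f ω ^ 2) P) {ε : ℝ} (hε : 0 < ε)
    (h : ∫ ω, f ω ^ 2 ∂P ≤ ε ^ 2) : ∫ ω, |f ω| ∂P ≤ ε := by
  have h1 : ∀ ω, |f ω| ≤ ε / 2 + f ω ^ 2 / (2 * ε) := by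
    intro ω
    rw [div_add_div _ _ (by norm_num) (by positivity), le_div_iff₀ (by positivity), ← sq_abs]
    nlinarith [sq_nonneg (|f ω| - ε)]
  have h2 : Integrable (fun ω => ε / 2 + f ω ^ 2 / (2 * ε)) P :=
    (integrable_const _).add (hi.div_const _)
  refine (integral_mono_of_nonneg (ae_of_all _ fun _ => abs_nonneg _) h2 (ae_of_all _ h1)).trans ?_
  rw [integral_add (integrable_const _) (hi.div_const _), integral_const, integral_div]
  simp only [probReal_univ, smul_eq_mul, one_mul]
  have : (∫ ω, f ω ^ 2 ∂P) / (2 * ε) ≤ ε / 2 := by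
    rw [div_le_iff₀ (by positivity)]
    nlinarith
  linarith

/-- Freezing lemma: the `k`-th term of an i.i.d. sequence is independent of the past. -/
lemma integral_freeze {X : Type*} [MeasurableSpace X] (ν : Measure X) [IsProbabilityMeasure ν]
    (k : ℕ) (Φ : (ℕ → X) → X → ℝ) (hm : Measurable (Function.uncurry Φ)) {M : ℝ}
    (hM : ∀ ω ξ, |Φ ω ξ| ≤ M) (hdep : ∀ ω ω', (∀ j < k, ω j = ω' j) → Φ ω = Φ ω') :
    ∫ ω, Φ ω (ω k) ∂Measure.infinitePi (fun _ : ℕ => ν) =
      ∫ ω, ∫ ξ, Φ ω ξ ∂ν ∂Measure.infinitePi (fun _ : ℕ => ν) := by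
  obtain ⟨x₀⟩ : Nonempty X := ν.nonempty_of_neZero
  let tr : (ℕ → X) → ℕ → X := fun ω j => if j < k then ω j else x₀
  have htr : Measurable tr := by
    refine measurable_pi_lambda _ fun j => ?_
    by_cases hj : j < k <;> simp only [tr, hj, if_true, if_false] <;> fun_prop
  have hΦ : ∀ ω, Φ ω = Φ (tr ω) := fun ω => hdep _ _ fun j hj => by simp [tr, hj]
  have hind : IndepFun tr (fun ω => ω k) (Measure.infinitePi fun _ : ℕ => ν) := by
    have h0 : IndepFun (fun (ω : ℕ → X) (i : Finset.range k) => ω i)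
        (fun (ω : ℕ → X) (i : ({k} : Finset ℕ)) => ω i) (Measure.infinitePi fun _ : ℕ => ν) :=
      (iIndepFun_infinitePi (P := fun _ : ℕ => ν) (X := fun _ z => z)
        (by fun_prop)).indepFun_finset (Finset.range k) {k} (by simp) (by fun_prop)
    have hψ : Measurable fun u : ({k} : Finset ℕ) → X => u ⟨k, by simp⟩ := measurable_pi_apply _
    have hφ : Measurable fun (u : Finset.range k → X) (j : ℕ) =>
        if h : j < k then u ⟨j, Finset.mem_range.2 h⟩ else x₀ := by
      refine measurable_pi_lambda _ fun j => ?_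
      by_cases hj : j < k <;> simp only [hj, dite_true, dite_false] <;> fun_prop
    have h1 := h0.comp hφ hψ
    convert h1 using 1
    · funext ω j
      by_cases hj : j < k <;> simp [tr, hj]
    · rfl
  have h2 := hind.map_prod_eq_prod_map_map htr.aemeasurable (measurable_pi_apply k).aemeasurable
  rw [Measure.infinitePi_map_eval] at h2
  have hint : Integrable (Function.uncurry Φ)
      (((Measure.infinitePi fun _ : ℕ => ν).map tr).prod ν) := by
    have : IsProbabilityMeasure ((Measure.infinitePi fun _ : ℕ => ν).map tr) :=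
      Measure.isProbabilityMeasure_map htr.aemeasurable
    exact Integrable.of_bound (C := M) hm.aestronglyMeasurable (ae_of_all _ fun _ => hM _ _)
  calc ∫ ω, Φ ω (ω k) ∂Measure.infinitePi (fun _ : ℕ => ν)
      = ∫ ω, Function.uncurry Φ (tr ω, ω k) ∂Measure.infinitePi (fun _ : ℕ => ν) := by
        simp only [Function.uncurry_apply_pair, ← hΦ]
    _ = ∫ q, Function.uncurry Φ q ∂(((Measure.infinitePi fun _ : ℕ => ν).map tr).prod ν) := by
        rw [← h2, integral_map (Measurable.aemeasurable (by fun_prop)) hm.aestronglyMeasurable]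
    _ = ∫ ω, ∫ ξ, Φ ω ξ ∂ν ∂((Measure.infinitePi fun _ : ℕ => ν).map tr) := by
        rw [integral_prod _ hint]
        rfl
    _ = _ := by
        rw [integral_map htr.aemeasurable]
        · simp only [← hΦ]
        · exact (hm.stronglyMeasurable.integral_prod_right' (ν := ν)).aestronglyMeasurable

end Crest.Agent.R160
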