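import Crest.Agent.R160.Flip
import Crest.Agent.R160.BranchA
import Crest.Agent.R160.Gauss

/-!
Row 160, subtask F2: the law of the observations on a branch is the abstract branch model.
-/

set_option autoImplicit false
set_option linter.unusedSectionVars false
set_option linter.unusedVariables false
set_option maxHeartbeats 400000

open MeasureTheory ProbabilityTheory Filter Topology
open scoped ENNReal

namespace Crest.Agent.R160

universe u
variable {V : Type u} {G : SimpleGraph V} [G.LocallyFinite] {b : ℕ}

namespace Link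

lemma infinitePi_zip {E X Y : Type*} [MeasurableSpace X] [MeasurableSpace Y] (μ : Measure X)
    (ν : Measure Y) [IsProbabilityMeasure μ] [IsProbabilityMeasure ν] :
    ((Measure.infinitePi fun _ : E => μ).prod (Measure.infinitePi fun _ : E => ν)).map
      (fun p e => (p.1 e, p.2 e)) = Measure.infinitePi fun _ : E => μ.prod ν := by
  have hm : Measurable fun (p : (E → X) × (E → Y)) e => (p.1 e, p.2 e) := by fun_prop
  refine Measure.eq_infinitePi _ fun s t ht => ?_
  have hst : MeasurableSet (Set.pi (s : Set E) t) := .pi s.countable_toSet fun i _ => ht i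
  rw [Measure.map_apply hm hst, Measure.prod_apply (hm hst)]
  have h1 : ∀ x : E → X, (Measure.infinitePi fun _ : E => ν) (Prod.mk x ⁻¹'
      ((fun (p : (E → X) × (E → Y)) e => (p.1 e, p.2 e)) ⁻¹' Set.pi (s : Set E) t)) =
      ∏ e ∈ s, ν (Prod.mk (x e) ⁻¹' t e) := by
    intro x
    rw [← Measure.infinitePi_pi (fun _ : E => ν)
      (fun e _ => measurable_prodMk_left (ht e))]
    rfl
  simp_rw [h1]
  have h2 : ∀ e, Measurable fun x : X => ν (Prod.mk x ⁻¹' t e) :=
    fun e => measurable_measure_prodMk_left (ht e)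
  rw [lintegral_prod_eq_prod_lintegral_of_indepFun s
    (fun e (x : E → X) => ν (Prod.mk (x e) ⁻¹' t e))
    (iIndepFun_infinitePi (P := fun _ : E => μ) h2) (fun i => (h2 i).comp (by fun_prop))]
  refine Finset.prod_congr rfl fun e _ => ?_
  rw [(measurePreserving_eval_infinitePi (fun _ : E => μ) e).lintegral_comp (h2 e),
    Measure.prod_apply (ht e)]

/-- The Gaussian average of the observable for given top spin and edge products. -/
noncomputable def Phi (φ : (List (Fin b) → ℝ) → ℝ) (c s : ℝ) (τ : List (Fin b) → Bool) : ℝ :=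
  ∫ z, φ (arr c s fun l => (τ l, z l)) ∂gE (List (Fin b))

lemma integral_Pabs (β' c s : ℝ) (φ : (List (Fin b) → ℝ) → ℝ) (hm : Measurable φ)
    (hb : ∀ a, |φ a| ≤ 1) :
    ∫ ω, φ (arr c s ω) ∂Pabs b β' =
      ∫ τ, Phi φ c s τ ∂(Measure.infinitePi fun _ : List (Fin b) => bern β') := by
  have hz : Measurable fun (p : (List (Fin b) → Bool) × (List (Fin b) → ℝ)) e =>
      (p.1 e, p.2 e) := by fun_prop
  have h1 : Measurable fun ω => φ (arr (b := b) c s ω) := hm.comp (measurable_arr c s)
  rw [Pabs, ← infinitePi_zip, integral_map hz.aemeasurable h1.aestronglyMeasurable, integral_prod]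
  · rfl
  · exact Integrable.of_bound (C := 1) (h1.comp hz).aestronglyMeasurable
      (ae_of_all _ fun _ => hb _)

lemma parS_congr (l : List (Fin b)) : ∀ (s : ℝ) (τ τ' : List (Fin b) → Bool),
    (∀ l', l'.length < l.length → τ l' = τ' l') → parS s τ l = parS s τ' l := by
  induction l with
  | nil => intro s τ τ' _; simp
  | cons j l ih =>
    intro s τ τ' h
    rw [parS_cons, parS_cons, h [] (by simp)]
    exact ih _ _ _ fun l' hl' => h _ (by simpa using hl')

lemma Phi_congr {L : ℕ} {φ : (List (Fin b) → ℝ) → ℝ}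
    (hdep : ∀ a a', (∀ l, l.length ≤ L → a l = a' l) → φ a = φ a') (c s : ℝ)
    {τ τ' : List (Fin b) → Bool} (h : ∀ l, l.length ≤ L → τ l = τ' l) :
    Phi φ c s τ = Phi φ c s τ' := by
  unfold Phi
  congr 1
  funext z
  refine hdep _ _ fun l hl => ?_
  simp only [arr]
  rw [h l hl, parS_congr l s τ τ' fun l' hl' => h l' (by omega)]

open Classical in
/-- The edge products of a configuration along the branch. -/
noncomputable def tauA (K : Kids G b) (D : G.Dart) (A : Finset V) (l : List (Fin b)) : Bool :=
  decide (sx A (ed (K.down D l)).1 = 1)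

omit [G.LocallyFinite] in
lemma sgn_tauA (K : Kids G b) (D : G.Dart) (A : Finset V) (l : List (Fin b)) :
    sgn (tauA K D A l) = sx A (ed (K.down D l)).1 := by
  unfold tauA sgn
  rcases sx_eq A (ed (K.down D l)).1 with h | h <;> rw [h] <;> norm_num

omit [G.LocallyFinite] in
lemma parS_tauA (K : Kids G b) (A : Finset V) (l : List (Fin b)) : ∀ D : G.Dart,
    parS (spin A D.snd) (tauA K D A) l = spin A (K.down D l).snd := by
  induction l with
  | nil => intro D; simp
  | cons j l ih =>
    intro D
    rw [parS_cons, sgn_tauA, K.down_nil, sx_ed, K.down_cons, ← ih (K.kid D j), K.snd_kid]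
    congr 1
    rw [mul_left_comm, spin_mul_self, mul_one]

omit [G.LocallyFinite] in
lemma down_mem {K : Kids G b} {Λ : Finset V} {D : G.Dart} {L : ℕ} (hD : Full K Λ D L)
    {l : List (Fin b)} (hl : l.length ≤ L) : ed (K.down D l) ∈ EF G Λ := by
  rw [ed_mem_EF]
  refine ⟨(hD.2 l).2 hl, ?_⟩
  induction l using List.reverseRecOn with
  | nil => exact hD.1
  | append_singleton l a _ =>
    rw [K.down_append, K.down_cons, K.down_nil, K.snd_kid]
    exact (hD.2 l).2 (by simp at hl; omega)

lemma bern_real (β' : ℝ) (t : Bool) :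
    (bern β').real {t} = (1 + Real.tanh β') / 2 * ((1 + sgn t * 1) / 2) +
      (1 - Real.tanh β') / 2 * ((1 + sgn t * -1) / 2) := by
  have h1 := Real.neg_one_lt_tanh β'
  have h2 := Real.tanh_lt_one β'
  cases t
  · simp [bern, Measure.real, sgn, ENNReal.toReal_ofReal (by linarith : 0 ≤ (1 - Real.tanh β') / 2)]
  · simp [bern, Measure.real, sgn, ENNReal.toReal_ofReal (by linarith : 0 ≤ (1 + Real.tanh β') / 2)]

end Link

open Link

theorem link (hT : G.IsTree) (K : Kids G b) (Λ : Finset V) (β' c : ℝ) {D : G.Dart} {L : ℕ}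
    (hD : Full K Λ D L) (φ : (List (Fin b) → ℝ) → ℝ) (hm : Measurable φ) (hb : ∀ a, |φ a| ≤ 1)
    (hdep : ∀ a a', (∀ l, l.length ≤ L → a l = a' l) → φ a = φ a') :
    gm G Λ β' 0 (fun A => ∫ z, φ (fun l => c * drift G Λ A (ed (K.down D l)) +
        √c * z (ed (K.down D l))) ∂gE G.edgeSet) =
      (∫ ω, φ (arr c 1 ω) ∂Pabs b β' + ∫ ω, φ (arr c (-1) ω) ∂Pabs b β') / 2 := by
  classical
  have hinj := ed_down_injective hT K D
  -- the finite set of relevant addresses
  obtain ⟨T, hTm⟩ : ∃ T : Finset (List (Fin b)), ∀ l, l ∈ T ↔ l.length ≤ L :=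
    ⟨(Finset.range (L + 1)).biUnion (lists b), fun l => by
      simp [mem_lists]⟩
  let ext : (T → Bool) → List (Fin b) → Bool := fun σ l => if h : l ∈ T then σ ⟨l, h⟩ else false
  have hext : ∀ s τ, Phi φ c s τ = Phi φ c s (ext (T.restrict τ)) := fun s τ =>
    Phi_congr hdep c s fun l hl => by simp [ext, (hTm l).2 hl]
  -- left-hand integrand
  have h1 : ∀ A : Finset V, ∫ z, φ (fun l => c * drift G Λ A (ed (K.down D l)) +
      √c * z (ed (K.down D l))) ∂gE G.edgeSet = Phi φ c (spin A D.snd) (tauA K D A) := by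
    intro A
    have hmap : (gE G.edgeSet).map (fun z l => z (ed (K.down D l))) = gE (List (Fin b)) :=
      Measure.map_infinitePi_infinitePi_of_inj (P := fun _ : G.edgeSet => gaussianReal 0 1) hinj
    have hF : Measurable fun z : List (Fin b) → ℝ =>
        φ (arr c (spin A D.snd) fun l => (tauA K D A l, z l)) :=
      hm.comp ((measurable_arr c _).comp (by fun_prop))
    rw [Phi, ← hmap, integral_map (Measurable.aemeasurable (by fun_prop)) hF.aestronglyMeasurable]
    congr 1
    funext z
    refine hdep _ _ fun l hl => ?_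
    simp only [arr]
    rw [parS_tauA, sgn_tauA, drift_of_mem (down_mem hD hl), sp_ed, sx_ed, mul_add (spin A _),
      mul_left_comm (spin A _), spin_mul_self]
    ring
  -- expansion over the finitely many patterns
  have h2 : ∀ (A : Finset V), Phi φ c (spin A D.snd) (tauA K D A) =
      ∑ σ : T → Bool, Phi φ c (spin A D.snd) (ext σ) *
        ∏ e ∈ Finset.univ.map ⟨fun l : T => ed (K.down D l), fun l l' h => Subtype.ext (hinj h)⟩,
          (1 + sgn (ext σ (Function.invFun (fun l => ed (K.down D l)) e)) * sx A e.1) / 2 := by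
    intro A
    rw [hext, Finset.sum_eq_single (T.restrict (tauA K D A))]
    · rw [Finset.prod_eq_one, mul_one]
      intro e he
      obtain ⟨l, -, rfl⟩ := Finset.mem_map.1 he
      have e1 : Function.invFun (fun l => ed (K.down D l)) (ed (K.down D l)) = l :=
        Function.leftInverse_invFun hinj l
      simp only [Function.Embedding.coeFn_mk, e1, ext, l.2, dif_pos, Finset.restrict, sgn_tauA]
      rcases sx_eq A (ed (K.down D l)).1 with h | h <;> rw [h] <;> norm_num
    · intro σ _ hσ
      obtain ⟨l, hl⟩ := Function.ne_iff.1 hσ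
      rw [Finset.prod_eq_zero (Finset.mem_map_of_mem _ (Finset.mem_univ l)), mul_zero]
      have e1 : Function.invFun (fun l => ed (K.down D l)) (ed (K.down D l)) = l :=
        Function.leftInverse_invFun hinj l
      simp only [Function.Embedding.coeFn_mk, e1, ext, l.2, dif_pos, ← sgn_tauA]
      have hl' : σ l ≠ tauA K D A l := hl
      revert hl'
      cases σ l <;> cases tauA K D A l <;> simp [sgn]
    · exact fun h => absurd (Finset.mem_univ _) h
  -- right-hand side
  have h3 : ∀ s, ∫ ω, φ (arr c s ω) ∂Pabs b β' =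
      ∑ σ : T → Bool, (∏ l : T, (bern β').real {σ l}) * Phi φ c s (ext σ) := by
    intro s
    rw [integral_Pabs β' c s φ hm hb]
    rw [show (fun τ => Phi φ c s τ) =
      fun τ => (fun σ : T → Bool => Phi φ c s (ext σ)) (T.restrict τ) from funext (hext s)]
    rw [integral_restrict_infinitePi (X := fun _ : List (Fin b) => Bool) (fun _ => bern β') (s := T)
      (f := fun σ : T → Bool => Phi φ c s (ext σ))
      (measurable_of_finite _).aestronglyMeasurable, integral_fintype Integrable.of_finite]
    refine Finset.sum_congr rfl fun σ _ => ?_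
    rw [Measure.real, Measure.pi_singleton, ENNReal.toReal_prod, smul_eq_mul]
    rfl
  simp only [h1, h2]
  rw [gm, avg_sum, h3, h3, ← Finset.sum_add_distrib, Finset.sum_div]
  refine Finset.sum_congr rfl fun σ _ => ?_
  have h4 := gm_zero_prod hT Λ β' hD.1 (fun t => Phi φ c t (ext σ))
    (fun e t => (1 + sgn (ext σ (Function.invFun (fun l => ed (K.down D l)) e)) * t) / 2)
    (T := Finset.univ.map ⟨fun l : T => ed (K.down D l), fun l l' h => Subtype.ext (hinj h)⟩)
    (fun e he => by
      obtain ⟨l, -, rfl⟩ := Finset.mem_map.1 he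
      exact down_mem hD ((hTm l).1 l.2))
  rw [gm] at h4
  rw [h4, Finset.prod_map]
  have h5 : ∀ l : T, ext σ (Function.invFun (fun l => ed (K.down D l)) (ed (K.down D l))) = σ l := by
    intro l
    rw [Function.leftInverse_invFun hinj l]
    simp [ext]
  simp only [Function.Embedding.coeFn_mk, h5, bern_real]
  ring

end Crest.Agent.R160
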