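import Crest.Agent.R160.Spine
import Crest.Agent.R160.Link
import Crest.Agent.R160.BranchC

/-!
Row 160: estimates for the cavity magnetisations of the chain, from the abstract branch model.
-/

set_option autoImplicit false
set_option linter.unusedSectionVars false
set_option linter.unusedVariables false
set_option maxHeartbeats 400000

open MeasureTheory ProbabilityTheory Filter Topology
open scoped ENNReal

namespace Crest.Agent.R160

universe u

variable {V : Type u} {G : SimpleGraph V} [G.LocallyFinite] {b : ℕ}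

lemma continuous_tanh' : Continuous Real.tanh := by
  have : Real.tanh = fun x => Real.sinh x / Real.cosh x := funext Real.tanh_eq_sinh_div_cosh
  rw [this]
  exact Continuous.div (by fun_prop) (by fun_prop) fun x => (Real.cosh_pos x).ne'

lemma chain_branch_le (hT : G.IsTree) (K : Kids G b) (Λ : Finset V) {β : ℝ} (hβ : 0 ≤ β)
    (p s j : ℕ) {D : G.Dart} {L : ℕ} (hD : Full K Λ D L) (φ : (List (Fin b) → ℝ) → ℝ)
    (hm : Measurable φ) (hb : ∀ a, |φ a| ≤ 1)
    (hdep : ∀ a a', (∀ l, l.length ≤ L → a l = a' l) → φ a = φ a') {B : ℝ}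
    (hB : ∀ σ : ℝ, σ = 1 ∨ σ = -1 →
      ∫ ω, φ (arr (β * j / 2 ^ p) σ ω) ∂Pabs b (β * (1 - s / 2 ^ p)) ≤ B) :
    ∫ ω, φ (fun l => chain G Λ β p s ω (s + j) (ed (K.down D l))) ∂POm G.edgeSet ≤ B := by
  rw [chain_law Λ β p s hβ j (φ := fun y => φ fun l => y (ed (K.down D l))) (M := 1)
    (hm.comp (by fun_prop)) fun _ => hb _]
  have := link hT K Λ (β * (1 - s / 2 ^ p)) (β * j / 2 ^ p) hD φ hm hb hdep
  simp only [obs, Pi.zero_apply, zero_add]
  rw [this]
  linarith [hB 1 (Or.inl rfl), hB (-1) (Or.inr rfl)]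

lemma chain_branch_real_le (hT : G.IsTree) (K : Kids G b) (Λ : Finset V) {β : ℝ} (hβ : 0 ≤ β)
    (p s j : ℕ) {D : G.Dart} {L : ℕ} (hD : Full K Λ D L) (A : Set (List (Fin b) → ℝ))
    (hm : MeasurableSet A) (hdep : ∀ a a', (∀ l, l.length ≤ L → a l = a' l) → (a ∈ A ↔ a' ∈ A))
    {B : ℝ} (hB : ∀ σ : ℝ, σ = 1 ∨ σ = -1 →
      (Pabs b (β * (1 - s / 2 ^ p))).real {ω | arr (β * j / 2 ^ p) σ ω ∈ A} ≤ B) :
    (POm G.edgeSet).real {ω | (fun l => chain G Λ β p s ω (s + j) (ed (K.down D l))) ∈ A} ≤ B := by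
  have h1 : Measurable fun (ω : ℕ → (G.edgeSet → ℝ) × unitInterval) l =>
      chain G Λ β p s ω (s + j) (ed (K.down D l)) :=
    measurable_pi_lambda _ fun l => (measurable_pi_apply _).comp (measurable_chain Λ β p s _)
  have h := chain_branch_le hT K Λ hβ p s j hD (A.indicator 1) (measurable_one.indicator hm)
    (fun a => by by_cases h : a ∈ A <;> simp [h])
    (fun a a' h => by by_cases h' : a ∈ A <;> simp [h', (hdep a a' h).symm]) (B := B)
    fun σ hσ => by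
      refine le_trans (le_of_eq ?_) (hB σ hσ)
      exact integral_indicator_one (measurable_arr _ σ hm)
  refine le_trans (le_of_eq ?_) h
  exact (integral_indicator_one (h1 hm)).symm

lemma J_add_c (β : ℝ) (p s j : ℕ) :
    β * (1 - ((s + j : ℕ) : ℝ) / 2 ^ p) + β * j / 2 ^ p = β * (1 - s / 2 ^ p) := by
  push_cast
  ring

lemma b_tanh_le_one (hb : 2 ≤ b) {β : ℝ} (hβ : 0 ≤ β) (hθ : b * Real.tanh β ^ 2 ≤ 1) {p s : ℕ}
    (hs : s ≤ 2 ^ p) : b * Real.tanh (β * (1 - s / 2 ^ p)) ^ 2 ≤ 1 := by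
  have h1 : (s : ℝ) / 2 ^ p ≤ 1 := by
    rw [div_le_one (by positivity)]
    exact_mod_cast hs
  have h0 : 0 ≤ (s : ℝ) / 2 ^ p := by positivity
  refine (b_tanh_sq_le hb hβ hθ h0 h1).trans ?_
  exact mul_le_one₀ (pow_le_one₀ (by linarith) (by linarith)) (by positivity) hθ

lemma J_nonneg {β : ℝ} (hβ : 0 ≤ β) {p k : ℕ} (hk : k ≤ 2 ^ p) : 0 ≤ β * (1 - k / 2 ^ p) := by
  refine mul_nonneg hβ (sub_nonneg.2 ?_)
  rw [div_le_one (by positivity)]
  exact_mod_cast hk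

theorem cav_sq_le (hT : G.IsTree) (K : Kids G b) (hb : 2 ≤ b) : ∃ C : ℝ, 0 ≤ C ∧
    ∀ (Λ : Finset V) (β : ℝ), 0 ≤ β → b * Real.tanh β ^ 2 ≤ 1 → ∀ p s j : ℕ, s + j ≤ 2 ^ p →
      ∀ (D : G.Dart) (L : ℕ), Full K Λ D L →
        ∫ ω, cav Λ (β * (1 - ((s + j : ℕ) : ℝ) / 2 ^ p)) (chain G Λ β p s ω (s + j)) D ^ 2
          ∂POm G.edgeSet ≤ C * √(β * j / 2 ^ p) := by
  obtain ⟨C, hC, h⟩ := branch_sq hb
  refine ⟨C, hC, fun Λ β hβ hθ p s j hj D L hD => ?_⟩
  simp only [cav_eq_tanh hT K Λ _ _ hD]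
  set J := β * (1 - ((s + j : ℕ) : ℝ) / 2 ^ p) with hJ
  refine chain_branch_le hT K Λ hβ p s j hD (fun a => Real.tanh (Xi J L a) ^ 2)
    ((continuous_tanh'.comp (continuous_Xi J L)).measurable.pow_const 2) (fun a => ?_)
    (fun a a' h => by rw [Xi_congr J L h]) fun σ hσ => ?_
  · rw [abs_pow]
    exact pow_le_one₀ (abs_nonneg _) (Real.abs_tanh_lt_one _).le
  · have := h J (β * j / 2 ^ p) (J_nonneg hβ hj) (by positivity)
      (by rw [J_add_c]; exact b_tanh_le_one hb hβ hθ (by omega)) L σ hσ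
    rwa [J_add_c] at this

theorem cav_tail_le (hT : G.IsTree) (K : Kids G b) (hb : 2 ≤ b) (lam : ℝ) (hlam : 0 < lam) (q : ℕ) :
    ∃ C : ℝ, 0 ≤ C ∧
    ∀ (Λ : Finset V) (β : ℝ), 0 ≤ β → b * Real.tanh β ^ 2 ≤ 1 → ∀ p s j : ℕ, s + j ≤ 2 ^ p →
      ∀ (D : G.Dart) (L : ℕ), Full K Λ D L →
        (POm G.edgeSet).real {ω | lam <
          |cav Λ (β * (1 - ((s + j : ℕ) : ℝ) / 2 ^ p)) (chain G Λ β p s ω (s + j)) D|} ≤
          C * (β * j / 2 ^ p) ^ q := by
  obtain ⟨C, hC, h⟩ := branch_tail hb lam hlam q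
  refine ⟨C, hC, fun Λ β hβ hθ p s j hj D L hD => ?_⟩
  simp only [cav_eq_tanh hT K Λ _ _ hD]
  set J := β * (1 - ((s + j : ℕ) : ℝ) / 2 ^ p) with hJ
  refine chain_branch_real_le hT K Λ hβ p s j hD {a | lam < |Real.tanh (Xi J L a)|}
    (measurableSet_lt measurable_const
      (continuous_tanh'.comp (continuous_Xi J L)).measurable.abs)
    (fun a a' h => by simp only [Set.mem_ofPred_eq, Xi_congr J L h]) fun σ hσ => ?_
  have := h J (β * j / 2 ^ p) (J_nonneg hβ hj) (by positivity)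
    (by rw [J_add_c]; exact b_tanh_le_one hb hβ hθ (by omega)) L σ hσ
  rwa [J_add_c] at this

lemma fst_mem_of_down (hT : G.IsTree) (K : Kids G b) {Λ : Finset V} {D : G.Dart} {L : ℕ}
    (hD : Full K Λ D L) (l : List (Fin b)) (hl : l.length ≤ L) :
    Full K Λ (K.down D l) (L - l.length) := by
  refine ⟨?_, fun l' => ?_⟩
  · induction l using List.reverseRecOn with
    | nil => exact hD.1
    | append_singleton l a _ =>
      rw [K.down_append, K.down_cons, K.down_nil, K.snd_kid]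
      exact (hD.2 l).2 (by simp at hl; omega)
  · rw [← K.down_append, hD.2, List.length_append]
    omega

theorem cav_spine_le (hT : G.IsTree) (K : Kids G b) (hb : 2 ≤ b) (r : ℝ) (hr : 0 < r) :
    ∃ κ c₀ : ℝ, 0 < κ ∧ 0 < c₀ ∧
    ∀ (Λ : Finset V) (β : ℝ), 0 ≤ β → b * Real.tanh β ^ 2 ≤ 1 → ∀ p s j : ℕ, s + j ≤ 2 ^ p →
      0 < β * j / 2 ^ p → β * j / 2 ^ p ≤ c₀ →
      1 - √(β * j / 2 ^ p) ≤ b * Real.tanh (β * (1 - ((s + j : ℕ) : ℝ) / 2 ^ p)) ^ 2 →
      ∀ (D : G.Dart) (L : ℕ), Full K Λ D L → ∀ (m : ℕ) (l : List (Fin b)), m ≤ l.length + 1 →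
        m ≤ L → 1 ≤ ((L - m : ℕ) : ℝ) * √(β * j / 2 ^ p) →
        (POm G.edgeSet).real {ω | ∑ i ∈ Finset.range m,
          cav Λ (β * (1 - ((s + j : ℕ) : ℝ) / 2 ^ p)) (chain G Λ β p s ω (s + j))
            (K.down D (l.take i)) ^ 2 < κ * √(β * j / 2 ^ p) * m} ≤ r ^ m := by
  obtain ⟨κ, c₀, hκ, hc₀, h⟩ := branch_spine hb r hr
  refine ⟨κ, c₀, hκ, hc₀, fun Λ β hβ hθ p s j hj h1 h2 h3 D L hD m l hm hmL hL => ?_⟩
  set J := β * (1 - ((s + j : ℕ) : ℝ) / 2 ^ p) with hJ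
  have hlen : ∀ i ∈ Finset.range m, (l.take i).length = i := fun i hi => by
    rw [List.length_take, min_eq_left (by have := Finset.mem_range.1 hi; omega)]
  have h4 : ∀ y, ∑ i ∈ Finset.range m, cav Λ J y (K.down D (l.take i)) ^ 2 =
      ∑ i ∈ Finset.range m,
        Real.tanh (Xi J (L - i) fun l' => y (ed (K.down D (l.take i ++ l')))) ^ 2 := fun y => by
    refine Finset.sum_congr rfl fun i hi => ?_
    have := fst_mem_of_down hT K hD (l.take i)
      (by rw [hlen i hi]; have := Finset.mem_range.1 hi; omega)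
    rw [hlen i hi] at this
    simp only [cav_eq_tanh hT K Λ _ _ this, K.down_append]
  simp only [h4]
  refine chain_branch_real_le hT K Λ hβ p s j hD {a | ∑ i ∈ Finset.range m,
    Real.tanh (Xi J (L - i) fun l' => a (l.take i ++ l')) ^ 2 < κ * √(β * j / 2 ^ p) * m}
    (measurableSet_lt (Finset.measurable_fun_sum _ fun i _ => Measurable.pow_const
      ((continuous_tanh'.comp (continuous_Xi J _)).measurable.comp (by fun_prop)) 2)
      measurable_const) (fun a a' h => ?_) fun σ hσ => ?_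
  · simp only [Set.mem_ofPred_eq]
    rw [Finset.sum_congr rfl fun i hi => by
      rw [Xi_congr J (L - i) (a := fun l' => a (l.take i ++ l')) (a' := fun l' => a' (l.take i ++ l'))
        fun l' hl' => h _ (by
          rw [List.length_append, hlen i hi]
          have := Finset.mem_range.1 hi
          omega)]]
  · have := h J (β * j / 2 ^ p) (J_nonneg hβ hj) h1 h2
      (by rw [J_add_c]; exact b_tanh_le_one hb hβ hθ (by omega)) h3 L m l hm hmL hL σ hσ
    rwa [J_add_c] at this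

end Crest.Agent.R160
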