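import Crest.Agent.R160.Octave
import Crest.Agent.R160.Law

/-!
Row 160: equicontinuity in time, the a priori bound at small times and the law at the final time.
-/

set_option autoImplicit false
set_option linter.unusedSectionVars false
set_option linter.unusedVariables false
set_option maxHeartbeats 400000

open MeasureTheory ProbabilityTheory Filter Topology
open scoped ENNReal

namespace Crest.Agent.R160

universe u

variable {V : Type u} {G : SimpleGraph V} [G.LocallyFinite] {b : ℕ}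

omit [G.LocallyFinite] in
lemma mag_empty (J : ℝ) (y : G.edgeSet → ℝ) (x : V) : mag G ∅ J y x = -1 := by
  rw [mag, gm, avg_congr (g' := fun _ => -1), avg_const (powerset_ne _)]
  intro A hA
  rw [Finset.powerset_empty, Finset.mem_singleton] at hA
  simp [hA, spin]

omit [G.LocallyFinite] in
lemma EF_empty : EF G ∅ = ∅ := by
  refine Finset.eq_empty_of_forall_notMem fun e he => ?_
  obtain ⟨e, h⟩ := e
  induction e with
  | _ u v => simpa using mem_EF.1 he u (by simp)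

lemma mart_incr (hT : G.IsTree) (K : Kids G b) (hreg : G.IsRegularOfDegree (b + 1)) (hb : 2 ≤ b)
    (Λ : Finset V) {β : ℝ} (hβ : 0 ≤ β) (hβ1 : β ≤ 1) (p s k' : ℕ) (hs : s ≤ k') {ρ : ℝ}
    (hρ1 : ρ < 1)
    (hρ : ∀ k : ℕ, k' ≤ k → k ≤ 2 ^ p → b * Real.tanh (β * (1 - k / 2 ^ p)) ^ 2 ≤ ρ)
    (x : V) (j : ℕ) (hj : k' + j ≤ 2 ^ p) :
    ∫ ω, (mag G Λ (β * (1 - ((k' + j : ℕ) : ℝ) / 2 ^ p)) (chain G Λ β p s ω (k' + j)) x -
      mag G Λ (β * (1 - k' / 2 ^ p)) (chain G Λ β p s ω k') x) ^ 2 ∂POm G.edgeSet ≤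
      j * (2 * (β / 2 ^ p) * ((b + 1) * (4 * (1 / (1 - ρ)))) +
        Cerr * ((EF G Λ).card : ℝ) ^ 4 * (β / 2 ^ p) ^ 2) := by
  induction j with
  | zero => simp
  | succ j ih =>
    have ih' := ih (by omega)
    have h1 := pair_chain Λ β p s ∅ hβ hβ1 0 (k' + j) (by omega) (Nat.zero_le _) x x
      (X := fun ω => mag G Λ (β * (1 - k' / 2 ^ p)) (chain G Λ β p s ω k') x + 1)
      (((measurable_mag Λ _ x).comp (measurable_chain Λ β p s k')).add_const 1) (M := 2)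
      (fun ω => (abs_add_le _ _).trans (by
        have := abs_mag_le Λ (β * (1 - k' / 2 ^ p)) (chain G Λ β p s ω k') x
        rw [abs_one]
        linarith))
      (fun ω ω' h => by rw [chain_congr Λ β p s (k := k') fun i hi => h i (by omega)])
      (Finset.Subset.refl _) (by rw [EF_empty]; exact Finset.empty_subset _)
    have h2 : ∀ u v : ℝ, u - -1 - (v + 1) = u - v := fun u v => by ring
    simp only [mag_empty, h2] at h1
    have hJ := J_nonneg hβ (show k' + j ≤ 2 ^ p by omega)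
    have hbθ := hρ (k' + j) (by omega) (by omega)
    have hθ := tanh_sq_le_half hb (hbθ.trans hρ1.le)
    have hρ0 : 0 ≤ ρ := le_trans (by positivity) hbθ
    have h3 := sum_edges_le hT K hreg x (EF G Λ) (fun e => ∫ ω,
      (Gam G Λ (β * (1 - ((k' + j : ℕ) : ℝ) / 2 ^ p)) (chain G Λ β p s ω (k' + j)) x e -
        Gam G ∅ (β * (1 - ((k' + j : ℕ) : ℝ) / 2 ^ p)) (chain G ∅ β p 0 ω (k' + j)) x e) ^ 2
          ∂POm G.edgeSet)
      (fun m => 4 * (Real.tanh (β * (1 - ((k' + j : ℕ) : ℝ) / 2 ^ p)) ^ 2) ^ m)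
      (fun m => by positivity)
      (fun v l _ => integral_Gam_crude hT K Λ ∅ β p s 0 (k' + j) hJ hθ (inD x v) l)
      (4 * (1 / (1 - ρ))) fun M => by
        refine le_trans (Finset.sum_le_sum (g := fun m => 4 * ρ ^ m) fun m _ => ?_) ?_
        · rw [mul_left_comm, ← mul_pow]
          exact mul_le_mul_of_nonneg_left (pow_le_pow_left₀ (by positivity) hbθ m) (by norm_num)
        · rw [← Finset.mul_sum]
          exact mul_le_mul_of_nonneg_left (sum_geom_le hρ0 hρ1 M) (by norm_num)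
    have h4 := mul_le_mul_of_nonneg_left h3 (by positivity : 0 ≤ 2 * (β / 2 ^ p))
    rw [← add_assoc, Nat.cast_succ j]
    linarith

lemma abs_prod_sub_prod_le {ι : Type*} (S : Finset ι) {f g : ι → ℝ} (hf : ∀ i, |f i| ≤ 1)
    (hg : ∀ i, |g i| ≤ 1) : |∏ i ∈ S, f i - ∏ i ∈ S, g i| ≤ ∑ i ∈ S, |f i - g i| := by
  classical
  induction S using Finset.induction_on with
  | empty => simp
  | insert a S ha ih =>
    rw [Finset.prod_insert ha, Finset.prod_insert ha, Finset.sum_insert ha]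
    have h1 : f a * ∏ i ∈ S, f i - g a * ∏ i ∈ S, g i =
        (f a - g a) * ∏ i ∈ S, f i + g a * (∏ i ∈ S, f i - ∏ i ∈ S, g i) := by ring
    have h2 : |∏ i ∈ S, f i| ≤ 1 := by
      rw [Finset.abs_prod]
      exact Finset.prod_le_one (fun _ _ => abs_nonneg _) fun i _ => hf i
    rw [h1]
    refine (abs_add_le _ _).trans (add_le_add ?_ ?_)
    · rw [abs_mul]
      exact mul_le_of_le_one_right (abs_nonneg _) h2
    · rw [abs_mul]
      exact (mul_le_of_le_one_left (abs_nonneg _) (hg a)).trans ih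

omit [G.LocallyFinite] in
lemma integral_gm_chain (Λ : Finset V) {β : ℝ} (hβ : 0 ≤ β) (p s j : ℕ) {g : Finset V → ℝ} {M : ℝ}
    (hM : ∀ A, |g A| ≤ M) :
    ∫ ω, gm G Λ (β * (1 - ((s + j : ℕ) : ℝ) / 2 ^ p)) (chain G Λ β p s ω (s + j)) g ∂POm G.edgeSet =
      gm G Λ (β * (1 - s / 2 ^ p)) 0 g := by
  rw [chain_law Λ β p s hβ j (φ := fun y => gm G Λ (β * (1 - ((s + j : ℕ) : ℝ) / 2 ^ p)) y g)
    (M := M) (measurable_gm Λ _ measurable_id fun _ => measurable_const) fun _ => abs_gm_le hM,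
    ← eq_sub_iff_add_eq.2 (J_add_c β p s j) |>.symm,
    ← bayes Λ _ _ (by positivity) 0 (φ := fun _ => g) (fun _ => measurable_const) fun _ => hM]
  simp

lemma abs_sgn (t : Bool) : |sgn t| = 1 := by cases t <;> simp [sgn]

lemma abs_half_le {t : Bool} {m : ℝ} (h : |m| ≤ 1) : |(1 + sgn t * m) / 2| ≤ 1 := by
  have h1 : |sgn t * m| ≤ 1 := by rw [abs_mul, abs_sgn, one_mul]; exact h
  rw [abs_le] at h1 ⊢
  constructor <;> linarith

lemma mag_sq_le (hT : G.IsTree) (Λ : Finset V) {J : ℝ} (hJ : 0 ≤ J) (hθ : Real.tanh J ^ 2 ≤ 1 / 2)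
    (y : G.edgeSet → ℝ) {D : G.Dart} (hD : ed D ∈ EF G Λ) :
    mag G Λ J y D.fst ^ 2 ≤ 8 * (cav Λ J y D ^ 2 + cav Λ J y D.symm ^ 2) := by
  have hD' : ed D.symm ∈ EF G Λ := by
    rw [ed_mem_EF] at hD ⊢
    exact ⟨hD.2, hD.1⟩
  have h0 := tanh_nonneg' hJ
  have h1 := abs_gg_le (m := mag G Λ J y D.snd) h0 hθ (abs_cav_le Λ J y D)
  have h2 := abs_gg_le (m := mag G Λ J y D.fst) h0 hθ (abs_cav_le Λ J y D.symm)
  rw [← mag_fst hT Λ J y hD] at h1
  have h3 := mag_fst hT Λ J y hD'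
  change mag G Λ J y D.snd = gg _ _ (mag G Λ J y D.fst) at h3
  rw [← h3] at h2
  have h4 := mul_le_mul_of_nonneg_left h2 h0
  have h5 : Real.tanh J ≤ 1 := (Real.tanh_lt_one J).le
  rw [← sq_abs, ← sq_abs (cav Λ J y D), ← sq_abs (cav Λ J y D.symm)]
  have h6 := abs_nonneg (mag G Λ J y D.fst)
  have h7 := abs_nonneg (cav Λ J y D.symm)
  have h8 := abs_nonneg (cav Λ J y D)
  have h9 : |mag G Λ J y D.fst| ≤ 2 * (|cav Λ J y D| + |cav Λ J y D.symm|) := by nlinarith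
  refine (pow_le_pow_left₀ h6 h9 2).trans ?_
  nlinarith [sq_nonneg (|cav Λ J y D| - |cav Λ J y D.symm|)]

namespace Dat

variable {β : ℝ} (d : Dat G β)

theorem equi (hT : G.IsTree) (K : Kids G b) (hreg : G.IsRegularOfDegree (b + 1)) (hb : 2 ≤ b)
    (hβ : 0 ≤ β) (hθ : b * Real.tanh β ^ 2 ≤ 1) (D : G.Dart) (i : ℕ) (ε : ℝ) (hε : 0 < ε) :
    ∃ (i₀ N : ℕ), ∀ n ≥ N, ∃ p₀ : ℕ, ∀ p ≥ p₀, ∀ k k' : ℕ,
      2 ^ p ≤ k' * 2 ^ i → k' ≤ k → k ≤ 2 ^ p → (k - k') * 2 ^ i₀ ≤ 2 ^ p →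
        |d.sec D n (k / 2 ^ p) - d.sec D n (k' / 2 ^ p)| ≤ ε := by
  have hβ1 : β ≤ 1 := le_one_of_tanh_sq (tanh_sq_le_half hb hθ)
  set ρ : ℝ := (1 - 1 / 2 ^ i / 2) ^ 2 with hρ
  have hi1 : (1 : ℝ) / 2 ^ i ≤ 1 := div_le_one_of_le₀ (one_le_pow₀ one_le_two) (by positivity)
  have hi0 : (0 : ℝ) < 1 / 2 ^ i := by positivity
  have hρ1 : ρ < 1 := by nlinarith
  set η := ε / 256 with hη
  have hη0 : 0 < η := by positivity
  set Γ : ℝ := (b + 1) * (4 * (1 / (1 - ρ))) with hΓ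
  have hΓ0 : 0 ≤ Γ := by
    have : 0 < 1 - ρ := by linarith
    positivity
  obtain ⟨i₁, hi₁⟩ := exists_mesh_le (2 * Γ) (half_pos (sq_pos_of_pos hη0))
  obtain ⟨i₂, hi₂⟩ := exists_mesh_le 1 hη0
  obtain ⟨N, hN⟩ := exists_nat_one_div_lt hη0
  refine ⟨i₁ + i₂, N + i, fun n hn => ?_⟩
  have hn' : 1 / ((n : ℝ) + 1) ≤ η := by
    refine le_trans ?_ hN.le
    gcongr
    omega
  set Λ := ball G D.fst (d.R n) with hΛ
  obtain ⟨p₁, hnp₁, hp₁⟩ := d.exists_Cl n Λ hn'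
  obtain ⟨p₂, hp₂⟩ := exists_mesh_le (Cerr * ((EF G Λ).card : ℝ) ^ 4) (half_pos (sq_pos_of_pos hη0))
  refine ⟨p₁ + p₂, fun p hp k k' h1 h2 h3 h4 => ?_⟩
  have hk' : 2 ^ (p - n) ≤ k' := by
    have h5 : 2 ^ (p - n) * 2 ^ i ≤ 2 ^ p := by
      rw [← pow_add]
      exact Nat.pow_le_pow_right (by norm_num) (by omega)
    exact Nat.le_of_mul_le_mul_right (h5.trans h1) (by positivity)
  have c1 := abs_le.1 (d.sec_close (hp₁ p (by omega) D.fst (Finset.Subset.refl _) k (by omega) h3))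
  have c2 := abs_le.1 (d.sec_close (hp₁ p (by omega) D.fst (Finset.Subset.refl _) k' hk' (by omega)))
  obtain ⟨j, rfl⟩ := Nat.exists_eq_add_of_le h2
  rw [Nat.add_sub_cancel_left] at h4
  have hsub : ∀ k : ℕ, k' ≤ k → k ≤ 2 ^ p → b * Real.tanh (β * (1 - k / 2 ^ p)) ^ 2 ≤ ρ := by
    intro k hk hk2
    refine sub_of_start hb hβ hθ hi0.le ?_ ?_
    · rw [div_le_div_iff₀ (by positivity) (by positivity), one_mul]
      exact_mod_cast h1.trans (Nat.mul_le_mul_right _ hk)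
    · rw [div_le_one (by positivity)]
      exact_mod_cast hk2
  have hj : (j : ℝ) / 2 ^ p ≤ 1 / 2 ^ (i₁ + i₂) := by
    rw [div_le_div_iff₀ (by positivity) (by positivity), one_mul]
    exact_mod_cast h4
  have hja : j * (β / 2 ^ p) ≤ 1 / 2 ^ (i₁ + i₂) := by
    refine le_trans ?_ hj
    rw [← mul_div_assoc]
    gcongr
    exact mul_le_of_le_one_right (by positivity) hβ1
  set J := β * (1 - ((k' + j : ℕ) : ℝ) / 2 ^ p) with hJ
  set J' := β * (1 - k' / 2 ^ p) with hJ'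
  have m1 := measurable_chain (G := G) Λ β p (2 ^ (p - n)) (k' + j)
  have m2 := measurable_chain (G := G) Λ β p (2 ^ (p - n)) k'
  have hx : ∀ x, Integrable (fun ω => |mag G Λ J (chain G Λ β p (2 ^ (p - n)) ω (k' + j)) x -
      mag G Λ J' (chain G Λ β p (2 ^ (p - n)) ω k') x|) (POm G.edgeSet) ∧
      ∫ ω, |mag G Λ J (chain G Λ β p (2 ^ (p - n)) ω (k' + j)) x -
        mag G Λ J' (chain G Λ β p (2 ^ (p - n)) ω k') x| ∂POm G.edgeSet ≤ η := fun x => by
    have m3 := ((measurable_mag Λ J x).comp m1).sub ((measurable_mag Λ J' x).comp m2)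
    have hb2 : ∀ ω, |mag G Λ J (chain G Λ β p (2 ^ (p - n)) ω (k' + j)) x -
        mag G Λ J' (chain G Λ β p (2 ^ (p - n)) ω k') x| ≤ 2 := fun ω =>
      (abs_sub _ _).trans ((add_le_add (abs_mag_le _ _ _ _) (abs_mag_le _ _ _ _)).trans (by norm_num))
    refine ⟨(integrable_of_abs_le m3 2 hb2).abs, integral_abs_le_sqrt _ m3
      (integrable_of_abs_le (m3.pow_const 2) (2 ^ 2) fun ω => by
        rw [abs_pow]
        exact pow_le_pow_left₀ (abs_nonneg _) (hb2 ω) 2) hη0 ?_⟩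
    refine (mart_incr hT K hreg hb Λ hβ hβ1 p _ k' hk' hρ1 hsub x j h3).trans ?_
    rw [← hΓ]
    have h5 := hi₁ (i₁ + i₂) (by omega)
    have h6 := hp₂ p (by omega)
    have h7 := mul_le_mul_of_nonneg_left hja (by positivity : 0 ≤ 2 * Γ)
    have h8 : β / 2 ^ p ≤ 1 / 2 ^ p := by gcongr
    have h9 : j * (β / 2 ^ p) ≤ 1 :=
      hja.trans (div_le_one_of_le₀ (one_le_pow₀ one_le_two) (by positivity))
    have hCe : 0 ≤ Cerr * ((EF G Λ).card : ℝ) ^ 4 := by
      have := Cerr_nonneg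
      positivity
    have h10 := mul_le_mul_of_nonneg_left (mul_le_mul h9 h8 (by positivity) zero_le_one) hCe
    calc _ = 2 * Γ * (j * (β / 2 ^ p)) +
          Cerr * ((EF G Λ).card : ℝ) ^ 4 * (j * (β / 2 ^ p) * (β / 2 ^ p)) := by ring
      _ ≤ _ := by linarith
  have hD : ed D ∈ EF G Λ := by
    rw [ed_mem_EF, mem_ball hT.connected, mem_ball hT.connected]
    exact ⟨by simp, (SimpleGraph.dist_eq_one_iff_adj.2 D.adj).le.trans (d.one_le n)⟩
  have hθd : |Real.tanh J - Real.tanh J'| ≤ η := by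
    refine (tanh_lip _ _).trans ?_
    have : J - J' = -(j * (β / 2 ^ p)) := by
      rw [hJ, hJ']
      push_cast
      ring
    rw [this, abs_neg, abs_of_nonneg (by positivity)]
    linarith [hi₂ (i₁ + i₂) (by omega)]
  have hJ0 : 0 ≤ J := J_nonneg hβ h3
  have hJ0' : 0 ≤ J' := J_nonneg hβ (by omega)
  have hθ1 := tanh_sq_le_half hb ((hsub _ h2 h3).trans hρ1.le)
  have hθ2 := tanh_sq_le_half hb ((hsub k' le_rfl (by omega)).trans hρ1.le)
  have h5 := abs_integral_sq_sub_le (P := POm G.edgeSet) ((measurable_cav Λ J D).comp m1)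
    ((measurable_cav Λ J' D).comp m2) (M := 1) (fun _ => abs_cav_le _ _ _ _)
    (fun _ => abs_cav_le _ _ _ _)
  have i1 : Integrable (fun ω => |mag G Λ J (chain G Λ β p (2 ^ (p - n)) ω (k' + j)) D.fst -
      mag G Λ J' (chain G Λ β p (2 ^ (p - n)) ω k') D.fst| +
      |mag G Λ J (chain G Λ β p (2 ^ (p - n)) ω (k' + j)) D.snd -
      mag G Λ J' (chain G Λ β p (2 ^ (p - n)) ω k') D.snd|) (POm G.edgeSet) :=
    (hx D.fst).1.add (hx D.snd).1
  have h6 : ∫ ω, |cav Λ J (chain G Λ β p (2 ^ (p - n)) ω (k' + j)) D -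
      cav Λ J' (chain G Λ β p (2 ^ (p - n)) ω k') D| ∂POm G.edgeSet ≤ 7 * (η + η + 16 * η) := by
    refine (integral_mono_of_nonneg (ae_of_all _ fun _ => abs_nonneg _)
      ((i1.add (integrable_const (16 * η))).const_mul 7) (ae_of_all _ fun ω => ?_)).trans ?_
    · have h7 := mu_lip (tanh_nonneg' hJ0) hθ1 (tanh_nonneg' hJ0') hθ2
        (abs_cav_le Λ J (chain G Λ β p (2 ^ (p - n)) ω (k' + j)) D)
        (abs_cav_le Λ J' (chain G Λ β p (2 ^ (p - n)) ω k') D)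
        (abs_mag_le Λ J (chain G Λ β p (2 ^ (p - n)) ω (k' + j)) D.snd)
        (abs_mag_le Λ J' (chain G Λ β p (2 ^ (p - n)) ω k') D.snd)
      rw [← mag_fst hT Λ J _ hD, ← mag_fst hT Λ J' _ hD] at h7
      simp only [Pi.add_apply]
      linarith
    · rw [integral_const_mul]
      simp only [Pi.add_apply]
      rw [integral_add i1 (integrable_const _), integral_add (hx D.fst).1 (hx D.snd).1]
      simp only [integral_const, probReal_univ, smul_eq_mul, one_mul]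
      linarith [(hx D.fst).2, (hx D.snd).2]
  simp only [Function.comp_apply] at h5
  rw [abs_le] at h5 ⊢
  constructor <;> linarith [h5.1, h5.2]

theorem base (hT : G.IsTree) (K : Kids G b) (hb : 2 ≤ b) (hβ : 0 ≤ β)
    (hθ : b * Real.tanh β ^ 2 ≤ 1) (D : G.Dart) : ∃ C : ℝ, 0 ≤ C ∧ ∀ (i : ℕ) (ε : ℝ), ∀ n ≥ i,
      ∀ n' ≥ i, 1 / ((n : ℝ) + 1) ≤ ε → 1 / ((n' : ℝ) + 1) ≤ ε →
        d.del D.fst n n' (1 / 2 ^ i) ≤ C * (3 / 4) ^ i + 8 * ε := by
  have hβ1 : β ≤ 1 := le_one_of_tanh_sq (tanh_sq_le_half hb hθ)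
  obtain ⟨C, hC, h⟩ := cav_sq_le hT K hb
  refine ⟨64 * C, by positivity, fun i ε n hn n' hn' h1 h1' => ?_⟩
  set R := d.R n + d.R n' with hR
  have hR1 : 1 ≤ R := (d.one_le n).trans (Nat.le_add_right _ _)
  set Λ := ball G D.fst R with hΛ
  obtain ⟨p₁, hnp₁, hp₁⟩ := d.exists_Cl n Λ h1
  obtain ⟨p₁', hnp₁', hp₁'⟩ := d.exists_Cl n' Λ h1'
  set P := p₁ + p₁' with hP
  have hk : 2 ^ (P - i) ≤ 2 ^ P := Nat.pow_le_pow_right (by norm_num) (by omega)
  have hs : ∀ n ≥ i, 2 ^ (P - n) ≤ 2 ^ (P - i) := fun n hn =>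
    Nat.pow_le_pow_right (by norm_num) (by omega)
  have h2 := abs_le.1 (d.Dm_close
    (hp₁ P (by omega) D.fst (ball_subset hT.connected (by simp [hR])) _ (hs n hn) hk)
    (hp₁' P (by omega) D.fst (ball_subset hT.connected (by simp [hR])) _ (hs n' hn') hk))
  have ht : ((2 ^ (P - i) : ℕ) : ℝ) / 2 ^ P = 1 / 2 ^ i := pow_sub_div (by omega)
  rw [ht] at h2
  have hD : ed D ∈ EF G Λ := by
    rw [ed_mem_EF, mem_ball hT.connected, mem_ball hT.connected]
    exact ⟨by simp, (SimpleGraph.dist_eq_one_iff_adj.2 D.adj).le.trans hR1⟩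
  have hF1 : Full K Λ D R := full_ball hT K (Or.inr rfl) hR1 (by simp)
  have hF2 : Full K Λ D.symm (R - 1) := full_ball hT K (Or.inl (snd_not_mem_side hT D.symm)) hR1 (by
    change G.dist D.fst D.snd + _ = _
    rw [SimpleGraph.dist_eq_one_iff_adj.2 D.adj]
    omega)
  set J := β * (1 - ((2 ^ (P - i) : ℕ) : ℝ) / 2 ^ P) with hJ
  have hJ0 : 0 ≤ J := J_nonneg hβ hk
  have hJθ : Real.tanh J ^ 2 ≤ 1 / 2 := tanh_sq_le_half hb (b_tanh_le_one hb hβ hθ hk)
  have h3 : ∀ n ≥ i, Integrable (fun ω =>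
      mag G Λ J (chain G Λ β P (2 ^ (P - n)) ω (2 ^ (P - i))) D.fst ^ 2) (POm G.edgeSet) ∧
      ∫ ω, mag G Λ J (chain G Λ β P (2 ^ (P - n)) ω (2 ^ (P - i))) D.fst ^ 2 ∂POm G.edgeSet ≤
        16 * C * (3 / 4) ^ i := by
    intro n hn
    have m1 := measurable_chain (G := G) Λ β P (2 ^ (P - n)) (2 ^ (P - i))
    have i1 : ∀ D', Integrable (fun ω =>
        cav Λ J (chain G Λ β P (2 ^ (P - n)) ω (2 ^ (P - i))) D' ^ 2) (POm G.edgeSet) := fun D' =>
      integrable_of_abs_le (((measurable_cav Λ J D').comp m1).pow_const 2) 1 fun ω => by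
        rw [abs_pow]
        exact pow_le_one₀ (abs_nonneg _) (abs_cav_le _ _ _ _)
    refine ⟨integrable_of_abs_le (((measurable_mag Λ J _).comp m1).pow_const 2) 1 fun ω => by
      rw [abs_pow]
      exact pow_le_one₀ (abs_nonneg _) (abs_mag_le _ _ _ _), ?_⟩
    refine (integral_mono_of_nonneg (ae_of_all _ fun _ => sq_nonneg _)
      (((i1 D).add (i1 D.symm)).const_mul 8)
      (ae_of_all _ fun ω => mag_sq_le hT Λ hJ0 hJθ _ hD)).trans ?_
    rw [integral_const_mul]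
    simp only [Pi.add_apply]
    rw [integral_add (i1 D) (i1 D.symm)]
    obtain ⟨j, hj⟩ := Nat.exists_eq_add_of_le (hs n hn)
    have h4 := h Λ β hβ hθ P (2 ^ (P - n)) j (by omega) D R hF1
    have h5 := h Λ β hβ hθ P (2 ^ (P - n)) j (by omega) D.symm (R - 1) hF2
    rw [← hj] at h4 h5
    have h6 : √(β * j / 2 ^ P) ≤ (3 / 4) ^ i := by
      rw [Real.sqrt_le_iff]
      refine ⟨by positivity, ?_⟩
      have h7 : (j : ℝ) ≤ ((2 ^ (P - i) : ℕ) : ℝ) := by exact_mod_cast (hj ▸ Nat.le_add_left _ _)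
      calc β * j / 2 ^ P ≤ 1 * ((2 ^ (P - i) : ℕ) : ℝ) / 2 ^ P := by gcongr
        _ = (1 / 2) ^ i := by rw [one_mul, ht, one_div_pow]
        _ ≤ ((3 / 4) ^ 2) ^ i := by gcongr; norm_num
        _ = _ := by rw [← pow_mul, ← pow_mul, mul_comm]
    have h7 := mul_le_mul_of_nonneg_left h6 hC
    linarith
  have h4 : Dm G Λ Λ β P (2 ^ (P - n)) (2 ^ (P - n')) (2 ^ (P - i)) D.fst ≤
      2 * (16 * C * (3 / 4) ^ i) + 2 * (16 * C * (3 / 4) ^ i) := by
    refine (integral_mono_of_nonneg (ae_of_all _ fun _ => sq_nonneg _)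
      (((h3 n hn).1.const_mul 2).add ((h3 n' hn').1.const_mul 2))
      (ae_of_all _ fun ω => ?_)).trans ?_
    · simp only [Pi.add_apply, ← hJ]
      nlinarith [sq_nonneg (mag G Λ J (chain G Λ β P (2 ^ (P - n)) ω (2 ^ (P - i))) D.fst +
        mag G Λ J (chain G Λ β P (2 ^ (P - n')) ω (2 ^ (P - i))) D.fst)]
    · simp only [Pi.add_apply]
      rw [integral_add ((h3 n hn).1.const_mul 2) ((h3 n' hn').1.const_mul 2), integral_const_mul,
        integral_const_mul]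
      linarith [(h3 n hn).2, (h3 n' hn').2]
  linarith [h2.1]

theorem law_close (hT : G.IsTree) (hβ : 0 ≤ β) (S : Finset V) (η : V → Bool)
    (hS : (G.induce (S : Set V)).Connected) (n : ℕ) :
    |∫ w, ∏ x ∈ S, (1 + sgn (η x) * d.M n 1 x w) / 2 ∂PX G.edgeSet -
      Crest.ProbabilityR.TreeIsing.isingWeight G (Real.tanh (β * (1 - 1 / 2 ^ n))) S η| ≤
      S.card * (1 / ((n : ℝ) + 1)) := by
  classical
  set Λ := S ∪ S.biUnion fun x => ball G x (d.R n) with hΛ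
  obtain ⟨P, hnP, hP⟩ := d.exists_Cl n Λ le_rfl
  have hs : 2 ^ (P - n) ≤ 2 ^ P := Nat.pow_le_pow_right (by norm_num) (by omega)
  have hCl : ∀ x ∈ S, d.Cl Λ n P (2 ^ P) x (1 / ((n : ℝ) + 1)) := fun x hx =>
    hP P le_rfl x ((Finset.subset_biUnion_of_mem (fun x => ball G x (d.R n)) hx).trans
      Finset.subset_union_right) _ hs le_rfl
  have hpn : d.p n ≤ P := by
    obtain ⟨x, hx⟩ := hS.nonempty
    exact (hCl x hx).1
  have h1 : ((2 ^ P : ℕ) : ℝ) / 2 ^ P = 1 := by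
    push_cast
    field_simp
  have mM : Measurable fun z => ∏ x ∈ S, (1 + sgn (η x) * d.MO n P (2 ^ P) x z) / 2 :=
    Finset.measurable_fun_prod _ fun x _ =>
      (((d.measurable_MO n P _ x).const_mul _).const_add _).div_const _
  have h2 : ∫ w, ∏ x ∈ S, (1 + sgn (η x) * d.M n 1 x w) / 2 ∂PX G.edgeSet =
      ∫ ω, ∏ x ∈ S, (1 + sgn (η x) * d.MO n P (2 ^ P) x fun j => (ω j).1) / 2 ∂POm G.edgeSet := by
    rw [d.transfer P mM]
    simp only [d.MO_Z hpn, h1]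
  obtain ⟨j, hj⟩ := Nat.exists_eq_add_of_le hs
  have h3 := integral_gm_chain (G := G) Λ hβ P (2 ^ (P - n)) j
    (g := fun A => ∏ x ∈ S, (1 + sgn (η x) * spin A x) / 2) (M := 1) fun A => by
      rw [Finset.abs_prod]
      exact Finset.prod_le_one (fun _ _ => abs_nonneg _) fun x _ => abs_half_le (abs_spin A x).le
  rw [← hj, gm_zero_cylinder hT Λ _ S η hS Finset.subset_union_left, pow_sub_div hnP, h1, sub_self,
    mul_zero] at h3
  simp only [gm_prod_of_zero] at h3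
  rw [h2, ← h3]
  have m1 : ∀ x, Measurable fun ω => mag G Λ 0 (chain G Λ β P (2 ^ (P - n)) ω (2 ^ P)) x :=
    fun x => (measurable_mag Λ 0 x).comp (measurable_chain Λ β P _ _)
  have m2 : ∀ x, Measurable fun ω : ℕ → (G.edgeSet → ℝ) × unitInterval =>
      d.MO n P (2 ^ P) x fun j => (ω j).1 := fun x => (d.measurable_MO n P _ x).comp measurable_fst'
  have i1 : Integrable (fun ω : ℕ → (G.edgeSet → ℝ) × unitInterval =>
      ∏ x ∈ S, (1 + sgn (η x) * d.MO n P (2 ^ P) x fun j => (ω j).1) / 2) (POm G.edgeSet) :=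
    integrable_of_abs_le (mM.comp measurable_fst') 1 fun ω => by
      rw [Finset.abs_prod]
      exact Finset.prod_le_one (fun _ _ => abs_nonneg _) fun x _ => abs_half_le (abs_mag_le _ _ _ _)
  have i2 : Integrable (fun ω => ∏ x ∈ S,
      (1 + sgn (η x) * mag G Λ 0 (chain G Λ β P (2 ^ (P - n)) ω (2 ^ P)) x) / 2) (POm G.edgeSet) :=
    integrable_of_abs_le (Finset.measurable_fun_prod _ fun x _ =>
      (((m1 x).const_mul _).const_add _).div_const _) 1 fun ω => by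
      rw [Finset.abs_prod]
      exact Finset.prod_le_one (fun _ _ => abs_nonneg _) fun x _ => abs_half_le (abs_mag_le _ _ _ _)
  have i3 : ∀ x, Integrable (fun ω => |mag G Λ 0 (chain G Λ β P (2 ^ (P - n)) ω (2 ^ P)) x -
      d.MO n P (2 ^ P) x fun j => (ω j).1|) (POm G.edgeSet) := fun x =>
    ((integrable_of_abs_le (m1 x) 1 fun _ => abs_mag_le _ _ _ _).sub
      (integrable_of_abs_le (m2 x) 1 fun _ => abs_mag_le _ _ _ _)).abs
  rw [← integral_sub i1 i2]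
  refine abs_integral_le_integral_abs.trans ((integral_mono (i1.sub i2).abs
    (integrable_finsetSum S fun x _ => i3 x) fun ω => ?_).trans ?_)
  · refine (abs_prod_sub_prod_le S (fun x => abs_half_le (abs_mag_le _ _ _ _))
      fun x => abs_half_le (abs_mag_le _ _ _ _)).trans (Finset.sum_le_sum fun x _ => ?_)
    rw [← sub_div, add_sub_add_left_eq_sub, ← mul_sub, abs_div, abs_mul, abs_sgn, one_mul,
      abs_sub_comm, abs_two]
    exact half_le_self (abs_nonneg _)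
  · rw [integral_finsetSum S fun x _ => i3 x, ← nsmul_eq_mul]
    refine Finset.sum_le_card_nsmul _ _ _ fun x hx => ?_
    have := (hCl x hx).2.1
    rwa [h1, sub_self, mul_zero] at this

end Dat

end Crest.Agent.R160
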