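import Crest.Agent.R160.Noise
import Crest.Agent.R160.Gauss

/-!
Row 160, subtask D2: from a Cauchy sequence of equivariant magnetisation fields to the factor map.
-/

set_option autoImplicit false
set_option linter.unusedSectionVars false
set_option linter.unusedVariables false
set_option maxHeartbeats 400000

open MeasureTheory ProbabilityTheory Filter Topology
open scoped ENNReal

namespace Crest.Agent.R160

universe u
variable {V : Type u} {G : SimpleGraph V} [G.LocallyFinite]

lemma volume_coin {c : ℝ} (hc : |c| ≤ 1) (t : Bool) :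
    (volume : Measure unitInterval)
      {a | (if (a : ℝ) ≤ (1 + c) / 2 then true else false) = t} =
      ENNReal.ofReal ((1 + sgn t * c) / 2) := by
  obtain ⟨h1, h2⟩ := abs_le.1 hc
  let x : unitInterval := ⟨(1 + c) / 2, by constructor <;> linarith⟩
  cases t with
  | true =>
    have : {a : unitInterval | (if (a : ℝ) ≤ (1 + c) / 2 then true else false) = true} =
        Set.Iic x := by
      ext a
      simp [x, ← Subtype.coe_le_coe]
    rw [this, unitInterval.volume_Iic]
    simp [x, sgn]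
  | false =>
    have : {a : unitInterval | (if (a : ℝ) ≤ (1 + c) / 2 then true else false) = false} =
        Set.Ioi x := by
      ext a
      simp [x, ← Subtype.coe_lt_coe]
    rw [this, unitInterval.volume_Ioi]
    congr 1
    simp only [x, sgn, Bool.false_eq_true, if_false]
    ring

lemma exists_ae_limit {Ω ι : Type*} [MeasurableSpace Ω] (P : Measure Ω) [IsProbabilityMeasure P]
    (M : ℕ → ι → Ω → ℝ) (hm : ∀ n x, Measurable (M n x)) (hb : ∀ n x w, |M n x w| ≤ 1)
    (hcau : ∀ ε > 0, ∃ N, ∀ n ≥ N, ∀ n' ≥ N, ∀ x, ∫ w, (M n x w - M n' x w) ^ 2 ∂P ≤ ε) :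
    ∃ φ : ℕ → ℕ, StrictMono φ ∧ ∀ x, ∀ᵐ w ∂P, ∃ l, Tendsto (fun j => M (φ j) x w) atTop (𝓝 l) := by
  choose N hN using fun j : ℕ => hcau (((1 / 2 : ℝ) ^ (j + 1)) ^ 2) (by positivity)
  obtain ⟨φ, hφ, hφN⟩ := extraction_forall_of_eventually (P := fun j n => N j ≤ n)
    fun j => eventually_ge_atTop (N j)
  refine ⟨φ, hφ, fun x => ?_⟩
  refine Lp.ae_tendsto_of_cauchy_eLpNorm (p := 1) (f := fun j => M (φ j) x)
    (fun n => (hm _ x).aestronglyMeasurable) le_rfl
    (B := fun j => ENNReal.ofReal ((1 / 2 : ℝ) ^ j)) ?_ fun j n m hn hm' => ?_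
  · rw [← ENNReal.ofReal_tsum_of_nonneg (fun _ => by positivity) summable_geometric_two]
    exact ENNReal.ofReal_ne_top
  · have h1 : Measurable fun w => M (φ n) x w - M (φ m) x w := (hm _ x).sub (hm _ x)
    have h2 : ∀ w, |M (φ n) x w - M (φ m) x w| ≤ 2 := fun w =>
      (abs_sub _ _).trans (by linarith [hb (φ n) x w, hb (φ m) x w])
    have h3 : Integrable (fun w => (M (φ n) x w - M (φ m) x w) ^ 2) P := by
      refine Integrable.of_bound (h1.pow_const 2).aestronglyMeasurable (2 ^ 2)
        (ae_of_all _ fun w => ?_)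
      rw [Real.norm_eq_abs, abs_pow]
      exact pow_le_pow_left₀ (abs_nonneg _) (h2 w) 2
    have h4 := integral_abs_le_sqrt P h1 h3 (by positivity)
      (hN j (φ n) ((hφN j).trans (hφ.monotone hn)) (φ m) ((hφN j).trans (hφ.monotone hm')) x)
    have h5 : Integrable (fun w => M (φ n) x w - M (φ m) x w) P :=
      Integrable.of_bound h1.aestronglyMeasurable 2 (ae_of_all _ h2)
    rw [eLpNorm_one_eq_lintegral_enorm]
    have h6 := ofReal_integral_norm_eq_lintegral_enorm h5
    simp only [Pi.sub_apply]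
    rw [← h6, ENNReal.ofReal_lt_ofReal_iff (by positivity)]
    refine lt_of_le_of_lt h4 ?_
    rw [pow_succ]
    have : 0 < (1 / 2 : ℝ) ^ j := by positivity
    linarith

theorem factor_of_cauchy (hc : G.Connected) (θ : ℝ) (M : ℕ → V → (G.edgeSet → ℕ → ℝ) → ℝ)
    (hm : ∀ n x, Measurable (M n x)) (hb : ∀ n x w, |M n x w| ≤ 1)
    (heq : ∀ n (g : G ≃g G) x w, M n (g x) w = M n x (w ∘ g.mapEdgeSet))
    (hcau : ∀ ε > 0, ∃ N, ∀ n ≥ N, ∀ n' ≥ N, ∀ x,
      ∫ w, (M n x w - M n' x w) ^ 2 ∂PX G.edgeSet ≤ ε)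
    (hlaw : ∀ (S : Finset V) (η : V → Bool), (G.induce (S : Set V)).Connected →
      Tendsto (fun n => ∫ w, ∏ x ∈ S, (1 + sgn (η x) * M n x w) / 2 ∂PX G.edgeSet) atTop
        (𝓝 (Crest.ProbabilityR.TreeIsing.isingWeight G θ S η))) :
    ∃ Φ : (V → unitInterval) → (V → Bool),
      Measurable Φ ∧
      (∀ (g : G ≃g G) (x : V → unitInterval), Φ (x ∘ ⇑g) = Φ x ∘ ⇑g) ∧
      ∀ (S : Finset V) (η : V → Bool), (G.induce (S : Set V)).Connected →
        (Crest.ProbabilityR.Labels.labelMeasure V).map Φ {σ | ∀ v ∈ S, σ v = η v} =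
          ENNReal.ofReal (Crest.ProbabilityR.TreeIsing.isingWeight G θ S η) := by
  obtain ⟨W, U, hW, hU, hWg, hUg, hWU⟩ := exists_noise hc
  obtain ⟨φ, hφ, hlim⟩ := exists_ae_limit (PX G.edgeSet) M hm hb hcau
  let L : V → (G.edgeSet → ℕ → ℝ) → ℝ := fun x w => liminf (fun j => M (φ j) x w) atTop
  have hL : ∀ x, Measurable (L x) := fun x => Measurable.liminf fun j => hm _ x
  have hL1 : ∀ x, ∀ᵐ w ∂PX G.edgeSet, Tendsto (fun j => M (φ j) x w) atTop (𝓝 (L x w)) := by
    intro x
    filter_upwards [hlim x] with w ⟨l, hl⟩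
    rwa [show L x w = l from hl.liminf_eq]
  let Ψ : (G.edgeSet → ℕ → ℝ) × (V → unitInterval) → V → Bool :=
    fun p x => if (p.2 x : ℝ) ≤ (1 + L x p.1) / 2 then true else false
  have hΨ : Measurable Ψ := by
    refine measurable_pi_lambda _ fun x => Measurable.ite ?_ measurable_const measurable_const
    have := hL x
    exact measurableSet_le (by fun_prop) (by fun_prop)
  have hsgn : ∀ t, |sgn t| = 1 := fun t => by cases t <;> simp [sgn]
  have hfac : ∀ (t : Bool) (c : ℝ), |c| ≤ 1 → 0 ≤ (1 + sgn t * c) / 2 ∧ (1 + sgn t * c) / 2 ≤ 1 := by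
    intro t c h
    have h1 : |sgn t * c| ≤ 1 := by rwa [abs_mul, hsgn, one_mul]
    obtain ⟨h2, h3⟩ := abs_le.1 h1
    constructor <;> linarith
  refine ⟨fun x => Ψ (W x, U x), hΨ.comp (hW.prodMk hU), fun g x => ?_, fun S η hS => ?_⟩
  · funext v
    simp only [Ψ, L, hWg, hUg, Function.comp_apply, heq]
  · have hA : MeasurableSet {σ : V → Bool | ∀ v ∈ S, σ v = η v} := by
      have : {σ : V → Bool | ∀ v ∈ S, σ v = η v} = Set.pi (S : Set V) fun v => {η v} := by
        ext σ
        simp
      rw [this]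
      exact .pi S.countable_toSet fun _ _ => measurableSet_singleton _
    change (Crest.ProbabilityR.Labels.labelMeasure V).map (Ψ ∘ fun x => (W x, U x)) _ = _
    rw [← Measure.map_map hΨ (hW.prodMk hU), hWU, Measure.map_apply hΨ hA,
      Crest.ProbabilityR.Labels.labelMeasure, Measure.prod_apply (hΨ hA)]
    have hall : ∀ᵐ w ∂PX G.edgeSet, ∀ x ∈ S,
        Tendsto (fun j => M (φ j) x w) atTop (𝓝 (L x w)) :=
      (ae_ball_iff S.countable_toSet).2 fun x _ => hL1 x
    have hLb : ∀ᵐ w ∂PX G.edgeSet, ∀ x ∈ S, |L x w| ≤ 1 := by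
      filter_upwards [hall] with w hw x hx
      exact le_of_tendsto' (hw x hx).abs fun j => hb _ x w
    have h1 : ∀ᵐ w ∂PX G.edgeSet,
        (Measure.infinitePi fun _ : V => (volume : Measure unitInterval))
          (Prod.mk w ⁻¹' (Ψ ⁻¹' {σ : V → Bool | ∀ v ∈ S, σ v = η v})) =
        ENNReal.ofReal (∏ x ∈ S, (1 + sgn (η x) * L x w) / 2) := by
      filter_upwards [hLb] with w hw
      have : Prod.mk w ⁻¹' (Ψ ⁻¹' {σ : V → Bool | ∀ v ∈ S, σ v = η v}) = Set.pi (S : Set V)
          fun v => {a : unitInterval | (if (a : ℝ) ≤ (1 + L v w) / 2 then true else false) = η v} := by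
        ext u
        simp only [Set.mem_preimage, Set.mem_ofPred_eq, Set.mem_pi, Finset.mem_coe, Ψ]
      rw [this, Measure.infinitePi_pi, ENNReal.ofReal_prod_of_nonneg fun x hx => (hfac _ _ (hw x hx)).1]
      · exact Finset.prod_congr rfl fun x hx => volume_coin (hw x hx) _
      · intro v _
        refine measurableSet_eq_fun (Measurable.ite ?_ measurable_const measurable_const)
          measurable_const
        exact measurableSet_le (by fun_prop) measurable_const
    have hmeas : Measurable fun w => ∏ x ∈ S, (1 + sgn (η x) * L x w) / 2 :=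
      Finset.measurable_prod _ fun x _ => by
        have := hL x
        fun_prop
    have hnn : ∀ᵐ w ∂PX G.edgeSet, 0 ≤ ∏ x ∈ S, (1 + sgn (η x) * L x w) / 2 := by
      filter_upwards [hLb] with w hw
      exact Finset.prod_nonneg fun x hx => (hfac _ _ (hw x hx)).1
    have hint : Integrable (fun w => ∏ x ∈ S, (1 + sgn (η x) * L x w) / 2) (PX G.edgeSet) := by
      refine Integrable.of_bound hmeas.aestronglyMeasurable 1 ?_
      filter_upwards [hLb, hnn] with w hw hw'
      rw [Real.norm_of_nonneg hw']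
      exact Finset.prod_le_one (fun x hx => (hfac _ _ (hw x hx)).1) fun x hx => (hfac _ _ (hw x hx)).2
    rw [lintegral_congr_ae h1, ← ofReal_integral_eq_lintegral_ofReal hint hnn]
    congr 1
    refine tendsto_nhds_unique ?_ ((hlaw S η hS).comp hφ.tendsto_atTop)
    refine tendsto_integral_of_dominated_convergence (fun _ => 1) (fun j => ?_)
      (integrable_const _) (fun j => ae_of_all _ fun w => ?_) ?_
    · refine (Finset.measurable_prod _ fun x _ => ?_).aestronglyMeasurable
      have := hm (φ j) x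
      fun_prop
    · rw [Real.norm_of_nonneg (Finset.prod_nonneg fun x hx => (hfac _ _ (hb _ x w)).1)]
      exact Finset.prod_le_one (fun x hx => (hfac _ _ (hb _ x w)).1)
        fun x hx => (hfac _ _ (hb _ x w)).2
    · filter_upwards [hall] with w hw
      exact tendsto_finsetProd _ fun x hx =>
        ((((hw x hx).const_mul _).const_add _).div_const _)

end Crest.Agent.R160
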