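import Crest.Agent.R160.Close

/-!
Row 160: the inequality between the distances of two approximations at times `2^-(i+1)` and
`2^-i`.
-/

set_option autoImplicit false
set_option linter.unusedSectionVars false
set_option linter.unusedVariables false
set_option maxHeartbeats 400000

open MeasureTheory ProbabilityTheory Filter Topology
open scoped ENNReal

namespace Crest.Agent.R160

universe u

lemma sum_ite_le_le (M Kc : ℕ) {c : ℝ} (hc : 0 ≤ c) :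
    ∑ m ∈ Finset.range M, (if m ≤ Kc then c else 0) ≤ (Kc + 1) * c := by
  rw [← Finset.sum_filter]
  refine (Finset.sum_le_sum_of_subset_of_nonneg (t := Finset.range (Kc + 1)) (fun m hm => ?_)
    fun _ _ _ => hc).trans (by simp)
  rw [Finset.mem_range]
  have := (Finset.mem_filter.1 hm).2
  omega

lemma sum_Q_le {C δ lam T η ρ A₀ A₁ A₃ S : ℝ} {w q : ℕ → ℝ} {Kc : ℕ} (hC : 0 ≤ C) (hδ : 0 ≤ δ)
    (hT : 0 ≤ T) (hη : 0 ≤ η) (hρ0 : 0 ≤ ρ) (hρ1 : ρ ≤ 1) (hw0 : ∀ m, 0 ≤ w m) (hw1 : ∀ m, w m ≤ 1)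
    (hq : ∀ m, 0 ≤ q m) (h0 : ∀ M, ∑ m ∈ Finset.range M, ρ ^ m * w m ≤ A₀)
    (h1 : ∀ M, ∑ m ∈ Finset.range M, ρ ^ m * w m * m ≤ A₁)
    (h3 : ∀ M, ∑ m ∈ Finset.range M, (if Kc < m then ((m : ℝ) + 1) ^ 2 * q m else 0) ≤ A₃)
    (hS : ∀ M, ∑ m ∈ Finset.range M, ρ ^ m * ((m : ℝ) + 1) ^ 2 ≤ S) (M : ℕ) :
    ∑ m ∈ Finset.range M, ρ ^ m *
      (w m * (4 * δ + (C * m * (784 * lam ^ 2 * δ + 2 * T) + (m : ℝ) ^ 2 * η) +
        m * (784 * lam ^ 2 * δ + 2 * T)) +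
      if m ≤ Kc then 4 * δ + (C * m * (784 * δ) + (m : ℝ) ^ 2 * η) + m * (784 * δ)
        else 32 * ((m : ℝ) + 1) ^ 2 * q m) ≤
      (784 * (C + 1) + 32) * δ * (A₀ + lam ^ 2 * A₁ + (Kc + 1) ^ 2) +
        (784 * (C + 1) + 32) * (T * A₁ + A₃) + 2 * η * S := by
  set C₃ := 784 * (C + 1) + 32 with hC₃
  have hC₃0 : 0 ≤ C₃ := by positivity
  have hpt : ∀ m ∈ Finset.range M, ρ ^ m *
      (w m * (4 * δ + (C * m * (784 * lam ^ 2 * δ + 2 * T) + (m : ℝ) ^ 2 * η) +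
        m * (784 * lam ^ 2 * δ + 2 * T)) +
      if m ≤ Kc then 4 * δ + (C * m * (784 * δ) + (m : ℝ) ^ 2 * η) + m * (784 * δ)
        else 32 * ((m : ℝ) + 1) ^ 2 * q m) ≤
      C₃ * δ * (ρ ^ m * w m) + C₃ * (lam ^ 2 * δ + T) * (ρ ^ m * w m * m) +
        2 * η * (ρ ^ m * ((m : ℝ) + 1) ^ 2) + (if m ≤ Kc then C₃ * δ * (Kc + 1) else 0) +
        C₃ * (if Kc < m then ((m : ℝ) + 1) ^ 2 * q m else 0) := by
    intro m _
    have hr0 : 0 ≤ ρ ^ m := by positivity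
    have hr1 : ρ ^ m ≤ 1 := pow_le_one₀ hρ0 hρ1
    have hm0 : (0 : ℝ) ≤ m := by positivity
    have hw := hw0 m
    have hq' := hq m
    have e1 : ρ ^ m * (w m * (4 * δ)) ≤ C₃ * δ * (ρ ^ m * w m) := by
      have : 0 ≤ δ * (ρ ^ m * w m) := by positivity
      nlinarith
    have e2 : ρ ^ m * (w m * ((C + 1) * m * (784 * lam ^ 2 * δ + 2 * T))) ≤
        C₃ * (lam ^ 2 * δ + T) * (ρ ^ m * w m * m) := by
      have h4 : (C + 1) * (784 * lam ^ 2 * δ + 2 * T) ≤ C₃ * (lam ^ 2 * δ + T) := by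
        have : 0 ≤ lam ^ 2 * δ := by positivity
        nlinarith
      have := mul_le_mul_of_nonneg_right h4 (by positivity : 0 ≤ ρ ^ m * w m * m)
      linarith
    have e3 : ρ ^ m * ((m : ℝ) ^ 2 * η) ≤ η * (ρ ^ m * ((m : ℝ) + 1) ^ 2) := by
      have : 0 ≤ η * ρ ^ m := by positivity
      nlinarith
    have e4 : ρ ^ m * (w m * ((m : ℝ) ^ 2 * η)) ≤ ρ ^ m * ((m : ℝ) ^ 2 * η) :=
      mul_le_mul_of_nonneg_left (mul_le_of_le_one_left (by positivity) (hw1 m)) hr0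
    by_cases hm : m ≤ Kc
    · rw [if_pos hm, if_pos hm, if_neg (by omega)]
      have hm' : (m : ℝ) ≤ Kc := by exact_mod_cast hm
      have e5 : ρ ^ m * (4 * δ + (C + 1) * m * (784 * δ)) ≤ C₃ * δ * (Kc + 1) := by
        refine (mul_le_of_le_one_left (by positivity) hr1).trans ?_
        have h4 : (C + 1) * 784 * m ≤ C₃ * Kc := mul_le_mul (by linarith) hm' hm0 hC₃0
        have h5 : 4 + (C + 1) * 784 * m ≤ C₃ * (Kc + 1) := by linarith
        nlinarith [mul_le_mul_of_nonneg_right h5 hδ]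
      linarith
    · rw [if_neg hm, if_neg hm, if_pos (by omega)]
      have e5 : ρ ^ m * (32 * ((m : ℝ) + 1) ^ 2 * q m) ≤ C₃ * (((m : ℝ) + 1) ^ 2 * q m) := by
        refine (mul_le_of_le_one_left (by positivity) hr1).trans ?_
        have : 0 ≤ ((m : ℝ) + 1) ^ 2 * q m := by positivity
        nlinarith
      have e6 : 0 ≤ η * (ρ ^ m * ((m : ℝ) + 1) ^ 2) := by positivity
      linarith
  refine (Finset.sum_le_sum hpt).trans ?_
  simp only [Finset.sum_add_distrib, ← Finset.mul_sum]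
  have f0 := mul_le_mul_of_nonneg_left (h0 M) (by positivity : 0 ≤ C₃ * δ)
  have f1 := mul_le_mul_of_nonneg_left (h1 M) (by positivity : 0 ≤ C₃ * (lam ^ 2 * δ + T))
  have f2 := mul_le_mul_of_nonneg_left (hS M) (by positivity : 0 ≤ 2 * η)
  have f3 := mul_le_mul_of_nonneg_left (h3 M) hC₃0
  have f4 := sum_ite_le_le M Kc (by positivity : 0 ≤ C₃ * δ * (Kc + 1))
  nlinarith

lemma exists_tail_le {ρ : ℝ} (h0 : 0 ≤ ρ) (h1 : ρ < 1) {ε : ℝ} (hε : 0 < ε) :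
    ∃ R₁ : ℕ, ∀ M, ∑ m ∈ Finset.range M, (if R₁ ≤ m then ρ ^ m else 0) ≤ ε := by
  obtain ⟨R₁, hR₁⟩ := exists_pow_le h0 h1 (1 / (1 - ρ)) hε
  refine ⟨R₁, fun M => le_trans ?_ (hR₁ R₁ le_rfl)⟩
  have h2 : ∑ m ∈ Finset.range M, (if R₁ ≤ m then ρ ^ m else 0) ≤
      ∑ m ∈ Finset.range (R₁ + M), (if R₁ ≤ m then ρ ^ m else 0) :=
    Finset.sum_le_sum_of_subset_of_nonneg (Finset.range_subset_range.2 (by omega))
      fun m _ _ => by split_ifs <;> positivity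
  refine h2.trans ?_
  rw [Finset.sum_range_add, Finset.sum_eq_zero fun m hm =>
    if_neg (by have := Finset.mem_range.1 hm; omega), zero_add]
  simp only [le_add_iff_nonneg_right, zero_le, if_true, pow_add]
  rw [← Finset.mul_sum, mul_comm]
  exact mul_le_mul_of_nonneg_right (sum_geom_le h0 h1 M) (by positivity)

variable {V : Type u} {G : SimpleGraph V} [G.LocallyFinite] {b : ℕ}

/-- Tail hypothesis for the cavity magnetisations of a chain. -/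
def HypT (K : Kids G b) (o : V) (R : ℕ) (β : ℝ) (n P k : ℕ) (lam T : ℝ) : Prop :=
  ∀ (v : G.neighborSet o) (l : List (Fin b)), l.length + 1 ≤ R →
    (POm G.edgeSet).real {ω | lam < |cav (ball G o R) (β * (1 - k / 2 ^ P))
      (chain G (ball G o R) β P (2 ^ (P - n)) ω k) (K.down (inD o v) l)|} ≤ T

/-- Hypothesis on the damping along paths. -/
def HypW (K : Kids G b) (o : V) (R : ℕ) (β : ℝ) (n P k L₀ : ℕ) (w q : ℕ → ℝ) : Prop :=
  ∀ (v : G.neighborSet o) (l : List (Fin b)) (m : ℕ), m ≤ l.length + 1 → m + L₀ ≤ R →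
    (POm G.edgeSet).real {ω | w m < Real.exp (-(1 / 2) * ∑ j ∈ Finset.range m,
      cav (ball G o R) (β * (1 - k / 2 ^ P)) (chain G (ball G o R) β P (2 ^ (P - n)) ω k)
        (K.down (inD o v) (l.take j)) ^ 2)} ≤ q m

namespace Dat

variable {β : ℝ} (d : Dat G β)

theorem rate_step (hT : G.IsTree) (K : Kids G b) (hreg : G.IsRegularOfDegree (b + 1)) (hb : 2 ≤ b) :
    ∃ C : ℝ, 0 ≤ C ∧ ∀ (o : V) (D₀ : G.Dart) (R R₁ L₀ n n' P k Kc : ℕ)
      (ε lam T ρ A₀ A₁ A₃ S tl : ℝ) (w q : ℕ → ℝ),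
      0 ≤ β * (1 - k / 2 ^ P) → b * Real.tanh (β * (1 - k / 2 ^ P)) ^ 2 ≤ ρ → ρ ≤ 1 →
      0 ≤ ε → ε ≤ 1 → 0 ≤ lam → 0 ≤ T → (∀ m, 0 ≤ w m) → (∀ m, w m ≤ 1) → (∀ m, 0 ≤ q m) →
      (∀ M, ∑ m ∈ Finset.range M, ρ ^ m * w m ≤ A₀) →
      (∀ M, ∑ m ∈ Finset.range M, ρ ^ m * w m * m ≤ A₁) →
      (∀ M, ∑ m ∈ Finset.range M, (if Kc < m then ((m : ℝ) + 1) ^ 2 * q m else 0) ≤ A₃) →
      (∀ M, ∑ m ∈ Finset.range M, ρ ^ m * ((m : ℝ) + 1) ^ 2 ≤ S) →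
      (∀ M, ∑ m ∈ Finset.range M, (if R₁ ≤ m then ρ ^ m else 0) ≤ tl) →
      R₁ + L₀ ≤ R →
      (∀ x, G.dist o x ≤ R₁ → d.Cl (ball G o R) n P k x ε ∧ d.Cl (ball G o R) n' P k x ε) →
      HypT K o R β n P k lam T → HypT K o R β n' P k lam T →
      HypW K o R β n P k L₀ w q → HypW K o R β n' P k L₀ w q →
      |d.sec D₀ n (k / 2 ^ P) - d.sec D₀ n' (k / 2 ^ P)| ≤ ε →
      ∑ e ∈ EF G (ball G o R), ∫ ω,
        (Gam G (ball G o R) (β * (1 - k / 2 ^ P)) (chain G (ball G o R) β P (2 ^ (P - n)) ω k) o e -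
        Gam G (ball G o R) (β * (1 - k / 2 ^ P)) (chain G (ball G o R) β P (2 ^ (P - n')) ω k) o e)
          ^ 2 ∂POm G.edgeSet ≤
        C * ((Dm G (ball G o R) (ball G o R) β P (2 ^ (P - n)) (2 ^ (P - n')) k o + 16 * ε) *
          (A₀ + lam ^ 2 * A₁ + (Kc + 1) ^ 2) + (T * A₁ + A₃) + ε * S + tl) := by
  obtain ⟨C, hC, hS⟩ := d.S_close hT K hreg hb
  have hC1 := C1_nonneg
  refine ⟨(b + 1) * (4 * C1 * (784 * (C + 1) + 36) + 4), by positivity, ?_⟩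
  intro o D₀ R R₁ L₀ n n' P k Kc ε lam T ρ A₀ A₁ A₃ S tl w q hJ hρ hρ1 hε hε1 hlam hT0 hw0 hw1 hq0
    hA₀ hA₁ hA₃ hSum htl hR hCl hT1 hT2 hW1 hW2 hγ
  set Λ := ball G o R with hΛ
  set J := β * (1 - k / 2 ^ P) with hJ'
  have hθ : Real.tanh J ^ 2 ≤ 1 / 2 := tanh_sq_le_half hb (hρ.trans hρ1)
  have hρ0 : 0 ≤ ρ := le_trans (by positivity) hρ
  set δ := Dm G Λ Λ β P (2 ^ (P - n)) (2 ^ (P - n')) k o + 16 * ε with hδ
  have hδ0 : 0 ≤ δ := add_nonneg (Dm_nonneg _ _ _ _ _ _ _ _) (by positivity)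
  have hD : ∀ x, G.dist o x ≤ R₁ → Dm G Λ Λ β P (2 ^ (P - n)) (2 ^ (P - n')) k x ≤ δ := by
    intro x hx
    have h1 := abs_le.1 (d.Dm_close (hCl x hx).1 (hCl x hx).2)
    have h2 := abs_le.1 (d.Dm_close (hCl o (by simp)).1 (hCl o (by simp)).2)
    rw [d.del_eq hT K hreg o x] at h1
    linarith
  have h1 := sum_rate hT K hreg hb Λ β P (2 ^ (P - n)) (2 ^ (P - n')) k hJ hθ o R₁
    (fun m => w m * (4 * δ + (C * m * (784 * lam ^ 2 * δ + 2 * T) +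
        (m : ℝ) ^ 2 * ((8 * C + 18) * ε)) + m * (784 * lam ^ 2 * δ + 2 * T)) +
      if m ≤ Kc then 4 * δ + (C * m * (784 * δ) + (m : ℝ) ^ 2 * ((8 * C + 18) * ε)) + m * (784 * δ)
        else 32 * ((m : ℝ) + 1) ^ 2 * q m)
    (fun m => by
      have := hw0 m
      have := hq0 m
      split_ifs <;> positivity) hρ (fun v l m hm hl => ?_)
    (sum_Q_le hC hδ0 hT0 (by positivity) hρ0 hρ1 hw0 hw1 hq0 hA₀ hA₁ hA₃ hSum) htl
  · refine h1.trans ?_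
    rw [mul_assoc ((b : ℝ) + 1)]
    refine mul_le_mul_of_nonneg_left ?_ (by positivity)
    have g0 : 0 ≤ A₀ := le_trans (by simp) (hA₀ 0)
    have g1 : 0 ≤ A₁ := le_trans (by simp) (hA₁ 0)
    have g3 : 0 ≤ A₃ := le_trans (by simp) (hA₃ 0)
    have g4 : 0 ≤ S := le_trans (by simp) (hSum 0)
    have g5 : 0 ≤ tl := le_trans (by simp) (htl 0)
    have g6 : 0 ≤ δ * (A₀ + lam ^ 2 * A₁ + (Kc + 1) ^ 2) := by positivity
    have g7 : 0 ≤ T * A₁ + A₃ := by positivity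
    have g8 : 0 ≤ ε * S := by positivity
    generalize A₀ + lam ^ 2 * A₁ + ((Kc : ℝ) + 1) ^ 2 = A at *
    generalize T * A₁ + A₃ = B at *
    nlinarith [mul_nonneg hC1 g6, mul_nonneg hC1 g7, mul_nonneg hC1 g8, mul_nonneg hC1 g5,
      mul_nonneg (mul_nonneg hC1 hC) g8, mul_nonneg (mul_nonneg hC1 hC) g5]
  · have hfst : ∀ j < m, G.dist o (K.down (inD o v) (l.take j)).fst ≤ R₁ := fun j hj => by
      have := dist_down_take_fst hT K (inD o v) l (j := j) (by omega)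
      simp only [inD_snd] at this
      omega
    have hsnd : ∀ j < m, G.dist o (K.down (inD o v) (l.take j)).snd ≤ R₁ := fun j hj => by
      have := dist_down_take_snd hT K (inD o v) l (j := j) (by omega)
      simp only [inD_snd] at this
      omega
    have hmem : ∀ j ≤ l.length, ed (K.down (inD o v) (l.take j)) ∈ EF G Λ := fun j hj =>
      ed_down_take_mem hT K (inD o v) l hj (by simp only [inD_snd, SimpleGraph.dist_self]; omega)
    have hv : G.dist o (inD o v).fst ≤ R₁ := by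
      have := dist_down_take_fst hT K (inD o v) l (j := 0) (by omega)
      simp only [inD_snd, List.take_zero, K.down_nil] at this
      omega
    have hH : ∀ lam T : ℝ, 0 ≤ lam → HypT K o R β n P k lam T → HypT K o R β n' P k lam T →
        ∫ ω, Hm K Λ J (chain G Λ β P (2 ^ (P - n)) ω k) (chain G Λ β P (2 ^ (P - n')) ω k)
          (inD o v) l m ∂POm G.edgeSet ≤ 4 * δ + (C * m * (784 * lam ^ 2 * δ + 2 * T) +
            (m : ℝ) ^ 2 * ((8 * C + 18) * ε)) + m * (784 * lam ^ 2 * δ + 2 * T) := by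
      intro lam T hlam hT1 hT2
      have hX : ∀ j ≤ l.length, ∫ ω,
          (cav Λ J (chain G Λ β P (2 ^ (P - n)) ω k) (K.down (inD o v) (l.take j)) ^ 2 -
          cav Λ J (chain G Λ β P (2 ^ (P - n')) ω k) (K.down (inD o v) (l.take j)) ^ 2) ^ 2
          ∂POm G.edgeSet ≤ 784 * lam ^ 2 * δ + 2 * T := fun j hj => by
        have hlen : (l.take j).length + 1 ≤ R := by
          rw [List.length_take]
          omega
        refine integral_dx_le hT Λ β P _ _ k hJ hθ (hmem j hj) hlam (hD _ ?_) (hD _ ?_)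
          (hT1 v _ hlen) (hT2 v _ hlen)
        · have := dist_down_take_fst hT K (inD o v) l hj
          simp only [inD_snd] at this
          omega
        · have := dist_down_take_snd hT K (inD o v) l hj
          simp only [inD_snd] at this
          omega
      exact integral_Hm_le K Λ β P _ _ k (inD o v) l m (hD o (by simp))
        (hS Λ n n' P k D₀ (inD o v) l m ε _ hε hm (hCl _ hv).1 (hCl _ hv).2
          (fun j hj => (hCl _ (hfst j hj)).1) (fun j hj => (hCl _ (hfst j hj)).2)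
          (by simpa using hX 0 (by omega)) hγ hε1) fun j hj => hX j (by omega)
    have hone : ∀ n, HypT K o R β n P k 1 0 := fun n v l _ => by
      have : {ω | 1 < |cav (ball G o R) (β * (1 - k / 2 ^ P))
          (chain G (ball G o R) β P (2 ^ (P - n)) ω k) (K.down (inD o v) l)|} = ∅ :=
        Set.eq_empty_of_forall_notMem fun ω h => absurd h (not_lt.2 (abs_cav_le _ _ _ _))
      rw [this]
      simp
    refine integral_Pm_rate K Λ β P _ _ k hJ hθ (inD o v) l m (fun j hj => hmem j (by omega))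
      (hw0 m) (hW1 v l m hm (by omega)) (hW2 v l m hm (by omega)) (hH lam T hlam hT1 hT2) ?_
    by_cases hm' : m ≤ Kc
    · left
      rw [if_pos hm']
      simpa using hH 1 0 zero_le_one (hone n) (hone n')
    · right
      rw [if_neg hm']

set_option maxHeartbeats 1000000 in
theorem octave_core (hT : G.IsTree) (K : Kids G b) (hreg : G.IsRegularOfDegree (b + 1))
    (hb : 2 ≤ b) (hβ : 0 ≤ β) (hθ : b * Real.tanh β ^ 2 ≤ 1) :
    ∃ C : ℝ, 0 ≤ C ∧ ∀ (o : V) (D₀ : G.Dart) (i L₀ Kc : ℕ) (lam T ρ A₀ A₁ A₃ : ℝ) (w q : ℕ → ℝ),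
      ρ < 1 → (∀ t : ℝ, 1 / 2 ^ (i + 1) ≤ t → t ≤ 1 → b * Real.tanh (β * (1 - t)) ^ 2 ≤ ρ) →
      0 ≤ lam → 0 ≤ T → (∀ m, 0 ≤ w m) → (∀ m, w m ≤ 1) → (∀ m, 0 ≤ q m) →
      (∀ M, ∑ m ∈ Finset.range M, ρ ^ m * w m ≤ A₀) →
      (∀ M, ∑ m ∈ Finset.range M, ρ ^ m * w m * m ≤ A₁) →
      (∀ M, ∑ m ∈ Finset.range M, (if Kc < m then ((m : ℝ) + 1) ^ 2 * q m else 0) ≤ A₃) →
      (∀ n ≥ i + 2, ∀ P ≥ n, ∀ R k : ℕ, 2 ^ (P - (i + 1)) ≤ k → k ≤ 2 ^ (P - i) →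
        HypT K o R β n P k lam T ∧ HypW K o R β n P k L₀ w q) →
      ∃ Z : ℝ, 0 ≤ Z ∧ ∀ ε : ℝ, 0 < ε → ε ≤ 1 → ∀ n ≥ i + 2, ∀ n' ≥ i + 2,
        1 / ((n : ℝ) + 1) ≤ ε → 1 / ((n' : ℝ) + 1) ≤ ε →
        (∃ p₀ : ℕ, ∀ p ≥ p₀, ∀ k : ℕ, 2 ^ p ≤ k * 2 ^ (i + 1) → k ≤ 2 ^ p →
          |d.sec D₀ n (k / 2 ^ p) - d.sec D₀ n' (k / 2 ^ p)| ≤ ε) →
        d.del o n n' (1 / 2 ^ i) ≤
          Real.exp (C * (A₀ + lam ^ 2 * A₁ + (Kc + 1) ^ 2) / 2 ^ i) *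
            (d.del o n n' (1 / 2 ^ (i + 1)) + C * (T * A₁ + A₃) / 2 ^ i) + ε * Z := by
  obtain ⟨C, hC, hrate⟩ := d.rate_step hT K hreg hb
  have hβ1 : β ≤ 1 := le_one_of_tanh_sq (tanh_sq_le_half hb hθ)
  refine ⟨C, hC, ?_⟩
  intro o D₀ i L₀ Kc lam T ρ A₀ A₁ A₃ w q hρ1 hρ hlam hT0 hw0 hw1 hq0 hA₀ hA₁ hA₃ hyp
  have hρ0 : 0 ≤ ρ := le_trans (by positivity) (hρ 1
    (div_le_one_of_le₀ (one_le_pow₀ one_le_two) (by positivity)) le_rfl)
  have g0 : 0 ≤ A₀ := le_trans (by simp) (hA₀ 0)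
  have g1 : 0 ≤ A₁ := le_trans (by simp) (hA₁ 0)
  have g3 : 0 ≤ A₃ := le_trans (by simp) (hA₃ 0)
  set A := A₀ + lam ^ 2 * A₁ + ((Kc : ℝ) + 1) ^ 2 with hA
  set B := T * A₁ + A₃ with hB
  set S := 2 / (1 - ρ) ^ 3 with hS
  have hA0 : 0 ≤ A := by positivity
  have hB0 : 0 ≤ B := by positivity
  have hS0 : 0 ≤ S := by
    have : 0 < 1 - ρ := by linarith
    positivity
  refine ⟨Real.exp (C * A / 2 ^ i) * (C * (16 * A + S + 1) + 9) + 8, by positivity, ?_⟩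
  rintro ε hε hε1 n hn n' hn' h1 h1' ⟨p₀, hp₀⟩
  obtain ⟨R₁, hR₁⟩ := exists_tail_le hρ0 hρ1 hε
  set R := R₁ + L₀ + d.R n + d.R n' with hR
  set Λ := ball G o R with hΛ
  obtain ⟨p₁, hnp₁, hp₁⟩ := d.exists_Cl n Λ h1
  obtain ⟨p₁', hnp₁', hp₁'⟩ := d.exists_Cl n' Λ h1'
  obtain ⟨p₂, hp₂⟩ := exists_mesh_le (Cerr * ((EF G Λ).card : ℝ) ^ 4) hε
  set P := p₀ + p₁ + p₁' + p₂ with hP
  have hnP : n ≤ P := by omega
  have hnP' : n' ≤ P := by omega
  set s₀ := 2 ^ (P - (i + 1)) with hs₀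
  have hs₁ : s₀ + s₀ = 2 ^ (P - i) := by
    rw [← two_mul, hs₀, ← pow_succ']
    congr 1
    omega
  have hs₂ : 2 ^ (P - i) ≤ 2 ^ P := Nat.pow_le_pow_right (by norm_num) (by omega)
  have hs₃ : 2 ^ (P - n) ≤ s₀ := Nat.pow_le_pow_right (by norm_num) (by omega)
  have hs₃' : 2 ^ (P - n') ≤ s₀ := Nat.pow_le_pow_right (by norm_num) (by omega)
  have hs₄ : s₀ * 2 ^ (i + 1) = 2 ^ P := by
    rw [hs₀, ← pow_add]
    congr 1
    omega
  have ht₀ : (s₀ : ℝ) / 2 ^ P = 1 / 2 ^ (i + 1) := pow_sub_div (by omega)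
  have ht₁ : ((s₀ + s₀ : ℕ) : ℝ) / 2 ^ P = 1 / 2 ^ i := by
    rw [hs₁]
    exact pow_sub_div (by omega)
  have hCl : ∀ k, s₀ ≤ k → k ≤ s₀ + s₀ → ∀ x, G.dist o x ≤ R₁ →
      d.Cl Λ n P k x ε ∧ d.Cl Λ n' P k x ε := fun k hk hk' x hx =>
    ⟨hp₁ P (by omega) x (ball_subset hT.connected (by omega)) k (by omega) (by omega),
      hp₁' P (by omega) x (ball_subset hT.connected (by omega)) k (by omega) (by omega)⟩
  set a := β / 2 ^ P with ha
  have ha0 : 0 ≤ a := by positivity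
  have hCe : 0 ≤ Cerr * ((EF G Λ).card : ℝ) ^ 4 := by
    have := Cerr_nonneg
    positivity
  have hgr := gronwall (fun k => Dm G Λ Λ β P (2 ^ (P - n)) (2 ^ (P - n')) k o) (2 * a * C * A)
    (2 * a * C * (16 * ε * A + B + ε * S + ε) + Cerr * ((EF G Λ).card : ℝ) ^ 4 * a ^ 2)
    (by positivity) (by positivity) s₀ s₀ (Dm_nonneg _ _ _ _ _ _ _ _) fun k hk hk' => by
      have hk1 : (k : ℝ) / 2 ^ P ≤ 1 := by
        rw [div_le_one (by positivity)]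
        exact_mod_cast (by omega : k ≤ 2 ^ P)
      have hk2 : 1 / 2 ^ (i + 1) ≤ (k : ℝ) / 2 ^ P := by
        rw [← ht₀]
        gcongr
      obtain ⟨hy1, hy2⟩ := hyp n hn P hnP R k hk (by omega)
      obtain ⟨hy1', hy2'⟩ := hyp n' hn' P hnP' R k hk (by omega)
      have h2 := hrate o D₀ R R₁ L₀ n n' P k Kc ε lam T ρ A₀ A₁ A₃ S ε w q
        (mul_nonneg hβ (by linarith)) (hρ _ hk2 hk1) hρ1.le hε.le hε1 hlam hT0 hw0 hw1 hq0 hA₀ hA₁
        hA₃ (sum_geom_sq_le hρ0 hρ1) hR₁ (by omega) (hCl k hk hk'.le) hy1 hy1' hy2 hy2'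
        (hp₀ P (by omega) k (by rw [← hs₄]; exact Nat.mul_le_mul_right _ hk) (by omega))
      have h3 := Dm_succ (G := G) Λ Λ hβ hβ1 P (hs₃.trans hk) (hs₃'.trans hk) o
        (Finset.Subset.refl _) (Finset.Subset.refl _)
      have h4 := mul_le_mul_of_nonneg_left h2 (by positivity : 0 ≤ 2 * a)
      rw [← hΛ, ← hA, ← hB] at h4
      rw [← ha] at h3
      linarith
  have has : 2 * a * s₀ ≤ 1 / 2 ^ i := by
    have : 2 * a * s₀ = β * (2 * (s₀ / 2 ^ P)) := by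
      rw [ha]
      ring
    rw [this, ht₀, pow_succ]
    have h2 : (2 : ℝ) * (1 / (2 ^ i * 2)) = 1 / 2 ^ i := by field_simp
    rw [h2]
    exact mul_le_of_le_one_left (by positivity) hβ1
  have hi1 : (1 : ℝ) / 2 ^ i ≤ 1 := div_le_one_of_le₀ (one_le_pow₀ one_le_two) (by positivity)
  have e1 : 2 * a * C * A * s₀ ≤ C * A / 2 ^ i := by
    have := mul_le_mul_of_nonneg_left has (mul_nonneg hC hA0)
    calc 2 * a * C * A * s₀ = C * A * (2 * a * s₀) := by ring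
      _ ≤ C * A * (1 / 2 ^ i) := this
      _ = _ := by ring
  have e2 : (2 * a * C * (16 * ε * A + B + ε * S + ε) + Cerr * ((EF G Λ).card : ℝ) ^ 4 * a ^ 2) * s₀ ≤
      C * B / 2 ^ i + ε * (C * (16 * A + S + 1) + 1) := by
    have h2 := mul_le_mul_of_nonneg_left has (mul_nonneg hC hB0)
    have h3 := mul_le_mul_of_nonneg_left (has.trans hi1)
      (by positivity : 0 ≤ ε * (C * (16 * A + S + 1)))
    have h4 : a ≤ 1 / 2 ^ P := by
      rw [ha]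
      gcongr
    have h5 : a * s₀ ≤ 1 := by nlinarith [(by positivity : 0 ≤ a * s₀)]
    have h6 := mul_le_mul_of_nonneg_left (mul_le_mul h5 h4 ha0 zero_le_one) hCe
    have h7 := hp₂ P (by omega)
    have h8 : C * B * (1 / 2 ^ i) = C * B / 2 ^ i := by ring
    have h9 : (2 * a * C * (16 * ε * A + B + ε * S + ε) +
        Cerr * ((EF G Λ).card : ℝ) ^ 4 * a ^ 2) * s₀ = C * B * (2 * a * s₀) +
        ε * (C * (16 * A + S + 1)) * (2 * a * s₀) +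
        Cerr * ((EF G Λ).card : ℝ) ^ 4 * (a * s₀ * a) := by ring
    rw [h9]
    linarith
  have e3 := abs_le.1 (d.Dm_close (hCl s₀ le_rfl (Nat.le_add_right _ _) o (by simp)).1
    (hCl s₀ le_rfl (Nat.le_add_right _ _) o (by simp)).2)
  have e4 := abs_le.1 (d.Dm_close (hCl (s₀ + s₀) (Nat.le_add_right _ _) le_rfl o (by simp)).1
    (hCl (s₀ + s₀) (Nat.le_add_right _ _) le_rfl o (by simp)).2)
  rw [ht₀] at e3
  rw [ht₁] at e4
  have e5 : Real.exp (2 * a * C * A * s₀) * (Dm G Λ Λ β P (2 ^ (P - n)) (2 ^ (P - n')) s₀ o +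
      (2 * a * C * (16 * ε * A + B + ε * S + ε) + Cerr * ((EF G Λ).card : ℝ) ^ 4 * a ^ 2) * s₀) ≤
      Real.exp (C * A / 2 ^ i) * (d.del o n n' (1 / 2 ^ (i + 1)) + C * B / 2 ^ i +
        ε * (C * (16 * A + S + 1) + 9)) :=
    mul_le_mul (Real.exp_le_exp.2 e1) (by linarith)
      (add_nonneg (Dm_nonneg _ _ _ _ _ _ _ _) (by positivity)) (by positivity)
  have e6 := hgr.trans e5
  rw [mul_add (Real.exp _)] at e6
  have e7 : ε * (Real.exp (C * A / 2 ^ i) * (C * (16 * A + S + 1) + 9) + 8) =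
      Real.exp (C * A / 2 ^ i) * (ε * (C * (16 * A + S + 1) + 9)) + 8 * ε := by ring
  rw [e7]
  linarith [e4.1]

end Dat

end Crest.Agent.R160
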