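import Crest.Agent.R160.Equi
import Crest.Agent.R160.Octave
import Crest.Agent.R160.Final

/-!
Row 160: verification of the octave hypotheses and the assembly.
-/

set_option autoImplicit false
set_option linter.unusedSectionVars false
set_option linter.unusedVariables false
set_option maxHeartbeats 400000

open MeasureTheory ProbabilityTheory Filter Topology
open scoped ENNReal

namespace Crest.Agent.R160

universe u

variable {V : Type u} {G : SimpleGraph V} [G.LocallyFinite] {b : ℕ}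

lemma hypT_one (K : Kids G b) (o : V) (R : ℕ) (β : ℝ) (n P k : ℕ) : HypT K o R β n P k 1 0 :=
  fun v l _ => by
    have : {ω | 1 < |cav (ball G o R) (β * (1 - k / 2 ^ P))
        (chain G (ball G o R) β P (2 ^ (P - n)) ω k) (K.down (inD o v) l)|} = ∅ :=
      Set.eq_empty_of_forall_notMem fun ω h => absurd h (not_lt.2 (abs_cav_le _ _ _ _))
    rw [this]
    simp

lemma hypW_one (K : Kids G b) (o : V) (R : ℕ) (β : ℝ) (n P k L₀ : ℕ) :
    HypW K o R β n P k L₀ (fun _ => 1) fun _ => 0 :=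
  fun v l m _ _ => by
    have : {ω | (1 : ℝ) < Real.exp (-(1 / 2) * ∑ j ∈ Finset.range m,
        cav (ball G o R) (β * (1 - k / 2 ^ P)) (chain G (ball G o R) β P (2 ^ (P - n)) ω k)
          (K.down (inD o v) (l.take j)) ^ 2)} = ∅ :=
      Set.eq_empty_of_forall_notMem fun ω h => absurd h (not_lt.2 (exp_neg_sum_le_one m _))
    rw [this]
    simp

lemma full_down (hT : G.IsTree) (K : Kids G b) (o : V) (v : G.neighborSet o) (l : List (Fin b))
    {R : ℕ} (h : l.length + 1 ≤ R) :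
    Full K (ball G o R) (K.down (inD o v) l) (R - (l.length + 1)) := by
  refine full_ball hT K (o := o) (Or.inl fun h' => snd_not_mem_side hT (inD o v)
    (side_down_subset hT K _ l h')) (by omega) ?_
  have : G.dist o (K.down (inD o v) (l.take l.length)).fst = l.length + 1 :=
    dist_down_take_fst hT K (inD o v) l le_rfl
  rw [List.take_length] at this
  rw [this]
  omega

lemma step_split {i n P k : ℕ} (hn : i + 2 ≤ n) (hP : n ≤ P) (h1 : 2 ^ (P - (i + 1)) ≤ k)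
    (h2 : k ≤ 2 ^ (P - i)) : ∃ j : ℕ, k = 2 ^ (P - n) + j ∧ k ≤ 2 ^ P ∧
      1 / 2 ^ (i + 2) ≤ (j : ℝ) / 2 ^ P ∧ (j : ℝ) / 2 ^ P ≤ 1 / 2 ^ i ∧
      (k : ℝ) / 2 ^ P ≤ 1 / 2 ^ i := by
  have h3 : 2 ^ (P - n) ≤ 2 ^ (P - (i + 2)) := Nat.pow_le_pow_right (by norm_num) (by omega)
  have h4 : 2 ^ (P - (i + 1)) = 2 * 2 ^ (P - (i + 2)) := by
    rw [← pow_succ']
    congr 1
    omega
  have h5 : 2 ^ (P - i) ≤ 2 ^ P := Nat.pow_le_pow_right (by norm_num) (by omega)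
  obtain ⟨j, rfl⟩ := Nat.exists_eq_add_of_le (show 2 ^ (P - n) ≤ k by omega)
  refine ⟨j, rfl, by omega, ?_, ?_, ?_⟩
  · rw [← pow_sub_div (show i + 2 ≤ P by omega)]
    gcongr
    omega
  · rw [← pow_sub_div (show i ≤ P by omega)]
    gcongr
    exact (Nat.le_add_left _ _).trans h2
  · rw [← pow_sub_div (show i ≤ P by omega)]
    gcongr

lemma hypT_tail (hT : G.IsTree) (K : Kids G b) (hb : 2 ≤ b) {β : ℝ} (hβ : 0 ≤ β)
    (hθ : b * Real.tanh β ^ 2 ≤ 1) (lam : ℝ) (hlam : 0 < lam) (q : ℕ) :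
    ∃ C : ℝ, 0 ≤ C ∧ ∀ (o : V) (i : ℕ), ∀ n ≥ i + 2, ∀ P ≥ n, ∀ R k : ℕ, 2 ^ (P - (i + 1)) ≤ k →
      k ≤ 2 ^ (P - i) → HypT K o R β n P k lam (C / 2 ^ (q * i)) := by
  have hβ1 : β ≤ 1 := le_one_of_tanh_sq (tanh_sq_le_half hb hθ)
  obtain ⟨C, hC, h⟩ := cav_tail_le hT K hb lam hlam q
  refine ⟨C, hC, fun o i n hn P hP R k h1 h2 v l hl => ?_⟩
  obtain ⟨j, rfl, h3, -, h4, -⟩ := step_split hn hP h1 h2
  refine (h _ β hβ hθ P _ j h3 _ _ (full_down hT K o v l hl)).trans ?_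
  have h5 : β * j / 2 ^ P ≤ 1 / 2 ^ i := by
    rw [mul_div_assoc]
    exact (mul_le_of_le_one_left (by positivity) hβ1).trans h4
  rw [div_eq_mul_one_div C, mul_comm q i, pow_mul, ← one_div_pow]
  gcongr

lemma exists_le_two_pow (x : ℝ) : ∃ i₀ : ℕ, ∀ i ≥ i₀, x ≤ 2 ^ i := by
  obtain ⟨n, hn⟩ := pow_unbounded_of_one_lt x (one_lt_two (α := ℝ))
  exact ⟨n, fun i hi => hn.le.trans (pow_le_pow_right₀ one_le_two hi)⟩

lemma hypW_crit (hT : G.IsTree) (K : Kids G b) (hb : 2 ≤ b) {β : ℝ} (hβ : 0 < β)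
    (hθ : b * Real.tanh β ^ 2 = 1) (r : ℝ) (hr : 0 < r) :
    ∃ (B : ℝ) (i₀ : ℕ), 0 ≤ B ∧ ∀ i ≥ i₀, ∃ (L₀ : ℕ) (x u : ℝ), 0 ≤ x ∧ x < 1 ∧ 1 / (1 - x) ≤ u ∧
      u ^ 2 ≤ B * 2 ^ i ∧ ∀ (o : V), ∀ n ≥ i + 2, ∀ P ≥ n, ∀ R k : ℕ, 2 ^ (P - (i + 1)) ≤ k →
        k ≤ 2 ^ (P - i) → HypW K o R β n P k L₀ (fun m => x ^ m) fun m => r ^ m := by
  obtain ⟨κ, c₀, hκ, hc₀, h⟩ := cav_spine_le hT K hb r hr
  obtain ⟨i₀, hi₀⟩ := exists_le_two_pow (β / c₀ + 16 / β + κ ^ 2 * β)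
  refine ⟨64 / (κ ^ 2 * β), i₀, by positivity, fun i hi => ?_⟩
  have g0 := hi₀ i hi
  have g1 : β / c₀ ≤ 2 ^ i := le_trans (by
    have : 0 ≤ 16 / β + κ ^ 2 * β := by positivity
    linarith) g0
  have g2 : 16 / β ≤ 2 ^ i := le_trans (by
    have : 0 ≤ β / c₀ + κ ^ 2 * β := by positivity
    linarith) g0
  have g3 : κ ^ 2 * β ≤ 2 ^ i := le_trans (by
    have : 0 ≤ β / c₀ + 16 / β := by positivity
    linarith) g0
  set s := √(β * (1 / 2 ^ (i + 2))) with hs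
  have hs0 : 0 < s := Real.sqrt_pos.2 (by positivity)
  have hs2 : s ^ 2 = β * (1 / 2 ^ (i + 2)) := Real.sq_sqrt (by positivity)
  set a := κ / 2 * s with ha
  have ha0 : 0 < a := by positivity
  have ha2 : a ^ 2 = κ ^ 2 * β / 2 ^ i / 16 := by
    rw [ha, mul_pow, hs2, pow_add]
    field_simp
    norm_num
  have ha1 : a ≤ 1 := by
    have : κ ^ 2 * β / 2 ^ i ≤ 1 := div_le_one_of_le₀ g3 (by positivity)
    nlinarith
  refine ⟨⌈1 / s⌉₊ + 1, Real.exp (-a), 2 / a, (Real.exp_pos _).le,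
    Real.exp_lt_one_iff.2 (by linarith), ?_, le_of_eq ?_, fun o n hn P hP R k h1 h2 v l m hm hmR => ?_⟩
  · have h1 : Real.exp (-a) ≤ 1 / (1 + a) := by
      rw [Real.exp_neg, one_div]
      exact inv_anti₀ (by positivity) (by linarith [Real.add_one_le_exp a])
    have h2 : 1 / (1 + a) ≤ 1 - a / 2 := by
      rw [div_le_iff₀ (by positivity)]
      nlinarith
    rw [div_le_div_iff₀ (by linarith) ha0]
    linarith
  · rw [div_pow, ha2]
    field_simp
    norm_num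
  · obtain ⟨j, rfl, h3, h4, h5, h6⟩ := step_split hn hP h1 h2
    have e1 : s ≤ √(β * j / 2 ^ P) := Real.sqrt_le_sqrt (by
      rw [mul_div_assoc]
      gcongr)
    have e2 : 0 < β * j / 2 ^ P := by
      rw [mul_div_assoc]
      exact mul_pos hβ (lt_of_lt_of_le (by positivity) h4)
    have e3 : β * j / 2 ^ P ≤ c₀ := by
      rw [mul_div_assoc]
      refine (mul_le_mul_of_nonneg_left h5 hβ.le).trans ?_
      rw [div_le_iff₀ hc₀] at g1
      rw [mul_one_div, div_le_iff₀ (by positivity)]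
      linarith
    have e4 : 1 - √(β * j / 2 ^ P) ≤
        b * Real.tanh (β * (1 - ((2 ^ (P - n) + j : ℕ) : ℝ) / 2 ^ P)) ^ 2 := by
      set t : ℝ := ((2 ^ (P - n) + j : ℕ) : ℝ) / 2 ^ P with ht
      have t0 : 0 ≤ t := by positivity
      have t1 : t ≤ 1 := h6.trans (div_le_one_of_le₀ (one_le_pow₀ one_le_two) (by positivity))
      have f1 := pow_le_pow_left₀ (mul_nonneg (by linarith) (tanh_nonneg' hβ.le))
        (tanh_mul_ge hβ.le t0 t1) 2
      have f2 := mul_le_mul_of_nonneg_left f1 (by positivity : (0 : ℝ) ≤ b)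
      have f3 : (b : ℝ) * ((1 - t) * Real.tanh β) ^ 2 = (1 - t) ^ 2 := by
        rw [mul_pow, mul_left_comm, hθ, mul_one]
      have f4 : 2 * (1 / 2 ^ i) ≤ s := by
        refine Real.le_sqrt_of_sq_le ?_
        rw [div_le_iff₀ hβ] at g2
        have : β * (1 / 2 ^ (i + 2)) - (2 * (1 / 2 ^ i)) ^ 2 =
            (2 ^ i * β - 16) / (4 * (2 ^ i) ^ 2) := by
          rw [pow_add]
          field_simp
          ring
        have h' : 0 ≤ (2 ^ i * β - 16) / (4 * (2 ^ i) ^ 2 : ℝ) :=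
          div_nonneg (by linarith) (by positivity)
        linarith
      nlinarith [sq_nonneg t]
    have e5 : 1 ≤ ((R - 1 - m : ℕ) : ℝ) * √(β * j / 2 ^ P) := by
      have f1 : 1 / s ≤ ((R - 1 - m : ℕ) : ℝ) :=
        (Nat.le_ceil _).trans (by exact_mod_cast (by omega : ⌈1 / s⌉₊ ≤ R - 1 - m))
      rw [div_le_iff₀ hs0] at f1
      exact f1.trans (mul_le_mul_of_nonneg_left e1 (by positivity))
    have hF := full_down hT K o v [] (R := R) (by simp; omega)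
    simp only [K.down_nil, List.length_nil, zero_add] at hF
    refine le_trans (measureReal_mono fun ω hω => ?_)
      (h _ β hβ.le hθ.le P _ j h3 e2 e3 e4 _ _ hF m l hm (by omega) e5)
    simp only [Set.mem_ofPred_eq] at hω ⊢
    rw [← Real.exp_nat_mul, Real.exp_lt_exp] at hω
    have f1 : κ * s * m ≤ κ * √(β * j / 2 ^ P) * m := by gcongr
    have f2 : (m : ℝ) * -a = -(1 / 2) * (κ * s * m) := by
      rw [ha]
      ring
    linarith

lemma sum_tail_le {r : ℝ} (hr : 0 < r) (K M : ℕ) :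
    ∑ m ∈ Finset.range M, (if K < m then ((m : ℝ) + 1) ^ 2 * (min r 1 / 2) ^ m else 0) ≤
      16 * r ^ K := by
  have h0 : 0 ≤ min r 1 := le_min hr.le zero_le_one
  have h1 := sum_geom_sq_le (ρ := 1 / 2) (by norm_num) (by norm_num) M
  calc _ ≤ ∑ m ∈ Finset.range M, r ^ K * ((1 / 2 : ℝ) ^ m * ((m : ℝ) + 1) ^ 2) := by
        refine Finset.sum_le_sum fun m _ => ?_
        split_ifs with h
        · have h2 : min r 1 ^ m ≤ r ^ K :=
            (pow_le_pow_of_le_one h0 (min_le_right _ _) h.le).trans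
              (pow_le_pow_left₀ h0 (min_le_left _ _) K)
          rw [div_eq_mul_one_div, mul_pow]
          calc _ = min r 1 ^ m * ((1 / 2 : ℝ) ^ m * ((m : ℝ) + 1) ^ 2) := by ring
            _ ≤ _ := by gcongr
        · positivity
    _ ≤ r ^ K * (2 / (1 - 1 / 2) ^ 3) := by
        rw [← Finset.mul_sum]
        gcongr
    _ = _ := by ring

lemma limsup_le_of {ι : Type*} {F : Filter ι} [F.NeBot] {u v : ι → ℝ} (hu : ∀ p, 0 ≤ u p)
    (hv : ∀ p, v p ≤ 4) {c e Z : ℝ} (hc : 0 ≤ c) (hZ : 0 ≤ Z)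
    (h : ∀ ε : ℝ, 0 < ε → ε ≤ 1 → ∀ᶠ p in F, u p ≤ c * (v p + e) + ε * Z) :
    limsup u F ≤ c * (limsup v F + e) := by
  refine le_of_forall_pos_le_add fun η hη => ?_
  set ε := min 1 (η / (c + Z + 1)) with hε
  have hε0 : 0 < ε := lt_min one_pos (by positivity)
  have hε1 : ε * (c + Z + 1) ≤ η := by
    rw [← le_div_iff₀ (by positivity)]
    exact min_le_right _ _
  refine limsup_le_of_le (isCoboundedUnder_le_of_le F hu) ?_
  filter_upwards [h ε hε0 (min_le_left _ _), eventually_lt_of_limsup_lt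
    (lt_add_of_pos_right (limsup v F) hε0) (isBoundedUnder_of ⟨4, hv⟩)] with p h1 h2
  have h3 := mul_le_mul_of_nonneg_left h2.le hc
  nlinarith

end Crest.Agent.R160
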