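import Crest.Agent.R160.Hyp

/-!
Row 160: the assembly.
-/

set_option autoImplicit false
set_option linter.unusedSectionVars false
set_option linter.unusedVariables false
set_option maxHeartbeats 400000

open MeasureTheory ProbabilityTheory Filter Topology
open scoped ENNReal

namespace Crest.Agent.R160

universe u

variable {V : Type u} {G : SimpleGraph V} [G.LocallyFinite] {b : ℕ}

lemma sum_w_le {ρ x u : ℝ} (h0 : 0 ≤ ρ) (h1 : ρ ≤ 1) (hx0 : 0 ≤ x) (hx1 : x < 1)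
    (hu : 1 / (1 - x) ≤ u) :
    (∀ M, ∑ m ∈ Finset.range M, ρ ^ m * x ^ m ≤ u) ∧
      ∀ M, ∑ m ∈ Finset.range M, ρ ^ m * x ^ m * m ≤ u ^ 2 := by
  have h2 : ∀ m : ℕ, ρ ^ m * x ^ m ≤ x ^ m := fun m =>
    mul_le_of_le_one_left (by positivity) (pow_le_one₀ h0 h1)
  refine ⟨fun M => (Finset.sum_le_sum fun m _ => h2 m).trans ((sum_geom_le hx0 hx1 M).trans hu),
    fun M => (Finset.sum_le_sum fun m _ => ?_).trans ((sum_geom_lin_le hx0 hx1 M).trans ?_)⟩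
  · exact mul_le_mul (h2 m) (by linarith) (by positivity) (by positivity)
  · rw [← one_div_pow]
    have : 0 < 1 - x := by linarith
    gcongr

namespace Dat

variable {β : ℝ} (d : Dat G β)

/-- The asymptotic mean square distance along a subsequence. -/
noncomputable def dbar (o : V) (φ : ℕ → ℕ) (i : ℕ) : ℝ :=
  limsup (fun p : ℕ × ℕ => d.del o (φ p.1) (φ p.2) (1 / 2 ^ i)) atTop

lemma dbar_nonneg (o : V) (φ : ℕ → ℕ) (i : ℕ) : 0 ≤ d.dbar o φ i :=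
  le_limsup_of_frequently_le (Eventually.frequently (Eventually.of_forall fun _ =>
    d.del_nonneg _ _ _ _)) (isBoundedUnder_of ⟨4, fun _ => d.del_le _ _ _ _⟩)

lemma ev_large {φ : ℕ → ℕ} (hφ : StrictMono φ) (i N : ℕ) {ε : ℝ} (hε : 0 < ε) :
    ∀ᶠ p : ℕ × ℕ in atTop, N ≤ p.1 ∧ N ≤ p.2 ∧ i ≤ φ p.1 ∧ i ≤ φ p.2 ∧
      1 / ((φ p.1 : ℝ) + 1) ≤ ε ∧ 1 / ((φ p.2 : ℝ) + 1) ≤ ε := by
  obtain ⟨M, hM⟩ := exists_nat_one_div_lt hε
  have h : ∀ n, M ≤ n → 1 / ((φ n : ℝ) + 1) ≤ ε := fun n hn => by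
    refine le_trans ?_ hM.le
    have : M ≤ φ n := hn.trans (hφ.id_le n)
    gcongr
  filter_upwards [eventually_ge_atTop (N + i + M, N + i + M)] with p hp
  have h1 : N + i + M ≤ p.1 := hp.1
  have h2 : N + i + M ≤ p.2 := hp.2
  have h3 : p.1 ≤ φ p.1 := hφ.id_le _
  have h4 : p.2 ≤ φ p.2 := hφ.id_le _
  exact ⟨by omega, by omega, by omega, by omega, h _ (by omega), h _ (by omega)⟩

theorem exists_dbar (hT : G.IsTree) (K : Kids G b) (hreg : G.IsRegularOfDegree (b + 1))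
    (hb : 2 ≤ b) (hβ : 0 ≤ β) (hθ : b * Real.tanh β ^ 2 ≤ 1) (D₀ : G.Dart) :
    ∃ (φ : ℕ → ℕ) (C : ℝ), StrictMono φ ∧ 0 ≤ C ∧ (∀ i, d.dbar D₀.fst φ i ≤ C * (3 / 4) ^ i) ∧
      ∀ (i L₀ Kc : ℕ) (lam T ρ A₀ A₁ A₃ : ℝ) (w q : ℕ → ℝ),
      ρ < 1 → (∀ t : ℝ, 1 / 2 ^ (i + 1) ≤ t → t ≤ 1 → b * Real.tanh (β * (1 - t)) ^ 2 ≤ ρ) →
      0 ≤ lam → 0 ≤ T → (∀ m, 0 ≤ w m) → (∀ m, w m ≤ 1) → (∀ m, 0 ≤ q m) →
      (∀ M, ∑ m ∈ Finset.range M, ρ ^ m * w m ≤ A₀) →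
      (∀ M, ∑ m ∈ Finset.range M, ρ ^ m * w m * m ≤ A₁) →
      (∀ M, ∑ m ∈ Finset.range M, (if Kc < m then ((m : ℝ) + 1) ^ 2 * q m else 0) ≤ A₃) →
      (∀ n ≥ i + 2, ∀ P ≥ n, ∀ R k : ℕ, 2 ^ (P - (i + 1)) ≤ k → k ≤ 2 ^ (P - i) →
        HypT K D₀.fst R β n P k lam T ∧ HypW K D₀.fst R β n P k L₀ w q) →
      d.dbar D₀.fst φ i ≤ Real.exp (C * (A₀ + lam ^ 2 * A₁ + (Kc + 1) ^ 2) / 2 ^ i) *
        (d.dbar D₀.fst φ (i + 1) + C * (T * A₁ + A₃) / 2 ^ i) := by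
  obtain ⟨φ, hφ, hsec⟩ := exists_subseq_cauchy (fun n t => d.sec D₀ n t) (d.abs_sec_le D₀)
    (d.equi hT K hreg hb hβ hθ D₀)
  obtain ⟨C₁, hC₁, h₁⟩ := d.base hT K hb hβ hθ D₀
  obtain ⟨C₂, hC₂, h₂⟩ := d.octave_core hT K hreg hb hβ hθ
  refine ⟨φ, C₁ + C₂, hφ, by positivity, fun i => ?_, ?_⟩
  · have := limsup_le_of (F := atTop)
      (u := fun p : ℕ × ℕ => d.del D₀.fst (φ p.1) (φ p.2) (1 / 2 ^ i)) (v := fun _ => 0)
      (fun _ => d.del_nonneg _ _ _ _) (fun _ => by norm_num) (c := 1) (e := C₁ * (3 / 4) ^ i)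
      (Z := 8) zero_le_one (by norm_num) fun ε hε _ => by
        filter_upwards [ev_large hφ i 0 hε] with p ⟨_, _, g1, g2, g3, g4⟩
        linarith [h₁ i ε _ g1 _ g2 g3 g4]
    rw [limsup_const] at this
    have h3 : 0 ≤ C₂ * (3 / 4) ^ i := by positivity
    unfold dbar
    linarith
  · intro i L₀ Kc lam T ρ A₀ A₁ A₃ w q g1 g2 g3 g4 g5 g6 g7 g8 g9 g10 g11
    obtain ⟨Z, hZ, h₃⟩ := h₂ D₀.fst D₀ i L₀ Kc lam T ρ A₀ A₁ A₃ w q g1 g2 g3 g4 g5 g6 g7 g8 g9 g10 g11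
    have := limsup_le_of (F := atTop)
      (u := fun p : ℕ × ℕ => d.del D₀.fst (φ p.1) (φ p.2) (1 / 2 ^ i))
      (v := fun p : ℕ × ℕ => d.del D₀.fst (φ p.1) (φ p.2) (1 / 2 ^ (i + 1)))
      (fun _ => d.del_nonneg _ _ _ _) (fun _ => d.del_le _ _ _ _) (Real.exp_pos _).le hZ
      fun ε hε hε1 => by
        obtain ⟨N, hN⟩ := hsec (i + 1) ε hε
        filter_upwards [ev_large hφ (i + 2) N hε] with p ⟨f1, f2, f3, f4, f5, f6⟩
        exact h₃ ε hε hε1 _ f3 _ f4 f5 f6 (hN _ f1 _ f2)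
    refine this.trans ?_
    have k0 : 0 ≤ A₀ := le_trans (by simp) (g8 0)
    have k1 : 0 ≤ A₁ := le_trans (by simp) (g9 0)
    have k3 : 0 ≤ A₃ := le_trans (by simp) (g10 0)
    have k4 := d.dbar_nonneg D₀.fst φ (i + 1)
    change _ * (d.dbar D₀.fst φ (i + 1) + _) ≤ _
    gcongr <;> linarith

theorem dbar_zero (hT : G.IsTree) (K : Kids G b) (hreg : G.IsRegularOfDegree (b + 1))
    (hb : 2 ≤ b) (hβ : 0 ≤ β) (hθ : b * Real.tanh β ^ 2 ≤ 1) (D₀ : G.Dart) :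
    ∃ φ : ℕ → ℕ, StrictMono φ ∧ d.dbar D₀.fst φ 0 = 0 := by
  obtain ⟨φ, C, hφ, hC, hbase, h⟩ := d.exists_dbar hT K hreg hb hβ hθ D₀
  refine ⟨φ, hφ, ?_⟩
  have h0 := d.dbar_nonneg D₀.fst φ
  have hcrude : ∀ (i : ℕ) (ρ u : ℝ), 0 ≤ ρ → ρ < 1 → 1 / (1 - ρ) ≤ u →
      (∀ t : ℝ, 1 / 2 ^ (i + 1) ≤ t → t ≤ 1 → b * Real.tanh (β * (1 - t)) ^ 2 ≤ ρ) →
      d.dbar D₀.fst φ i ≤ Real.exp (C * (u + u ^ 2 + 1) / 2 ^ i) * d.dbar D₀.fst φ (i + 1) := by
    intro i ρ u h1 h2 h3 h4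
    obtain ⟨h5, h6⟩ := sum_w_le zero_le_one le_rfl h1 h2 h3
    simpa using h i 0 0 1 0 ρ u (u ^ 2) 0 (fun _ => 1) (fun _ => 0) h2 h4 zero_le_one le_rfl
      (fun _ => zero_le_one) (fun _ => le_rfl) (fun _ => le_rfl) (by simpa using h5)
      (by simpa using h6) (by simp) fun n _ P _ R k _ _ => ⟨hypT_one _ _ _ _ _ _ _,
        hypW_one _ _ _ _ _ _ _ _⟩
  rcases hθ.lt_or_eq with hθ' | hθ'
  · set u := 1 / (1 - b * Real.tanh β ^ 2) with hu
    have hu0 : 0 ≤ u := by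
      have : 0 < 1 - b * Real.tanh β ^ 2 := by linarith
      positivity
    refine finish_sub _ h0 (C * (u + u ^ 2 + 1)) (by positivity) (fun i => (hbase i).trans ?_)
      fun i => hcrude i _ u (by positivity) hθ' le_rfl fun t ht0 ht1 => ?_
    · gcongr
      nlinarith [sq_nonneg u]
    · have ht : 0 ≤ t := le_trans (by positivity) ht0
      exact (b_tanh_sq_le hb hβ hθ ht ht1).trans
        (mul_le_of_le_one_left (by positivity) (pow_le_one₀ (by linarith) (by linarith)))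
  · have hβ' : 0 < β := hβ.lt_of_ne fun h => by
      rw [← h] at hθ'
      simp at hθ'
    have hρ0 : ∀ i : ℕ, (0 : ℝ) ≤ 1 - 1 / 2 ^ (i + 2) := fun i =>
      sub_nonneg.2 (div_le_one_of_le₀ (one_le_pow₀ one_le_two) (by positivity))
    have hρ1 : ∀ i : ℕ, (1 : ℝ) - 1 / 2 ^ (i + 2) < 1 := fun i => sub_lt_self _ (by positivity)
    have hρ : ∀ (i : ℕ) (t : ℝ), 1 / 2 ^ (i + 1) ≤ t → t ≤ 1 →
        b * Real.tanh (β * (1 - t)) ^ 2 ≤ 1 - 1 / 2 ^ (i + 2) := fun i t ht0 ht1 => by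
      refine (sub_of_start hb hβ hθ (by positivity) ht0 ht1).trans ?_
      have : (1 : ℝ) / 2 ^ (i + 1) / 2 = 1 / 2 ^ (i + 2) := by
        rw [pow_succ _ (i + 1)]
        field_simp
      rw [this]
      exact pow_le_of_le_one (hρ0 i) (hρ1 i).le two_ne_zero
    refine finish_crit _ h0 (21 * C) (by positivity) (fun i => (hbase i).trans ?_)
      (fun i => (hcrude i _ (2 ^ (i + 2)) (hρ0 i) (hρ1 i) (by simp) (hρ i)).trans ?_)
      fun r hr => ?_
    · gcongr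
      linarith
    · have := h0 (i + 1)
      gcongr
      rw [div_le_iff₀ (by positivity), pow_add]
      have h1 : (1 : ℝ) ≤ 2 ^ i := one_le_pow₀ one_le_two
      generalize (2 : ℝ) ^ i = y at *
      nlinarith [mul_nonneg hC (sub_nonneg.2 h1), mul_nonneg (mul_nonneg hC (sub_nonneg.2 h1))
        (sub_nonneg.2 h1)]
    · have hr₀ : 0 < min r 1 / 2 := half_pos (lt_min hr one_pos)
      obtain ⟨B, i₀, hB, hW⟩ := hypW_crit hT K hb hβ' hθ' _ hr₀
      have hmain : ∀ i ≥ i₀, ∀ (Kc : ℕ) (lam T : ℝ), 0 < lam → 0 ≤ T →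
          (∀ n ≥ i + 2, ∀ P ≥ n, ∀ R k : ℕ, 2 ^ (P - (i + 1)) ≤ k → k ≤ 2 ^ (P - i) →
            HypT K D₀.fst R β n P k lam T) →
          d.dbar D₀.fst φ i ≤ Real.exp (2 * C * B * lam ^ 2 + C / lam ^ 2 / 2 ^ i +
            21 * C * (Kc + 1) ^ 2 / 2 ^ i) *
            (d.dbar D₀.fst φ (i + 1) + C * B * T + 21 * C * r ^ Kc) := by
        intro i hi Kc lam T hlam hT0 hTl
        obtain ⟨L₀, x, u, hx0, hx1, hu, hu2, hW'⟩ := hW i hi
        obtain ⟨h5, h6⟩ := sum_w_le (hρ0 i) (hρ1 i).le hx0 hx1 hu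
        refine (h i L₀ Kc lam T _ u (u ^ 2) (16 * r ^ Kc) (fun m => x ^ m)
          (fun m => (min r 1 / 2) ^ m) (hρ1 i) (hρ i) hlam.le hT0 (fun _ => by positivity)
          (fun _ => pow_le_one₀ hx0 hx1.le) (fun _ => by positivity) h5 h6 (sum_tail_le hr Kc)
          fun n hn P hP R k h1 h2 => ⟨hTl n hn P hP R k h1 h2, hW' _ n hn P hP R k h1 h2⟩).trans ?_
        have h1 : (1 : ℝ) ≤ 2 ^ i := one_le_pow₀ one_le_two
        have h2 : u ≤ lam ^ 2 * u ^ 2 + 1 / lam ^ 2 := by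
          have : lam ^ 2 * u ^ 2 + 1 / lam ^ 2 - 2 * u = (lam * u - 1 / lam) ^ 2 := by
            field_simp
            ring
          have h' : 0 ≤ lam ^ 2 * u ^ 2 + 1 / lam ^ 2 := by positivity
          nlinarith [sq_nonneg (lam * u - 1 / lam)]
        have h3 : lam ^ 2 * u ^ 2 ≤ lam ^ 2 * (B * 2 ^ i) := by gcongr
        have h4 : T * u ^ 2 ≤ T * (B * 2 ^ i) := by gcongr
        have := h0 (i + 1)
        refine mul_le_mul (Real.exp_le_exp.2 ?_) ?_ (by positivity) (by positivity)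
        · rw [div_le_iff₀ (by positivity)]
          have e : (2 * C * B * lam ^ 2 + C / lam ^ 2 / 2 ^ i + 21 * C * (Kc + 1) ^ 2 / 2 ^ i) *
              2 ^ i = C * (2 * (lam ^ 2 * (B * 2 ^ i)) + 1 / lam ^ 2 + 21 * (Kc + 1) ^ 2) := by
            field_simp
          rw [e]
          refine mul_le_mul_of_nonneg_left ?_ hC
          nlinarith [sq_nonneg ((Kc : ℝ) + 1)]
        · rw [add_assoc]
          refine add_le_add le_rfl ?_
          rw [div_le_iff₀ (by positivity)]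
          have e : (C * B * T + 21 * C * r ^ Kc) * 2 ^ i =
              C * (T * (B * 2 ^ i) + 21 * (r ^ Kc * 2 ^ i)) := by ring
          rw [e]
          refine mul_le_mul_of_nonneg_left ?_ hC
          have h7 : r ^ Kc ≤ r ^ Kc * 2 ^ i := le_mul_of_one_le_right (by positivity) h1
          have h8 : 0 ≤ r ^ Kc := by positivity
          linarith
      refine ⟨2 * C * B + C, i₀, fun i hi Kc => ?_, fun η hη q => ?_⟩
      · refine (hmain i hi Kc 1 0 one_pos le_rfl fun n _ P _ R k _ _ =>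
          hypT_one _ _ _ _ _ _ _).trans ?_
        have := h0 (i + 1)
        have h1 : C / 2 ^ i ≤ C := div_le_self hC (one_le_pow₀ one_le_two)
        rw [mul_zero, add_zero, one_pow, mul_one, div_one]
        gcongr
      · set lam := √(η / (4 * C * B + 1)) with hlam
        have hlam0 : 0 < lam := Real.sqrt_pos.2 (by positivity)
        have hlam2 : lam ^ 2 * (4 * C * B + 1) = η := by
          rw [hlam, Real.sq_sqrt (by positivity)]
          field_simp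
        obtain ⟨C', hC', hT'⟩ := hypT_tail hT K hb hβ hθ lam hlam0 q
        obtain ⟨i₁, hi₁⟩ := exists_le_two_pow (C / lam ^ 2 / (η / 2))
        refine ⟨C * B * C', i₀ + i₁, fun i hi Kc => ?_⟩
        refine (hmain i (by omega) Kc lam _ hlam0 (by positivity) (hT' _ i)).trans ?_
        have := h0 (i + 1)
        have h1 : C / lam ^ 2 / 2 ^ i ≤ η / 2 := by
          have := hi₁ i (by omega)
          rw [div_le_iff₀ (by positivity)] at this ⊢
          linarith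
        rw [mul_div_assoc (C * B)]
        gcongr
        nlinarith [sq_nonneg lam]

end Dat

theorem main (hT : G.IsTree) (hreg : G.IsRegularOfDegree (b + 1)) (hb : 2 ≤ b) {β : ℝ}
    (hβ : 0 ≤ β) (hθ : b * Real.tanh β ^ 2 ≤ 1) :
    ∃ Φ : (V → unitInterval) → (V → Bool),
      Measurable Φ ∧
      (∀ (g : G ≃g G) (x : V → unitInterval), Φ (x ∘ ⇑g) = Φ x ∘ ⇑g) ∧
      ∀ (S : Finset V) (η : V → Bool), (G.induce (S : Set V)).Connected →
        (Crest.ProbabilityR.Labels.labelMeasure V).map Φ {σ | ∀ v ∈ S, σ v = η v} =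
          ENNReal.ofReal (Crest.ProbabilityR.TreeIsing.isingWeight G (Real.tanh β) S η) := by
  obtain ⟨K⟩ := exists_kids hreg
  obtain ⟨d⟩ := exists_dat hT K hreg hb hβ hθ
  obtain ⟨o⟩ := hT.connected.nonempty
  obtain ⟨v⟩ : Nonempty (G.neighborSet o) :=
    Fintype.card_pos_iff.1 (by rw [card_neighborSet hreg]; omega)
  obtain ⟨φ, hφ, h0⟩ := d.dbar_zero hT K hreg hb hβ hθ (inD o v)
  refine factor_of_cauchy hT.connected (Real.tanh β) (fun n x => d.M (φ n) 1 x)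
    (fun n x => d.measurable_M _ _ _) (fun n x w => d.abs_M_le _ _ _ _)
    (fun n g x w => d.M_map hT.connected g _ _ _ _) (fun ε hε => ?_) fun S η hS => ?_
  · obtain ⟨p, hp⟩ := eventually_atTop.1 (eventually_lt_of_limsup_lt (h0.trans_lt hε)
      (isBoundedUnder_of ⟨4, fun _ => d.del_le _ _ _ _⟩))
    refine ⟨p.1 + p.2, fun n hn n' hn' x => ?_⟩
    have := hp (n, n') ⟨by simp only; omega, by simp only; omega⟩
    rw [← d.del_eq hT K hreg _ x, pow_zero, div_one] at this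
    exact this.le
  · have h1 : Tendsto (fun n : ℕ => Crest.ProbabilityR.TreeIsing.isingWeight G
        (Real.tanh (β * (1 - 1 / 2 ^ n))) S η) atTop
        (𝓝 (Crest.ProbabilityR.TreeIsing.isingWeight G (Real.tanh β) S η)) := by
      refine (((continuous_isingWeight S η).comp continuous_tanh').tendsto β).comp ?_
      have h2 := (tendsto_pow_atTop_nhds_zero_of_lt_one (r := (1 / 2 : ℝ)) (by norm_num)
        (by norm_num)).const_sub 1 |>.const_mul β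
      simpa using h2
    have h2 : Tendsto (fun n : ℕ => ∫ w, ∏ x ∈ S, (1 + sgn (η x) * d.M n 1 x w) / 2 ∂PX G.edgeSet -
        Crest.ProbabilityR.TreeIsing.isingWeight G (Real.tanh (β * (1 - 1 / 2 ^ n))) S η) atTop
        (𝓝 0) := by
      refine squeeze_zero_norm (fun n => d.law_close hT hβ S η hS n) ?_
      simpa using (tendsto_one_div_add_atTop_nhds_zero_nat (𝕜 := ℝ)).const_mul (S.card : ℝ)
    have h3 := (h2.add h1).comp hφ.tendsto_atTop
    simpa [Function.comp_def] using h3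

end Crest.Agent.R160
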