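import Crest.Agent.R160.Tree
import Crest.Agent.R160.Avg

/-!
Row 160, subtask G: independence of functions of disjoint sets of spins, and summation of a branch.
-/

set_option autoImplicit false
set_option linter.unusedSectionVars false
set_option linter.unusedVariables false
set_option maxHeartbeats 400000

namespace Crest.Agent.R160.Mk

universe u
variable {V : Type u} {G : SimpleGraph V}

/-- `f` only depends on the spins in `S`. -/
def Dep (S : Set V) (f : Finset V → ℝ) : Prop :=
  ∀ A B : Finset V, (∀ v ∈ S, (v ∈ A ↔ v ∈ B)) → f A = f B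

variable {S S' : Set V} {f g : Finset V → ℝ}

lemma Dep.mono (h : Dep S f) (hS : S ⊆ S') : Dep S' f :=
  fun A B hAB => h A B fun v hv => hAB v (hS hv)

lemma dep_const (S : Set V) (c : ℝ) : Dep S fun _ => c := fun _ _ _ => rfl

lemma Dep.mul (hf : Dep S f) (hg : Dep S g) : Dep S fun A => f A * g A :=
  fun A B h => by simp only [hf A B h, hg A B h]

lemma Dep.add (hf : Dep S f) (hg : Dep S g) : Dep S fun A => f A + g A :=
  fun A B h => by simp only [hf A B h, hg A B h]

lemma Dep.exp (hf : Dep S f) : Dep S fun A => Real.exp (f A) :=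
  fun A B h => by simp only [hf A B h]

lemma Dep.const_mul (hf : Dep S f) (c : ℝ) : Dep S fun A => c * f A :=
  (dep_const S c).mul hf

lemma dep_sum {ι : Type*} (T : Finset ι) {F : ι → Finset V → ℝ} (h : ∀ i ∈ T, Dep S (F i)) :
    Dep S fun A => ∑ i ∈ T, F i A :=
  fun A B hAB => Finset.sum_congr rfl fun i hi => h i hi A B hAB

lemma dep_spin {v : V} (hv : v ∈ S) : Dep S fun A => spin A v := by
  intro A B h
  by_cases hA : v ∈ A
  · simp only [spin, if_pos hA, if_pos ((h v hv).1 hA)]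
  · simp only [spin, if_neg hA, if_neg (fun hB => hA ((h v hv).2 hB))]

lemma dep_sx {e : Sym2 V} (he : ∀ v ∈ e, v ∈ S) : Dep S fun A => sx A e := by
  induction e with
  | _ u v =>
    simp only [sx_mk]
    exact (dep_spin (he u (by simp))).mul (dep_spin (he v (by simp)))

lemma dep_sp {e : Sym2 V} (he : ∀ v ∈ e, v ∈ S) : Dep S fun A => sp A e := by
  induction e with
  | _ u v =>
    simp only [sp_mk]
    exact (dep_spin (he u (by simp))).add (dep_spin (he v (by simp)))

lemma dep_ham {F : Finset G.edgeSet} (hF : ∀ e ∈ F, ∀ v ∈ e.1, v ∈ S) (J : ℝ)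
    (y : G.edgeSet → ℝ) : Dep S (ham F J y) :=
  dep_sum F fun e he => ((dep_sx (hF e he)).const_mul J).add ((dep_sp (hF e he)).const_mul (y e))

open Classical in
/-- `A` on `S` and `B` outside `S`. -/
noncomputable def mix (S : Set V) (A B : Finset V) : Finset V :=
  A.filter (· ∈ S) ∪ B.filter (· ∉ S)

lemma mem_mix {A B : Finset V} {v : V} : v ∈ mix S A B ↔ (v ∈ A ∧ v ∈ S) ∨ (v ∈ B ∧ v ∉ S) := by
  classical
  simp only [mix, Finset.mem_union, Finset.mem_filter]

lemma mix_mix (A B : Finset V) : mix S (mix S A B) (mix S B A) = A := by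
  ext v
  simp only [mem_mix]
  tauto

lemma mix_subset {Λ A B : Finset V} (hA : A ⊆ Λ) (hB : B ⊆ Λ) : mix S A B ⊆ Λ := by
  intro v hv
  rcases mem_mix.1 hv with h | h
  exacts [hA h.1, hB h.1]

/-- Functions of disjoint sets of spins are independent under the uniform measure. -/
lemma indep (Λ : Finset V) (hf : Dep S f) (hg : Dep Sᶜ g) :
    (∑ A ∈ Λ.powerset, f A * g A) * (Λ.powerset.card : ℝ) =
      (∑ A ∈ Λ.powerset, f A) * ∑ A ∈ Λ.powerset, g A := by
  have h1 : (∑ A ∈ Λ.powerset, f A * g A) * (Λ.powerset.card : ℝ) =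
      ∑ p ∈ Λ.powerset ×ˢ Λ.powerset, f p.1 * g p.1 := by
    rw [Finset.sum_product, Finset.sum_mul]
    refine Finset.sum_congr rfl fun A _ => ?_
    simp only [Finset.sum_const, nsmul_eq_mul, mul_comm]
  rw [h1, Finset.sum_mul_sum, ← Finset.sum_product']
  refine Finset.sum_nbij' (fun p => (mix S p.1 p.2, mix S p.2 p.1))
    (fun p => (mix S p.1 p.2, mix S p.2 p.1)) ?_ ?_ ?_ ?_ ?_
  · intro p hp
    simp only [Finset.mem_product, Finset.mem_powerset] at hp ⊢
    exact ⟨mix_subset hp.1 hp.2, mix_subset hp.2 hp.1⟩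
  · intro p hp
    simp only [Finset.mem_product, Finset.mem_powerset] at hp ⊢
    exact ⟨mix_subset hp.1 hp.2, mix_subset hp.2 hp.1⟩
  · intro p _
    simp only [mix_mix]
  · intro p _
    simp only [mix_mix]
  · intro p _
    congr 1
    · refine hf _ _ fun v hv => ?_
      simp only [mem_mix]
      tauto
    · refine hg _ _ fun v hv => ?_
      simp only [mem_mix]
      have : v ∉ S := hv
      tauto

lemma card_pos (Λ : Finset V) : (0 : ℝ) < Λ.powerset.card := by
  exact_mod_cast (powerset_ne Λ).card_pos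

/-- Conditional form of the independence. -/
lemma indep_avg (Λ : Finset V) {H : Finset V → ℝ} (hH : Dep S H) (hf : Dep S f) (hg : Dep Sᶜ g) :
    ∑ A ∈ Λ.powerset, Real.exp (H A) * f A * g A =
      (∑ A ∈ Λ.powerset, Real.exp (H A)) / Λ.powerset.card *
        ∑ A ∈ Λ.powerset, avg Λ.powerset H f * g A := by
  have h1 := indep Λ (hH.exp.mul hf) hg
  have h2 := (card_pos Λ).ne'
  have h3 := (sum_exp_pos (powerset_ne Λ) H).ne'
  rw [← Finset.mul_sum, avg, eq_div_of_mul_eq h2 h1]
  field_simp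

lemma exp_mul_sign (J : ℝ) {s : ℝ} (hs : s = 1 ∨ s = -1) :
    Real.exp (J * s) = Real.cosh J * (1 + Real.tanh J * s) := by
  have h := (Real.cosh_pos J).ne'
  rw [Real.tanh_eq_sinh_div_cosh]
  rcases hs with rfl | rfl
  · rw [mul_one, ← Real.cosh_add_sinh]
    field_simp
  · rw [mul_neg, mul_one, ← Real.cosh_sub_sinh]
    field_simp
    ring

lemma sum_spin {Λ : Finset V} {c : V} (hc : c ∈ Λ) : ∑ A ∈ Λ.powerset, spin A c = 0 := by
  classical
  rw [← Finset.insert_erase hc, Finset.sum_powerset_insert (Finset.notMem_erase c Λ),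
    ← Finset.sum_add_distrib]
  refine Finset.sum_eq_zero fun A hA => ?_
  have : c ∉ A := fun h => Finset.notMem_erase c Λ (Finset.mem_powerset.1 hA h)
  simp [spin, this]

lemma avg_field {Λ : Finset V} {c : V} (hc : c ∈ Λ) (ξ : ℝ) :
    (∑ A ∈ Λ.powerset, Real.exp (ξ * spin A c) * spin A c) =
      Real.tanh ξ * ∑ A ∈ Λ.powerset, Real.exp (ξ * spin A c) := by
  have h1 : ∀ A : Finset V, Real.exp (ξ * spin A c) * spin A c =
      Real.cosh ξ * spin A c + Real.cosh ξ * Real.tanh ξ := fun A => by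
    rw [exp_mul_sign ξ (spin_eq A c)]
    linear_combination Real.cosh ξ * Real.tanh ξ * spin_mul_self A c
  have h2 : ∀ A : Finset V, Real.exp (ξ * spin A c) =
      Real.cosh ξ * Real.tanh ξ * spin A c + Real.cosh ξ := fun A => by
    rw [exp_mul_sign ξ (spin_eq A c)]
    ring
  simp only [h1]
  simp only [h2, Finset.sum_add_distrib, ← Finset.mul_sum, sum_spin hc, Finset.sum_const,
    nsmul_eq_mul]
  ring

/-- The message passed along an edge. -/
lemma exists_msg (J ξ : ℝ) : ∃ k : ℝ, 0 < k ∧ ∀ s : ℝ, s = 1 ∨ s = -1 →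
    1 + Real.tanh J * Real.tanh ξ * s = k * Real.exp (fJ J ξ * s) := by
  have ha := Real.cosh_pos (ξ + J)
  have hb := Real.cosh_pos (ξ - J)
  have hJ := Real.cosh_pos J
  have hξ := Real.cosh_pos ξ
  have hE := Real.exp_pos (fJ J ξ)
  have hsq : Real.exp (fJ J ξ) * Real.exp (fJ J ξ) = Real.cosh (ξ + J) / Real.cosh (ξ - J) := by
    rw [← Real.exp_add, fJ, ← add_mul, add_halves, one_mul, Real.exp_log (div_pos ha hb)]
  refine ⟨Real.cosh (ξ + J) / Real.exp (fJ J ξ) / (Real.cosh J * Real.cosh ξ), by positivity, ?_⟩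
  rw [Real.tanh_eq_sinh_div_cosh, Real.tanh_eq_sinh_div_cosh]
  rintro s (rfl | rfl)
  · rw [mul_one, mul_one, Real.cosh_add]
    field_simp
  · have h1 : Real.cosh (ξ + J) = Real.exp (fJ J ξ) * Real.exp (fJ J ξ) * Real.cosh (ξ - J) := by
      rw [hsq]
      field_simp
    rw [mul_neg, mul_neg, mul_one, mul_one, Real.exp_neg, h1, Real.cosh_sub]
    field_simp
    ring

end Crest.Agent.R160.Mk
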