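import Crest.Agent.R160.Tree
import Crest.Agent.R160.Avg
import Crest.Agent.R160.Markov1

/-!
Row 160, subtask G: the Markov property of the Gibbs measures on the tree.
-/

set_option autoImplicit false
set_option linter.unusedSectionVars false
set_option linter.unusedVariables false
set_option maxHeartbeats 400000

open MeasureTheory ProbabilityTheory Filter Topology
open scoped ENNReal

namespace Crest.Agent.R160

universe u
variable {V : Type u} {G : SimpleGraph V} [G.LocallyFinite] {b : ℕ}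

namespace Mk

lemma mem_ed {D : G.Dart} {v : V} : v ∈ (ed D).1 ↔ v = D.fst ∨ v = D.snd := by
  simp [ed, SimpleGraph.Dart.edge]

open Classical in
/-- The edges of `Λ` outside the branch of `D`. -/
noncomputable def EFout (Λ : Finset V) (D : G.Dart) : Finset G.edgeSet :=
  (EF G Λ).filter fun e => ∀ v ∈ e.1, v ∉ side D

lemma mem_EFout {Λ : Finset V} {D : G.Dart} {e : G.edgeSet} :
    e ∈ EFout Λ D ↔ e ∈ EF G Λ ∧ ∀ v ∈ e.1, v ∉ side D := by
  classical
  exact Finset.mem_filter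

/-- The energy of the branch of `D` together with the edge of `D`. -/
noncomputable def Hb (Λ : Finset V) (J : ℝ) (y : G.edgeSet → ℝ) (D : G.Dart) (A : Finset V) : ℝ :=
  ham (EFin Λ D) J y A + (J * sx A (ed D).1 + y (ed D) * sp A (ed D).1)

lemma dep_in (Λ : Finset V) (J : ℝ) (y : G.edgeSet → ℝ) (D : G.Dart) :
    Dep (side D) (ham (EFin Λ D) J y) :=
  dep_ham (fun e he => (mem_EFin.1 he).2) J y

lemma dep_out (Λ : Finset V) (J : ℝ) (y : G.edgeSet → ℝ) (D : G.Dart) :
    Dep (side D)ᶜ (ham (EFout Λ D) J y) :=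
  dep_ham (fun e he => (mem_EFout.1 he).2) J y

lemma in_or_out (hT : G.IsTree) (D : G.Dart) {e : G.edgeSet} (he : e ≠ ed D) :
    (∀ v ∈ e.1, v ∈ side D) ∨ ∀ v ∈ e.1, v ∉ side D := by
  obtain ⟨e, h⟩ := e
  induction e with
  | _ u v =>
    have h1 := side_adj_iff hT D (u := u) (v := v) h fun h' => he (Subtype.ext h')
    simp only [Sym2.mem_iff, forall_eq_or_imp, forall_eq]
    tauto

lemma not_in_and_out (D : G.Dart) {e : G.edgeSet} (h1 : ∀ v ∈ e.1, v ∈ side D)
    (h2 : ∀ v ∈ e.1, v ∉ side D) : False := by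
  obtain ⟨e, h⟩ := e
  induction e with
  | _ u v => exact h2 u (by simp) (h1 u (by simp))

lemma ed_not_in (hT : G.IsTree) (D : G.Dart) : ¬ ∀ v ∈ (ed D).1, v ∈ side D :=
  fun h => snd_not_mem_side hT D (h _ (mem_ed.2 (Or.inr rfl)))

lemma ed_not_out (hT : G.IsTree) (D : G.Dart) : ¬ ∀ v ∈ (ed D).1, v ∉ side D :=
  fun h => h _ (mem_ed.2 (Or.inl rfl)) (fst_mem_side hT D)

open Classical in
lemma ham_split (hT : G.IsTree) (Λ : Finset V) (J : ℝ) (y : G.edgeSet → ℝ) (D : G.Dart)
    (A : Finset V) : ham (EF G Λ) J y A = ham (EFin Λ D) J y A +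
      (if ed D ∈ EF G Λ then J * sx A (ed D).1 + y (ed D) * sp A (ed D).1 else 0) +
        ham (EFout Λ D) J y A := by
  rw [← Finset.sum_ite_eq (EF G Λ) (ed D) fun e => J * sx A e.1 + y e * sp A e.1]
  simp only [ham, EFin, EFout, Finset.sum_filter, ← Finset.sum_add_distrib]
  refine Finset.sum_congr rfl fun e _ => ?_
  by_cases he : ed D = e
  · subst he
    rw [if_neg (ed_not_in hT D), if_neg (ed_not_out hT D), if_pos rfl]
    ring
  · rw [if_neg he]
    rcases in_or_out hT D (Ne.symm he) with h | h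
    · rw [if_pos h, if_neg (not_in_and_out D h)]
      ring
    · rw [if_pos h, if_neg fun h' => not_in_and_out D h' h]
      ring

/-- Summing out a branch. -/
lemma branch (hT : G.IsTree) (Λ : Finset V) (J : ℝ) (y : G.edgeSet → ℝ) (D : G.Dart) :
    ∃ κ : ℝ, 0 < κ ∧ ∀ h : Finset V → ℝ, Dep (side D)ᶜ h →
      (∑ A ∈ Λ.powerset, Real.exp (Hb Λ J y D A) * h A =
        κ * ∑ A ∈ Λ.powerset, (1 + Real.tanh J * cav Λ J y D * spin A D.snd) *
          (Real.exp (y (ed D) * spin A D.snd) * h A)) ∧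
      (∑ A ∈ Λ.powerset, Real.exp (Hb Λ J y D A) * (spin A D.fst * h A) =
        κ * ∑ A ∈ Λ.powerset, (cav Λ J y D + Real.tanh J * spin A D.snd) *
          (Real.exp (y (ed D) * spin A D.snd) * h A)) := by
  set H : Finset V → ℝ := fun A => ham (EFin Λ D) J y A + y (ed D) * spin A D.fst with hHdef
  have hc : Dep (side D) fun A => spin A D.fst := dep_spin (fst_mem_side hT D)
  have hp : Dep (side D)ᶜ fun A => spin A D.snd := dep_spin (snd_not_mem_side hT D)
  have hH : Dep (side D) H := (dep_in Λ J y D).add (hc.const_mul _)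
  have hμ : avg Λ.powerset H (fun A => spin A D.fst) = cav Λ J y D := rfl
  have hexp : ∀ A, Real.exp (Hb Λ J y D A) = Real.exp (H A) *
      (Real.cosh J * (1 + Real.tanh J * (spin A D.fst * spin A D.snd))) *
        Real.exp (y (ed D) * spin A D.snd) := fun A => by
    rw [← sx_ed, ← exp_mul_sign J (sx_eq A _), ← Real.exp_add, ← Real.exp_add, Hb, sp_ed]
    congr 1
    simp only [hHdef]
    ring
  refine ⟨Real.cosh J * ((∑ A ∈ Λ.powerset, Real.exp (H A)) / Λ.powerset.card),
    mul_pos (Real.cosh_pos J) (div_pos (sum_exp_pos (powerset_ne Λ) H) (card_pos Λ)), fun h hh => ?_⟩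
  have hg : Dep (side D)ᶜ fun A => Real.exp (y (ed D) * spin A D.snd) * h A :=
    (hp.const_mul _).exp.mul hh
  have e1 := indep_avg Λ hH (dep_const _ 1) hg
  have e2 := indep_avg Λ hH hc hg
  have e3 := indep_avg Λ hH (dep_const _ 1) (hp.mul hg)
  have e4 := indep_avg Λ hH hc (hp.mul hg)
  rw [avg_const (powerset_ne Λ)] at e1 e3
  rw [hμ] at e2 e4
  set κ := (∑ A ∈ Λ.powerset, Real.exp (H A)) / (Λ.powerset.card : ℝ)
  constructor
  · have : ∑ A ∈ Λ.powerset, Real.exp (Hb Λ J y D A) * h A =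
        Real.cosh J * (∑ A ∈ Λ.powerset, Real.exp (H A) * 1 *
          (Real.exp (y (ed D) * spin A D.snd) * h A) +
        Real.tanh J * ∑ A ∈ Λ.powerset, Real.exp (H A) * spin A D.fst *
          (spin A D.snd * (Real.exp (y (ed D) * spin A D.snd) * h A))) := by
      simp only [Finset.mul_sum, ← Finset.sum_add_distrib]
      refine Finset.sum_congr rfl fun A _ => ?_
      rw [hexp]
      ring
    rw [this, e1, e4]
    simp only [Finset.mul_sum, ← Finset.sum_add_distrib]
    refine Finset.sum_congr rfl fun A _ => ?_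
    ring
  · have : ∑ A ∈ Λ.powerset, Real.exp (Hb Λ J y D A) * (spin A D.fst * h A) =
        Real.cosh J * (∑ A ∈ Λ.powerset, Real.exp (H A) * spin A D.fst *
          (Real.exp (y (ed D) * spin A D.snd) * h A) +
        Real.tanh J * ∑ A ∈ Λ.powerset, Real.exp (H A) * 1 *
          (spin A D.snd * (Real.exp (y (ed D) * spin A D.snd) * h A))) := by
      simp only [Finset.mul_sum, ← Finset.sum_add_distrib]
      refine Finset.sum_congr rfl fun A _ => ?_
      rw [hexp]
      linear_combination Real.exp (H A) * Real.cosh J * Real.tanh J * spin A D.snd *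
        Real.exp (y (ed D) * spin A D.snd) * h A * spin_mul_self A D.fst
    rw [this, e2, e3]
    simp only [Finset.mul_sum, ← Finset.sum_add_distrib]
    refine Finset.sum_congr rfl fun A _ => ?_
    ring

lemma den_ne (J μ : ℝ) (hμ : |μ| ≤ 1) : 1 - Real.tanh J ^ 2 * μ ^ 2 ≠ 0 := by
  have h1 : Real.tanh J ^ 2 < 1 := by
    nlinarith [Real.neg_one_lt_tanh J, Real.tanh_lt_one J]
  have h2 : μ ^ 2 ≤ 1 := by
    rw [← sq_abs]
    nlinarith [abs_nonneg μ]
  nlinarith [sq_nonneg μ, sq_nonneg (Real.tanh J)]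

lemma regress (θ μ : ℝ) (hden : 1 - θ ^ 2 * μ ^ 2 ≠ 0) {s : ℝ} (hs : s = 1 ∨ s = -1) :
    μ + θ * s = μ * (1 - θ ^ 2) / (1 - θ ^ 2 * μ ^ 2) * (1 + θ * μ * s) +
      θ * ((1 - μ ^ 2) / (1 - θ ^ 2 * μ ^ 2)) * (s * (1 + θ * μ * s)) := by
  obtain ⟨d, hd⟩ : ∃ d, d = 1 - θ ^ 2 * μ ^ 2 := ⟨_, rfl⟩
  rw [← hd] at hden ⊢
  rcases hs with rfl | rfl <;> field_simp <;> rw [hd] <;> ring

/-- Regression of the child's spin on the parent's spin. -/
lemma gm_fst (hT : G.IsTree) (Λ : Finset V) (J : ℝ) (y : G.edgeSet → ℝ) {D : G.Dart}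
    (hD : ed D ∈ EF G Λ) {g : Finset V → ℝ} (hg : Dep (side D)ᶜ g) :
    gm G Λ J y (fun A => spin A D.fst * g A) =
      cav Λ J y D * (1 - Real.tanh J ^ 2) / (1 - Real.tanh J ^ 2 * cav Λ J y D ^ 2) * gm G Λ J y g +
        rr Λ J y D * gm G Λ J y fun A => spin A D.snd * g A := by
  obtain ⟨κ, hκ, hb⟩ := branch hT Λ J y D
  have hp : Dep (side D)ᶜ fun A => spin A D.snd := dep_spin (snd_not_mem_side hT D)
  have ho := (dep_out Λ J y D).exp
  have e1 := (hb _ (ho.mul hg)).1
  have e2 := (hb _ (ho.mul hg)).2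
  have e3 := (hb _ (ho.mul (hp.mul hg))).1
  have hexp : ∀ A, Real.exp (ham (EF G Λ) J y A) =
      Real.exp (Hb Λ J y D A) * Real.exp (ham (EFout Λ D) J y A) := fun A => by
    rw [ham_split hT Λ J y D, if_pos hD, Real.exp_add, Hb]
  have hden := den_ne J _ (abs_cav_le Λ J y D)
  simp only [gm, avg, ← mul_div_assoc, ← add_div]
  congr 1
  simp only [hexp, mul_assoc]
  simp only [mul_left_comm (Real.exp (ham (EFout Λ D) J y _)) (spin _ D.fst)]
  rw [e1, e2, e3, rr, if_pos hD, rho]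
  simp only [Finset.mul_sum, ← Finset.sum_add_distrib]
  refine Finset.sum_congr rfl fun A _ => ?_
  have key := regress (Real.tanh J) (cav Λ J y D) hden (spin_eq A D.snd)
  linear_combination (κ * (Real.exp (y (ed D) * spin A D.snd) *
    (Real.exp (ham (EFout Λ D) J y A) * g A))) * key

lemma gm_fst_of_not_mem (hT : G.IsTree) (Λ : Finset V) (J : ℝ) (y : G.edgeSet → ℝ) {D : G.Dart}
    (hD : ed D ∉ EF G Λ) : ∃ m : ℝ, ∀ g : Finset V → ℝ, Dep (side D)ᶜ g →
      gm G Λ J y (fun A => spin A D.fst * g A) = m * gm G Λ J y g := by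
  refine ⟨avg Λ.powerset (ham (EFin Λ D) J y) fun A => spin A D.fst, fun g hg => ?_⟩
  have hc : Dep (side D) fun A => spin A D.fst := dep_spin (fst_mem_side hT D)
  have ho := (dep_out Λ J y D).exp
  have e1 := indep_avg Λ (dep_in Λ J y D) (dep_const _ 1) (ho.mul hg)
  have e2 := indep_avg Λ (dep_in Λ J y D) hc (ho.mul hg)
  rw [avg_const (powerset_ne Λ)] at e1
  have hexp : ∀ A, Real.exp (ham (EF G Λ) J y A) =
      Real.exp (ham (EFin Λ D) J y A) * Real.exp (ham (EFout Λ D) J y A) := fun A => by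
    rw [ham_split hT Λ J y D, if_neg hD, add_zero, Real.exp_add]
  set m := avg Λ.powerset (ham (EFin Λ D) J y) fun A => spin A D.fst
  simp only [gm, avg, ← mul_div_assoc]
  congr 1
  simp only [hexp, mul_assoc, one_mul, ← Finset.mul_sum] at e1 e2 ⊢
  simp only [mul_left_comm (Real.exp (ham (EFout Λ D) J y _)) (spin _ D.fst)]
  rw [e1, e2]
  ring

lemma fst_not_mem_side_kid (hT : G.IsTree) (K : Kids G b) (D : G.Dart) (a : Fin b) :
    D.fst ∉ side (K.kid D a) := by
  rw [← K.snd_kid D a]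
  exact snd_not_mem_side hT _

lemma exists_kid (hT : G.IsTree) (K : Kids G b) (D : G.Dart) {e : G.edgeSet}
    (he : ∀ v ∈ e.1, v ∈ side D) :
    ∃ a, e = ed (K.kid D a) ∨ ∀ v ∈ e.1, v ∈ side (K.kid D a) := by
  have : ∃ a, ∃ v ∈ e.1, v ∈ side (K.kid D a) := by
    obtain ⟨e, h⟩ := e
    induction e with
    | _ u v =>
      rcases side_cases hT K (he u (by simp)) with h1 | ⟨a, h1⟩
      · rcases side_cases hT K (he v (by simp)) with h2 | ⟨a, h2⟩
        · exact absurd (h1.trans h2.symm) (G.ne_of_adj h)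
        · exact ⟨a, v, by simp, h2⟩
      · exact ⟨a, u, by simp, h1⟩
  obtain ⟨a, v, hv, hva⟩ := this
  refine ⟨a, ?_⟩
  by_cases h : e = ed (K.kid D a)
  · exact Or.inl h
  · rcases in_or_out hT _ h with h' | h'
    · exact Or.inr h'
    · exact absurd hva (h' v hv)

lemma kid_edge (hT : G.IsTree) (K : Kids G b) (D : G.Dart) {a : Fin b} {e : G.edgeSet}
    (he : e = ed (K.kid D a) ∨ ∀ v ∈ e.1, v ∈ side (K.kid D a)) :
    (∃ v ∈ e.1, v ∈ side (K.kid D a)) ∧ ∀ v ∈ e.1, v = D.fst ∨ v ∈ side (K.kid D a) := by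
  rcases he with rfl | he
  · refine ⟨⟨_, mem_ed.2 (Or.inl rfl), fst_mem_side hT _⟩, fun v hv => ?_⟩
    rcases mem_ed.1 hv with rfl | rfl
    · exact Or.inr (fst_mem_side hT _)
    · exact Or.inl (K.snd_kid D a)
  · refine ⟨?_, fun v hv => Or.inr (he v hv)⟩
    obtain ⟨e, h⟩ := e
    induction e with
    | _ u v => exact ⟨u, by simp, he u (by simp)⟩

lemma ham_kids (hT : G.IsTree) (K : Kids G b) (Λ : Finset V) (J : ℝ) (y : G.edgeSet → ℝ)
    {D : G.Dart} (hD : ∀ a, ed (K.kid D a) ∈ EF G Λ) (A : Finset V) :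
    ham (EFin Λ D) J y A = ∑ a, Hb Λ J y (K.kid D a) A := by
  classical
  have h1 : EFin Λ D =
      Finset.univ.biUnion fun a => insert (ed (K.kid D a)) (EFin Λ (K.kid D a)) := by
    ext e
    simp only [Finset.mem_biUnion, Finset.mem_univ, true_and, Finset.mem_insert, mem_EFin]
    constructor
    · rintro ⟨h1, h2⟩
      obtain ⟨a, ha⟩ := exists_kid hT K D h2
      exact ⟨a, ha.imp id fun h => ⟨h1, h⟩⟩
    · rintro ⟨a, ha⟩
      refine ⟨?_, fun v hv => ?_⟩
      · rcases ha with rfl | ha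
        exacts [hD a, ha.1]
      · rcases (kid_edge hT K D (ha.imp id And.right)).2 v hv with rfl | h
        exacts [fst_mem_side hT D, side_kid_subset hT K D a h]
  rw [h1, ham, Finset.sum_biUnion]
  · refine Finset.sum_congr rfl fun a _ => ?_
    rw [Finset.sum_insert fun h => ed_not_in hT _ (mem_EFin.1 h).2, Hb, ham, add_comm]
  · intro a _ a' _ haa
    refine Finset.disjoint_left.2 fun e h h' => ?_
    simp only [Finset.mem_insert, mem_EFin] at h h'
    obtain ⟨v, hv, hva⟩ := (kid_edge hT K D (h.imp id And.right)).1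
    rcases (kid_edge hT K D (h'.imp id And.right)).2 v hv with rfl | h2
    · exact fst_not_mem_side_kid hT K D a hva
    · exact Set.disjoint_left.1 (side_kid_disjoint hT K D haa) hva h2

lemma dep_Hb (hT : G.IsTree) (K : Kids G b) (Λ : Finset V) (J : ℝ) (y : G.edgeSet → ℝ)
    (D : G.Dart) {a a' : Fin b} (h : a' ≠ a) :
    Dep (side (K.kid D a))ᶜ (Hb Λ J y (K.kid D a')) := by
  have h1 : side (K.kid D a') ⊆ (side (K.kid D a))ᶜ :=
    fun v hv => Set.disjoint_left.1 (side_kid_disjoint hT K D h) hv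
  have h2 : ∀ v ∈ (ed (K.kid D a')).1, v ∈ (side (K.kid D a))ᶜ := fun v hv => by
    rcases (kid_edge hT K D (Or.inl rfl)).2 v hv with rfl | h3
    exacts [fst_not_mem_side_kid hT K D a, h1 h3]
  exact ((dep_in Λ J y _).mono h1).add (((dep_sx h2).const_mul _).add ((dep_sp h2).const_mul _))

/-- Summing out several child branches. -/
lemma branches (hT : G.IsTree) (K : Kids G b) (Λ : Finset V) (J : ℝ) (y : G.edgeSet → ℝ)
    (D : G.Dart) (ξ : Fin b → ℝ) (hξ : ∀ a, cav Λ J y (K.kid D a) = Real.tanh (ξ a))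
    (T : Finset (Fin b)) :
    ∃ κ : ℝ, 0 < κ ∧ ∀ h : Finset V → ℝ, (∀ a ∈ T, Dep (side (K.kid D a))ᶜ h) →
      ∑ A ∈ Λ.powerset, Real.exp (∑ a ∈ T, Hb Λ J y (K.kid D a) A) * h A =
        κ * ∑ A ∈ Λ.powerset,
          Real.exp ((∑ a ∈ T, (y (ed (K.kid D a)) + fJ J (ξ a))) * spin A D.fst) * h A := by
  induction T using Finset.induction_on with
  | empty => exact ⟨1, one_pos, fun h _ => by simp⟩
  | insert a T ha ih =>
    obtain ⟨κ, hκ, ih⟩ := ih
    obtain ⟨κ₁, hκ₁, h1⟩ := branch hT Λ J y (K.kid D a)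
    obtain ⟨k, hk, h2⟩ := exists_msg J (ξ a)
    refine ⟨κ₁ * k * κ, by positivity, fun h hh => ?_⟩
    have hd : Dep (side (K.kid D a))ᶜ fun A => Real.exp (∑ a ∈ T, Hb Λ J y (K.kid D a) A) * h A :=
      (dep_sum T fun a' ha' => dep_Hb hT K Λ J y D (ne_of_mem_of_not_mem ha' ha)).exp.mul
        (hh a (Finset.mem_insert_self _ _))
    have e1 := (h1 _ hd).1
    have e2 := ih (fun A => Real.exp ((y (ed (K.kid D a)) + fJ J (ξ a)) * spin A D.fst) * h A)
      fun a' ha' => ((dep_spin (fst_not_mem_side_kid hT K D a')).const_mul _).exp.mul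
        (hh a' (Finset.mem_insert_of_mem ha'))
    simp only [Finset.sum_insert ha, Real.exp_add, mul_assoc]
    rw [e1, hξ, K.snd_kid]
    simp only [h2 _ (spin_eq _ D.fst)]
    congr 1
    have : ∑ A ∈ Λ.powerset, k * Real.exp (fJ J (ξ a) * spin A D.fst) *
        (Real.exp (y (ed (K.kid D a)) * spin A D.fst) *
          (Real.exp (∑ a ∈ T, Hb Λ J y (K.kid D a) A) * h A)) =
        k * ∑ A ∈ Λ.powerset, Real.exp (∑ a ∈ T, Hb Λ J y (K.kid D a) A) *
          (Real.exp ((y (ed (K.kid D a)) + fJ J (ξ a)) * spin A D.fst) * h A) := by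
      rw [Finset.mul_sum]
      refine Finset.sum_congr rfl fun A _ => ?_
      rw [add_mul, Real.exp_add]
      ring
    rw [this, e2]
    congr 2
    refine Finset.sum_congr rfl fun A _ => ?_
    rw [add_mul (y (ed (K.kid D a)) + fJ J (ξ a)), Real.exp_add]
    ring

end Mk

open Mk

theorem mag_fst (hT : G.IsTree) (Λ : Finset V) (J : ℝ) (y : G.edgeSet → ℝ) {D : G.Dart}
    (hD : ed D ∈ EF G Λ) :
    mag G Λ J y D.fst = gg (Real.tanh J) (cav Λ J y D) (mag G Λ J y D.snd) := by
  have h := gm_fst hT Λ J y hD (dep_const _ 1)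
  simp only [mul_one] at h
  have h1 : gm G Λ J y (fun _ => 1) = 1 := avg_const (powerset_ne Λ) _ _
  rw [h1, rr, if_pos hD, rho] at h
  have hden := den_ne J _ (abs_cav_le Λ J y D)
  rw [mag, h, gg, mag]
  field_simp

theorem cv_fst (hT : G.IsTree) (Λ : Finset V) (J : ℝ) (y : G.edgeSet → ℝ) {D : G.Dart} {x : V}
    (hx : x ∉ side D) : cv G Λ J y x D.fst = rr Λ J y D * cv G Λ J y x D.snd := by
  have h1 : gm G Λ J y (fun _ => 1) = 1 := avg_const (powerset_ne Λ) _ _
  by_cases hD : ed D ∈ EF G Λ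
  · have e1 := gm_fst hT Λ J y hD (dep_const _ 1)
    have e2 := gm_fst hT Λ J y hD (dep_spin (v := x) hx)
    simp only [mul_one, h1] at e1
    simp only [cv, mag, mul_comm (spin _ x), e1, e2]
    ring
  · obtain ⟨m, hm⟩ := gm_fst_of_not_mem hT Λ J y hD
    have e1 := hm _ (dep_const _ 1)
    have e2 := hm _ (dep_spin (v := x) hx)
    simp only [mul_one, h1] at e1
    rw [rr, if_neg hD, zero_mul]
    simp only [cv, mag, mul_comm (spin _ x), e1, e2]
    ring

theorem cv_down_snd (hT : G.IsTree) (K : Kids G b) (Λ : Finset V) (J : ℝ) (y : G.edgeSet → ℝ)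
    {D : G.Dart} {x : V} (hx : x ∉ side D) (l : List (Fin b)) :
    cv G Λ J y x (K.down D l).snd =
      cv G Λ J y x D.snd * ∏ j ∈ Finset.range l.length, rr Λ J y (K.down D (l.take j)) := by
  induction l generalizing D with
  | nil => simp
  | cons a l ih =>
    rw [K.down_cons, ih fun h => hx (side_kid_subset hT K D a h), K.snd_kid, cv_fst hT Λ J y hx,
      List.length_cons, Finset.prod_range_succ']
    simp only [List.take_succ_cons, K.down_cons, List.take_zero, K.down_nil]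
    ring

theorem cv_down_fst (hT : G.IsTree) (K : Kids G b) (Λ : Finset V) (J : ℝ) (y : G.edgeSet → ℝ)
    {D : G.Dart} {x : V} (hx : x ∉ side D) (l : List (Fin b)) :
    cv G Λ J y x (K.down D l).fst =
      cv G Λ J y x D.snd * ∏ j ∈ Finset.range (l.length + 1), rr Λ J y (K.down D (l.take j)) := by
  rw [cv_fst hT Λ J y fun h => hx (side_down_subset hT K D l h), cv_down_snd hT K Λ J y hx,
    Finset.prod_range_succ, List.take_length]
  ring

/-- The cavity magnetisation is computed by the tree recursion. -/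
theorem cav_eq_tanh (hT : G.IsTree) (K : Kids G b) (Λ : Finset V) (J : ℝ) (y : G.edgeSet → ℝ)
    {D : G.Dart} {L : ℕ} (hD : Full K Λ D L) :
    cav Λ J y D = Real.tanh (Xi J L fun l => y (ed (K.down D l))) := by
  have hZ : ∀ ξ : ℝ, (∑ A ∈ Λ.powerset, Real.exp (ξ * spin A D.fst)) ≠ 0 :=
    fun ξ => (sum_exp_pos (powerset_ne Λ) _).ne'
  induction L generalizing D with
  | zero =>
    have hc : D.fst ∈ Λ := (hD.2 []).2 (by simp)
    have h0 : EFin Λ D = ∅ := by
      refine Finset.eq_empty_of_forall_notMem fun e he => ?_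
      obtain ⟨h1, h2⟩ := mem_EFin.1 he
      obtain ⟨a, ha⟩ := exists_kid hT K D h2
      obtain ⟨v, hv, hva⟩ := (kid_edge hT K D ha).1
      obtain ⟨l, rfl⟩ := exists_down_of_mem_side hT K hva
      have := (hD.2 (a :: l)).1 (mem_EF.1 h1 _ hv)
      simp at this
    rw [cav, h0, Xi_zero, avg]
    simp only [ham, Finset.sum_empty, zero_add, K.down_nil]
    rw [avg_field hc, mul_div_cancel_right₀ _ (hZ _)]
  | succ L ih =>
    have hc : D.fst ∈ Λ := (hD.2 []).2 (by simp)
    have hF : ∀ a, Full K Λ (K.kid D a) L := fun a =>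
      ⟨by rw [K.snd_kid]; exact hc, fun l => by simpa using hD.2 (a :: l)⟩
    have hE : ∀ a, ed (K.kid D a) ∈ EF G Λ := fun a =>
      ed_mem_EF.2 ⟨((hF a).2 []).2 (by simp), (hF a).1⟩
    obtain ⟨κ, hκ, h⟩ := branches hT K Λ J y D
      (fun a => Xi J L fun l => y (ed (K.down (K.kid D a) l)))
      (fun a => ih (hF a) fun ξ => (sum_exp_pos (powerset_ne Λ) _).ne') Finset.univ
    have hd : ∀ a, Dep (side (K.kid D a))ᶜ fun A => spin A D.fst :=
      fun a => dep_spin (fst_not_mem_side_kid hT K D a)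
    have e1 := h (fun A => Real.exp (y (ed D) * spin A D.fst))
      fun a _ => ((hd a).const_mul _).exp
    have e2 := h (fun A => Real.exp (y (ed D) * spin A D.fst) * spin A D.fst)
      fun a _ => ((hd a).const_mul _).exp.mul (hd a)
    rw [cav, avg, Xi_succ]
    simp only [ham_kids hT K Λ J y hE, Real.exp_add, mul_assoc]
    rw [e1, e2, mul_div_mul_left _ _ hκ.ne']
    simp only [← mul_assoc, ← Real.exp_add, ← add_mul]
    rw [avg_field hc, mul_div_cancel_right₀ _ (hZ _), add_comm]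
    simp only [Psi, K.down_cons, K.down_nil]

end Crest.Agent.R160
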