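import Crest.Agent.R160.Volume

/-!
Row 160: the rate in the pair inequality for two chains in the same volume.
-/

set_option autoImplicit false
set_option linter.unusedSectionVars false
set_option linter.unusedVariables false
set_option maxHeartbeats 400000

open MeasureTheory ProbabilityTheory Filter Topology
open scoped ENNReal

namespace Crest.Agent.R160

universe u

variable {V : Type u} {G : SimpleGraph V} [G.LocallyFinite] {b : ℕ}

lemma integral_sq_sub_sq_le {Ω : Type*} [MeasurableSpace Ω] {P : Measure Ω} [IsProbabilityMeasure P]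
    {μ μ' : Ω → ℝ} (hμ : Measurable μ) (hμ' : Measurable μ') (h1 : ∀ ω, |μ ω| ≤ 1)
    (h1' : ∀ ω, |μ' ω| ≤ 1) {lam T : ℝ} (hlam : 0 ≤ lam) (hT : P.real {ω | lam < |μ ω|} ≤ T)
    (hT' : P.real {ω | lam < |μ' ω|} ≤ T) :
    ∫ ω, (μ ω ^ 2 - μ' ω ^ 2) ^ 2 ∂P ≤ 4 * lam ^ 2 * ∫ ω, (μ ω - μ' ω) ^ 2 ∂P + 2 * T := by
  have m1 : MeasurableSet {ω | lam < |μ ω|} := measurableSet_lt measurable_const hμ.abs
  have m2 : MeasurableSet {ω | lam < |μ' ω|} := measurableSet_lt measurable_const hμ'.abs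
  have i1 : Integrable (fun ω => (μ ω - μ' ω) ^ 2) P :=
    integrable_of_abs_le ((hμ.sub hμ').pow_const 2) 4 fun ω => by
      have h2 := abs_le.1 (h1 ω)
      have h3 := abs_le.1 (h1' ω)
      rw [abs_of_nonneg (sq_nonneg _)]
      nlinarith
  have i2 : Integrable ({ω | lam < |μ ω|}.indicator (1 : Ω → ℝ)) P :=
    (integrable_const 1).indicator m1
  have i3 : Integrable ({ω | lam < |μ' ω|}.indicator (1 : Ω → ℝ)) P :=
    (integrable_const 1).indicator m2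
  have i4 : Integrable (fun ω => 4 * lam ^ 2 * (μ ω - μ' ω) ^ 2 +
      {ω | lam < |μ ω|}.indicator (1 : Ω → ℝ) ω) P := (i1.const_mul _).add i2
  have hpt : ∀ ω, (μ ω ^ 2 - μ' ω ^ 2) ^ 2 ≤ 4 * lam ^ 2 * (μ ω - μ' ω) ^ 2 +
      {ω | lam < |μ ω|}.indicator (1 : Ω → ℝ) ω + {ω | lam < |μ' ω|}.indicator (1 : Ω → ℝ) ω := by
    intro ω
    have h2 := sq_mem (h1 ω)
    have h3 := sq_mem (h1' ω)
    have h4 : (μ ω ^ 2 - μ' ω ^ 2) ^ 2 ≤ 1 := by nlinarith
    have h5 : 0 ≤ 4 * lam ^ 2 * (μ ω - μ' ω) ^ 2 := by positivity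
    by_cases ha : lam < |μ ω| <;> by_cases hb : lam < |μ' ω| <;>
      simp only [Set.indicator, Set.mem_ofPred_eq, ha, hb, if_true, if_false, Pi.one_apply]
    · linarith
    · linarith
    · linarith
    · have h6 := abs_le.1 (not_lt.1 ha)
      have h7 := abs_le.1 (not_lt.1 hb)
      have : μ ω ^ 2 - μ' ω ^ 2 = (μ ω + μ' ω) * (μ ω - μ' ω) := by ring
      rw [this, mul_pow, add_zero, add_zero]
      exact mul_le_mul_of_nonneg_right (by nlinarith) (sq_nonneg _)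
  refine (integral_mono_of_nonneg (ae_of_all _ fun _ => sq_nonneg _) (i4.add i3)
    (ae_of_all _ hpt)).trans ?_
  simp only [Pi.add_apply]
  rw [integral_add i4 i3, integral_add (i1.const_mul _) i2, integral_const_mul,
    integral_indicator_one m1, integral_indicator_one m2]
  linarith

lemma integral_dx_le (hT : G.IsTree) (Λ : Finset V) (β : ℝ) (p s s' k : ℕ)
    (hJ : 0 ≤ β * (1 - k / 2 ^ p)) (hθ : Real.tanh (β * (1 - k / 2 ^ p)) ^ 2 ≤ 1 / 2)
    {D : G.Dart} (hD : ed D ∈ EF G Λ) {δ lam T : ℝ} (hlam : 0 ≤ lam)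
    (h1 : Dm G Λ Λ β p s s' k D.fst ≤ δ) (h2 : Dm G Λ Λ β p s s' k D.snd ≤ δ)
    (h3 : (POm G.edgeSet).real
      {ω | lam < |cav Λ (β * (1 - k / 2 ^ p)) (chain G Λ β p s ω k) D|} ≤ T)
    (h4 : (POm G.edgeSet).real
      {ω | lam < |cav Λ (β * (1 - k / 2 ^ p)) (chain G Λ β p s' ω k) D|} ≤ T) :
    ∫ ω, (cav Λ (β * (1 - k / 2 ^ p)) (chain G Λ β p s ω k) D ^ 2 -
      cav Λ (β * (1 - k / 2 ^ p)) (chain G Λ β p s' ω k) D ^ 2) ^ 2 ∂POm G.edgeSet ≤
      784 * lam ^ 2 * δ + 2 * T := by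
  set J := β * (1 - k / 2 ^ p) with hJ'
  refine (integral_sq_sub_sq_le ((measurable_cav Λ J D).comp (measurable_chain Λ β p s k))
    ((measurable_cav Λ J D).comp (measurable_chain Λ β p s' k)) (fun _ => abs_cav_le _ _ _ _)
    (fun _ => abs_cav_le _ _ _ _) hlam h3 h4).trans ?_
  have i1 := integrable_Dm (G := G) Λ Λ β J p s s' k
  have h5 := integral_mono_of_nonneg (ae_of_all _ fun _ => sq_nonneg _)
    (((i1 D.fst).add (i1 D.snd)).const_mul 98)
    (ae_of_all _ fun ω => cav_sub_sq_le hT hJ hθ (chain G Λ β p s ω k) (chain G Λ β p s' ω k) hD hD)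
  rw [integral_const_mul] at h5
  simp only [Pi.add_apply] at h5
  rw [integral_add (i1 D.fst) (i1 D.snd)] at h5
  unfold Dm at h1 h2
  have h6 := mul_le_mul_of_nonneg_left (h5.trans (mul_le_mul_of_nonneg_left (add_le_add h1 h2)
    (by norm_num))) (by positivity : 0 ≤ 4 * lam ^ 2)
  simp only [Function.comp_apply]
  linarith

/-- The quadratic form in `Pm_sub_sq_le`. -/
noncomputable def Hm (K : Kids G b) (Λ : Finset V) (J : ℝ) (y y' : G.edgeSet → ℝ) (D : G.Dart)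
    (l : List (Fin b)) (m : ℕ) : ℝ :=
  4 * (mag G Λ J y D.snd - mag G Λ J y' D.snd) ^ 2 +
    (∑ j ∈ Finset.range m, (cav Λ J y (K.down D (l.take j)) ^ 2 -
      cav Λ J y' (K.down D (l.take j)) ^ 2)) ^ 2 +
    ∑ j ∈ Finset.range m, (cav Λ J y (K.down D (l.take j)) ^ 2 -
      cav Λ J y' (K.down D (l.take j)) ^ 2) ^ 2

lemma abs_sq_sub_sq_le {μ μ' : ℝ} (h : |μ| ≤ 1) (h' : |μ'| ≤ 1) : |μ ^ 2 - μ' ^ 2| ≤ 1 := by
  have h1 := sq_mem h
  have h2 := sq_mem h'
  rw [abs_le]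
  constructor <;> linarith

lemma sum_sq_le_sq {m : ℕ} {f : ℕ → ℝ} (h : ∀ j, |f j| ≤ 1) :
    (∑ j ∈ Finset.range m, f j) ^ 2 ≤ (m : ℝ) ^ 2 := by
  rw [← sq_abs]
  refine pow_le_pow_left₀ (abs_nonneg _) ((Finset.abs_sum_le_sum_abs _ _).trans
    ((Finset.sum_le_card_nsmul _ _ 1 fun j _ => h j).trans (by simp))) 2

omit [G.LocallyFinite] in
lemma Hm_mem (K : Kids G b) (Λ : Finset V) (J : ℝ) (y y' : G.edgeSet → ℝ) (D : G.Dart)
    (l : List (Fin b)) (m : ℕ) :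
    0 ≤ Hm K Λ J y y' D l m ∧ Hm K Λ J y y' D l m ≤ 16 * ((m : ℝ) + 1) ^ 2 := by
  have h0 : 0 ≤ ∑ j ∈ Finset.range m, (cav Λ J y (K.down D (l.take j)) ^ 2 -
      cav Λ J y' (K.down D (l.take j)) ^ 2) ^ 2 := Finset.sum_nonneg fun _ _ => sq_nonneg _
  refine ⟨by unfold Hm; positivity, ?_⟩
  have h1 := abs_le.1 (abs_mag_le Λ J y D.snd)
  have h2 := abs_le.1 (abs_mag_le Λ J y' D.snd)
  have h3 := sum_sq_le_sq (m := m) fun j => abs_sq_sub_sq_le
    (abs_cav_le Λ J y (K.down D (l.take j))) (abs_cav_le Λ J y' (K.down D (l.take j)))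
  have h4 : ∑ j ∈ Finset.range m, (cav Λ J y (K.down D (l.take j)) ^ 2 -
      cav Λ J y' (K.down D (l.take j)) ^ 2) ^ 2 ≤ m := by
    refine (Finset.sum_le_card_nsmul _ _ 1 fun j _ => ?_).trans (by simp)
    rw [← sq_abs]
    exact pow_le_one₀ (abs_nonneg _) (abs_sq_sub_sq_le (abs_cav_le _ _ _ _) (abs_cav_le _ _ _ _))
  have h5 : (mag G Λ J y D.snd - mag G Λ J y' D.snd) ^ 2 ≤ 4 := by nlinarith
  have h6 : (0 : ℝ) ≤ m := by positivity
  unfold Hm
  nlinarith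

omit [G.LocallyFinite] in
lemma measurable_Hm {Ω : Type*} [MeasurableSpace Ω] (K : Kids G b) (Λ : Finset V) (J : ℝ)
    {y y' : Ω → G.edgeSet → ℝ} (hy : Measurable y) (hy' : Measurable y') (D : G.Dart)
    (l : List (Fin b)) (m : ℕ) : Measurable fun ω => Hm K Λ J (y ω) (y' ω) D l m := by
  have h1 : Measurable fun ω => mag G Λ J (y ω) D.snd := (measurable_mag Λ J _).comp hy
  have h2 : Measurable fun ω => mag G Λ J (y' ω) D.snd := (measurable_mag Λ J _).comp hy'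
  have h3 : ∀ D', Measurable fun ω => cav Λ J (y ω) D' := fun D' => (measurable_cav Λ J _).comp hy
  have h4 : ∀ D', Measurable fun ω => cav Λ J (y' ω) D' := fun D' => (measurable_cav Λ J _).comp hy'
  have h5 : ∀ j, Measurable fun ω => cav Λ J (y ω) (K.down D (l.take j)) ^ 2 -
      cav Λ J (y' ω) (K.down D (l.take j)) ^ 2 := fun j =>
    ((h3 _).pow_const 2).sub ((h4 _).pow_const 2)
  have h6 : Measurable fun ω => 4 * (mag G Λ J (y ω) D.snd - mag G Λ J (y' ω) D.snd) ^ 2 :=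
    ((h1.sub h2).pow_const 2).const_mul _
  have h7 := (Finset.measurable_fun_sum (Finset.range m) fun j _ => h5 j).pow_const 2
  have h8 := Finset.measurable_fun_sum (Finset.range m) fun j _ => (h5 j).pow_const 2
  exact (h6.add h7).add h8

omit [G.LocallyFinite] in
lemma integral_Hm_le (K : Kids G b) (Λ : Finset V) (β : ℝ) (p s s' k : ℕ) (D : G.Dart)
    (l : List (Fin b)) (m : ℕ) {δ Sg X : ℝ} (h1 : Dm G Λ Λ β p s s' k D.snd ≤ δ)
    (h2 : ∫ ω, (∑ j ∈ Finset.range m,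
      (cav Λ (β * (1 - k / 2 ^ p)) (chain G Λ β p s ω k) (K.down D (l.take j)) ^ 2 -
      cav Λ (β * (1 - k / 2 ^ p)) (chain G Λ β p s' ω k) (K.down D (l.take j)) ^ 2)) ^ 2
        ∂POm G.edgeSet ≤ Sg)
    (h3 : ∀ j < m, ∫ ω,
      (cav Λ (β * (1 - k / 2 ^ p)) (chain G Λ β p s ω k) (K.down D (l.take j)) ^ 2 -
      cav Λ (β * (1 - k / 2 ^ p)) (chain G Λ β p s' ω k) (K.down D (l.take j)) ^ 2) ^ 2
        ∂POm G.edgeSet ≤ X) :
    ∫ ω, Hm K Λ (β * (1 - k / 2 ^ p)) (chain G Λ β p s ω k) (chain G Λ β p s' ω k) D l m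
      ∂POm G.edgeSet ≤ 4 * δ + Sg + m * X := by
  set J := β * (1 - k / 2 ^ p) with hJ'
  have m1 : ∀ j, Measurable fun ω => cav Λ J (chain G Λ β p s ω k) (K.down D (l.take j)) ^ 2 -
      cav Λ J (chain G Λ β p s' ω k) (K.down D (l.take j)) ^ 2 := fun j =>
    (((measurable_cav Λ J _).comp (measurable_chain Λ β p s k)).pow_const 2).sub
      (((measurable_cav Λ J _).comp (measurable_chain Λ β p s' k)).pow_const 2)
  have i1 := (integrable_Dm (G := G) Λ Λ β J p s s' k D.snd).const_mul 4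
  have i2 : Integrable (fun ω => (∑ j ∈ Finset.range m,
      (cav Λ J (chain G Λ β p s ω k) (K.down D (l.take j)) ^ 2 -
      cav Λ J (chain G Λ β p s' ω k) (K.down D (l.take j)) ^ 2)) ^ 2) (POm G.edgeSet) :=
    integrable_of_abs_le ((Finset.measurable_fun_sum _ fun j _ => m1 j).pow_const 2) ((m : ℝ) ^ 2)
      fun ω => by
        rw [abs_of_nonneg (sq_nonneg _)]
        exact sum_sq_le_sq fun j => abs_sq_sub_sq_le (abs_cav_le _ _ _ _) (abs_cav_le _ _ _ _)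
  have i3 : ∀ j, Integrable (fun ω =>
      (cav Λ J (chain G Λ β p s ω k) (K.down D (l.take j)) ^ 2 -
      cav Λ J (chain G Λ β p s' ω k) (K.down D (l.take j)) ^ 2) ^ 2) (POm G.edgeSet) := fun j =>
    integrable_of_abs_le ((m1 j).pow_const 2) 1 fun ω => by
      rw [abs_pow]
      exact pow_le_one₀ (abs_nonneg _) (abs_sq_sub_sq_le (abs_cav_le _ _ _ _) (abs_cav_le _ _ _ _))
  have i4 : Integrable (fun ω => 4 * (mag G Λ J (chain G Λ β p s ω k) D.snd -
      mag G Λ J (chain G Λ β p s' ω k) D.snd) ^ 2 + (∑ j ∈ Finset.range m,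
      (cav Λ J (chain G Λ β p s ω k) (K.down D (l.take j)) ^ 2 -
      cav Λ J (chain G Λ β p s' ω k) (K.down D (l.take j)) ^ 2)) ^ 2) (POm G.edgeSet) := i1.add i2
  unfold Hm
  rw [integral_add i4 (integrable_finsetSum _ fun j _ => i3 j), integral_add i1 i2,
    integral_const_mul, integral_finsetSum _ fun j _ => i3 j]
  have h4 := Finset.sum_le_card_nsmul _ _ X fun j (hj : j ∈ Finset.range m) =>
    h3 j (Finset.mem_range.1 hj)
  rw [Finset.card_range, nsmul_eq_mul] at h4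
  unfold Dm at h1
  linarith

omit [G.LocallyFinite] in
lemma integral_Pm_rate (K : Kids G b) (Λ : Finset V) (β : ℝ) (p s s' k : ℕ) {J : ℝ}
    (hJ : 0 ≤ J) (hθ : Real.tanh J ^ 2 ≤ 1 / 2) (D : G.Dart) (l : List (Fin b)) (m : ℕ)
    (h : ∀ j < m, ed (K.down D (l.take j)) ∈ EF G Λ) {w q h₁ B : ℝ} (hw : 0 ≤ w)
    (hq : (POm G.edgeSet).real {ω | w < Real.exp (-(1 / 2) * ∑ j ∈ Finset.range m,
      cav Λ J (chain G Λ β p s ω k) (K.down D (l.take j)) ^ 2)} ≤ q)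
    (hq' : (POm G.edgeSet).real {ω | w < Real.exp (-(1 / 2) * ∑ j ∈ Finset.range m,
      cav Λ J (chain G Λ β p s' ω k) (K.down D (l.take j)) ^ 2)} ≤ q)
    (hh : ∫ ω, Hm K Λ J (chain G Λ β p s ω k) (chain G Λ β p s' ω k) D l m ∂POm G.edgeSet ≤ h₁)
    (hB : ∫ ω, Hm K Λ J (chain G Λ β p s ω k) (chain G Λ β p s' ω k) D l m ∂POm G.edgeSet ≤ B ∨
      32 * ((m : ℝ) + 1) ^ 2 * q ≤ B) :
    ∫ ω, (Pm K Λ J (chain G Λ β p s ω k) D l m - Pm K Λ J (chain G Λ β p s' ω k) D l m) ^ 2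
      ∂POm G.edgeSet ≤ C1 * (Real.tanh J ^ 2) ^ m * (w * h₁ + B) := by
  have hC : 0 ≤ C1 * (Real.tanh J ^ 2) ^ m := mul_nonneg C1_nonneg (by positivity)
  have iH : Integrable (fun ω => Hm K Λ J (chain G Λ β p s ω k) (chain G Λ β p s' ω k) D l m)
      (POm G.edgeSet) := integrable_of_abs_le (measurable_Hm K Λ J (measurable_chain Λ β p s k)
        (measurable_chain Λ β p s' k) D l m) _ fun ω => by
      rw [abs_of_nonneg (Hm_mem _ _ _ _ _ _ _ _).1]
      exact (Hm_mem _ _ _ _ _ _ _ _).2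
  have hH0 : 0 ≤ ∫ ω, Hm K Λ J (chain G Λ β p s ω k) (chain G Λ β p s' ω k) D l m
      ∂POm G.edgeSet := integral_nonneg fun ω => (Hm_mem _ _ _ _ _ _ _ _).1
  rcases hB with hB | hB
  · refine (integral_mono_of_nonneg (ae_of_all _ fun _ => sq_nonneg _)
      (iH.const_mul (C1 * (Real.tanh J ^ 2) ^ m * 1)) (ae_of_all _ fun ω =>
        Pm_sub_sq_le K Λ Λ hJ hθ _ _ D l m h h (exp_neg_sum_le_one m _)
          (exp_neg_sum_le_one m _))).trans ?_
    rw [integral_const_mul, mul_one]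
    refine mul_le_mul_of_nonneg_left ?_ hC
    nlinarith [mul_nonneg hw (hH0.trans hh)]
  · set A₁ := {ω | w < Real.exp (-(1 / 2) * ∑ j ∈ Finset.range m,
      cav Λ J (chain G Λ β p s ω k) (K.down D (l.take j)) ^ 2)} with hA₁
    set A₂ := {ω | w < Real.exp (-(1 / 2) * ∑ j ∈ Finset.range m,
      cav Λ J (chain G Λ β p s' ω k) (K.down D (l.take j)) ^ 2)} with hA₂
    have m1 : MeasurableSet A₁ := measurableSet_lt measurable_const
      ((Finset.measurable_fun_sum _ fun j _ => ((measurable_cav Λ J _).comp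
        (measurable_chain Λ β p s k)).pow_const 2).const_mul _).exp
    have m2 : MeasurableSet A₂ := measurableSet_lt measurable_const
      ((Finset.measurable_fun_sum _ fun j _ => ((measurable_cav Λ J _).comp
        (measurable_chain Λ β p s' k)).pow_const 2).const_mul _).exp
    have i2 : Integrable (A₁.indicator (1 : (ℕ → (G.edgeSet → ℝ) × unitInterval) → ℝ)) (POm G.edgeSet) :=
      (integrable_const 1).indicator m1
    have i3 : Integrable (A₂.indicator (1 : (ℕ → (G.edgeSet → ℝ) × unitInterval) → ℝ)) (POm G.edgeSet) :=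
      (integrable_const 1).indicator m2
    have i4 : Integrable (fun ω => A₁.indicator (1 : (ℕ → (G.edgeSet → ℝ) × unitInterval) → ℝ) ω + A₂.indicator (1 : (ℕ → (G.edgeSet → ℝ) × unitInterval) → ℝ) ω)
        (POm G.edgeSet) := i2.add i3
    have i5 : Integrable (fun ω =>
        w * Hm K Λ J (chain G Λ β p s ω k) (chain G Λ β p s' ω k) D l m + 16 * ((m : ℝ) + 1) ^ 2 *
        (A₁.indicator (1 : (ℕ → (G.edgeSet → ℝ) × unitInterval) → ℝ) ω + A₂.indicator (1 : (ℕ → (G.edgeSet → ℝ) × unitInterval) → ℝ) ω)) (POm G.edgeSet) :=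
      (iH.const_mul _).add (i4.const_mul _)
    have hpt : ∀ ω, (Pm K Λ J (chain G Λ β p s ω k) D l m -
        Pm K Λ J (chain G Λ β p s' ω k) D l m) ^ 2 ≤ C1 * (Real.tanh J ^ 2) ^ m *
        (w * Hm K Λ J (chain G Λ β p s ω k) (chain G Λ β p s' ω k) D l m + 16 * ((m : ℝ) + 1) ^ 2 *
        (A₁.indicator (1 : (ℕ → (G.edgeSet → ℝ) × unitInterval) → ℝ) ω + A₂.indicator (1 : (ℕ → (G.edgeSet → ℝ) × unitInterval) → ℝ) ω)) := by
      intro ω
      have hH := Hm_mem K Λ J (chain G Λ β p s ω k) (chain G Λ β p s' ω k) D l m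
      by_cases hω : ω ∉ A₁ ∧ ω ∉ A₂
      · rw [Set.indicator_of_notMem hω.1, Set.indicator_of_notMem hω.2, add_zero, mul_zero,
          add_zero, ← mul_assoc]
        exact Pm_sub_sq_le K Λ Λ hJ hθ _ _ D l m h h (not_lt.1 hω.1) (not_lt.1 hω.2)
      · refine (Pm_sub_sq_le K Λ Λ hJ hθ _ _ D l m h h (exp_neg_sum_le_one m _)
          (exp_neg_sum_le_one m _)).trans ?_
        rw [mul_one]
        refine mul_le_mul_of_nonneg_left ?_ hC
        have h1 : 1 ≤ A₁.indicator (1 : (ℕ → (G.edgeSet → ℝ) × unitInterval) → ℝ) ω + A₂.indicator (1 : (ℕ → (G.edgeSet → ℝ) × unitInterval) → ℝ) ω := by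
          by_cases h1 : ω ∈ A₁ <;> by_cases h2 : ω ∈ A₂ <;> simp_all
        have h2 := mul_le_mul_of_nonneg_left h1 (by positivity : 0 ≤ 16 * ((m : ℝ) + 1) ^ 2)
        have h3 := mul_nonneg hw hH.1
        have h4 := hH.2
        unfold Hm at h3 h4 ⊢
        linarith
    refine (integral_mono_of_nonneg (ae_of_all _ fun _ => sq_nonneg _) (i5.const_mul _)
      (ae_of_all _ hpt)).trans ?_
    rw [integral_const_mul, integral_add (iH.const_mul _) (i4.const_mul _), integral_const_mul,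
      integral_const_mul, integral_add i2 i3, integral_indicator_one m1, integral_indicator_one m2]
    refine mul_le_mul_of_nonneg_left ?_ hC
    have h1 := mul_le_mul_of_nonneg_left hh hw
    have h2 := mul_le_mul_of_nonneg_left (add_le_add hq hq')
      (by positivity : 0 ≤ 16 * ((m : ℝ) + 1) ^ 2)
    linarith

lemma sum_rate (hT : G.IsTree) (K : Kids G b) (hreg : G.IsRegularOfDegree (b + 1)) (hb : 2 ≤ b)
    (Λ : Finset V) (β : ℝ) (p s s' k : ℕ) {J : ℝ} (hJ : 0 ≤ J) (hθ : Real.tanh J ^ 2 ≤ 1 / 2)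
    (o : V) (R₁ : ℕ) (Q : ℕ → ℝ) (hQ : ∀ m, 0 ≤ Q m) {ρ Qt tl : ℝ} (hρ : b * Real.tanh J ^ 2 ≤ ρ)
    (hP : ∀ (v : G.neighborSet o) (l : List (Fin b)) (m : ℕ), m ≤ l.length + 1 → l.length < R₁ →
      ∫ ω, (Pm K Λ J (chain G Λ β p s ω k) (inD o v) l m -
        Pm K Λ J (chain G Λ β p s' ω k) (inD o v) l m) ^ 2 ∂POm G.edgeSet ≤
        C1 * (Real.tanh J ^ 2) ^ m * Q m)
    (hQt : ∀ M, ∑ m ∈ Finset.range M, ρ ^ m * Q m ≤ Qt)
    (htl : ∀ M, ∑ m ∈ Finset.range M, (if R₁ ≤ m then ρ ^ m else 0) ≤ tl) :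
    ∑ e ∈ EF G Λ, ∫ ω, (Gam G Λ J (chain G Λ β p s ω k) o e -
      Gam G Λ J (chain G Λ β p s' ω k) o e) ^ 2 ∂POm G.edgeSet ≤
      (b + 1) * (4 * C1 * Qt + 4 * tl) := by
  have hC := C1_nonneg
  have hb' : (2 : ℝ) ≤ b := by exact_mod_cast hb
  set θ2 := Real.tanh J ^ 2 with hθ2
  have hθ0 : 0 ≤ θ2 := sq_nonneg _
  have hρ0 : 0 ≤ ρ := le_trans (by positivity) hρ
  refine sum_edges_le hT K hreg o (EF G Λ) _ (fun m => 2 * (C1 * θ2 ^ (m + 1) * Q (m + 1)) +
    2 * (C1 * θ2 ^ m * Q m) + 4 * if R₁ ≤ m then θ2 ^ m else 0) (fun m => ?_) (fun v l hl => ?_)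
    _ fun M => ?_
  · have := hQ m
    have := hQ (m + 1)
    split_ifs <;> positivity
  · by_cases h : R₁ ≤ l.length
    · refine (integral_Gam_crude hT K Λ Λ β p s s' k hJ hθ (inD o v) l).trans ?_
      rw [if_pos h]
      have := hQ l.length
      have := hQ (l.length + 1)
      exact le_add_of_nonneg_left (by positivity)
    · refine (integral_Gam_le hT K Λ Λ β p s s' k hJ hθ (inD o v) l hl hl).trans ?_
      rw [if_neg h]
      have h1 := hP v l (l.length + 1) le_rfl (by omega)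
      have h2 := hP v l l.length (by omega) (by omega)
      linarith
  · have h1 : ∀ m ∈ Finset.range M, (b : ℝ) ^ m * (2 * (C1 * θ2 ^ (m + 1) * Q (m + 1)) +
        2 * (C1 * θ2 ^ m * Q m) + 4 * if R₁ ≤ m then θ2 ^ m else 0) ≤
        2 * C1 * (ρ ^ (m + 1) * Q (m + 1)) + 2 * C1 * (ρ ^ m * Q m) +
          4 * if R₁ ≤ m then ρ ^ m else 0 := by
      intro m _
      have h2 : (b : ℝ) ^ m * θ2 ^ m ≤ ρ ^ m := by
        rw [← mul_pow]
        exact pow_le_pow_left₀ (by positivity) hρ m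
      have h3 : (b : ℝ) ^ m * θ2 ^ (m + 1) ≤ ρ ^ (m + 1) := by
        rw [pow_succ, pow_succ, ← mul_assoc]
        exact mul_le_mul h2 (by nlinarith) hθ0 (by positivity)
      have h4 := mul_le_mul_of_nonneg_right h2 (mul_nonneg hC (hQ m))
      have h5 := mul_le_mul_of_nonneg_right h3 (mul_nonneg hC (hQ (m + 1)))
      split_ifs <;> nlinarith
    refine (Finset.sum_le_sum h1).trans ?_
    rw [Finset.sum_add_distrib, Finset.sum_add_distrib, ← Finset.mul_sum, ← Finset.mul_sum,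
      ← Finset.mul_sum]
    have h2 := hQt (M + 1)
    rw [Finset.sum_range_succ'] at h2
    have h3 : 0 ≤ ρ ^ 0 * Q 0 := mul_nonneg (by positivity) (hQ 0)
    have h4 := mul_le_mul_of_nonneg_left (hQt M) hC
    have h5 := mul_le_mul_of_nonneg_left
      (show ∑ m ∈ Finset.range M, ρ ^ (m + 1) * Q (m + 1) ≤ Qt by linarith) hC
    linarith [htl M]

end Crest.Agent.R160
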