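import Crest.Agent.R160.Chain
import Crest.Agent.R160.Finish
import Crest.Agent.R160.Markov

/-!
Row 160: the diffusion coefficients as products along a path.
-/

set_option autoImplicit false
set_option linter.unusedSectionVars false
set_option linter.unusedVariables false
set_option maxHeartbeats 400000

open MeasureTheory ProbabilityTheory Filter Topology
open scoped ENNReal

namespace Crest.Agent.R160

universe u

variable {V : Type u} {G : SimpleGraph V} [G.LocallyFinite] {b : ℕ}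

/-- The covariance product along the first `m` darts of the path `l` below `D`. -/
noncomputable def Pm (K : Kids G b) (Λ : Finset V) (J : ℝ) (y : G.edgeSet → ℝ) (D : G.Dart)
    (l : List (Fin b)) (m : ℕ) : ℝ :=
  (1 - mag G Λ J y D.snd ^ 2) * ∏ j ∈ Finset.range m, rr Λ J y (K.down D (l.take j))

lemma one_sub_sq_mem {m : ℝ} (h : |m| ≤ 1) : 0 ≤ 1 - m ^ 2 ∧ 1 - m ^ 2 ≤ 1 := by
  have := abs_le.1 h
  constructor <;> nlinarith

lemma sq_mem {m : ℝ} (h : |m| ≤ 1) : 0 ≤ m ^ 2 ∧ m ^ 2 ≤ 1 := by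
  have := abs_le.1 h
  constructor <;> nlinarith

lemma tanh_nonneg' {J : ℝ} (hJ : 0 ≤ J) : 0 ≤ Real.tanh J := by
  rw [Real.tanh_eq_sinh_div_cosh]
  exact div_nonneg (Real.sinh_nonneg_iff.2 hJ) (Real.cosh_pos _).le

omit [G.LocallyFinite] in
lemma rr_mem (Λ : Finset V) {J : ℝ} (hJ : 0 ≤ J) (hθ : Real.tanh J ^ 2 ≤ 1 / 2)
    (y : G.edgeSet → ℝ) (D : G.Dart) : 0 ≤ rr Λ J y D ∧ rr Λ J y D ≤ Real.tanh J := by
  have h0 := tanh_nonneg' hJ
  have h1 := sq_mem (abs_cav_le Λ J y D)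
  unfold rr
  split_ifs
  · exact ⟨mul_nonneg h0 (rho_nonneg hθ h1.1 h1.2),
      mul_le_of_le_one_right h0 (rho_le_one hθ h1.1 h1.2)⟩
  · exact ⟨le_rfl, h0⟩

omit [G.LocallyFinite] in
lemma Pm_mem (K : Kids G b) (Λ : Finset V) {J : ℝ} (hJ : 0 ≤ J) (hθ : Real.tanh J ^ 2 ≤ 1 / 2)
    (y : G.edgeSet → ℝ) (D : G.Dart) (l : List (Fin b)) (m : ℕ) :
    0 ≤ Pm K Λ J y D l m ∧ Pm K Λ J y D l m ≤ Real.tanh J ^ m := by
  have h1 := one_sub_sq_mem (abs_mag_le Λ J y D.snd)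
  have h2 : 0 ≤ ∏ j ∈ Finset.range m, rr Λ J y (K.down D (l.take j)) :=
    Finset.prod_nonneg fun j _ => (rr_mem Λ hJ hθ y _).1
  have h3 : ∏ j ∈ Finset.range m, rr Λ J y (K.down D (l.take j)) ≤ Real.tanh J ^ m := by
    refine (Finset.prod_le_prod (fun j _ => (rr_mem Λ hJ hθ y _).1)
      fun j _ => (rr_mem Λ hJ hθ y _).2).trans (le_of_eq ?_)
    simp
  exact ⟨mul_nonneg h1.1 h2, (mul_le_of_le_one_left h2 h1.2).trans h3⟩

omit [G.LocallyFinite] in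
lemma measurable_rr (Λ : Finset V) (J : ℝ) (D : G.Dart) : Measurable fun y => rr Λ J y D := by
  unfold rr
  split_ifs
  · have := measurable_cav Λ J D
    unfold rho
    fun_prop
  · exact measurable_const

omit [G.LocallyFinite] in
lemma measurable_Pm (K : Kids G b) (Λ : Finset V) (J : ℝ) (D : G.Dart) (l : List (Fin b)) (m : ℕ) :
    Measurable fun y => Pm K Λ J y D l m := by
  have h1 := measurable_mag (G := G) Λ J D.snd
  have h2 : Measurable fun y => ∏ j ∈ Finset.range m, rr Λ J y (K.down D (l.take j)) :=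
    Finset.measurable_fun_prod _ fun j _ => measurable_rr Λ J _
  unfold Pm
  fun_prop

lemma Gam_down (hT : G.IsTree) (K : Kids G b) (Λ : Finset V) (J : ℝ) (y : G.edgeSet → ℝ)
    (D : G.Dart) (l : List (Fin b)) (h : ed (K.down D l) ∈ EF G Λ) :
    Gam G Λ J y D.snd (ed (K.down D l)) =
      Pm K Λ J y D l (l.length + 1) + Pm K Λ J y D l l.length := by
  rw [Gam_ed h, cv_down_fst hT K Λ J y (snd_not_mem_side hT D),
    cv_down_snd hT K Λ J y (snd_not_mem_side hT D), cv_self, Pm, Pm]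

lemma Gam_down_mem (hT : G.IsTree) (K : Kids G b) (Λ : Finset V) {J : ℝ} (hJ : 0 ≤ J)
    (hθ : Real.tanh J ^ 2 ≤ 1 / 2) (y : G.edgeSet → ℝ) (D : G.Dart) (l : List (Fin b)) :
    0 ≤ Gam G Λ J y D.snd (ed (K.down D l)) ∧
      Gam G Λ J y D.snd (ed (K.down D l)) ≤ 2 * Real.tanh J ^ l.length := by
  have h0 := tanh_nonneg' hJ
  by_cases h : ed (K.down D l) ∈ EF G Λ
  · rw [Gam_down hT K Λ J y D l h]
    have h1 := Pm_mem K Λ hJ hθ y D l (l.length + 1)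
    have h2 := Pm_mem K Λ hJ hθ y D l l.length
    have h3 : Real.tanh J ^ (l.length + 1) ≤ Real.tanh J ^ l.length :=
      pow_le_pow_of_le_one h0 (Real.tanh_lt_one J).le (Nat.le_succ _)
    constructor <;> linarith
  · rw [Gam_of_not_mem h]
    exact ⟨le_rfl, by positivity⟩

lemma Gam_sub_sq_crude (hT : G.IsTree) (K : Kids G b) (Λ Λ' : Finset V) {J : ℝ} (hJ : 0 ≤ J)
    (hθ : Real.tanh J ^ 2 ≤ 1 / 2) (y y' : G.edgeSet → ℝ) (D : G.Dart) (l : List (Fin b)) :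
    (Gam G Λ J y D.snd (ed (K.down D l)) - Gam G Λ' J y' D.snd (ed (K.down D l))) ^ 2 ≤
      4 * (Real.tanh J ^ 2) ^ l.length := by
  have h1 := Gam_down_mem hT K Λ hJ hθ y D l
  have h2 := Gam_down_mem hT K Λ' hJ hθ y' D l
  have h3 : 4 * (Real.tanh J ^ 2) ^ l.length = (2 * Real.tanh J ^ l.length) ^ 2 := by ring
  rw [h3]
  exact sq_le_sq' (by linarith) (by linarith)

lemma cav_sub_sq_le (hT : G.IsTree) {Λ Λ' : Finset V} {J : ℝ} (hJ : 0 ≤ J)
    (hθ : Real.tanh J ^ 2 ≤ 1 / 2) (y y' : G.edgeSet → ℝ) {D : G.Dart} (h : ed D ∈ EF G Λ)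
    (h' : ed D ∈ EF G Λ') :
    (cav Λ J y D - cav Λ' J y' D) ^ 2 ≤ 98 * ((mag G Λ J y D.fst - mag G Λ' J y' D.fst) ^ 2 +
      (mag G Λ J y D.snd - mag G Λ' J y' D.snd) ^ 2) := by
  have h0 := tanh_nonneg' hJ
  have h1 := mu_lip h0 hθ h0 hθ (abs_cav_le Λ J y D) (abs_cav_le Λ' J y' D)
    (abs_mag_le Λ J y D.snd) (abs_mag_le Λ' J y' D.snd)
  rw [← mag_fst hT Λ J y h, ← mag_fst hT Λ' J y' h', sub_self, abs_zero, mul_zero, add_zero] at h1
  rw [← sq_abs, ← sq_abs (mag G Λ J y D.fst - _), ← sq_abs (mag G Λ J y D.snd - _)]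
  refine (pow_le_pow_left₀ (abs_nonneg _) h1 2).trans ?_
  nlinarith [sq_nonneg (|mag G Λ J y D.fst - mag G Λ' J y' D.fst| -
    |mag G Λ J y D.snd - mag G Λ' J y' D.snd|)]

/-- The constant of `prod_ineq`. -/
noncomputable def C1 : ℝ := prod_ineq.choose

lemma C1_nonneg : 0 ≤ C1 := prod_ineq.choose_spec.1

omit [G.LocallyFinite] in
lemma Pm_sub_sq_le (K : Kids G b) (Λ Λ' : Finset V) {J : ℝ} (hJ : 0 ≤ J)
    (hθ : Real.tanh J ^ 2 ≤ 1 / 2) (y y' : G.edgeSet → ℝ) (D : G.Dart) (l : List (Fin b)) (m : ℕ)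
    (h : ∀ j < m, ed (K.down D (l.take j)) ∈ EF G Λ)
    (h' : ∀ j < m, ed (K.down D (l.take j)) ∈ EF G Λ') {W : ℝ}
    (hW : Real.exp (-(1 / 2) * ∑ j ∈ Finset.range m, cav Λ J y (K.down D (l.take j)) ^ 2) ≤ W)
    (hW' : Real.exp (-(1 / 2) * ∑ j ∈ Finset.range m, cav Λ' J y' (K.down D (l.take j)) ^ 2) ≤ W) :
    (Pm K Λ J y D l m - Pm K Λ' J y' D l m) ^ 2 ≤
      C1 * (Real.tanh J ^ 2) ^ m * W * (4 * (mag G Λ J y D.snd - mag G Λ' J y' D.snd) ^ 2 +
        (∑ j ∈ Finset.range m, (cav Λ J y (K.down D (l.take j)) ^ 2 -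
          cav Λ' J y' (K.down D (l.take j)) ^ 2)) ^ 2 +
        ∑ j ∈ Finset.range m, (cav Λ J y (K.down D (l.take j)) ^ 2 -
          cav Λ' J y' (K.down D (l.take j)) ^ 2) ^ 2) := by
  have h1 := prod_ineq.choose_spec.2 (Real.tanh J) (tanh_nonneg' hJ) hθ m
    (fun j => cav Λ J y (K.down D (l.take j)) ^ 2) (fun j => cav Λ' J y' (K.down D (l.take j)) ^ 2)
    (1 - mag G Λ J y D.snd ^ 2) (1 - mag G Λ' J y' D.snd ^ 2) W
    (fun j => sq_mem (abs_cav_le _ _ _ _)) (fun j => sq_mem (abs_cav_le _ _ _ _))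
    (one_sub_sq_mem (abs_mag_le _ _ _ _)) (one_sub_sq_mem (abs_mag_le _ _ _ _)) hW hW'
  have h2 : Pm K Λ J y D l m = (1 - mag G Λ J y D.snd ^ 2) * ∏ j ∈ Finset.range m,
      Real.tanh J * rho (Real.tanh J) (cav Λ J y (K.down D (l.take j)) ^ 2) := by
    rw [Pm]
    congr 1
    exact Finset.prod_congr rfl fun j hj => if_pos (h j (Finset.mem_range.1 hj))
  have h3 : Pm K Λ' J y' D l m = (1 - mag G Λ' J y' D.snd ^ 2) * ∏ j ∈ Finset.range m,
      Real.tanh J * rho (Real.tanh J) (cav Λ' J y' (K.down D (l.take j)) ^ 2) := by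
    rw [Pm]
    congr 1
    exact Finset.prod_congr rfl fun j hj => if_pos (h' j (Finset.mem_range.1 hj))
  rw [h2, h3]
  refine h1.trans (mul_le_mul_of_nonneg_left (add_le_add_left (add_le_add_left ?_ _) _) ?_)
  · have h4 := abs_le.1 (abs_mag_le Λ J y D.snd)
    have h5 := abs_le.1 (abs_mag_le Λ' J y' D.snd)
    have h6 : 1 - mag G Λ J y D.snd ^ 2 - (1 - mag G Λ' J y' D.snd ^ 2) =
        -((mag G Λ J y D.snd + mag G Λ' J y' D.snd) *
          (mag G Λ J y D.snd - mag G Λ' J y' D.snd)) := by ring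
    rw [h6, neg_sq, mul_pow]
    exact mul_le_mul_of_nonneg_right (by nlinarith) (sq_nonneg _)
  · exact mul_nonneg (mul_nonneg C1_nonneg (by positivity)) ((Real.exp_pos _).le.trans hW)

lemma exp_neg_sum_le_one (m : ℕ) (x : ℕ → ℝ) :
    Real.exp (-(1 / 2) * ∑ j ∈ Finset.range m, x j ^ 2) ≤ 1 := by
  rw [Real.exp_le_one_iff]
  have : 0 ≤ ∑ j ∈ Finset.range m, x j ^ 2 := Finset.sum_nonneg fun _ _ => sq_nonneg _
  linarith

lemma sq_sub_sq_sq_le {μ μ' : ℝ} (h : |μ| ≤ 1) (h' : |μ'| ≤ 1) :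
    (μ ^ 2 - μ' ^ 2) ^ 2 ≤ 4 * (μ - μ') ^ 2 := by
  have h1 := abs_le.1 h
  have h2 := abs_le.1 h'
  have : μ ^ 2 - μ' ^ 2 = (μ + μ') * (μ - μ') := by ring
  rw [this, mul_pow]
  exact mul_le_mul_of_nonneg_right (by nlinarith) (sq_nonneg _)

omit [G.LocallyFinite] in
lemma EF_mono {Λ Λ' : Finset V} (h : Λ ⊆ Λ') : EF G Λ ⊆ EF G Λ' := fun e he =>
  mem_EF.2 fun v hv => h (mem_EF.1 he v hv)

lemma ball_subset (hc : G.Connected) {o x : V} {R R' : ℕ} (h : G.dist o x + R' ≤ R) :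
    ball G x R' ⊆ ball G o R := by
  intro v hv
  rw [mem_ball hc] at hv ⊢
  have := hc.dist_triangle (u := o) (v := x) (w := v)
  omega

lemma dist_down_take_fst (hT : G.IsTree) (K : Kids G b) (D : G.Dart) (l : List (Fin b)) {j : ℕ}
    (hj : j ≤ l.length) : G.dist D.snd (K.down D (l.take j)).fst = j + 1 := by
  rw [dist_down_fst hT K (Or.inl (snd_not_mem_side hT D)),
    dist_fst_of_not_mem_side hT (snd_not_mem_side hT D), SimpleGraph.dist_self,
    List.length_take, min_eq_left hj]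
  omega

lemma dist_down_take_snd (hT : G.IsTree) (K : Kids G b) (D : G.Dart) (l : List (Fin b)) {j : ℕ}
    (hj : j ≤ l.length) : G.dist D.snd (K.down D (l.take j)).snd = j := by
  rw [dist_down_snd hT K (snd_not_mem_side hT D), SimpleGraph.dist_self,
    List.length_take, min_eq_left hj, zero_add]

lemma ed_down_take_mem (hT : G.IsTree) (K : Kids G b) (D : G.Dart) (l : List (Fin b)) {j : ℕ}
    (hj : j ≤ l.length) {o : V} {R : ℕ} (h : G.dist o D.snd + j + 1 ≤ R) :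
    ed (K.down D (l.take j)) ∈ EF G (ball G o R) := by
  rw [ed_mem_EF, mem_ball hT.connected, mem_ball hT.connected]
  have h1 := hT.connected.dist_triangle (u := o) (v := D.snd) (w := (K.down D (l.take j)).fst)
  have h2 := hT.connected.dist_triangle (u := o) (v := D.snd) (w := (K.down D (l.take j)).snd)
  rw [dist_down_take_fst hT K D l hj] at h1
  rw [dist_down_take_snd hT K D l hj] at h2
  omega

/-- The coupling at time `t` is subcritical. -/
lemma b_tanh_sq_le {β t : ℝ} (hb : 2 ≤ b) (hβ : 0 ≤ β) (hθ : b * Real.tanh β ^ 2 ≤ 1) (ht0 : 0 ≤ t)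
    (ht1 : t ≤ 1) : b * Real.tanh (β * (1 - t)) ^ 2 ≤ (1 - t / 2) ^ 2 * (b * Real.tanh β ^ 2) := by
  have hb' : (2 : ℝ) ≤ b := by exact_mod_cast hb
  have h1 : Real.tanh β ^ 2 ≤ 1 / 2 := by nlinarith [sq_nonneg (Real.tanh β)]
  have h2 := tanh_mul_le hβ h1 ht0 ht1
  have h3 := tanh_nonneg' (mul_nonneg hβ (sub_nonneg.2 ht1))
  have h4 := pow_le_pow_left₀ h3 h2 2
  nlinarith

lemma tanh_sq_le_half {β : ℝ} (hb : 2 ≤ b) (hθ : b * Real.tanh β ^ 2 ≤ 1) :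
    Real.tanh β ^ 2 ≤ 1 / 2 := by
  have hb' : (2 : ℝ) ≤ b := by exact_mod_cast hb
  nlinarith [sq_nonneg (Real.tanh β)]

end Crest.Agent.R160
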