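import Crest.Agent.R160.Avg
import Crest.Agent.R160.Gauss

/-!
Row 160: one step of the resampling chain: sampling, Bayes formula, martingale increments.
-/

set_option autoImplicit false
set_option linter.unusedSectionVars false
set_option linter.unusedVariables false
set_option maxHeartbeats 400000

open MeasureTheory ProbabilityTheory Filter Topology
open scoped ENNReal

namespace Crest.Agent.R160

universe u

lemma measurable_plugS {Ω α : Type*} [MeasurableSpace Ω] (S : Finset α) {g : Ω → α}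
    (hg : ∀ A, MeasurableSet {ω | g ω = A}) (hS : ∀ ω, g ω ∈ S) {φ : Ω → α → ℝ}
    (hφ : ∀ A, Measurable fun ω => φ ω A) : Measurable fun ω => φ ω (g ω) := by
  classical
  have : (fun ω => φ ω (g ω)) = fun ω => ∑ A ∈ S, if g ω = A then φ ω A else 0 := by
    funext ω
    rw [Finset.sum_ite_eq, if_pos (hS ω)]
  rw [this]
  exact Finset.measurable_fun_sum _ fun A _ => Measurable.ite (hg A) (hφ A) measurable_const

lemma exists_sampler {α Y : Type*} [MeasurableSpace Y] (S : Finset α) (hS : S.Nonempty)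
    (H : Y → α → ℝ) (hH : ∀ A, Measurable fun y => H y A) :
    ∃ f : Y → unitInterval → α, (∀ A, MeasurableSet {q : Y × unitInterval | f q.1 q.2 = A}) ∧
      (∀ y u, f y u ∈ S) ∧ ∀ y (φ : α → ℝ), ∫ u, φ (f y u) = avg S (H y) φ := by
  classical
  let _ : MeasurableSpace S := ⊤
  have : Nonempty S := hS.to_subtype
  let p : Y → α → ℝ := fun y A => Real.exp (H y A) / ∑ B ∈ S, Real.exp (H y B)
  have hp0 : ∀ y A, 0 ≤ p y A := fun y A =>
    div_nonneg (Real.exp_pos _).le (sum_exp_pos hS _).le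
  have hpm : ∀ A, Measurable fun y => p y A := fun A =>
    (hH A).exp.div (Finset.measurable_fun_sum _ fun B _ => (hH B).exp)
  let κ : Kernel Y S :=
    { toFun := fun y => ∑ A : S, ENNReal.ofReal (p y A) • Measure.dirac A
      measurable' := by
        refine Measure.measurable_of_measurable_coe _ fun s hs => ?_
        simp only [Measure.coe_finsetSum, Finset.sum_apply, Measure.smul_apply, smul_eq_mul]
        exact Finset.measurable_fun_sum _ fun A _ => (hpm A).ennreal_ofReal.mul_const _ }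
  have hκ : ∀ y, κ y = ∑ A : S, ENNReal.ofReal (p y A) • Measure.dirac A := fun _ => rfl
  have : IsMarkovKernel κ := by
    refine ⟨fun y => ⟨?_⟩⟩
    rw [hκ]
    simp only [Measure.coe_finsetSum, Finset.sum_apply, Measure.smul_apply, smul_eq_mul,
      measure_univ, mul_one]
    rw [← ENNReal.ofReal_sum_of_nonneg (f := fun A : S => p y A) fun A _ => hp0 y A,
      Finset.sum_coe_sort S (p y),
      ← Finset.sum_div, div_self (sum_exp_pos hS _).ne', ENNReal.ofReal_one]
  obtain ⟨f, hf, hlaw⟩ := κ.exists_measurable_map_eq_unitInterval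
  refine ⟨fun y u => f y u, fun A => ?_, fun y u => (f y u).2, fun y φ => ?_⟩
  · exact hf (t := {B : S | (B : α) = A}) MeasurableSpace.measurableSet_top
  · have h1 : Measurable (f y) := hf.comp measurable_prodMk_left
    rw [← integral_map (f := fun B : S => φ B) h1.aemeasurable
      (measurable_from_top.aestronglyMeasurable), hlaw, hκ,
      integral_finsetSum_measure fun A _ => ?_, avg_eq_sum, ← Finset.sum_coe_sort S]
    · refine Finset.sum_congr rfl fun A _ => ?_
      rw [integral_smul_measure, integral_dirac, ENNReal.toReal_ofReal (hp0 y A), smul_eq_mul]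
    · exact (integrable_dirac (by simp)).smul_measure ENNReal.ofReal_ne_top

variable {V : Type u} {G : SimpleGraph V}

lemma exists_smp (G : SimpleGraph V) (Λ : Finset V) (J : ℝ) :
    ∃ f : (G.edgeSet → ℝ) → unitInterval → Finset V,
      (∀ A, MeasurableSet {q : (G.edgeSet → ℝ) × unitInterval | f q.1 q.2 = A}) ∧
      (∀ y u, f y u ∈ Λ.powerset) ∧ ∀ y (φ : Finset V → ℝ), ∫ u, φ (f y u) = gm G Λ J y φ :=
  exists_sampler _ (powerset_ne Λ) _ fun A => measurable_ham _ J measurable_id A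

/-- A measurable sampler for the Gibbs measure. -/
noncomputable def smp (G : SimpleGraph V) (Λ : Finset V) (J : ℝ) :
    (G.edgeSet → ℝ) → unitInterval → Finset V :=
  (exists_smp G Λ J).choose

lemma integral_smp (Λ : Finset V) (J : ℝ) (y : G.edgeSet → ℝ) (φ : Finset V → ℝ) :
    ∫ u, φ (smp G Λ J y u) = gm G Λ J y φ :=
  (exists_smp G Λ J).choose_spec.2.2 y φ

lemma measurable_smp {Ω : Type*} [MeasurableSpace Ω] (Λ : Finset V) (J : ℝ)
    {y : Ω → G.edgeSet → ℝ} (hy : Measurable y) {u : Ω → unitInterval} (hu : Measurable u)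
    {φ : Ω → Finset V → ℝ} (hφ : ∀ A, Measurable fun ω => φ ω A) :
    Measurable fun ω => φ ω (smp G Λ J (y ω) (u ω)) :=
  measurable_plugS Λ.powerset
    (fun A => (hy.prodMk hu) ((exists_smp G Λ J).choose_spec.1 A))
    (fun ω => (exists_smp G Λ J).choose_spec.2.1 _ _) hφ

/-- The observation after an increment with signal `A` and noise `z`. -/
noncomputable def obs (G : SimpleGraph V) (Λ : Finset V) (a : ℝ) (y : G.edgeSet → ℝ)
    (A : Finset V) (z : G.edgeSet → ℝ) : G.edgeSet → ℝ :=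
  fun e => y e + a * drift G Λ A e + √a * z e

lemma measurable_obs {Ω : Type*} [MeasurableSpace Ω] (Λ : Finset V) (a : ℝ)
    {y z : Ω → G.edgeSet → ℝ} (hy : Measurable y) (hz : Measurable z) (A : Finset V) :
    Measurable fun ω => obs G Λ a (y ω) A (z ω) := by
  unfold obs
  fun_prop

/-- The law of the noise and the sampling variable of one step. -/
noncomputable def nu (E : Type*) : Measure ((E → ℝ) × unitInterval) := (gE E).prod volume

instance (E : Type*) : IsProbabilityMeasure (nu E) := by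
  unfold nu
  infer_instance

/-- One step of the resampling chain. -/
noncomputable def nx (G : SimpleGraph V) (Λ : Finset V) (J a : ℝ) (y : G.edgeSet → ℝ)
    (ξ : (G.edgeSet → ℝ) × unitInterval) : G.edgeSet → ℝ :=
  obs G Λ a y (smp G Λ J y ξ.2) ξ.1

lemma measurable_nx {Ω : Type*} [MeasurableSpace Ω] (Λ : Finset V) (J a : ℝ)
    {y : Ω → G.edgeSet → ℝ} (hy : Measurable y) {ξ : Ω → (G.edgeSet → ℝ) × unitInterval}
    (hξ : Measurable ξ) : Measurable fun ω => nx G Λ J a (y ω) (ξ ω) := by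
  refine measurable_pi_lambda _ fun e => ?_
  exact measurable_smp Λ J hy hξ.snd (φ := fun ω A => obs G Λ a (y ω) A (ξ ω).1 e)
    fun A => (measurable_pi_apply e).comp (measurable_obs Λ a hy hξ.fst A)

lemma integral_nx (Λ : Finset V) (J a : ℝ) (y : G.edgeSet → ℝ) {φ : (G.edgeSet → ℝ) → ℝ}
    (hφ : Measurable φ) {M : ℝ} (hM : ∀ y, |φ y| ≤ M) :
    ∫ ξ, φ (nx G Λ J a y ξ) ∂nu G.edgeSet =
      gm G Λ J y fun A => ∫ z, φ (obs G Λ a y A z) ∂gE G.edgeSet := by
  rw [nu, integral_prod_symm, ← integral_smp]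
  · rfl
  · exact Integrable.of_bound (C := M)
      (hφ.comp (measurable_nx Λ J a measurable_const measurable_id)).aestronglyMeasurable
      (ae_of_all _ fun _ => hM _)

lemma ham_shift (Λ : Finset V) (J a : ℝ) (ha : 0 ≤ a) (y : G.edgeSet → ℝ) (A : Finset V)
    (z : G.edgeSet → ℝ) :
    ham (EF G Λ) J y A +
      ∑ e ∈ EF G Λ, (√a * drift G Λ A e * z e - (√a * drift G Λ A e) ^ 2 / 2) =
      ham (EF G Λ) (J - a) (fun e => y e + √a * z e) A - a * (EF G Λ).card := by
  unfold ham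
  rw [← Finset.sum_add_distrib, mul_comm a, ← nsmul_eq_mul, ← Finset.sum_const,
    ← Finset.sum_sub_distrib]
  refine Finset.sum_congr rfl fun e he => ?_
  rw [drift_of_mem he, mul_pow, Real.sq_sqrt ha, sp_sq]
  ring

/-- The density of the observation. -/
noncomputable def dens (G : SimpleGraph V) (Λ : Finset V) (J a : ℝ) (y z : G.edgeSet → ℝ) : ℝ :=
  Real.exp (-(a * (EF G Λ).card)) *
    (∑ A ∈ Λ.powerset, Real.exp (ham (EF G Λ) (J - a) (fun e => y e + √a * z e) A)) /
      ∑ A ∈ Λ.powerset, Real.exp (ham (EF G Λ) J y A)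

lemma gm_integral_obs (Λ : Finset V) (J a : ℝ) (ha : 0 ≤ a) (y : G.edgeSet → ℝ)
    {φ : (G.edgeSet → ℝ) → Finset V → ℝ} (hφ : ∀ A, Measurable fun y => φ y A) {M : ℝ}
    (hM : ∀ y A, |φ y A| ≤ M) :
    gm G Λ J y (fun A => ∫ z, φ (obs G Λ a y A z) A ∂gE G.edgeSet) =
      ∫ z, dens G Λ J a y z *
        gm G Λ (J - a) (fun e => y e + √a * z e) (φ fun e => y e + √a * z e) ∂gE G.edgeSet := by
  have hm : ∀ A, Measurable fun z : G.edgeSet → ℝ => φ (fun e => y e + √a * z e) A :=
    fun A => (hφ A).comp (by fun_prop)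
  have h1 : ∀ A, ∫ z, φ (obs G Λ a y A z) A ∂gE G.edgeSet =
      ∫ z, Real.exp (∑ e ∈ EF G Λ, (√a * drift G Λ A e * z e - (√a * drift G Λ A e) ^ 2 / 2)) *
        φ (fun e => y e + √a * z e) A ∂gE G.edgeSet := by
    intro A
    rw [← integral_gE_add (EF G Λ) (fun e => √a * drift G Λ A e)
      (fun e he => by rw [drift_of_not_mem he, mul_zero]) (hm A)]
    congr 1
    funext z
    congr 1
    funext e
    rw [obs, mul_add, ← mul_assoc, Real.mul_self_sqrt ha]
    ring
  have h2 : ∀ A, Integrable (fun z : G.edgeSet → ℝ => Real.exp (∑ e ∈ EF G Λ,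
      (√a * drift G Λ A e * z e - (√a * drift G Λ A e) ^ 2 / 2)) *
        φ (fun e => y e + √a * z e) A) (gE G.edgeSet) := fun A =>
    (integrable_exp_sum (EF G Λ) fun e => √a * drift G Λ A e).mul_bdd (c := M)
      (hm A).aestronglyMeasurable (ae_of_all _ fun z => hM _ _)
  simp_rw [h1]
  rw [gm, avg]
  simp_rw [← integral_const_mul]
  rw [← integral_finsetSum _ fun A _ => (h2 A).const_mul _, ← integral_div]
  congr 1
  funext z
  have h3 := (sum_exp_pos (powerset_ne Λ) (ham (EF G Λ) (J - a) fun e => y e + √a * z e)).ne'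
  rw [dens, gm, avg, div_mul_div_comm, mul_comm (∑ A ∈ Λ.powerset, Real.exp (ham _ J y A)),
    ← div_div, mul_right_comm, mul_div_cancel_right₀ _ h3, Finset.mul_sum]
  congr 1
  refine Finset.sum_congr rfl fun A _ => ?_
  rw [← mul_assoc, ← mul_assoc, ← Real.exp_add, ← Real.exp_add, ham_shift Λ J a ha]
  congr 2
  ring

/-- Bayes formula. -/
lemma bayes (Λ : Finset V) (J a : ℝ) (ha : 0 ≤ a) (y : G.edgeSet → ℝ)
    {φ : (G.edgeSet → ℝ) → Finset V → ℝ} (hφ : ∀ A, Measurable fun y => φ y A) {M : ℝ}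
    (hM : ∀ y A, |φ y A| ≤ M) :
    gm G Λ J y (fun A => ∫ z, φ (obs G Λ a y A z) A ∂gE G.edgeSet) =
      gm G Λ J y (fun A => ∫ z, gm G Λ (J - a) (obs G Λ a y A z) (φ (obs G Λ a y A z))
        ∂gE G.edgeSet) := by
  rw [gm_integral_obs Λ J a ha y hφ hM,
    gm_integral_obs Λ J a ha y (φ := fun y' _ => gm G Λ (J - a) y' (φ y')) (M := M)
      (fun _ => measurable_gm Λ _ measurable_id hφ) fun y A => abs_gm_le (hM y)]
  congr 1
  funext z
  congr 1
  exact (avg_const (powerset_ne Λ) _ _).symm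

/-- Gibbs means are martingales. -/
lemma integral_gm_nx (Λ : Finset V) (J a : ℝ) (ha : 0 ≤ a) (y : G.edgeSet → ℝ)
    {g : Finset V → ℝ} {M : ℝ} (hM : ∀ A, |g A| ≤ M) :
    ∫ ξ, gm G Λ (J - a) (nx G Λ J a y ξ) g ∂nu G.edgeSet = gm G Λ J y g := by
  rw [integral_nx Λ J a y (φ := fun y' => gm G Λ (J - a) y' g) (M := M)
    (measurable_gm Λ _ measurable_id fun _ => measurable_const) fun _ => abs_gm_le hM,
    ← bayes Λ J a ha y (φ := fun _ => g) (fun _ => measurable_const) fun _ => hM]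
  simp

/-- The diffusion coefficient of the magnetisation at `x` for the noise on the edge `e`. -/
noncomputable def Gam (G : SimpleGraph V) (Λ : Finset V) (J : ℝ) (y : G.edgeSet → ℝ) (x : V)
    (e : G.edgeSet) : ℝ :=
  gm G Λ J y (fun A => spin A x * drift G Λ A e) - mag G Λ J y x * mdrift G Λ J y e

lemma Gam_of_not_mem {Λ : Finset V} {e : G.edgeSet} (he : e ∉ EF G Λ) (J : ℝ)
    (y : G.edgeSet → ℝ) (x : V) : Gam G Λ J y x e = 0 := by
  simp only [Gam, mdrift, drift_of_not_mem he, gm, mul_zero, avg_const (powerset_ne Λ), sub_zero]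

lemma Gam_ed {Λ : Finset V} {D : G.Dart} (hD : ed D ∈ EF G Λ) (J : ℝ) (y : G.edgeSet → ℝ) (x : V) :
    Gam G Λ J y x (ed D) = cv G Λ J y x D.fst + cv G Λ J y x D.snd := by
  simp only [Gam, mdrift, drift_of_mem hD, sp_ed, mul_add, gm, avg_add, cv, mag]
  ring

lemma abs_Gam_le (Λ : Finset V) (J : ℝ) (y : G.edgeSet → ℝ) (x : V) (e : G.edgeSet) :
    |Gam G Λ J y x e| ≤ 4 := by
  have h1 : |gm G Λ J y fun A => spin A x * drift G Λ A e| ≤ 2 := abs_gm_le fun A => by
    rw [abs_mul, abs_spin, one_mul]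
    exact abs_drift_le _ _ _
  have h2 : |mag G Λ J y x * mdrift G Λ J y e| ≤ 2 := by
    rw [abs_mul]
    exact (mul_le_mul (abs_mag_le _ _ _ _) (abs_mdrift_le _ _ _ _) (abs_nonneg _)
      zero_le_one).trans (by norm_num)
  exact (abs_sub _ _).trans (by linarith)

lemma measurable_Gam (Λ : Finset V) (J : ℝ) (x : V) (e : G.edgeSet) :
    Measurable fun y => Gam G Λ J y x e := by
  have h1 : Measurable fun y => gm G Λ J y fun A => spin A x * drift G Λ A e :=
    measurable_gm Λ J measurable_id fun _ => measurable_const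
  have h2 := measurable_mag (G := G) Λ J x
  have h3 := measurable_mdrift (G := G) Λ J e
  unfold Gam
  fun_prop

lemma mag_obs_expand (Λ : Finset V) (J a : ℝ) (ha : 0 ≤ a) (ha1 : a ≤ 1) (y : G.edgeSet → ℝ)
    (x : V) (A : Finset V) (z : G.edgeSet → ℝ) {F : Finset G.edgeSet} (hF : EF G Λ ⊆ F) :
    |mag G Λ (J - a) (obs G Λ a y A z) x - mag G Λ J y x - √a * ∑ e ∈ F, Gam G Λ J y x e * z e| ≤
      a * (1010 * (F.card : ℝ) ^ 2 + 160 * (∑ e ∈ F, |z e|) ^ 2) := by
  set N : ℝ := (F.card : ℝ) with hN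
  set T := ∑ e ∈ F, |z e| with hT
  have hNF : ((EF G Λ).card : ℝ) ≤ N := by
    rw [hN]
    exact_mod_cast Finset.card_le_card hF
  have hN0 : 0 ≤ N := by positivity
  have hNN : N ≤ N ^ 2 := by
    rw [hN]
    exact_mod_cast Nat.le_self_pow two_ne_zero _
  have hTF : ∑ e ∈ EF G Λ, |z e| ≤ T :=
    Finset.sum_le_sum_of_subset_of_nonneg hF fun _ _ _ => abs_nonneg _
  have hsum : ∑ e ∈ F, Gam G Λ J y x e * z e = ∑ e ∈ EF G Λ, Gam G Λ J y x e * z e :=
    (Finset.sum_subset hF fun e _ he => by rw [Gam_of_not_mem he, zero_mul]).symm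
  let U : Finset V → ℝ := fun B =>
    ∑ e ∈ EF G Λ, (-a * sx B e.1 + (a * drift G Λ A e + √a * z e) * drift G Λ B e)
  have hH : ham (EF G Λ) (J - a) (obs G Λ a y A z) = fun B => ham (EF G Λ) J y B + U B := by
    funext B
    simp only [ham, U, ← Finset.sum_add_distrib]
    refine Finset.sum_congr rfl fun e he => ?_
    rw [obs, drift_of_mem he B]
    ring
  have hU : ∀ B ∈ Λ.powerset, |U B| ≤ 5 * N * a + 2 * √a * T := by
    intro B _
    refine (Finset.abs_sum_le_sum_abs _ _).trans ?_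
    have : ∀ e ∈ EF G Λ, |-a * sx B e.1 + (a * drift G Λ A e + √a * z e) * drift G Λ B e| ≤
        5 * a + 2 * √a * |z e| := by
      intro e _
      refine (abs_add_le _ _).trans ?_
      rw [abs_mul, abs_mul, abs_sx, abs_neg, abs_of_nonneg ha]
      have h1 : |a * drift G Λ A e + √a * z e| ≤ 2 * a + √a * |z e| := by
        refine (abs_add_le _ _).trans ?_
        rw [abs_mul, abs_mul, abs_of_nonneg ha, abs_of_nonneg (Real.sqrt_nonneg a)]
        nlinarith [abs_drift_le (G := G) Λ A e]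
      have h2 := mul_le_mul h1 (abs_drift_le (G := G) Λ B e) (abs_nonneg _) (by positivity)
      linarith
    refine (Finset.sum_le_sum this).trans ?_
    rw [Finset.sum_add_distrib, Finset.sum_const, nsmul_eq_mul, ← Finset.mul_sum]
    have h3 := mul_le_mul_of_nonneg_left hTF (by positivity : 0 ≤ 2 * √a)
    nlinarith
  have h1 := avg_taylor (H := ham (EF G Λ) J y) (g := fun B => spin B x) (powerset_ne Λ)
    (fun B _ => (abs_spin B x).le) hU
  have hcov : avg Λ.powerset (ham (EF G Λ) J y) (fun B => spin B x * U B) -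
      avg Λ.powerset (ham (EF G Λ) J y) (fun B => spin B x) * avg Λ.powerset (ham (EF G Λ) J y) U =
      ∑ e ∈ EF G Λ, (-a * (gm G Λ J y (fun B => spin B x * sx B e.1) -
        mag G Λ J y x * gm G Λ J y fun B => sx B e.1) +
        a * drift G Λ A e * Gam G Λ J y x e) + √a * ∑ e ∈ EF G Λ, Gam G Λ J y x e * z e := by
    simp only [U, Finset.mul_sum, avg_sum, ← Finset.sum_sub_distrib, ← Finset.sum_add_distrib]
    refine Finset.sum_congr rfl fun e _ => ?_
    have h2 : (fun B => spin B x * (-a * sx B e.1 + (a * drift G Λ A e + √a * z e) * drift G Λ B e))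
        = fun B => -a * (spin B x * sx B e.1) +
          (a * drift G Λ A e + √a * z e) * (spin B x * drift G Λ B e) := by
      funext B
      ring
    rw [h2, avg_add, avg_add, avg_const_mul, avg_const_mul, avg_const_mul, avg_const_mul]
    simp only [Gam, mag, mdrift, gm]
    ring
  have h4 : |∑ e ∈ EF G Λ, (-a * (gm G Λ J y (fun B => spin B x * sx B e.1) -
        mag G Λ J y x * gm G Λ J y fun B => sx B e.1) +
        a * drift G Λ A e * Gam G Λ J y x e)| ≤ 10 * N * a := by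
    refine (Finset.abs_sum_le_sum_abs _ _).trans ?_
    have : ∀ e ∈ EF G Λ, |-a * (gm G Λ J y (fun B => spin B x * sx B e.1) -
        mag G Λ J y x * gm G Λ J y fun B => sx B e.1) +
        a * drift G Λ A e * Gam G Λ J y x e| ≤ 10 * a := by
      intro e _
      have h5 : |gm G Λ J y fun B => spin B x * sx B e.1| ≤ 1 := abs_gm_le fun B => by
        rw [abs_mul, abs_spin, abs_sx, one_mul]
      have h6 : |mag G Λ J y x * gm G Λ J y fun B => sx B e.1| ≤ 1 := by
        rw [abs_mul]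
        exact mul_le_one₀ (abs_mag_le _ _ _ _) (abs_nonneg _) (abs_gm_le fun B => (abs_sx _ _).le)
      have h7 := (abs_sub _ _).trans (add_le_add h5 h6)
      have h8 := mul_le_mul (abs_drift_le (G := G) Λ A e) (abs_Gam_le Λ J y x e) (abs_nonneg _)
        (by norm_num)
      refine (abs_add_le _ _).trans ?_
      rw [abs_mul, mul_assoc, abs_mul a, abs_mul, abs_neg, abs_of_nonneg ha]
      nlinarith
    refine (Finset.sum_le_sum this).trans ?_
    rw [Finset.sum_const, nsmul_eq_mul]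
    nlinarith
  rw [hcov, ← hH] at h1
  have h9 : (5 * N * a + 2 * √a * T) ^ 2 ≤ 50 * N ^ 2 * a + 8 * a * T ^ 2 := by
    have h10 : (2 * √a * T) ^ 2 = 4 * a * T ^ 2 := by
      rw [mul_pow, mul_pow, Real.sq_sqrt ha]
      ring
    have h11 : (5 * N * a) ^ 2 ≤ 25 * N ^ 2 * a := by
      have : a ^ 2 ≤ a := by nlinarith
      nlinarith [sq_nonneg N]
    nlinarith [sq_nonneg (5 * N * a - 2 * √a * T)]
  rw [hsum]
  change |avg _ _ _ - avg _ _ _ - _| ≤ _
  rw [abs_le] at h1 h4 ⊢
  constructor <;> nlinarith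

/-- The constant in the error term of the pair inequality. -/
noncomputable def Cerr : ℝ := 16 * (1010 ^ 2 + 160 ^ 2 * m4)

lemma Cerr_nonneg : 0 ≤ Cerr := by
  have := m4_nonneg
  unfold Cerr
  positivity

/-- The one-step pair inequality for two chains driven by the same noise. -/
lemma pair_step (Λ Λ' : Finset V) (J a : ℝ) (ha : 0 ≤ a) (ha1 : a ≤ 1) (y y' : G.edgeSet → ℝ)
    (x x' : V) (X : ℝ) {F : Finset G.edgeSet} (hF : EF G Λ ⊆ F) (hF' : EF G Λ' ⊆ F) :
    ∫ ξ, (mag G Λ (J - a) (nx G Λ J a y ξ) x - mag G Λ' (J - a) (nx G Λ' J a y' ξ) x' - X) ^ 2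
        ∂nu G.edgeSet ≤
      (mag G Λ J y x - mag G Λ' J y' x' - X) ^ 2 +
        2 * a * ∑ e ∈ F, (Gam G Λ J y x e - Gam G Λ' J y' x' e) ^ 2 +
        Cerr * (F.card : ℝ) ^ 4 * a ^ 2 := by
  set D := mag G Λ J y x - mag G Λ' J y' x' - X with hD
  set N : ℝ := (F.card : ℝ) with hN
  let m₁ := fun ξ => mag G Λ (J - a) (nx G Λ J a y ξ) x
  let m₂ := fun ξ => mag G Λ' (J - a) (nx G Λ' J a y' ξ) x'
  have hm₁ : Measurable m₁ :=
    (measurable_mag Λ _ x).comp (measurable_nx Λ J a measurable_const measurable_id)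
  have hm₂ : Measurable m₂ :=
    (measurable_mag Λ' _ x').comp (measurable_nx Λ' J a measurable_const measurable_id)
  have hi₁ : Integrable m₁ (nu G.edgeSet) := Integrable.of_bound (C := 1)
    hm₁.aestronglyMeasurable (ae_of_all _ fun _ => abs_mag_le _ _ _ _)
  have hi₂ : Integrable m₂ (nu G.edgeSet) := Integrable.of_bound (C := 1)
    hm₂.aestronglyMeasurable (ae_of_all _ fun _ => abs_mag_le _ _ _ _)
  have he₁ : ∫ ξ, m₁ ξ ∂nu G.edgeSet = mag G Λ J y x :=
    integral_gm_nx Λ J a ha y fun A => (abs_spin A x).le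
  have he₂ : ∫ ξ, m₂ ξ ∂nu G.edgeSet = mag G Λ' J y' x' :=
    integral_gm_nx Λ' J a ha y' fun A => (abs_spin A x').le
  let B : (G.edgeSet → ℝ) → ℝ := fun z =>
    2 * a * (∑ e ∈ F, (Gam G Λ J y x e - Gam G Λ' J y' x' e) * z e) ^ 2 +
      16 * a ^ 2 * (1010 ^ 2 * N ^ 4 + 160 ^ 2 * (N ^ 3 * ∑ e ∈ F, z e ^ 4))
  have hB4 : Integrable (fun z : G.edgeSet → ℝ => ∑ e ∈ F, z e ^ 4) (gE G.edgeSet) :=
    integrable_finsetSum _ fun e _ => integrable_gE_pow_four e
  have hB5 : Integrable (fun z : G.edgeSet → ℝ =>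
      16 * a ^ 2 * (1010 ^ 2 * N ^ 4 + 160 ^ 2 * (N ^ 3 * ∑ e ∈ F, z e ^ 4))) (gE G.edgeSet) :=
    ((integrable_const _).add ((hB4.const_mul _).const_mul _)).const_mul _
  have hB : Integrable B (gE G.edgeSet) := ((integrable_gE_sum_sq F _).const_mul _).add hB5
  have hBint : ∫ z, B z ∂gE G.edgeSet =
      2 * a * ∑ e ∈ F, (Gam G Λ J y x e - Gam G Λ' J y' x' e) ^ 2 + Cerr * N ^ 4 * a ^ 2 := by
    rw [integral_add ((integrable_gE_sum_sq F _).const_mul _) hB5, integral_const_mul,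
      integral_gE_sum_sq, integral_const_mul,
      integral_add (integrable_const _) ((hB4.const_mul _).const_mul _), integral_const_mul,
      integral_const_mul, integral_const_mul,
      integral_finsetSum _ fun e _ => integrable_gE_pow_four e]
    simp only [integral_gE_pow_four, Finset.sum_const, nsmul_eq_mul, integral_const,
      probReal_univ, smul_eq_mul, one_mul, Cerr, ← hN]
    ring
  have hfst : MeasurePreserving Prod.fst (nu G.edgeSet) (gE G.edgeSet) := measurePreserving_fst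
  have hBi : Integrable (fun ξ : (G.edgeSet → ℝ) × unitInterval => B ξ.1) (nu G.edgeSet) :=
    hfst.integrable_comp_of_integrable hB
  have hBint' : ∫ ξ, B ξ.1 ∂nu G.edgeSet = ∫ z, B z ∂gE G.edgeSet := by
    rw [← hfst.map_eq, integral_map measurable_fst.aemeasurable]
    rw [hfst.map_eq]
    exact hB.aestronglyMeasurable
  have hpt : ∀ ξ, (m₁ ξ - m₂ ξ - X) ^ 2 ≤
      D ^ 2 + 2 * D * (m₁ ξ - m₂ ξ - (mag G Λ J y x - mag G Λ' J y' x')) + B ξ.1 := by
    intro ξ
    have h1 := mag_obs_expand Λ J a ha ha1 y x (smp G Λ J y ξ.2) ξ.1 hF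
    have h2 := mag_obs_expand Λ' J a ha ha1 y' x' (smp G Λ' J y' ξ.2) ξ.1 hF'
    set T := ∑ e ∈ F, |ξ.1 e| with hT
    have hT4 : T ^ 4 ≤ N ^ 3 * ∑ e ∈ F, ξ.1 e ^ 4 := sum_abs_pow_four_le F ξ.1
    set L := ∑ e ∈ F, (Gam G Λ J y x e - Gam G Λ' J y' x' e) * ξ.1 e with hL
    have hL' : L = ∑ e ∈ F, Gam G Λ J y x e * ξ.1 e - ∑ e ∈ F, Gam G Λ' J y' x' e * ξ.1 e := by
      rw [hL, ← Finset.sum_sub_distrib]
      exact Finset.sum_congr rfl fun e _ => by ring
    set r := m₁ ξ - m₂ ξ - (mag G Λ J y x - mag G Λ' J y' x') - √a * L with hr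
    have hr1 : |r| ≤ 2 * (a * (1010 * N ^ 2 + 160 * T ^ 2)) := by
      have : r = (m₁ ξ - mag G Λ J y x - √a * ∑ e ∈ F, Gam G Λ J y x e * ξ.1 e) -
          (m₂ ξ - mag G Λ' J y' x' - √a * ∑ e ∈ F, Gam G Λ' J y' x' e * ξ.1 e) := by
        rw [hr, hL']
        ring
      rw [this]
      refine (abs_sub _ _).trans ?_
      have h3 := add_le_add h1 h2
      rw [two_mul]
      exact h3
    have hr2 : r ^ 2 ≤ 8 * a ^ 2 * (1010 ^ 2 * N ^ 4 + 160 ^ 2 * T ^ 4) := by
      rw [← sq_abs]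
      refine (pow_le_pow_left₀ (abs_nonneg _) hr1 2).trans ?_
      nlinarith [mul_nonneg (sq_nonneg a) (sq_nonneg (1010 * N ^ 2 - 160 * T ^ 2))]
    have h5 : m₁ ξ - m₂ ξ - X = D + (√a * L + r) := by
      rw [hr, hD]
      ring
    have h6 : m₁ ξ - m₂ ξ - (mag G Λ J y x - mag G Λ' J y' x') = √a * L + r := by
      rw [hr]
      ring
    have h7 : (√a * L) ^ 2 = a * L ^ 2 := by rw [mul_pow, Real.sq_sqrt ha]
    rw [h5, h6]
    simp only [B, ← hL]
    have h8 := mul_le_mul_of_nonneg_left hT4 (by positivity : 0 ≤ 16 * a ^ 2 * 160 ^ 2)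
    nlinarith [sq_nonneg (√a * L - r)]
  have hi₃ : Integrable (fun ξ => 2 * D * (m₁ ξ - m₂ ξ - (mag G Λ J y x - mag G Λ' J y' x')))
      (nu G.edgeSet) := ((hi₁.sub hi₂).sub (integrable_const _)).const_mul _
  have hi₄ : Integrable (fun ξ => D ^ 2 +
      2 * D * (m₁ ξ - m₂ ξ - (mag G Λ J y x - mag G Λ' J y' x'))) (nu G.edgeSet) :=
    (integrable_const _).add hi₃
  have hi₅ : Integrable (fun ξ => m₁ ξ - m₂ ξ) (nu G.edgeSet) := hi₁.sub hi₂
  refine (integral_mono_of_nonneg (ae_of_all _ fun _ => sq_nonneg _)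
    (hi₄.add hBi) (ae_of_all _ hpt)).trans (le_of_eq ?_)
  simp only [Pi.add_apply]
  rw [integral_add hi₄ hBi, integral_add (integrable_const _) hi₃,
    integral_const_mul, integral_sub hi₅ (integrable_const _), integral_sub hi₁ hi₂,
    he₁, he₂, hBint', hBint]
  simp only [integral_const, probReal_univ, smul_eq_mul, one_mul]
  ring

end Crest.Agent.R160
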