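import Crest.Agent.R160.Defs

/-!
Row 160, subtask A: geometry of the regular tree.
-/

set_option autoImplicit false
set_option linter.unusedSectionVars false
set_option linter.unusedVariables false
set_option maxHeartbeats 400000

open MeasureTheory ProbabilityTheory Filter Topology
open scoped ENNReal

namespace Crest.Agent.R160

universe u

variable {V : Type u} {G : SimpleGraph V} [G.LocallyFinite] {b : ℕ}

omit [G.LocallyFinite] in
theorem exists_pred (hc : G.Connected) {x v : V} {n : ℕ} (h : G.dist x v = n + 1) :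
    ∃ u, G.Adj u v ∧ G.dist x u = n := by
  obtain ⟨p, hp⟩ := hc.exists_walk_length_eq_dist v x
  rw [SimpleGraph.dist_comm, h] at hp
  cases p with
  | nil => simp at hp
  | cons hadj q =>
    rename_i u
    refine ⟨u, hadj.symm, ?_⟩
    have h1 := SimpleGraph.dist_le q
    have h2 := hc.dist_triangle (u := x) (v := u) (w := v)
    rw [SimpleGraph.dist_eq_one_iff_adj.2 hadj.symm] at h2
    rw [SimpleGraph.Walk.length_cons] at hp
    rw [SimpleGraph.dist_comm] at h1
    omega

omit [G.LocallyFinite] in
theorem pred_unique (hT : G.IsTree) {x u u' v : V} (h : G.Adj u v) (h' : G.Adj u' v)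
    (hd : G.dist x u + 1 = G.dist x v) (hd' : G.dist x u' + 1 = G.dist x v) : u = u' := by
  obtain ⟨p, hp⟩ := hT.connected.exists_walk_length_eq_dist u x
  obtain ⟨p', hp'⟩ := hT.connected.exists_walk_length_eq_dist u' x
  have h1 : (SimpleGraph.Walk.cons h.symm p).IsPath := by
    apply SimpleGraph.Walk.isPath_of_length_eq_dist
    rw [SimpleGraph.Walk.length_cons, hp, SimpleGraph.dist_comm, hd, SimpleGraph.dist_comm]
  have h2 : (SimpleGraph.Walk.cons h'.symm p').IsPath := by
    apply SimpleGraph.Walk.isPath_of_length_eq_dist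
    rw [SimpleGraph.Walk.length_cons, hp', SimpleGraph.dist_comm, hd', SimpleGraph.dist_comm]
  have h3 := congrArg (fun q : G.Path v x => q.1.getVert 1)
    ((hT.isAcyclic.subsingleton_path v x).elim ⟨_, h1⟩ ⟨_, h2⟩)
  simpa using h3

theorem mem_ball_aux (hc : G.Connected) {o x : V} {R : ℕ} : x ∈ ball G o R ↔ G.dist o x ≤ R := by
  classical
  induction R generalizing x with
  | zero => rw [ball_zero, Finset.mem_singleton, Nat.le_zero, hc.dist_eq_zero_iff, eq_comm]
  | succ R ih =>
    simp only [ball_succ, Finset.mem_union, Finset.mem_biUnion, ih,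
      SimpleGraph.mem_neighborFinset]
    constructor
    · rintro (h | ⟨v, hv, hadj⟩)
      · omega
      · have h2 := hc.dist_triangle (u := o) (v := v) (w := x)
        rw [SimpleGraph.dist_eq_one_iff_adj.2 hadj] at h2
        omega
    · intro h
      rcases h.lt_or_eq with h | h
      · exact Or.inl (by omega)
      · obtain ⟨u, hu, hu2⟩ := exists_pred hc h
        exact Or.inr ⟨u, hu2.le, hu⟩

/-- Positionwise permutation of the letters of an address. -/
def permL (σ : ℕ → Equiv.Perm (Fin b)) (l : List (Fin b)) : List (Fin b) :=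
  l.mapIdx fun i a => σ i a

theorem permL_nil (σ : ℕ → Equiv.Perm (Fin b)) : permL σ [] = [] := rfl

theorem permL_concat (σ : ℕ → Equiv.Perm (Fin b)) (l : List (Fin b)) (a : Fin b) :
    permL σ (l ++ [a]) = permL σ l ++ [σ l.length a] := by
  simp [permL, List.mapIdx_concat]

theorem permL_symm (σ : ℕ → Equiv.Perm (Fin b)) (l : List (Fin b)) :
    permL (fun i => (σ i).symm) (permL σ l) = l := by
  apply List.ext_getElem <;> simp [permL]

theorem exists_permL {l l' : List (Fin b)} (h : l.length = l'.length) :
    ∃ σ : ℕ → Equiv.Perm (Fin b), permL σ l = l' := by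
  refine ⟨fun i => if hi : i < l.length then Equiv.swap l[i] (l'[i]'(h ▸ hi)) else 1, ?_⟩
  apply List.ext_getElem
  · simp [permL, h]
  · intro i h1 h2
    have h3 : i < l.length := by simpa [permL] using h1
    simp [permL, h3]

theorem exists_kids (hreg : G.IsRegularOfDegree (b + 1)) : Nonempty (Kids G b) := by
  classical
  have hc : ∀ D : G.Dart, Fintype.card ((G.neighborFinset D.fst).erase D.snd) = b := by
    intro D
    rw [Fintype.card_coe, Finset.card_erase_of_mem (by simp),
      SimpleGraph.card_neighborFinset_eq_degree, hreg.degree_eq, Nat.add_sub_cancel]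
  let e : ∀ D : G.Dart, Fin b ≃ ((G.neighborFinset D.fst).erase D.snd) :=
    fun D => (Fintype.equivFinOfCardEq (hc D)).symm
  have hmem : ∀ D a, (e D a : V) ≠ D.snd ∧ G.Adj D.fst (e D a) := fun D a => by
    have := Finset.mem_erase.1 (e D a).2
    exact ⟨this.1, (SimpleGraph.mem_neighborFinset _ _ _).1 this.2⟩
  refine ⟨⟨fun D a => ⟨((e D a : V), D.fst), (hmem D a).2.symm⟩, fun D a => rfl,
    fun D a => (hmem D a).1, fun D a a' h => ?_, fun D v hv hne => ?_⟩⟩
  · apply (e D).injective
    apply Subtype.ext
    exact congrArg (fun D : G.Dart => D.fst) h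
  · refine ⟨(e D).symm ⟨v, by simpa using ⟨hne, hv.symm⟩⟩, ?_⟩
    simp

theorem countable_of_connected (hc : G.Connected) : Countable V := by
  obtain ⟨o⟩ := hc.nonempty
  rw [← Set.countable_univ_iff]
  refine (Set.countable_iUnion fun R : ℕ => (ball G o R).countable_toSet).mono fun x _ => ?_
  exact Set.mem_iUnion.2 ⟨G.dist o x, (mem_ball_aux hc).2 le_rfl⟩

theorem mem_ball (hc : G.Connected) {o x : V} {R : ℕ} : x ∈ ball G o R ↔ G.dist o x ≤ R := by
  exact mem_ball_aux hc

theorem iso_dist (hc : G.Connected) (g : G ≃g G) (x y : V) : G.dist (g x) (g y) = G.dist x y := by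
  have h : ∀ (g : G ≃g G) (x y : V), G.dist (g x) (g y) ≤ G.dist x y := by
    intro g x y
    obtain ⟨p, hp⟩ := hc.exists_walk_length_eq_dist x y
    have := SimpleGraph.dist_le (p.map g.toHom)
    rwa [SimpleGraph.Walk.length_map, hp] at this
  refine le_antisymm (h g x y) ?_
  simpa using h g.symm (g x) (g y)

theorem ball_map (hc : G.Connected) (g : G ≃g G) (o : V) (R : ℕ) :
    ball G (g o) R = (ball G o R).map g.toEquiv.toEmbedding := by
  ext x
  obtain ⟨y, rfl⟩ := g.surjective x
  rw [mem_ball hc, iso_dist hc, ← mem_ball hc]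
  exact (Finset.mem_map' g.toEquiv.toEmbedding).symm

theorem mem_side_mapD (hc : G.Connected) (g : G ≃g G) (D : G.Dart) (x : V) :
    g x ∈ side (mapD g D) ↔ x ∈ side D := by
  simp only [side, Set.mem_ofPred_eq, mapD_fst, mapD_snd, iso_dist hc]

omit [G.LocallyFinite] in
theorem ed_mapD (g : G ≃g G) (D : G.Dart) : ed (mapD g D) = g.mapEdgeSet (ed D) := by
  rfl

/-- The number of edges in a ball is bounded uniformly in the centre. -/
theorem exists_card_EF_ball (hreg : G.IsRegularOfDegree (b + 1)) (R : ℕ) :
    ∃ N : ℕ, ∀ o, (EF G (ball G o R)).card ≤ N := by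
  classical
  have h : ∀ R : ℕ, ∀ o, (ball G o R).card ≤ (b + 2) ^ R := by
    intro R o
    induction R with
    | zero => simp [ball_zero]
    | succ R ih =>
      rw [ball_succ]
      refine (Finset.card_union_le _ _).trans ?_
      have h2 : ((ball G o R).biUnion fun v => G.neighborFinset v).card
          ≤ (ball G o R).card * (b + 1) := by
        refine Finset.card_biUnion_le.trans (le_of_eq ?_)
        simp [hreg.degree_eq]
      calc _ ≤ (ball G o R).card + (ball G o R).card * (b + 1) := by convert Nat.add_le_add_left h2 _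
        _ = (ball G o R).card * (b + 2) := by ring
        _ ≤ _ := by rw [pow_succ]; exact Nat.mul_le_mul_right _ ih
  refine ⟨((b + 2) ^ R + 1).choose 2, fun o => ?_⟩
  rw [EF, Finset.card_subtype]
  refine (Finset.card_filter_le _ _).trans ?_
  rw [Finset.card_sym2]
  exact Nat.choose_le_choose _ (Nat.add_le_add_right (h R o) 1)

theorem card_neighborSet (hreg : G.IsRegularOfDegree (b + 1)) (o : V) :
    Fintype.card (G.neighborSet o) = b + 1 := by
  rw [← hreg.degree_eq o, ← SimpleGraph.card_neighborSet_eq_degree]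

section
variable (hT : G.IsTree)
include hT

theorem fst_mem_side (D : G.Dart) : D.fst ∈ side D := by
  simp only [side, Set.mem_ofPred_eq, SimpleGraph.dist_self]
  rw [SimpleGraph.dist_eq_one_iff_adj.2 D.adj]
  exact one_pos

theorem snd_not_mem_side (D : G.Dart) : D.snd ∉ side D := by
  simp [side]

theorem dist_snd_of_mem_side {D : G.Dart} {x : V} (hx : x ∈ side D) :
    G.dist x D.snd = G.dist x D.fst + 1 := by
  have h := hT.dist_eq_dist_add_one_of_adj x D.adj
  have h2 : G.dist x D.fst < G.dist x D.snd := hx
  omega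

theorem dist_fst_of_not_mem_side {D : G.Dart} {x : V} (hx : x ∉ side D) :
    G.dist x D.fst = G.dist x D.snd + 1 := by
  have h := hT.dist_eq_dist_add_one_of_adj x D.adj
  have h2 : ¬ G.dist x D.fst < G.dist x D.snd := hx
  omega

theorem mem_side_symm (D : G.Dart) (x : V) : x ∈ side D.symm ↔ x ∉ side D := by
  have h := hT.dist_eq_dist_add_one_of_adj x D.adj
  change G.dist x D.snd < G.dist x D.fst ↔ ¬ G.dist x D.fst < G.dist x D.snd
  omega

/-- Only the edge of `D` joins the two sides. -/
theorem side_adj_iff (D : G.Dart) {u v : V} (h : G.Adj u v) (hne : s(u, v) ≠ D.edge) :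
    u ∈ side D ↔ v ∈ side D := by
  have key : ∀ {u v : V}, G.Adj u v → s(u, v) ≠ D.edge → u ∈ side D → v ∈ side D := by
    intro u v h hne hu
    by_contra hv
    have h1 := dist_snd_of_mem_side hT hu
    have h2 := dist_fst_of_not_mem_side hT hv
    have h3 := hT.dist_eq_dist_add_one_of_adj D.fst h
    have h4 := hT.dist_eq_dist_add_one_of_adj D.snd h
    rw [SimpleGraph.dist_comm (v := D.snd), SimpleGraph.dist_comm (v := D.fst)] at h1 h2
    rcases Nat.eq_zero_or_pos (G.dist D.snd v) with h0 | h0
    · have e1 : D.snd = v := hT.connected.dist_eq_zero_iff.1 h0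
      have e2 : D.fst = u := hT.connected.dist_eq_zero_iff.1 (by omega)
      exact hne (by rw [← e1, ← e2]; rfl)
    · obtain ⟨w, hw, hw2⟩ := exists_pred hT.connected (x := D.snd) (v := v)
        (n := G.dist D.snd v - 1) (by omega)
      have h5 := hT.dist_eq_dist_add_one_of_adj w D.adj
      have h6 := hT.dist_eq_dist_add_one_of_adj D.fst hw
      rw [SimpleGraph.dist_comm (v := D.snd), SimpleGraph.dist_comm (v := D.fst)] at h5
      have e : w = u := pred_unique hT (x := D.fst) hw h (by omega) (by omega)
      subst e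
      omega
  exact ⟨key h hne, key h.symm (by rwa [Sym2.eq_swap])⟩

variable (K : Kids G b)

theorem side_kid_subset (D : G.Dart) (a : Fin b) : side (K.kid D a) ⊆ side D := by
  intro x hx
  by_contra hx'
  have h1 := dist_snd_of_mem_side hT hx
  have h2 := dist_fst_of_not_mem_side hT hx'
  rw [K.snd_kid] at h1
  exact K.fst_ne D a (pred_unique hT (x := x) (K.snd_kid D a ▸ (K.kid D a).adj) D.adj.symm
    h1.symm h2.symm)

theorem side_kid_disjoint (D : G.Dart) {a a' : Fin b} (h : a ≠ a') :
    Disjoint (side (K.kid D a)) (side (K.kid D a')) := by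
  rw [Set.disjoint_left]
  intro x hx hx'
  have h1 := dist_snd_of_mem_side hT hx
  have h2 := dist_snd_of_mem_side hT hx'
  rw [K.snd_kid] at h1 h2
  have e := pred_unique hT (x := x) (K.snd_kid D a ▸ (K.kid D a).adj)
    (K.snd_kid D a' ▸ (K.kid D a').adj) h1.symm h2.symm
  refine h (K.inj D (SimpleGraph.Dart.ext _ _ (Prod.ext e ?_)))
  exact (K.snd_kid D a).trans (K.snd_kid D a').symm

theorem side_cases {D : G.Dart} {x : V} (hx : x ∈ side D) :
    x = D.fst ∨ ∃ a, x ∈ side (K.kid D a) := by
  rcases Nat.eq_zero_or_pos (G.dist x D.fst) with h0 | h0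
  · exact Or.inl (hT.connected.dist_eq_zero_iff.1 h0)
  · obtain ⟨u, hu, hu2⟩ := exists_pred hT.connected (x := x) (v := D.fst)
      (n := G.dist x D.fst - 1) (by omega)
    have h1 := dist_snd_of_mem_side hT hx
    obtain ⟨a, ha⟩ := K.surj D u hu (by rintro rfl; omega)
    refine Or.inr ⟨a, ?_⟩
    change G.dist x _ < G.dist x _
    rw [ha, K.snd_kid]
    omega

theorem side_down_subset (D : G.Dart) (l : List (Fin b)) : side (K.down D l) ⊆ side D := by
  induction l generalizing D with
  | nil => simp
  | cons a l ih => exact (ih _).trans (side_kid_subset hT K D a)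

theorem dist_down_fst {D : G.Dart} {x : V} (hx : x ∉ side D ∨ x = D.fst) (l : List (Fin b)) :
    G.dist x (K.down D l).fst = G.dist x D.fst + l.length := by
  induction l generalizing D with
  | nil => simp
  | cons a l ih =>
    have h1 : x ∉ side (K.kid D a) := by
      intro h
      rcases hx with hx | hx
      · exact hx (side_kid_subset hT K D a h)
      · rw [hx, ← K.snd_kid D a] at h
        exact snd_not_mem_side hT _ h
    rw [K.down_cons, ih (Or.inl h1), dist_fst_of_not_mem_side hT h1, K.snd_kid, List.length_cons]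
    omega

theorem dist_down_snd {D : G.Dart} {x : V} (hx : x ∉ side D) (l : List (Fin b)) :
    G.dist x (K.down D l).snd = G.dist x D.snd + l.length := by
  induction l generalizing D with
  | nil => simp
  | cons a l ih =>
    have h1 : x ∉ side (K.kid D a) := fun h => hx (side_kid_subset hT K D a h)
    rw [K.down_cons, ih h1, K.snd_kid, dist_fst_of_not_mem_side hT hx, List.length_cons]
    omega

theorem fst_down_injective (D : G.Dart) : Function.Injective fun l => (K.down D l).fst := by
  intro l l' h
  induction l generalizing D l' with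
  | nil =>
    have h1 := dist_down_fst hT K (D := D) (Or.inr rfl) l'
    simp only [K.down_nil] at h
    rw [← h, SimpleGraph.dist_self] at h1
    exact (List.length_eq_zero_iff.1 (by omega)).symm
  | cons a l ih =>
    cases l' with
    | nil =>
      have h1 := dist_down_fst hT K (D := D) (Or.inr rfl) (a :: l)
      simp only [K.down_nil] at h
      rw [h, SimpleGraph.dist_self, List.length_cons] at h1
      omega
    | cons a' l' =>
      simp only [K.down_cons] at h
      have h1 := side_down_subset hT K (K.kid D a) l (fst_mem_side hT _)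
      have h2 := side_down_subset hT K (K.kid D a') l' (fst_mem_side hT _)
      rw [← h] at h2
      have e : a = a' := by
        by_contra hne
        exact Set.disjoint_left.1 (side_kid_disjoint hT K D hne) h1 h2
      subst e
      rw [ih _ h]

theorem ed_down_injective (D : G.Dart) : Function.Injective fun l => ed (K.down D l) := by
  intro l l' h
  have h1 : s((K.down D l).fst, (K.down D l).snd) = s((K.down D l').fst, (K.down D l').snd) :=
    congrArg Subtype.val h
  rcases Sym2.eq_iff.1 h1 with ⟨h2, -⟩ | ⟨h2, h3⟩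
  · exact fst_down_injective hT K D h2
  · have a1 := dist_down_fst hT K (Or.inl (snd_not_mem_side hT D)) l
    have a2 := dist_down_fst hT K (Or.inl (snd_not_mem_side hT D)) l'
    have a3 := dist_down_snd hT K (snd_not_mem_side hT D) l
    have a4 := dist_down_snd hT K (snd_not_mem_side hT D) l'
    have a5 := dist_fst_of_not_mem_side hT (snd_not_mem_side hT D)
    rw [h2] at a1
    rw [h3] at a3
    omega

theorem exists_down_of_mem_side {D : G.Dart} {x : V} (hx : x ∈ side D) :
    ∃ l, (K.down D l).fst = x := by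
  obtain ⟨n, hn⟩ : ∃ n, G.dist x D.fst = n := ⟨_, rfl⟩
  induction n generalizing D with
  | zero => exact ⟨[], (hT.connected.dist_eq_zero_iff.1 hn).symm⟩
  | succ n ih =>
    rcases side_cases hT K hx with rfl | ⟨a, ha⟩
    · exact ⟨[], rfl⟩
    · have h1 := dist_snd_of_mem_side hT ha
      rw [K.snd_kid] at h1
      obtain ⟨l, hl⟩ := ih ha (by omega)
      exact ⟨a :: l, hl⟩

/-- Addresses of all vertices relative to a dart. -/
noncomputable def addr (D : G.Dart) : List (Fin b) ⊕ List (Fin b) ≃ V :=
  Equiv.ofBijective (Sum.elim (fun l => (K.down D l).fst) (fun l => (K.down D.symm l).fst)) <| by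
    constructor
    · have hne : ∀ l l', (K.down D l).fst ≠ (K.down D.symm l').fst := by
        intro l l' h
        have h1 := side_down_subset hT K D l (fst_mem_side hT _)
        have h2 := side_down_subset hT K D.symm l' (fst_mem_side hT _)
        rw [mem_side_symm hT, ← h] at h2
        exact h2 h1
      rintro (l | l) (l' | l') h
      · exact congrArg _ (fst_down_injective hT K D h)
      · exact absurd h (hne l l')
      · exact absurd h.symm (hne l' l)
      · exact congrArg _ (fst_down_injective hT K D.symm h)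
    · intro x
      by_cases hx : x ∈ side D
      · obtain ⟨l, hl⟩ := exists_down_of_mem_side hT K hx
        exact ⟨Sum.inl l, hl⟩
      · obtain ⟨l, hl⟩ := exists_down_of_mem_side hT K ((mem_side_symm hT D x).2 hx)
        exact ⟨Sum.inr l, hl⟩

theorem addr_inl (D : G.Dart) (l : List (Fin b)) : addr hT K D (Sum.inl l) = (K.down D l).fst :=
  rfl

theorem addr_inr (D : G.Dart) (l : List (Fin b)) :
    addr hT K D (Sum.inr l) = (K.down D.symm l).fst := rfl

theorem dist_addr_inl_fst (D : G.Dart) (l : List (Fin b)) :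
    G.dist (addr hT K D (Sum.inl l)) D.fst = l.length := by
  rw [SimpleGraph.dist_comm, addr_inl, dist_down_fst hT K (Or.inr rfl), SimpleGraph.dist_self,
    zero_add]

theorem dist_addr_inl_snd (D : G.Dart) (l : List (Fin b)) :
    G.dist (addr hT K D (Sum.inl l)) D.snd = l.length + 1 := by
  rw [← dist_addr_inl_fst hT K D l]
  exact dist_snd_of_mem_side hT (side_down_subset hT K D l (fst_mem_side hT _))

theorem dist_addr_inr_fst (D : G.Dart) (l : List (Fin b)) :
    G.dist (addr hT K D (Sum.inr l)) D.fst = l.length + 1 :=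
  dist_addr_inl_snd hT K D.symm l

theorem dist_addr_inr_snd (D : G.Dart) (l : List (Fin b)) :
    G.dist (addr hT K D (Sum.inr l)) D.snd = l.length :=
  dist_addr_inl_fst hT K D.symm l

theorem adj_down_concat (D : G.Dart) (l : List (Fin b)) (a : Fin b) :
    G.Adj (K.down D l).fst (K.down D (l ++ [a])).fst := by
  rw [K.down_append, K.down_cons, K.down_nil, ← K.snd_kid (K.down D l) a]
  exact (K.kid (K.down D l) a).adj.symm

theorem adj_down_cases (D : G.Dart) {l l' : List (Fin b)}
    (h : G.Adj (K.down D l).fst (K.down D l').fst) :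
    (∃ a, l' = l ++ [a]) ∨ ∃ a, l = l' ++ [a] := by
  have key : ∀ {l l' : List (Fin b)}, G.Adj (K.down D l).fst (K.down D l').fst →
      l'.length = l.length + 1 → ∃ a, l' = l ++ [a] := by
    intro l l' h hl
    rcases List.eq_nil_or_concat' l' with rfl | ⟨t, a, rfl⟩
    · simp at hl
    · refine ⟨a, ?_⟩
      have hlen : t.length = l.length := by simpa using hl
      have e := pred_unique hT (x := D.fst) h (adj_down_concat hT K D t a)
        (by simp only [dist_down_fst hT K (D := D) (Or.inr rfl)]; omega)
        (by simp only [dist_down_fst hT K (D := D) (Or.inr rfl)]; omega)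
      rw [fst_down_injective hT K D e]
  have h1 := hT.dist_eq_dist_add_one_of_adj D.fst h
  simp only [dist_down_fst hT K (D := D) (Or.inr rfl)] at h1
  rcases h1 with h1 | h1
  · exact Or.inr (key h.symm (by omega))
  · exact Or.inl (key h (by omega))

theorem adj_transport (D D' : G.Dart) (σ : ℕ → Equiv.Perm (Fin b)) {u v : V} (h : G.Adj u v) :
    G.Adj (addr hT K D' (Sum.map (permL σ) (permL σ) ((addr hT K D).symm u)))
      (addr hT K D' (Sum.map (permL σ) (permL σ) ((addr hT K D).symm v))) := by
  have same : ∀ (D D' : G.Dart) (l l' : List (Fin b)), G.Adj (K.down D l).fst (K.down D l').fst →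
      G.Adj (K.down D' (permL σ l)).fst (K.down D' (permL σ l')).fst := by
    intro D D' l l' h
    rcases adj_down_cases hT K D h with ⟨a, rfl⟩ | ⟨a, rfl⟩
    · rw [permL_concat]; exact adj_down_concat hT K _ _ _
    · rw [permL_concat]; exact (adj_down_concat hT K _ _ _).symm
  have cross : ∀ (l l' : List (Fin b)), G.Adj (K.down D l).fst (K.down D.symm l').fst →
      G.Adj (K.down D' (permL σ l)).fst (K.down D'.symm (permL σ l')).fst := by
    intro l l' h
    have h1 := side_down_subset hT K D l (fst_mem_side hT _)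
    have h2 := side_down_subset hT K D.symm l' (fst_mem_side hT _)
    rw [mem_side_symm hT] at h2
    have h3 : s((K.down D l).fst, (K.down D.symm l').fst) = D.edge := by
      by_contra hne
      exact h2 ((side_adj_iff hT D h hne).1 h1)
    rcases Sym2.eq_iff.1 (show _ = s(D.fst, D.snd) from h3) with ⟨a1, a2⟩ | ⟨a1, -⟩
    · have e1 : l = [] := fst_down_injective hT K D a1
      have e2 : l' = [] := fst_down_injective hT K D.symm a2
      rw [e1, e2, permL_nil]
      exact D'.adj
    · exact absurd (a1 ▸ h1) (snd_not_mem_side hT D)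
  obtain ⟨z, rfl⟩ := (addr hT K D).surjective u
  obtain ⟨z', rfl⟩ := (addr hT K D).surjective v
  rw [Equiv.symm_apply_apply, Equiv.symm_apply_apply]
  rcases z with l | l <;> rcases z' with l' | l'
  · exact same D D' l l' h
  · exact cross l l' h
  · exact (cross l' l h.symm).symm
  · exact same D.symm D'.symm l l' h

include K in
theorem card_side_le (D : G.Dart) (S : Finset V) (j : ℕ)
    (hS : ∀ x ∈ S, x ∈ side D ∧ G.dist x D.fst = j) : S.card ≤ b ^ j := by
  classical
  rw [← card_lists]
  refine le_trans (Finset.card_le_card (t := (lists b j).image fun l => (K.down D l).fst)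
    fun x hx => ?_) Finset.card_image_le
  obtain ⟨l, rfl⟩ := exists_down_of_mem_side hT K (hS x hx).1
  exact Finset.mem_image.2
    ⟨l, mem_lists.2 ((dist_addr_inl_fst hT K D l).symm.trans (hS _ hx).2), rfl⟩

/-- Every edge is reached from `x`. -/
theorem exists_down_ed (x : V) (e : G.edgeSet) :
    ∃ (w : G.neighborSet x) (l : List (Fin b)), ed (K.down (inD x w) l) = e := by
  have key : ∀ u v : V, G.Adj u v → G.dist x u = G.dist x v + 1 →
      ∃ (w : G.neighborSet x) (l : List (Fin b)), (ed (K.down (inD x w) l)).1 = s(u, v) := by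
    intro u v h hd
    obtain ⟨w, hw, hw2⟩ := exists_pred hT.connected (x := u) (v := x) (n := G.dist x v)
      (by rwa [SimpleGraph.dist_comm])
    have hu : u ∈ side (inD x ⟨w, hw.symm⟩) := by
      change G.dist u w < G.dist u x
      rw [SimpleGraph.dist_comm (v := x)]
      omega
    obtain ⟨l, hl⟩ := exists_down_of_mem_side hT K hu
    refine ⟨⟨w, hw.symm⟩, l, ?_⟩
    have hx : x ∉ side (inD x ⟨w, hw.symm⟩) := snd_not_mem_side hT _
    have a1 := dist_down_fst hT K (Or.inl hx) l
    have a2 := dist_down_snd hT K hx l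
    have a3 := dist_fst_of_not_mem_side hT hx
    have e : (K.down (inD x ⟨w, hw.symm⟩) l).snd = v :=
      pred_unique hT (x := x) (hl ▸ (K.down (inD x ⟨w, hw.symm⟩) l).adj.symm) h.symm
        (by rw [hl] at a1; omega) hd.symm
    rw [← hl, ← e]
    rfl
  obtain ⟨e, he⟩ := e
  induction e using Sym2.ind with
  | _ u v =>
    rcases hT.dist_eq_dist_add_one_of_adj x (show G.Adj u v from he) with h | h
    · obtain ⟨w, l, hl⟩ := key u v he h
      exact ⟨w, l, Subtype.ext hl⟩
    · obtain ⟨w, l, hl⟩ := key v u (SimpleGraph.Adj.symm he) h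
      exact ⟨w, l, Subtype.ext (hl.trans Sym2.eq_swap)⟩

/-- Sum over a finite set of edges of a quantity bounded in terms of the distance to `x`. -/
theorem sum_edges_le (hreg : G.IsRegularOfDegree (b + 1)) (x : V) (F : Finset G.edgeSet)
    (φ : G.edgeSet → ℝ) (q : ℕ → ℝ) (hq : ∀ m, 0 ≤ q m)
    (hφ : ∀ (w : G.neighborSet x) (l : List (Fin b)), ed (K.down (inD x w) l) ∈ F →
      φ (ed (K.down (inD x w) l)) ≤ q l.length)
    (Q : ℝ) (hQ : ∀ M, ∑ m ∈ Finset.range M, (b : ℝ) ^ m * q m ≤ Q) :
    ∑ e ∈ F, φ e ≤ (b + 1) * Q := by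
  classical
  choose w l hwl using exists_down_ed hT K x
  set M := F.sup (fun e => (l e).length) + 1 with hM
  have hinj : Function.Injective fun e => (w e, l e) := by
    intro e e' h
    rw [← hwl e, ← hwl e', (Prod.mk.inj h).1, (Prod.mk.inj h).2]
  calc ∑ e ∈ F, φ e ≤ ∑ e ∈ F, q (l e).length := by
        refine Finset.sum_le_sum fun e he => ?_
        have := hφ (w e) (l e) (by rwa [hwl])
        rwa [hwl] at this
    _ = ∑ z ∈ F.image fun e => (w e, l e), q z.2.length := by
        rw [Finset.sum_image hinj.injOn]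
    _ ≤ ∑ z ∈ (Finset.univ : Finset (G.neighborSet x)) ×ˢ (Finset.range M).biUnion (lists b),
          q z.2.length := by
        refine Finset.sum_le_sum_of_subset_of_nonneg (fun z hz => ?_) fun _ _ _ => hq _
        obtain ⟨e, he, rfl⟩ := Finset.mem_image.1 hz
        refine Finset.mem_product.2 ⟨Finset.mem_univ _, Finset.mem_biUnion.2
          ⟨(l e).length, Finset.mem_range.2 (Nat.lt_succ_of_le ?_), mem_lists.2 rfl⟩⟩
        exact Finset.le_sup (f := fun e => (l e).length) he
    _ = (b + 1) * ∑ m ∈ Finset.range M, (b : ℝ) ^ m * q m := by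
        rw [Finset.sum_product]
        simp only [Finset.sum_const, Finset.card_univ, card_neighborSet hreg, nsmul_eq_mul]
        rw [Finset.sum_biUnion]
        · push_cast
          congr 1
          refine Finset.sum_congr rfl fun m _ => ?_
          rw [Finset.sum_congr rfl fun l hl => by rw [mem_lists.1 hl], Finset.sum_const,
            card_lists, nsmul_eq_mul, Nat.cast_pow]
        · intro m _ m' _ hne
          rw [Function.onFun, Finset.disjoint_left]
          intro l h1 h2
          exact hne ((mem_lists.1 h1).symm.trans (mem_lists.1 h2))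
    _ ≤ _ := mul_le_mul_of_nonneg_left (hQ M) (by positivity)

/-- Balls cut branches that point away from the centre exactly. -/
theorem full_ball {o : V} {D : G.Dart} (hD : o ∉ side D ∨ o = D.fst) {R L : ℕ} (hR : 1 ≤ R)
    (hL : G.dist o D.fst + L = R) : Full K (ball G o R) D L := by
  refine ⟨(mem_ball hT.connected).2 ?_, fun l => ?_⟩
  · rcases hD with h | h
    · have := dist_fst_of_not_mem_side hT h
      omega
    · rw [h, SimpleGraph.dist_eq_one_iff_adj.2 D.adj]
      exact hR
  · rw [mem_ball hT.connected, dist_down_fst hT K hD]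
    omega

include K in
/-- Automorphisms act transitively on (dart, vertex) pairs with given distances. -/
theorem exists_iso (D D' : G.Dart) (x x' : V) (h1 : G.dist x D.fst = G.dist x' D'.fst)
    (h2 : G.dist x D.snd = G.dist x' D'.snd) :
    ∃ g : G ≃g G, mapD g D = D' ∧ g x = x' := by
  obtain ⟨z, rfl⟩ := (addr hT K D).surjective x
  obtain ⟨z', rfl⟩ := (addr hT K D').surjective x'
  have hz : ∃ σ : ℕ → Equiv.Perm (Fin b), Sum.map (permL σ) (permL σ) z = z' := by
    rcases z with l | l <;> rcases z' with l' | l' <;>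
      simp only [dist_addr_inl_fst, dist_addr_inl_snd, dist_addr_inr_fst, dist_addr_inr_snd]
        at h1 h2
    · obtain ⟨σ, hσ⟩ := exists_permL h1
      exact ⟨σ, by simp [hσ]⟩
    · omega
    · omega
    · obtain ⟨σ, hσ⟩ := exists_permL h2
      exact ⟨σ, by simp [hσ]⟩
  obtain ⟨σ, rfl⟩ := hz
  have hinv : ∀ σ : ℕ → Equiv.Perm (Fin b), ∀ z : List (Fin b) ⊕ List (Fin b),
      Sum.map (permL fun i => (σ i).symm) (permL fun i => (σ i).symm)
        (Sum.map (permL σ) (permL σ) z) = z := by
    intro σ z
    rcases z with l | l <;> simp [permL_symm]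
  refine ⟨⟨⟨fun v => addr hT K D' (Sum.map (permL σ) (permL σ) ((addr hT K D).symm v)),
    fun v => addr hT K D (Sum.map (permL fun i => (σ i).symm) (permL fun i => (σ i).symm)
      ((addr hT K D').symm v)), fun v => ?_, fun v => ?_⟩, fun {u v} => ⟨fun h => ?_, fun h => ?_⟩⟩,
    ?_, ?_⟩
  · simp only [Equiv.symm_apply_apply, hinv, Equiv.apply_symm_apply]
  · have := hinv (fun i => (σ i).symm) ((addr hT K D').symm v)
    simp only [Equiv.symm_symm] at this
    simp only [Equiv.symm_apply_apply, this, Equiv.apply_symm_apply]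
  · have := adj_transport hT K D' D (fun i => (σ i).symm) h
    simpa only [Equiv.coe_fn_mk, Equiv.symm_apply_apply, hinv, Equiv.apply_symm_apply] using this
  · exact adj_transport hT K D D' σ h
  · refine SimpleGraph.Dart.ext _ _ (Prod.ext ?_ ?_)
    · change addr hT K D' (Sum.map (permL σ) (permL σ) ((addr hT K D).symm D.fst)) = D'.fst
      rw [show D.fst = addr hT K D (Sum.inl []) from rfl, Equiv.symm_apply_apply]
      rfl
    · change addr hT K D' (Sum.map (permL σ) (permL σ) ((addr hT K D).symm D.snd)) = D'.snd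
      rw [show D.snd = addr hT K D (Sum.inr []) from rfl, Equiv.symm_apply_apply]
      rfl
  · change addr hT K D' (Sum.map (permL σ) (permL σ) ((addr hT K D).symm _)) = _
    rw [Equiv.symm_apply_apply]

include K in
/-- The orbit of `x` under the stabiliser of `D` is large. -/
theorem exists_orbit (D : G.Dart) (x : V) :
    ∃ O : Finset V, b ^ (G.dist x D.fst - 1) ≤ O.card ∧
      ∀ x' ∈ O, G.dist x' D.fst = G.dist x D.fst ∧ G.dist x' D.snd = G.dist x D.snd := by
  classical
  obtain ⟨z, rfl⟩ := (addr hT K D).surjective x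
  rcases z with l | l
  · refine ⟨(lists b l.length).image fun l' => addr hT K D (Sum.inl l'), ?_, fun x' hx' => ?_⟩
    · rw [Finset.card_image_of_injective _
        (fun _ _ h => Sum.inl_injective ((addr hT K D).injective h)),
        card_lists, dist_addr_inl_fst]
      cases l with
      | nil => simp
      | cons a l => exact Nat.pow_le_pow_right a.pos (Nat.sub_le _ _)
    · obtain ⟨l', hl', rfl⟩ := Finset.mem_image.1 hx'
      simp only [dist_addr_inl_fst, dist_addr_inl_snd, mem_lists.1 hl', and_self]
  · refine ⟨(lists b l.length).image fun l' => addr hT K D (Sum.inr l'), ?_, fun x' hx' => ?_⟩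
    · rw [Finset.card_image_of_injective _
        (fun _ _ h => Sum.inr_injective ((addr hT K D).injective h)),
        card_lists, dist_addr_inr_fst, Nat.add_sub_cancel]
    · obtain ⟨l', hl', rfl⟩ := Finset.mem_image.1 hx'
      simp only [dist_addr_inr_fst, dist_addr_inr_snd, mem_lists.1 hl', and_self]

include K in
/-- The Schur sum: for vertices `c`, `c'` at distance `k`, the sum over the sphere of radius `j`
around `c` of `b ^ (-(dist x c') / 2)` is at most `C (k + 1) b ^ ((j - k) / 2)`. -/
theorem schur_sum (hb : 2 ≤ b) : ∃ C : ℝ, 0 ≤ C ∧ ∀ (c c' : V) (j : ℕ) (S : Finset V),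
    (∀ x ∈ S, G.dist x c = j) →
      ∑ x ∈ S, (√b)⁻¹ ^ G.dist x c' ≤
        C * (G.dist c c' + 1) * (√b) ^ j * (√b)⁻¹ ^ G.dist c c' := by
  classical
  have hb' : (2 : ℝ) ≤ b := by exact_mod_cast hb
  have ht : 0 < √(b : ℝ) := Real.sqrt_pos.2 (by linarith)
  have htt : ∀ i : ℕ, (b : ℝ) ^ i * (√b)⁻¹ ^ i = √b ^ i := by
    intro i
    rw [← mul_pow]
    congr 1
    field_simp
    exact (Real.sq_sqrt (by linarith)).symm
  refine ⟨2, by norm_num, fun c c' j S hS => ?_⟩
  obtain ⟨k, hk⟩ : ∃ k, G.dist c c' = k := ⟨_, rfl⟩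
  rw [hk]
  induction k generalizing c' S with
  | zero =>
    obtain rfl : c = c' := hT.connected.dist_eq_zero_iff.1 hk
    rw [Finset.sum_congr rfl fun x hx => by rw [hS x hx], Finset.sum_const, nsmul_eq_mul]
    have hc : S.card ≤ 2 * b ^ j := by
      rcases S.eq_empty_or_nonempty with rfl | ⟨x, hx⟩
      · simp
      cases j with
      | zero =>
        have : S ⊆ {c} := fun y hy =>
          Finset.mem_singleton.2 (hT.connected.dist_eq_zero_iff.1 (hS y hy))
        have := Finset.card_le_card this
        simp only [Finset.card_singleton] at this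
        rw [pow_zero]
        omega
      | succ j =>
        obtain ⟨p, hp, -⟩ := exists_pred hT.connected (hS x hx)
        let D : G.Dart := ⟨(c, p), hp.symm⟩
        have h1 := card_side_le hT K D (S.filter (· ∈ side D)) (j + 1) fun y hy =>
          ⟨(Finset.mem_filter.1 hy).2, hS y (Finset.mem_filter.1 hy).1⟩
        have h2 := card_side_le hT K D.symm (S.filter (· ∉ side D)) j fun y hy => by
          obtain ⟨a1, a2⟩ := Finset.mem_filter.1 hy
          refine ⟨(mem_side_symm hT D y).2 a2, ?_⟩
          have a3 := dist_fst_of_not_mem_side hT a2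
          have a4 : G.dist y D.fst = j + 1 := hS y a1
          change G.dist y D.snd = j
          omega
        have h3 := Finset.card_filter_add_card_filter_not (s := S) (· ∈ side D)
        have h4 : b ^ j ≤ b ^ (j + 1) := Nat.pow_le_pow_right (by omega) (by omega)
        omega
    have hc' : (S.card : ℝ) ≤ 2 * (b : ℝ) ^ j := by exact_mod_cast hc
    calc (S.card : ℝ) * (√b)⁻¹ ^ j ≤ 2 * (b : ℝ) ^ j * (√b)⁻¹ ^ j := by gcongr
      _ = _ := by rw [mul_assoc, htt]; simp
  | succ k ih =>
    obtain ⟨p, hp, hpk⟩ := exists_pred hT.connected hk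
    let D : G.Dart := ⟨(c', p), hp.symm⟩
    have hc : c ∉ side D := by
      change ¬ G.dist c c' < G.dist c p
      omega
    rw [← Finset.sum_filter_add_sum_filter_not S (· ∈ side D)]
    have h1 : ∑ x ∈ S.filter (· ∈ side D), (√b)⁻¹ ^ G.dist x c'
        ≤ (√b) ^ j * (√b)⁻¹ ^ (k + 1) := by
      rcases (S.filter (· ∈ side D)).eq_empty_or_nonempty with h | ⟨x, hx⟩
      · rw [h, Finset.sum_empty]
        positivity
      have hd : ∀ y ∈ S.filter (· ∈ side D), G.dist y c' + (k + 1) = j := by
        intro y hy
        obtain ⟨a1, a2⟩ := Finset.mem_filter.1 hy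
        obtain ⟨l, rfl⟩ := exists_down_of_mem_side hT K a2
        have a3 := dist_down_fst hT K (Or.inl hc) l
        have a4 := dist_down_fst hT K (D := D) (Or.inr rfl) l
        have a5 := hS _ a1
        rw [SimpleGraph.dist_self] at a4
        rw [SimpleGraph.dist_comm] at a5 ⊢
        change G.dist c' _ = _ at a4
        change _ = G.dist c c' + _ at a3
        omega
      obtain ⟨i, rfl⟩ : ∃ i, j = i + (k + 1) := ⟨_, (hd x hx).symm⟩
      have hd' : ∀ y ∈ S.filter (· ∈ side D), G.dist y c' = i := fun y hy => by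
        have := hd y hy
        omega
      have h2 := card_side_le hT K D (S.filter (· ∈ side D)) i fun y hy =>
        ⟨(Finset.mem_filter.1 hy).2, hd' y hy⟩
      have h2' : ((S.filter (· ∈ side D)).card : ℝ) ≤ (b : ℝ) ^ i := by exact_mod_cast h2
      rw [Finset.sum_congr rfl fun x hx => by rw [hd' x hx], Finset.sum_const, nsmul_eq_mul]
      calc _ ≤ (b : ℝ) ^ i * (√b)⁻¹ ^ i := by gcongr
        _ = _ := by
          rw [htt, pow_add, mul_assoc, ← mul_pow, mul_inv_cancel₀ ht.ne', one_pow, mul_one]
    have h2 : ∑ x ∈ S.filter (· ∉ side D), (√b)⁻¹ ^ G.dist x c'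
        = (∑ x ∈ S.filter (· ∉ side D), (√b)⁻¹ ^ G.dist x p) * (√b)⁻¹ := by
      rw [Finset.sum_mul]
      refine Finset.sum_congr rfl fun x hx => ?_
      have := dist_fst_of_not_mem_side hT (Finset.mem_filter.1 hx).2
      change G.dist x c' = G.dist x p + 1 at this
      rw [this, pow_succ]
    have h3 := ih p (S.filter (· ∉ side D)) (fun x hx => hS x (Finset.mem_filter.1 hx).1) hpk
    have h4 := mul_le_mul_of_nonneg_right h3 (inv_pos.2 ht).le
    rw [h2]
    have h5 : 0 ≤ (√(b : ℝ)) ^ j * (√b)⁻¹ ^ (k + 1) := by positivity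
    push_cast
    rw [pow_succ] at h1 h5 ⊢
    nlinarith

end

end Crest.Agent.R160
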