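import Crest.Agent.R160.Spine
import Crest.Agent.R160.Flip

/-!
Row 160: in the subcritical regime the chain in a large volume is close to the chain in a ball.
-/

set_option autoImplicit false
set_option linter.unusedSectionVars false
set_option linter.unusedVariables false
set_option maxHeartbeats 400000

open MeasureTheory ProbabilityTheory Filter Topology
open scoped ENNReal

namespace Crest.Agent.R160

universe u

variable {V : Type u} {G : SimpleGraph V} [G.LocallyFinite] {b : ℕ}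

/-- Mean square distance of the magnetisations of two chains. -/
noncomputable def Dm (G : SimpleGraph V) (Λ Λ' : Finset V) (β : ℝ) (p s s' k : ℕ) (x : V) : ℝ :=
  ∫ ω, (mag G Λ (β * (1 - k / 2 ^ p)) (chain G Λ β p s ω k) x -
    mag G Λ' (β * (1 - k / 2 ^ p)) (chain G Λ' β p s' ω k) x) ^ 2 ∂POm G.edgeSet

omit [G.LocallyFinite] in
lemma integrable_Dm (Λ Λ' : Finset V) (β J : ℝ) (p s s' k : ℕ) (x : V) :
    Integrable (fun ω => (mag G Λ J (chain G Λ β p s ω k) x -
      mag G Λ' J (chain G Λ' β p s' ω k) x) ^ 2) (POm G.edgeSet) := by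
  refine integrable_of_abs_le ((((measurable_mag Λ J x).comp (measurable_chain Λ β p s k)).sub
    ((measurable_mag Λ' J x).comp (measurable_chain Λ' β p s' k))).pow_const 2) 4 fun ω => ?_
  have h1 := abs_le.1 (abs_mag_le Λ J (chain G Λ β p s ω k) x)
  have h2 := abs_le.1 (abs_mag_le Λ' J (chain G Λ' β p s' ω k) x)
  rw [abs_of_nonneg (sq_nonneg _)]
  nlinarith

omit [G.LocallyFinite] in
lemma Dm_nonneg (Λ Λ' : Finset V) (β : ℝ) (p s s' k : ℕ) (x : V) : 0 ≤ Dm G Λ Λ' β p s s' k x :=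
  integral_nonneg fun _ => sq_nonneg _

omit [G.LocallyFinite] in
lemma Dm_succ (Λ Λ' : Finset V) {β : ℝ} (hβ : 0 ≤ β) (hβ1 : β ≤ 1) (p : ℕ) {s s' k : ℕ}
    (hs : s ≤ k) (hs' : s' ≤ k) (x : V) {F : Finset G.edgeSet} (hF : EF G Λ ⊆ F)
    (hF' : EF G Λ' ⊆ F) :
    Dm G Λ Λ' β p s s' (k + 1) x ≤ Dm G Λ Λ' β p s s' k x +
      2 * (β / 2 ^ p) * ∑ e ∈ F, ∫ ω, (Gam G Λ (β * (1 - k / 2 ^ p)) (chain G Λ β p s ω k) x e -
        Gam G Λ' (β * (1 - k / 2 ^ p)) (chain G Λ' β p s' ω k) x e) ^ 2 ∂POm G.edgeSet +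
      Cerr * (F.card : ℝ) ^ 4 * (β / 2 ^ p) ^ 2 := by
  have := pair_chain Λ β p s Λ' hβ hβ1 s' k hs hs' x x (X := fun _ => 0) measurable_const (M := 0)
    (by simp) (fun _ _ _ => rfl) hF hF'
  simp only [sub_zero] at this
  exact this

lemma Pm_sub_sq_fine (hT : G.IsTree) (K : Kids G b) (Λ Λ' : Finset V) {J : ℝ} (hJ : 0 ≤ J)
    (hθ : Real.tanh J ^ 2 ≤ 1 / 2) (y y' : G.edgeSet → ℝ) (D : G.Dart) (l : List (Fin b)) (m : ℕ)
    (h : ∀ j < m, ed (K.down D (l.take j)) ∈ EF G Λ)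
    (h' : ∀ j < m, ed (K.down D (l.take j)) ∈ EF G Λ') :
    (Pm K Λ J y D l m - Pm K Λ' J y' D l m) ^ 2 ≤
      C1 * (Real.tanh J ^ 2) ^ m * (4 * (mag G Λ J y D.snd - mag G Λ' J y' D.snd) ^ 2 +
        392 * (m + 1) * ∑ j ∈ Finset.range m,
          ((mag G Λ J y (K.down D (l.take j)).fst - mag G Λ' J y' (K.down D (l.take j)).fst) ^ 2 +
          (mag G Λ J y (K.down D (l.take j)).snd - mag G Λ' J y' (K.down D (l.take j)).snd) ^ 2)) := by
  refine (Pm_sub_sq_le K Λ Λ' hJ hθ y y' D l m h h' (exp_neg_sum_le_one m _)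
    (exp_neg_sum_le_one m _)).trans ?_
  rw [mul_one, add_assoc]
  refine mul_le_mul_of_nonneg_left (add_le_add le_rfl ?_) (mul_nonneg C1_nonneg (by positivity))
  have h1 : (∑ j ∈ Finset.range m, (cav Λ J y (K.down D (l.take j)) ^ 2 -
      cav Λ' J y' (K.down D (l.take j)) ^ 2)) ^ 2 ≤ m * ∑ j ∈ Finset.range m,
      (cav Λ J y (K.down D (l.take j)) ^ 2 - cav Λ' J y' (K.down D (l.take j)) ^ 2) ^ 2 := by
    have := sq_sum_le_card_mul_sum_sq (s := Finset.range m) (f := fun j =>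
      cav Λ J y (K.down D (l.take j)) ^ 2 - cav Λ' J y' (K.down D (l.take j)) ^ 2)
    rwa [Finset.card_range] at this
  have h2 : ∑ j ∈ Finset.range m,
      (cav Λ J y (K.down D (l.take j)) ^ 2 - cav Λ' J y' (K.down D (l.take j)) ^ 2) ^ 2 ≤
      392 * ∑ j ∈ Finset.range m,
        ((mag G Λ J y (K.down D (l.take j)).fst - mag G Λ' J y' (K.down D (l.take j)).fst) ^ 2 +
        (mag G Λ J y (K.down D (l.take j)).snd - mag G Λ' J y' (K.down D (l.take j)).snd) ^ 2) := by
    rw [Finset.mul_sum]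
    refine Finset.sum_le_sum fun j hj => (sq_sub_sq_sq_le (abs_cav_le _ _ _ _)
      (abs_cav_le _ _ _ _)).trans ?_
    have := cav_sub_sq_le hT hJ hθ y y' (h j (Finset.mem_range.1 hj)) (h' j (Finset.mem_range.1 hj))
    linarith
  have h3 : (0 : ℝ) ≤ m := by positivity
  nlinarith [mul_le_mul_of_nonneg_left h2 h3]

lemma integral_Pm_fine (hT : G.IsTree) (K : Kids G b) (Λ Λ' : Finset V) (β : ℝ) (p s s' k : ℕ)
    (hJ : 0 ≤ β * (1 - k / 2 ^ p)) (hθ : Real.tanh (β * (1 - k / 2 ^ p)) ^ 2 ≤ 1 / 2)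
    (D : G.Dart) (l : List (Fin b)) (m : ℕ)
    (h : ∀ j < m, ed (K.down D (l.take j)) ∈ EF G Λ)
    (h' : ∀ j < m, ed (K.down D (l.take j)) ∈ EF G Λ') {B : ℝ} (h0 : Dm G Λ Λ' β p s s' k D.snd ≤ B)
    (h1 : ∀ j < m, Dm G Λ Λ' β p s s' k (K.down D (l.take j)).fst ≤ B)
    (h2 : ∀ j < m, Dm G Λ Λ' β p s s' k (K.down D (l.take j)).snd ≤ B) :
    ∫ ω, (Pm K Λ (β * (1 - k / 2 ^ p)) (chain G Λ β p s ω k) D l m -
        Pm K Λ' (β * (1 - k / 2 ^ p)) (chain G Λ' β p s' ω k) D l m) ^ 2 ∂POm G.edgeSet ≤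
      C1 * (Real.tanh (β * (1 - k / 2 ^ p)) ^ 2) ^ m * (800 * (m + 1) ^ 2 * B) := by
  set J := β * (1 - k / 2 ^ p) with hJ'
  have hB : 0 ≤ B := (Dm_nonneg _ _ _ _ _ _ _ _).trans h0
  have i1 := integrable_Dm (G := G) Λ Λ' β J p s s' k
  have i2 : ∀ j, Integrable (fun ω => (mag G Λ J (chain G Λ β p s ω k) (K.down D (l.take j)).fst -
      mag G Λ' J (chain G Λ' β p s' ω k) (K.down D (l.take j)).fst) ^ 2 +
      (mag G Λ J (chain G Λ β p s ω k) (K.down D (l.take j)).snd -
      mag G Λ' J (chain G Λ' β p s' ω k) (K.down D (l.take j)).snd) ^ 2) (POm G.edgeSet) :=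
    fun j => (i1 _).add (i1 _)
  have i3 := (integrable_finsetSum (Finset.range m) fun j _ => i2 j).const_mul (392 * (m + 1) : ℝ)
  have i4 := ((i1 D.snd).const_mul 4).add i3
  refine (integral_mono_of_nonneg (ae_of_all _ fun _ => sq_nonneg _)
    (i4.const_mul (C1 * (Real.tanh J ^ 2) ^ m))
    (ae_of_all _ fun ω => Pm_sub_sq_fine hT K Λ Λ' hJ hθ _ _ D l m h h')).trans ?_
  rw [integral_const_mul]
  refine mul_le_mul_of_nonneg_left ?_ (mul_nonneg C1_nonneg (by positivity))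
  simp only [Pi.add_apply]
  rw [integral_add ((i1 D.snd).const_mul 4) i3, integral_const_mul, integral_const_mul,
    integral_finsetSum _ fun j _ => i2 j]
  have h3 : ∑ j ∈ Finset.range m, ∫ ω, ((mag G Λ J (chain G Λ β p s ω k) (K.down D (l.take j)).fst -
      mag G Λ' J (chain G Λ' β p s' ω k) (K.down D (l.take j)).fst) ^ 2 +
      (mag G Λ J (chain G Λ β p s ω k) (K.down D (l.take j)).snd -
      mag G Λ' J (chain G Λ' β p s' ω k) (K.down D (l.take j)).snd) ^ 2) ∂POm G.edgeSet ≤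
      m * (2 * B) := by
    refine (Finset.sum_le_card_nsmul _ _ (2 * B) fun j hj => ?_).trans (by simp)
    rw [integral_add (i1 _) (i1 _), two_mul]
    exact add_le_add (h1 j (Finset.mem_range.1 hj)) (h2 j (Finset.mem_range.1 hj))
  have h4 : (0 : ℝ) ≤ m := by positivity
  have h5 := mul_le_mul_of_nonneg_left h3 (by positivity : (0 : ℝ) ≤ 392 * (m + 1))
  unfold Dm at h0
  nlinarith [mul_nonneg h4 hB, mul_nonneg (mul_nonneg h4 h4) hB]

omit [G.LocallyFinite] in
lemma integrable_Pm_sub (K : Kids G b) (Λ Λ' : Finset V) (β : ℝ) (p s s' k : ℕ) {J : ℝ}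
    (hJ : 0 ≤ J) (hθ : Real.tanh J ^ 2 ≤ 1 / 2) (D : G.Dart) (l : List (Fin b)) (m : ℕ) :
    Integrable (fun ω => (Pm K Λ J (chain G Λ β p s ω k) D l m -
      Pm K Λ' J (chain G Λ' β p s' ω k) D l m) ^ 2) (POm G.edgeSet) := by
  refine integrable_of_abs_le ((((measurable_Pm K Λ J D l m).comp (measurable_chain Λ β p s k)).sub
    ((measurable_Pm K Λ' J D l m).comp (measurable_chain Λ' β p s' k))).pow_const 2)
    ((Real.tanh J ^ m) ^ 2) fun ω => ?_
  have h1 := Pm_mem K Λ hJ hθ (chain G Λ β p s ω k) D l m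
  have h2 := Pm_mem K Λ' hJ hθ (chain G Λ' β p s' ω k) D l m
  rw [abs_of_nonneg (sq_nonneg _)]
  exact sq_le_sq' (by linarith) (by linarith)

lemma integral_Gam_le (hT : G.IsTree) (K : Kids G b) (Λ Λ' : Finset V) (β : ℝ) (p s s' k : ℕ)
    {J : ℝ} (hJ : 0 ≤ J) (hθ : Real.tanh J ^ 2 ≤ 1 / 2) (D : G.Dart) (l : List (Fin b))
    (h : ed (K.down D l) ∈ EF G Λ) (h' : ed (K.down D l) ∈ EF G Λ') :
    ∫ ω, (Gam G Λ J (chain G Λ β p s ω k) D.snd (ed (K.down D l)) -
        Gam G Λ' J (chain G Λ' β p s' ω k) D.snd (ed (K.down D l))) ^ 2 ∂POm G.edgeSet ≤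
      2 * ∫ ω, (Pm K Λ J (chain G Λ β p s ω k) D l (l.length + 1) -
        Pm K Λ' J (chain G Λ' β p s' ω k) D l (l.length + 1)) ^ 2 ∂POm G.edgeSet +
      2 * ∫ ω, (Pm K Λ J (chain G Λ β p s ω k) D l l.length -
        Pm K Λ' J (chain G Λ' β p s' ω k) D l l.length) ^ 2 ∂POm G.edgeSet := by
  have i1 := fun m => (integrable_Pm_sub K Λ Λ' β p s s' k hJ hθ D l m).const_mul 2
  rw [← integral_const_mul, ← integral_const_mul, ← integral_add (i1 _) (i1 _)]
  refine integral_mono_of_nonneg (ae_of_all _ fun _ => sq_nonneg _) ((i1 _).add (i1 _))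
    (ae_of_all _ fun ω => ?_)
  simp only
  rw [Gam_down hT K Λ J _ D l h, Gam_down hT K Λ' J _ D l h']
  nlinarith [sq_nonneg ((Pm K Λ J (chain G Λ β p s ω k) D l (l.length + 1) -
    Pm K Λ' J (chain G Λ' β p s' ω k) D l (l.length + 1)) -
    (Pm K Λ J (chain G Λ β p s ω k) D l l.length - Pm K Λ' J (chain G Λ' β p s' ω k) D l l.length))]

lemma integral_Gam_crude (hT : G.IsTree) (K : Kids G b) (Λ Λ' : Finset V) (β : ℝ) (p s s' k : ℕ)
    {J : ℝ} (hJ : 0 ≤ J) (hθ : Real.tanh J ^ 2 ≤ 1 / 2) (D : G.Dart) (l : List (Fin b)) :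
    ∫ ω, (Gam G Λ J (chain G Λ β p s ω k) D.snd (ed (K.down D l)) -
        Gam G Λ' J (chain G Λ' β p s' ω k) D.snd (ed (K.down D l))) ^ 2 ∂POm G.edgeSet ≤
      4 * (Real.tanh J ^ 2) ^ l.length := by
  refine (integral_mono_of_nonneg (ae_of_all _ fun _ => sq_nonneg _) (integrable_const _)
    (ae_of_all _ fun ω => Gam_sub_sq_crude hT K Λ Λ' hJ hθ _ _ D l)).trans ?_
  simp

theorem volume_bound (hT : G.IsTree) (K : Kids G b) (hreg : G.IsRegularOfDegree (b + 1))
    (hb : 2 ≤ b) {β : ℝ} (hβ : 0 ≤ β) (hβ1 : β ≤ 1) {g : ℝ} (hg0 : 0 < g) (hg1 : g < 1) (p s : ℕ)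
    (hsub : ∀ k : ℕ, s ≤ k → k ≤ 2 ^ p → b * Real.tanh (β * (1 - k / 2 ^ p)) ^ 2 ≤ g ^ 2)
    (x₀ : V) (R₀ : ℕ) {Λ : Finset V} (hΛ : ball G x₀ R₀ ⊆ Λ) (j : ℕ) (hj : s + j ≤ 2 ^ p) (x : V) :
    Dm G Λ (ball G x₀ R₀) β p s s (s + j) x ≤
      (1 + β / 2 ^ p * (2 * (b + 1) * (2 / (1 - g) ^ 3) * (4800 * C1 + 1) / g)) ^ j *
        (4 * (g ^ R₀ / g ^ G.dist x₀ x) + j * (Cerr * ((EF G Λ).card : ℝ) ^ 4 * (β / 2 ^ p) ^ 2)) := by
  set a := β / 2 ^ p with ha
  set S := 2 / (1 - g) ^ 3 with hS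
  set L := 2 * (b + 1) * S * (4800 * C1 + 1) / g with hL
  set Er := Cerr * ((EF G Λ).card : ℝ) ^ 4 * a ^ 2 with hEr
  have hC1 := C1_nonneg
  have ha0 : 0 ≤ a := by positivity
  have hS0 : 0 ≤ S := by
    have : 0 < 1 - g := by linarith
    positivity
  have hL0 : 0 ≤ L := by positivity
  have hEr0 : 0 ≤ Er := by
    have := Cerr_nonneg
    positivity
  have hone : ∀ d : ℕ, R₀ ≤ d → 1 ≤ g ^ R₀ / g ^ d := fun d hd =>
    (one_le_div (by positivity)).2 (pow_le_pow_of_le_one hg0.le hg1.le hd)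
  induction j generalizing x with
  | zero =>
    simp only [add_zero, pow_zero, one_mul, Nat.cast_zero, zero_mul, Dm,
      chain_of_le _ β p s _ le_rfl, integral_const, probReal_univ, smul_eq_mul]
    by_cases hx : x ∈ ball G x₀ R₀
    · rw [mag_zero hT _ _ hx, mag_zero hT _ _ (hΛ hx), sub_self]
      simp only [ne_eq, OfNat.ofNat_ne_zero, not_false_eq_true, zero_pow]
      positivity
    · rw [mem_ball hT.connected] at hx
      have h1 := abs_le.1 (abs_mag_le (G := G) Λ (β * (1 - s / 2 ^ p)) 0 x)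
      have h2 := abs_le.1 (abs_mag_le (G := G) (ball G x₀ R₀) (β * (1 - s / 2 ^ p)) 0 x)
      have h3 := hone (G.dist x₀ x) (by omega)
      nlinarith
  | succ j ih =>
    have ih' := ih (by omega)
    set T := (1 + a * L) ^ j with hT'
    have hT1 : 1 ≤ T := one_le_pow₀ (by nlinarith [mul_nonneg ha0 hL0])
    set w := g ^ R₀ / g ^ G.dist x₀ x with hw
    have hw0 : 0 ≤ w := by positivity
    have hk : ((s + j : ℕ) : ℝ) / 2 ^ p ≤ 1 := by
      rw [div_le_one (by positivity)]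
      exact_mod_cast (by omega : s + j ≤ 2 ^ p)
    have hJ : 0 ≤ β * (1 - ((s + j : ℕ) : ℝ) / 2 ^ p) := mul_nonneg hβ (by linarith)
    have hbθ := hsub (s + j) (by omega) (by omega)
    have hθ : Real.tanh (β * (1 - ((s + j : ℕ) : ℝ) / 2 ^ p)) ^ 2 ≤ 1 / 2 :=
      tanh_sq_le_half hb (hbθ.trans (by nlinarith))
    set θ2 := Real.tanh (β * (1 - ((s + j : ℕ) : ℝ) / 2 ^ p)) ^ 2 with hθ2
    have hθ0 : 0 ≤ θ2 := sq_nonneg _
    have h1 := Dm_succ (G := G) Λ (ball G x₀ R₀) hβ hβ1 p (Nat.le_add_right s j) (Nat.le_add_right s j) x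
      (Finset.Subset.refl _) (EF_mono hΛ)
    have hB0 : 0 ≤ (4800 * C1 + 1) / g * T * (4 * w + j * Er) := by positivity
    have h2 := sum_edges_le hT K hreg x (EF G Λ) (fun e => ∫ ω,
      (Gam G Λ (β * (1 - ((s + j : ℕ) : ℝ) / 2 ^ p)) (chain G Λ β p s ω (s + j)) x e -
        Gam G (ball G x₀ R₀) (β * (1 - ((s + j : ℕ) : ℝ) / 2 ^ p))
          (chain G (ball G x₀ R₀) β p s ω (s + j)) x e) ^ 2 ∂POm G.edgeSet)
      (fun m => θ2 ^ m * ((m + 1) ^ 2 * ((4800 * C1 + 1) * T * (4 * w / g ^ (m + 1) + j * Er))))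
      (fun m => by positivity) (fun v l hl => ?_)
      (S * ((4800 * C1 + 1) / g * T * (4 * w + j * Er))) fun M => ?_
    · rw [← add_assoc]
      refine h1.trans ?_
      have h3 := mul_le_mul_of_nonneg_left h2 (by positivity : 0 ≤ 2 * a)
      have h4 : 2 * a * ((b + 1) * (S * ((4800 * C1 + 1) / g * T * (4 * w + j * Er)))) =
          a * L * (T * (4 * w + j * Er)) := by
        rw [hL]
        ring
      have h5 := ih' x
      rw [pow_succ (1 + a * L), ← hT', Nat.cast_succ j, ← ha, ← hEr]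
      have h6 : Er ≤ T * (1 + a * L) * Er :=
        le_mul_of_one_le_left hEr0 (by nlinarith [mul_nonneg ha0 hL0])
      rw [← hw] at h5
      have h7 : T * (1 + a * L) * (4 * w + (j + 1) * Er) =
          T * (4 * w + j * Er) + a * L * (T * (4 * w + j * Er)) + T * (1 + a * L) * Er := by ring
      linarith
    · have hgm : ∀ m : ℕ, w ≤ w / g ^ m := fun m =>
        le_div_self hw0 (by positivity) (pow_le_one₀ hg0.le hg1.le)
      by_cases hfine : G.dist x₀ x + l.length + 1 ≤ R₀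
      · set B := T * (4 * w / g ^ (l.length + 1) + j * Er) with hB
        have hD : ∀ y, G.dist x y ≤ l.length + 1 → Dm G Λ (ball G x₀ R₀) β p s s (s + j) y ≤ B := by
          intro y hy
          refine (ih' y).trans (mul_le_mul_of_nonneg_left (add_le_add ?_ le_rfl) (by positivity))
          have h7 := hT.connected.dist_triangle (u := x₀) (v := x) (w := y)
          rw [hw, mul_div_assoc, div_div, ← pow_add]
          refine mul_le_mul_of_nonneg_left ?_ (by norm_num)
          exact div_le_div_of_nonneg_left (by positivity) (by positivity)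
            (pow_le_pow_of_le_one hg0.le hg1.le (by omega))
        have hmem : ∀ i ≤ l.length, ed (K.down (inD x v) (l.take i)) ∈ EF G (ball G x₀ R₀) :=
          fun i hi => ed_down_take_mem hT K (inD x v) l hi (by simp only [inD_snd]; omega)
        have hP : ∀ m ≤ l.length + 1, ∫ ω, (Pm K Λ (β * (1 - ((s + j : ℕ) : ℝ) / 2 ^ p))
            (chain G Λ β p s ω (s + j)) (inD x v) l m -
            Pm K (ball G x₀ R₀) (β * (1 - ((s + j : ℕ) : ℝ) / 2 ^ p))
              (chain G (ball G x₀ R₀) β p s ω (s + j)) (inD x v) l m) ^ 2 ∂POm G.edgeSet ≤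
            C1 * θ2 ^ m * (800 * (m + 1) ^ 2 * B) := fun m hm =>
          integral_Pm_fine hT K Λ _ β p s s (s + j) hJ hθ (inD x v) l m
            (fun i hi => EF_mono hΛ (hmem i (by omega))) (fun i hi => hmem i (by omega))
            (hD x (by simp)) (fun i hi => hD _ (by
              have := dist_down_take_fst hT K (inD x v) l (j := i) (by omega)
              simp only [inD_snd] at this
              omega)) (fun i hi => hD _ (by
              have := dist_down_take_snd hT K (inD x v) l (j := i) (by omega)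
              simp only [inD_snd] at this
              omega))
        have h8 := hmem l.length le_rfl
        rw [List.take_length] at h8
        refine (integral_Gam_le hT K Λ _ β p s s (s + j) hJ hθ (inD x v) l hl h8).trans ?_
        have h9 := hP (l.length + 1) le_rfl
        have h10 := hP l.length (by omega)
        have hB0 : 0 ≤ B := by positivity
        have h11 : C1 * θ2 ^ (l.length + 1) * (800 * (((l.length + 1 : ℕ) : ℝ) + 1) ^ 2 * B) ≤
            C1 * θ2 ^ l.length * (1600 * (l.length + 1) ^ 2 * B) := by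
          have h12 : θ2 * (((l.length + 1 : ℕ) : ℝ) + 1) ^ 2 ≤ 2 * (l.length + 1) ^ 2 := by
            push_cast
            have : (0 : ℝ) ≤ l.length := by positivity
            nlinarith
          have h13 := mul_le_mul_of_nonneg_left h12
            (by positivity : 0 ≤ C1 * θ2 ^ l.length * 800 * B)
          rw [pow_succ]
          nlinarith
        have h14 : 0 ≤ C1 * θ2 ^ l.length * ((l.length + 1) ^ 2 * B) := by positivity
        have h15 : 0 ≤ θ2 ^ l.length * ((l.length + 1) ^ 2 * B) := by positivity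
        have h16 : θ2 ^ l.length * ((l.length + 1) ^ 2 *
            ((4800 * C1 + 1) * T * (4 * w / g ^ (l.length + 1) + j * Er))) =
            4800 * (C1 * θ2 ^ l.length * ((l.length + 1) ^ 2 * B)) +
              θ2 ^ l.length * ((l.length + 1) ^ 2 * B) := by
          rw [hB]
          ring
        rw [h16]
        linarith
      · refine (integral_Gam_crude hT K Λ _ β p s s (s + j) hJ hθ (inD x v) l).trans ?_
        have h7 : 1 ≤ w / g ^ (l.length + 1) := by
          rw [hw, div_div, ← pow_add]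
          exact hone _ (by omega)
        rw [mul_comm]
        refine mul_le_mul_of_nonneg_left ?_ (by positivity)
        have h8 : (1 : ℝ) ≤ (l.length + 1) ^ 2 := one_le_pow₀ (by simp)
        have h9 : 4 ≤ 4 * w / g ^ (l.length + 1) + j * Er := by
          rw [mul_div_assoc]
          have : 0 ≤ j * Er := by positivity
          linarith
        have h10 : 1 ≤ (4800 * C1 + 1) * T := by nlinarith
        calc (4 : ℝ) = 1 * (1 * 4) := by ring
          _ ≤ _ := by gcongr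
    · refine le_trans (Finset.sum_le_sum (g := fun m : ℕ => g ^ m * ((m : ℝ) + 1) ^ 2 *
        ((4800 * C1 + 1) / g * T * (4 * w + j * Er))) fun m _ => ?_) ?_
      · have h7 : (b : ℝ) ^ m * θ2 ^ m ≤ g ^ m * g ^ m := by
          rw [← mul_pow, ← mul_pow, ← sq]
          exact pow_le_pow_left₀ (by positivity) hbθ m
        have h8 : g ^ m * (4 * w / g ^ (m + 1) + j * Er) ≤ 1 / g * (4 * w + j * Er) := by
          have h9 : g ^ m * (4 * w / g ^ (m + 1)) = 1 / g * (4 * w) := by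
            rw [pow_succ]
            field_simp
          have h10 : g ^ m ≤ 1 / g :=
            (pow_le_one₀ hg0.le hg1.le).trans ((one_le_div hg0).2 hg1.le)
          have h11 := mul_le_mul_of_nonneg_right h10 (by positivity : 0 ≤ j * Er)
          rw [mul_add, mul_add, h9]
          linarith
        calc (b : ℝ) ^ m * (θ2 ^ m * ((m + 1) ^ 2 *
              ((4800 * C1 + 1) * T * (4 * w / g ^ (m + 1) + j * Er))))
            = (b ^ m * θ2 ^ m) * ((m + 1) ^ 2 *
              ((4800 * C1 + 1) * T * (4 * w / g ^ (m + 1) + j * Er))) := by ring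
          _ ≤ (g ^ m * g ^ m) * ((m + 1) ^ 2 *
              ((4800 * C1 + 1) * T * (4 * w / g ^ (m + 1) + j * Er))) := by gcongr
          _ = g ^ m * (m + 1) ^ 2 * ((4800 * C1 + 1) * T) *
              (g ^ m * (4 * w / g ^ (m + 1) + j * Er)) := by ring
          _ ≤ g ^ m * (m + 1) ^ 2 * ((4800 * C1 + 1) * T) * (1 / g * (4 * w + j * Er)) := by gcongr
          _ = _ := by ring
      · rw [← Finset.sum_mul]
        exact mul_le_mul_of_nonneg_right (sum_geom_sq_le hg0.le hg1 M) hB0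

end Crest.Agent.R160
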